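import Vale.Agent.P049.D

/-! P049: the quantities of the one-step analysis (all half-edges of `ι` are free). -/

noncomputable section

namespace Vale.Agent.P049

open Finset

/-- One game: a sign and a matrix. -/
structure Gm (ι : Type) where
  sg : ℝ
  Y : Matrix ι ι ℝ

variable {ι : Type} [Fintype ι] [DecidableEq ι]

/-- The number of free half-edges. -/
def mI (ι : Type) [Fintype ι] : ℝ := ((univ : Finset ι).card : ℝ)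
/-- Expectation over a uniform ordered pair. -/
def E2 (H : ι → ι → ℝ) : ℝ := (∑ α, ∑ β, H α β) / mI ι ^ 2
/-- Squared Frobenius norm. -/
def fro (X : Matrix ι ι ℝ) : ℝ := ∑ i, ∑ j, X i j ^ 2
/-- Frobenius inner product and squared column norm. -/
def ip (X W : Matrix ι ι ℝ) : ℝ := ∑ i, ∑ j, X i j * W i j
def col (X : Matrix ι ι ℝ) (j : ι) : ℝ := ∑ i, X i j ^ 2
open Classical in
/-- Indicator. -/
def ind (p : Prop) : ℝ := if p then 1 else 0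
def hI (g : ℝ) (ι : Type) [Fintype ι] : ℝ := hh g (mI ι)
def h2I (g : ℝ) (ι : Type) [Fintype ι] : ℝ := h2 g (mI ι)
def zeI (g : ℝ) (ι : Type) [Fintype ι] : ℝ := ze g (mI ι)
def s0 (ι : Type) [Fintype ι] : ℝ := 1 - 1 / mI ι

namespace Gm

variable (G : Gm ι)

def a (α : ι) : ℝ := aS univ G.sg G.Y α
def s (α β : ι) : ℝ := sS univ G.sg G.Y α β
def dl (α β : ι) : ℝ := P049.dl univ G.sg G.Y α β
def up (α β : ι) : ι → ι → ℝ := upd univ G.sg G.Y α β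
def rho (α : ι) : ℝ := P049.rho univ G.Y α
def f (α : ι) : ℝ := G.rho α - 1
def t1 : ℝ := tau1 univ G.Y
def t2 : ℝ := tau2 univ G.Y
def Z : ℝ := zz univ G.Y
def z : ℝ := G.Z / mI ι
def V : ℝ := vS univ G.Y
def D : ℝ := dS univ G.Y
def p : Matrix ι ι ℝ := G.Y * G.Y
def r : Matrix ι ι ℝ := G.Y * G.Y * G.Y
def t4 : ℝ := fro G.p
def t6 : ℝ := fro G.r
/-- `λ²`; `m λ² = √τ₄` bounds the squared operator norm of `Y`. -/
def l2 : ℝ := √G.t4 / mI ι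
def r4 : ℝ := (∑ α, G.rho α ^ 2) / mI ι
def Dh : ℝ := 2 * G.D + 2 / mI ι
def gg (α : ι) : ℝ := ∑ μ, G.rho μ * G.Y α μ ^ 2
def GG (g : ℝ) : ℝ := g ^ 120 * G.t4 / mI ι ^ 2 + g ^ 24 * G.t6 / (mI ι ^ 2 * G.Z)
def A (g : ℝ) : ℝ := G.GG g / (G.Z * hI g ι)
def e (α β : ι) : ℝ := |G.Y α β| + |G.a α * G.a β| + 1 / mI ι
def ok0 (g : ℝ) (α β : ι) : Prop :=
  |G.a α * G.a β| ≤ 1 / g ∧ (1 + G.rho α) * (1 + G.rho β) ≤ G.Z / g ∧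
    |G.a β| * √(mI ι) * (1 + G.rho α) ≤ G.Z / g ∧ |G.a α| * √(mI ι) * (1 + G.rho β) ≤ G.Z / g
def ok1 (g : ℝ) (α β : ι) : Prop := |G.Y α β| ≤ 1 / g ^ 121
def ok3 (g : ℝ) (α β : ι) : Prop := |G.r α β| ≤ G.Z / g
def ok (g : ℝ) (α β : ι) : Prop := G.ok0 g α β ∧ G.ok1 g α β ∧ G.ok3 g α β
def Kg (g : ℝ) : ℝ := G.Z / (g ^ 25 * √(mI ι))
def x1 (g : ℝ) (α β : ι) : ℝ := g ^ 120 * G.sg * G.Y α β
def x3 (g : ℝ) (α β : ι) : ℝ :=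
  ind (G.rho α ≤ G.Kg g ∧ G.rho β ≤ G.Kg g) * (g ^ 24 / G.Z * G.sg * G.r α β)

/-- The change of the trace. -/
def yy (α β : ι) : ℝ :=
  (G.a β * G.rho α + G.a α * G.rho β - s0 ι * (G.Y α α + G.Y β β) - 2 * G.Y α β / mI ι +
    2 * G.s α β * G.p α β) / G.dl α β
def Gt (α β : ι) : ℝ := (1 - G.rho α / s0 ι) * (1 - G.rho β / s0 ι)
/-- The change of the squared Frobenius norm. -/
def xx (α β : ι) : ℝ :=
  -2 + 2 * G.Gt α β + G.yy α β ^ 2 +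
    (4 * s0 ι * (G.sg * G.Y α β) * (G.Gt α β - 1) + G.Y α β ^ 2 * (4 - 2 * G.Gt α β) +
      2 * (G.Gt α β - 1) * (G.a α * G.a β) - 2 * G.Y α α * G.Y β β - 2 * G.p α β ^ 2 -
      4 * G.p α β / mI ι + 4 * G.s α β * G.r α β +
      2 * (G.a β * G.r α α + G.a α * G.r β β)) / G.dl α β
/-- The vector `Γ Wᵀ Y e_μ`. -/
def g1 (α β μ : ι) : ℝ := (G.a β * G.Y α μ + G.s α β * G.Y β μ) / G.dl α β
def g2 (α β μ : ι) : ℝ := (G.s α β * G.Y α μ + G.a α * G.Y β μ) / G.dl α β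
/-- Main change of a diagonal entry, and the centering corrections. -/
def dd (α β μ : ι) : ℝ := G.Y α μ * G.g1 α β μ + G.Y β μ * G.g2 α β μ
def rr (α β μ : ι) : ℝ := -G.sg * (G.g1 α β μ + G.g2 α β μ) / mI ι
def rb (α β : ι) : ℝ :=
  G.sg * (G.g1 α β α + G.g2 α β α + G.g1 α β β + G.g2 α β β) / (mI ι * (mI ι - 2))
/-- Main change of a squared row norm. -/
def De (α β μ : ι) : ℝ :=
  2 * (G.g1 α β μ * G.p α μ + G.g2 α β μ * G.p β μ) + G.g1 α β μ ^ 2 * (G.rho α - s0 ι) +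
    G.g2 α β μ ^ 2 * (G.rho β - s0 ι) + 2 * G.g1 α β μ * G.g2 α β μ * (G.p α β + 1 / mI ι)
def nU (α β : ι) : ℝ :=
  (|G.a β| * G.rho α + 2 * |G.s α β| * √(G.rho α * G.rho β) + |G.a α| * G.rho β) / |G.dl α β|
def om2 (α β : ι) : ℝ :=
  2 * ((G.a β + G.s α β) ^ 2 * G.rho α + (G.s α β + G.a α) ^ 2 * G.rho β) /
    (G.dl α β ^ 2 * mI ι ^ 2)
/-- Majorant of `yy ^ 2`. -/
def Wy (α β : ι) : ℝ :=
  G.a β ^ 2 * G.rho α ^ 2 + G.a α ^ 2 * G.rho β ^ 2 + G.Y α α ^ 2 + G.Y β β ^ 2 +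
    G.Y α β ^ 2 / mI ι ^ 2 + G.p α β ^ 2
/-- `Y² D_f Y`, `Y D_f Y`, `Y D_a Y`. -/
def BB (α β : ι) : ℝ := ∑ μ, G.p α μ * G.f μ * G.Y β μ
def CC (α β : ι) : ℝ := ∑ μ, G.Y α μ * G.f μ * G.Y β μ
def DD (α β : ι) : ℝ := ∑ μ, G.Y α μ * G.Y μ μ * G.Y β μ
def Qv (g : ℝ) : ℝ := G.V + g ^ 10 * √(mI ι * G.Z)
def Qd (g : ℝ) : ℝ := G.D + g ^ 280 * h2I g ι

end Gm

section two

variable (g : ℝ) (G G' : Gm ι) (bad : ι → ι → Bool)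

def adm (α β : ι) : Prop := bad α β = false ∧ G.ok g α β ∧ G'.ok g α β
/-- The steering weight. -/
def ww (α β : ι) : ℝ :=
  ind (adm g G G' bad α β) * (1 - (G.x1 g α β + G'.x1 g α β) - (G.x3 g α β + G'.x3 g α β))
/-- The error unit `𝔟`. -/
def bb : ℝ := (1 / mI ι + G.A g + G'.A g) / g
/-- The error unit of the main lemma. -/
def Bz : ℝ := bb g G G' * G.Z * hI g ι / g ^ 10
def UU (α β : ι) : ℝ :=
  |1 - ww g G G' bad α β| + ind (adm g G G' bad α β) * (G.e α β + G'.e α β)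
def Us (α β : ι) : ℝ :=
  ind (¬ G.ok0 g α β) + ind (¬ G'.ok0 g α β) + ind (adm g G G' bad α β) * (G.e α β + G'.e α β)
def I3 (α β : ι) : ℝ := ind (¬ G.ok3 g α β) + ind (¬ G'.ok3 g α β)
def I6 (α β : ι) : ℝ := ind (bad α β = true)

def P0 : Matrix ι ι ℝ := G.Y * G'.Y
def NN : ℝ := nS univ G.Y G'.Y
def Qn : ℝ := NN G G' + g ^ 14000
/-- `ν + I_m`. -/
def nu (i j : ι) : ℝ := P0 G G' i j + (if i = j then 1 else 0) - 1 / mI ι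
def T1 (α β : ι) : Matrix ι ι ℝ := fun i j =>
  P0 G G' i α * G'.g1 α β j + P0 G G' i β * G'.g2 α β j
def T2 (α β : ι) : Matrix ι ι ℝ := fun i j =>
  G.g1 α β i * P0 G G' α j + G.g2 α β i * P0 G G' β j
def T3 (α β : ι) : Matrix ι ι ℝ := fun i j =>
  G.g1 α β i * (nu G G' α α * G'.g1 α β j + nu G G' α β * G'.g2 α β j) +
    G.g2 α β i * (nu G G' β α * G'.g1 α β j + nu G G' β β * G'.g2 α β j)
def LL (α β : ι) : Matrix ι ι ℝ :=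
  P0 G G' + T1 G G' α β + T2 G G' α β + T3 G G' α β

end two

/-- The size regime. -/
structure Num (g m : ℝ) : Prop where
  hg : 10 ^ 30 ≤ g
  lo : g ^ 3995 ≤ m
  hi : m ≤ g ^ 12002

/-- Everything known about one game. -/
structure One (g : ℝ) (G : Gm ι) : Prop where
  num : Num g (mI ι)
  sg : G.sg = 1 ∨ G.sg = -1
  symm : ∀ i j, G.Y i j = G.Y j i
  row : ∀ i, ∑ j, G.Y i j = 0
  low : ∀ y : ι → ℝ, -∑ i, y i ^ 2 ≤ ∑ i, ∑ j, y i * G.Y i j * y j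
  q4 : ∑ i, ∑ j, G.Y i j ^ 4 ≤ G.t2 / 2 + 3 * mI ι / g
  Zlo : mI ι * zeI g ι ≤ G.Z
  t2h : G.t2 ≤ mI ι * hI g ι
  tp : max G.t1 0 ^ 2 ≤ g ^ 14 * G.Z * hI g ι
  tm : max (-G.t1) 0 ^ 2 ≤ g ^ 135 * G.Z * hI g ι
  Vb : G.V ≤ g ^ 20 * √(mI ι * G.Z)
  Db : G.D ≤ g ^ 290 * h2I g ι
  rmax : ∀ α, G.rho α ≤ g ^ 11 * √(mI ι)
  r4a : G.r4 ≤ g ^ 21
  r4b : g ^ 600 * G.r4 ≤ mI ι * zeI g ι ^ 2 * hI g ι
  r4c : G.r4 ≤ g ^ 22 * h2I g ι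
  Dha : G.Dh ≤ g ^ 291
  Dhb : g ^ 400 * G.Dh ≤ mI ι * zeI g ι ^ 2 * hI g ι
  Dhc : g ^ 10 * G.Dh ^ 2 ≤ mI ι * hI g ι
  ymax : ∀ i j, G.Y i j ^ 2 ≤ g ^ 292
  ggb : ∀ α, g ^ 750 * G.gg α ≤ mI ι * √(zeI g ι)

/-- Everything known about the two games. -/
structure Two (g : ℝ) (G G' : Gm ι) (bad : ι → ι → Bool) : Prop where
  one : One g G
  two : One g G'
  sg : G'.sg = -G.sg
  bad : BadOk g univ bad
  Nb : g ^ 300 * NN G G' ≤ mI ι ^ 2 * zeI g ι ^ 2 * hI g ι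
  cross : -(1 / 2 + 1 / g) * mI ι ≤ ∑ i, P0 G G' i i

end Vale.Agent.P049
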