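import Vale.Agent.P049.CombB

namespace Vale.Agent.P049

open Finset

namespace Bridge

variable {ι κ : Type} [DecidableEq ι] [DecidableEq κ] (e : ι ↪ κ) (S : Finset ι)

theorem rem_map (α β : ι) : rem (S.map e) (e α) (e β) = (rem S α β).map e := by
  simp only [rem, map_erase]

theorem dl_map (σ : ℝ) (Y : κ → κ → ℝ) (α β : ι) :
    dl (S.map e) σ Y (e α) (e β) = dl S σ (fun i j => Y (e i) (e j)) α β := by
  simp only [dl, sS, aS, card_map]

theorem upd_map (σ : ℝ) (Y : κ → κ → ℝ) (α β : ι) :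
    (fun i j => upd (S.map e) σ Y (e α) (e β) (e i) (e j))
      = upd S σ (fun i j => Y (e i) (e j)) α β := by
  funext i j
  simp only [upd, rem_map, cen, sum_map, card_map, mM, dl, sS, aS]

theorem zz_map (Y : κ → κ → ℝ) : zz (S.map e) Y = zz S fun i j => Y (e i) (e j) := by
  simp only [zz, tau2, rho, sum_map, card_map]

theorem Phi_map (g b : ℝ) (Y Y' : κ → κ → ℝ) : Phi g (S.map e) Y Y' b
    = Phi g S (fun i j => Y (e i) (e j)) (fun i j => Y' (e i) (e j)) b := by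
  simp only [Phi, phiT, phi1, zz, tau2, rho, tau1, vS, dS, nS, sum_map, card_map]

theorem game_map {c : ℝ} {Y : κ → κ → ℝ} (h : Game c (S.map e) Y) :
    Game c S fun i j => Y (e i) (e j) where
  symm i hi j hj := h.symm _ (mem_map_of_mem e hi) _ (mem_map_of_mem e hj)
  row i hi := by simpa only [sum_map] using h.row _ (mem_map_of_mem e hi)
  psd y := by
    simpa only [qf, pd, sum_map, card_map, e.injective.extend_apply]
      using h.psd (Function.extend e y 0)

theorem bad_map {g : ℝ} {bad : κ → κ → Bool} (h : BadOk g (S.map e) bad) :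
    BadOk g S fun i j => bad (e i) (e j) where
  symm _ _ := h.symm _ _
  refl _ := h.refl _
  few i hi := by
    have := h.few _ (mem_map_of_mem e hi)
    rwa [filter_map, card_map] at this

end Bridge

open Bridge

theorem step_gen {κ : Type} [DecidableEq κ] {F : Finset κ} {g c : ℝ} (hn : Num g F.card) (hc0 : 0 ≤ c)
    (hc : c ^ 2 ≤ 1 / 2) {Y Y' : κ → κ → ℝ} (h : Game c F Y) (h' : Game c F Y')
    (hZ : 0 < zz F Y) (hZ' : 0 < zz F Y') {bad : κ → κ → Bool} (hbad : BadOk g F bad)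
    {f1 f2 : κ → ℝ} (h1 : ∀ i, 0 ≤ f1 i) (h2 : ∀ i, 0 ≤ f2 i)
    (hP : Phi g F Y Y' (bh g F f1 f2) ≤ g ^ 120000) {b' : κ → κ → ℝ}
    (hb : ∀ α ∈ F, ∀ β ∈ F, bad α β = false → 0 ≤ b' α β ∧ b' α β ≤ bhN g F f1 f2 α β) :
    ∃ α ∈ F, ∃ β ∈ F, bad α β = false ∧ 0 < dl F 1 Y α β ∧ 0 < dl F (-1) Y' α β ∧
      1 ≤ zz (rem F α β) (upd F 1 Y α β) ∧ 1 ≤ zz (rem F α β) (upd F (-1) Y' α β) ∧
      Phi g (rem F α β) (upd F 1 Y α β) (upd F (-1) Y' α β) (b' α β) ≤
        Phi g F Y Y' (bh g F f1 f2) * Real.exp (1 / (4 * F.card)) := by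
  obtain ⟨ι, _, _, e, rfl⟩ : ∃ (ι : Type) (_ : Fintype ι) (_ : DecidableEq ι) (e : ι ↪ κ),
      F = univ.map e :=
    ⟨F, inferInstance, inferInstance, Function.Embedding.subtype _, by
      rw [univ_eq_attach, attach_map_val]⟩
  have eb : bh g (univ.map e) f1 f2 = bh g univ (fun i => f1 (e i)) fun i => f2 (e i) := by
    simp only [bh, sum_map]
  rw [card_map] at hn
  rw [zz_map] at hZ hZ'
  rw [Phi_map, eb] at hP
  obtain ⟨α, β, a1, a2, a3, a4, a5, a6⟩ := step_univ (ι := ι) hn hc0 hc (game_map e _ h)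
    (game_map e _ h') hZ hZ' (bad_map e _ hbad) (fun i => h1 (e i)) (fun i => h2 (e i)) hP
    (b' := fun α β => b' (e α) (e β)) fun α β k => by
      simpa only [bhN, eb] using hb _ (mem_map_of_mem e (mem_univ α)) _
        (mem_map_of_mem e (mem_univ β)) k
  refine ⟨e α, mem_map_of_mem e (mem_univ α), e β, mem_map_of_mem e (mem_univ β), a1, ?_⟩
  rw [dl_map, dl_map, rem_map, zz_map, zz_map, Phi_map, Phi_map, upd_map, upd_map, eb, card_map]
  exact ⟨a2, a3, a4, a5, a6⟩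

end Vale.Agent.P049
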