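import Vale.Agent.P049.ToolG

set_option linter.unusedSectionVars false
set_option maxRecDepth 100000

namespace Vale.Agent.P049

open Finset

variable {ι : Type} [Fintype ι] [DecidableEq ι] {g : ℝ} {G G' : Gm ι} {bad : ι → ι → Bool}

namespace Da

theorem Q_part (h : One g G) : 0 < g ^ 280 * h2I g ι := mul_pos (pow_pos h.g_pos _) h.h2_pos

theorem D_le (h : One g G) : G.D ≤ G.Qd g := le_add_of_nonneg_right (Q_part h).le

theorem h2_le (h : One g G) : g ^ 280 * h2I g ι ≤ G.Qd g :=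
  le_add_of_nonneg_left h.D_nonneg

theorem Q_pos (h : One g G) : 0 < G.Qd g := (Q_part h).trans_le (h2_le h)

theorem Q_sq (h : One g G) {c : ℝ} (hc : c ≤ 10 ^ 30) {k : ℕ} (hk : k < 280) :
    c * g ^ k * (h2I g ι * G.D) ≤ G.Qd g ^ 2 := by
  have h1 := mul_le_mul_of_nonneg_right (h.num.const_pow hc hk) (mul_nonneg h.h2_pos.le h.D_nonneg)
  have h2 := mul_le_mul (h2_le h) (D_le h) h.D_nonneg (Q_pos h).le
  rw [sq]
  linarith

theorem inv_m (h : One g G) : 1 / mI ι ≤ h2I g ι := by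
  rw [div_le_iff₀' h.m_pos]
  exact (one_le_pow₀ h.num.one_le_g).trans h.num.Fh2

/-- `x ≤ Qd` gives `x / (g m) ≤ 𝔟 Qd`. -/
theorem le_bQ (h : Two g G G' bad) {x : ℝ} (hx : x ≤ G.Qd g) :
    x / (g * mI ι) ≤ bb g G G' * G.Qd g := by
  have := mul_pos h.one.g_pos h.one.m_pos
  calc _ ≤ 1 / (g * mI ι) * G.Qd g := by
        rw [one_div_mul_eq_div]; exact div_le_div_of_nonneg_right hx this.le
    _ ≤ _ := mul_le_mul_of_nonneg_right h.le_bb (Q_pos h.one).le

theorem sum_Y_rho (h : One g G) :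
    (∑ μ, |G.Y μ μ| * G.rho μ) ^ 2 ≤ g ^ 22 * mI ι * (h2I g ι * G.D) := by
  refine (sum_mul_sq_le_sq_mul_sq _ _ _).trans ?_
  simp only [sq_abs]
  rw [h.sum_rho_sq, ← G.D_eq]
  nlinarith [mul_le_mul_of_nonneg_left h.r4c (mul_nonneg h.D_nonneg h.m_pos.le)]

theorem col_rho (h : One g G) (μ : ι) : ∑ α, G.Y α μ ^ 2 = G.rho μ := by
  rw [G.rho_eq]; exact sum_congr rfl fun α _ => by rw [h.symm]

theorem E_DD (h : One g G) :
    g ^ 250 * mI ι * E2 (fun α β => (G.sg * G.DD α β) ^ 2) ≤ G.Qd g ^ 2 := by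
  have m0 := h.m_pos
  have g0 := h.g_pos
  have h1 := fro_rank_le (fun α μ => G.Y α μ) (fun α μ => G.Y α μ) fun μ => G.Y μ μ
  simp only [col_rho h, Real.mul_self_sqrt (G.rho_nonneg _)] at h1
  simp only [mul_pow, h.sg_sq, one_mul]
  refine le_trans ?_ (Q_sq h (c := 1) (by norm_num) (show 272 < 280 by norm_num))
  calc _ ≤ g ^ 250 * mI ι * (g ^ 22 * mI ι * (h2I g ι * G.D) / mI ι ^ 2) := by
        rw [E2]
        gcongr
        exact h1.trans (sum_Y_rho h)
    _ = _ := by field_simp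

theorem sum_DD_sq (h : One g G) : g ^ 750 * ∑ α, G.DD α α ^ 2 ≤ mI ι * G.D := by
  have h1 : ∑ α, G.DD α α ^ 2 ≤ ∑ μ, G.Y μ μ ^ 2 * G.gg μ := by
    calc _ ≤ ∑ α, ∑ μ, G.Y μ μ ^ 2 * (G.rho α * G.Y μ α ^ 2) := sum_le_sum fun α _ => by
          refine (sum_mul_sq_le_sq_mul_sq _ _ _).trans (le_of_eq ?_)
          rw [← G.rho_eq, sum_mul]
          exact sum_congr rfl fun μ _ => by rw [h.symm α μ]; ring
      _ = _ := by rw [sum_comm]; simp only [← mul_sum, Gm.gg]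
  refine (mul_le_mul_of_nonneg_left h1 (pow_nonneg h.g_pos.le _)).trans ?_
  rw [G.D_eq, mul_sum, mul_sum]
  refine sum_le_sum fun μ _ => ?_
  have h2 : mI ι * √(zeI g ι) ≤ mI ι :=
    mul_le_of_le_one_right h.m_pos.le (Real.sqrt_le_one.2 h.num.ze_le_one)
  nlinarith [mul_le_mul_of_nonneg_left ((h.ggb μ).trans h2) (sq_nonneg (G.Y μ μ))]

theorem E_H_sq (h : One g G) : g ^ 250 * mI ι *
    E2 (fun α β => (G.a β * G.DD α α + G.a α * G.DD β β) ^ 2) ≤ G.Qd g ^ 2 := by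
  have m0 := h.m_pos
  have g0 := h.g_pos
  have h1 : E2 (fun α β => (G.a β * G.DD α α + G.a α * G.DD β β) ^ 2) ≤
      E2 fun α β => 2 * (G.DD α α ^ 2 * G.a β ^ 2 + G.a α ^ 2 * G.DD β β ^ 2) :=
    E2_mono fun α β => (sq2_le _ _).trans (le_of_eq (by ring))
  rw [E2_const_mul, E2_add, E2_prod, E2_prod] at h1
  have h2 : ∑ α, G.a α ^ 2 ≤ 4 * g ^ 290 * h2I g ι := by
    have c1 := le_mul_of_one_le_left h.h2_pos.le (one_le_pow₀ (n := 290) h.num.one_le_g)
    have c2 := inv_m h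
    have c3 : G.Dh = 2 * G.D + 2 * (1 / mI ι) := by rw [Gm.Dh]; ring
    linarith [h.sum_a_sq, h.Db]
  have h3 : ∑ α, G.DD α α ^ 2 ≤ mI ι * G.D / g ^ 750 := by
    rw [le_div_iff₀' (by positivity)]; exact sum_DD_sq h
  have h4 := mul_le_mul h2 h3 (sum_nonneg fun _ _ => sq_nonneg _)
    (by have := h.h2_pos; positivity)
  have p := mul_nonneg h.h2_pos.le h.D_nonneg
  refine le_trans ?_ (Q_sq h (c := 16) (by norm_num) (show 0 < 280 by norm_num))
  calc _ ≤ g ^ 250 * mI ι * (4 * (4 * g ^ 290 * h2I g ι * (mI ι * G.D / g ^ 750)) / mI ι ^ 2) := by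
        refine mul_le_mul_of_nonneg_left (h1.trans ?_) (by positivity)
        rw [le_div_iff₀ (by positivity)]
        refine le_trans (le_of_eq ?_) (mul_le_mul_of_nonneg_left h4 (by norm_num))
        field_simp
        ring
    _ = 16 * (h2I g ι * G.D) / g ^ 210 := by field_simp; ring
    _ ≤ _ := by
        rw [pow_zero, mul_one]
        exact div_le_self (by positivity) (one_le_pow₀ h.num.one_le_g)

theorem E_H (h : Two g G G' bad) :
    E2 (fun α β => G.a β * G.DD α α + G.a α * G.DD β β) ≤ bb g G G' * G.Qd g := by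
  have o := h.one
  have m0 := o.m_pos
  have g0 := o.g_pos
  have e : E2 (fun α β => G.a β * G.DD α α + G.a α * G.DD β β) =
      2 * g * (G.t1 + G.sg) * (∑ α, G.DD α α) / mI ι / (g * mI ι) := by
    simp only [mul_comm (G.a _) (G.DD _ _), E2_add]
    rw [E2_prod, ← E2_swap, E2_prod, o.sum_a]
    field_simp
    ring
  rw [e]
  refine le_bQ h (abs_le_of_sq_le_sq' ?_ (Q_pos o).le).2
  have h1 : (∑ α, G.DD α α) ^ 2 ≤ g ^ 22 * mI ι * (h2I g ι * G.D) := by
    refine le_trans (sq_le_sq.2 ?_) (sum_Y_rho o)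
    have : ∑ α, G.DD α α = ∑ μ, G.Y μ μ * G.rho μ := by
      simp only [Gm.DD]
      rw [sum_comm]
      refine sum_congr rfl fun μ _ => ?_
      rw [← col_rho o, mul_sum]
      exact sum_congr rfl fun α _ => by ring
    rw [this]
    refine (abs_sum_le_sum_abs _ _).trans (le_trans (le_of_eq ?_) (le_abs_self _))
    exact sum_congr rfl fun μ _ => by rw [abs_mul, abs_of_nonneg (G.rho_nonneg μ)]
  have h2 : (G.t1 + G.sg) ^ 2 ≤ 4 * (g ^ 135 * mI ι) := by
    have c1 : g ^ 135 * G.Z * hI g ι ≤ g ^ 135 * mI ι * 1 := by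
      gcongr
      exacts [o.h_pos.le, o.Z_le, o.h_le_one]
    have c2 : 1 ≤ g ^ 135 * mI ι := one_le_mul_of_one_le_of_one_le (one_le_pow₀ o.num.one_le_g)
      (by simpa using o.num.pow_le_m (k := 0) (by norm_num))
    linarith [sq2_le G.t1 G.sg, o.t1_sq, o.sg_sq]
  refine le_trans ?_ (Q_sq o (c := 16) (by norm_num) (show 159 < 280 by norm_num))
  calc _ = 4 * g ^ 2 * ((G.t1 + G.sg) ^ 2 * (∑ α, G.DD α α) ^ 2) / mI ι ^ 2 := by ring
    _ ≤ 4 * g ^ 2 * (4 * (g ^ 135 * mI ι) * (g ^ 22 * mI ι * (h2I g ι * G.D))) / mI ι ^ 2 := by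
      gcongr
    _ = _ := by field_simp; ring

end Da

open Da in
theorem Two.Da (h : Two g G G' bad) :
    E2 (fun α β => ww g G G' bad α β * ∑ μ, G.Y μ μ * G.dd α β μ) ≤ 1000 * bb g G G' * G.Qd g := by
  have o := h.one
  have h1 := h.genW (q := fun α β => 1 / G.dl α β) (Q_pos o).le
    (fun α β k => by linarith [o.ok_inv k.2.1, o.e_nonneg α β, h.two.e_nonneg α β]) (E_H_sq o)
  have h2 := h.genW (q := fun α β => G.sg * G.s α β / G.dl α β) (Q_pos o).le
    (fun α β k => by linarith [o.ok_q k.2.1, o.e_nonneg α β, h.two.e_nonneg α β]) (E_DD o)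
  rw [E2_zero_of_row (X := fun α β => G.sg * G.DD α β) fun α => by
    simp only [Gm.DD]
    rw [← mul_sum, sum_comm, sum_eq_zero, mul_zero]
    intro μ _
    rw [← mul_sum, sum_congr rfl fun β _ => o.symm β μ, o.row, mul_zero]] at h2
  have e : E2 (fun α β => ww g G G' bad α β * ∑ μ, G.Y μ μ * G.dd α β μ) =
      E2 (fun α β => ww g G G' bad α β *
        (1 / G.dl α β * (G.a β * G.DD α α + G.a α * G.DD β β))) + 2 * E2 fun α β =>
        ww g G G' bad α β * (G.sg * G.s α β / G.dl α β * (G.sg * G.DD α β)) := by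
    rw [← E2_const_mul, ← E2_add]
    refine E2_congr fun α β => ?_
    have : ∑ μ, G.Y μ μ * G.dd α β μ = 1 / G.dl α β * (G.a β * G.DD α α + G.a α * G.DD β β) +
        2 * (G.s α β / G.dl α β * G.DD α β) := by
      simp only [Gm.DD, Gm.dd, Gm.g1, Gm.g2, mul_sum, ← sum_add_distrib]
      exact sum_congr rfl fun μ _ => by ring
    rw [this]
    linear_combination -2 * ww g G G' bad α β * (G.s α β / G.dl α β * G.DD α β) * o.sg_sq
  have p := mul_pos h.bb_pos (Q_pos o)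
  linarith [(abs_le.1 h1).2, (abs_le.1 h2).2, E_H h]

end Vale.Agent.P049
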