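import Vale.Agent.P049.ToolL

set_option maxRecDepth 100000
set_option linter.unusedSectionVars false

namespace Vale.Agent.P049

open Finset

variable {ι : Type} [Fintype ι] [DecidableEq ι] {g : ℝ} {G G' : Gm ι} {bad : ι → ι → Bool}

theorem ind_lt_le1 {a t : ℝ} (ha : 0 ≤ a) (ht : 0 < t) : ind (¬ a ≤ t) ≤ a / t :=
  ind_le (by positivity) fun k => by
    rw [not_le] at k
    rw [le_div_iff₀ ht, one_mul]; exact k.le

namespace One

variable (h : One g G)
include h

theorem one_le_sqrt_m : 1 ≤ √(mI ι) :=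
  Real.one_le_sqrt.2 (by simpa using h.num.pow_le_m (k := 0) (by norm_num))
theorem sqrt_m_le_Z : g ^ 1985 * √(mI ι) ≤ G.Z := by
  have := h.m_pos; have := h.g_pos
  refine (abs_le_of_sq_le_sq' ?_ h.Z_pos.le).2
  rw [mul_pow, Real.sq_sqrt h.m_pos.le, mul_comm]
  refine le_trans ?_ h.W_le
  gcongr
  rw [← pow_mul]; exact h.num.F2
theorem one_rho_le (α : ι) : 1 + G.rho α ≤ g ^ 12 * √(mI ι) := by
  have h1 := h.rmax α; have h2 := h.one_le_sqrt_m
  have h3 := h.num.const_pow (c := 2) (by norm_num) (show 11 < 12 by norm_num)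
  have h4 := one_le_pow₀ (n := 11) h.num.one_le_g
  nlinarith
theorem sum_one_rho : ∑ β, (1 + G.rho β) ≤ 2 * mI ι := by
  rw [sum_add_distrib, sum_const_mI, ← G.t2_eq_sum]; linarith [h.t2_le]
theorem abs_a_le (α : ι) : |G.a α| ≤ g ^ 146 := by
  have := h.g_pos
  refine (abs_le_of_sq_le_sq' ?_ (by positivity)).2
  rw [sq_abs, ← pow_mul]
  exact (h.a_sq_le α).trans (h.num.pow_mono (by norm_num))
theorem rho_le_m (α : ι) {j : ℕ} (hj : j ≤ 1900) : g ^ j * G.rho α ≤ mI ι * (1 / g) := by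
  have hg := h.g_pos
  rw [mul_one_div, le_div_iff₀ hg]
  calc g ^ j * G.rho α * g ≤ g ^ j * (g ^ 11 * √(mI ι)) * g := by gcongr; exact h.rmax α
    _ = g ^ (j + 12) * √(mI ι) := by ring
    _ ≤ g ^ 1985 * √(mI ι) := by gcongr; exacts [h.num.one_le_g, by omega]
    _ ≤ _ := h.sqrt_m_le_Z.trans h.Z_le

theorem cond_ok0 (α : ι) : ∑ β, ind (¬ G.ok0 g α β) ≤ mI ι * (1 / g) := by
  have hm := h.m_pos; have hg := h.g_pos; have hZ := h.Z_pos
  have hs := Real.sqrt_pos.2 hm
  have hr := G.rho_nonneg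
  have h1 : ∑ β, ind (¬ G.ok0 g α β) ≤ ∑ β, (g ^ 2 * G.a α ^ 2 * G.a β ^ 2 +
      (g * (1 + G.rho α) / G.Z * (1 + G.rho β) +
        (g ^ 2 * mI ι * (1 + G.rho α) ^ 2 / G.Z ^ 2 * G.a β ^ 2 +
          g * |G.a α| * √(mI ι) / G.Z * (1 + G.rho β)))) := by
    refine sum_le_sum fun β _ => ind_not_and.trans (add_le_add ?_ (ind_not_and.trans
      (add_le_add ?_ (ind_not_and.trans (add_le_add ?_ ?_)))))
    · exact (ind_lt_le (by positivity)).trans_eq (by rw [sq_abs]; field_simp)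
    · have := hr α; have := hr β
      exact (ind_lt_le1 (by positivity) (by positivity)).trans_eq (by field_simp)
    · exact (ind_lt_le (by positivity)).trans_eq (by
        rw [mul_pow, mul_pow, sq_abs, Real.sq_sqrt hm.le]; field_simp)
    · have := hr β
      exact (ind_lt_le1 (by positivity) (by positivity)).trans_eq (by field_simp)
  rw [sum_add_distrib, sum_add_distrib, sum_add_distrib, ← mul_sum, ← mul_sum, ← mul_sum,
    ← mul_sum] at h1
  have hD : ∑ β, G.a β ^ 2 ≤ g ^ 291 := h.sum_a_sq.trans h.Dha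
  have hi : ∀ {c : ℝ} {k : ℕ}, c ≤ 10 ^ 29 → k < 1984 → c * g ^ k / g ^ 1985 ≤ 1 / g / 4 := by
    intro c k hc hk
    rw [div_div, div_le_div_iff₀ (by positivity) (by positivity), one_mul]
    calc c * g ^ k * (g * 4) = 4 * c * g ^ (k + 1) := by ring
      _ ≤ _ := h.num.const_pow (by linarith) (by omega)
  have hZ' := h.sqrt_m_le_Z
  have hS : 0 ≤ ∑ β, (1 + G.rho β) := sum_nonneg fun β _ => by have := hr β; positivity
  have := hr α
  have c1 : g ^ 2 * G.a α ^ 2 * ∑ β, G.a β ^ 2 ≤ mI ι * (1 / g / 4) := by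
    calc _ ≤ g ^ 2 * g ^ 291 * g ^ 291 := by gcongr; exact h.a_sq_le α
      _ = g ^ 1985 * (1 * g ^ 584 / g ^ 1985) := by field_simp
      _ ≤ _ := mul_le_mul (h.num.pow_le_m (by norm_num)) (hi (by norm_num) (by norm_num))
        (by positivity) hm.le
  have c2 : g * (1 + G.rho α) / G.Z * ∑ β, (1 + G.rho β) ≤ mI ι * (1 / g / 4) := by
    calc _ ≤ g * (g ^ 12 * √(mI ι)) / (g ^ 1985 * √(mI ι)) * (2 * mI ι) := by
          gcongr; exacts [h.one_rho_le α, h.sum_one_rho]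
      _ = mI ι * (2 * g ^ 13 / g ^ 1985) := by field_simp
      _ ≤ _ := mul_le_mul_of_nonneg_left (hi (by norm_num) (by norm_num)) hm.le
  have c3 : g ^ 2 * mI ι * (1 + G.rho α) ^ 2 / G.Z ^ 2 * ∑ β, G.a β ^ 2 ≤ mI ι * (1 / g / 4) := by
    calc _ ≤ g ^ 2 * mI ι * (g ^ 12 * √(mI ι)) ^ 2 / (g ^ 1985 * √(mI ι)) ^ 2 * g ^ 291 := by
          gcongr; exact h.one_rho_le α
      _ = mI ι * (1 * g ^ 317 / g ^ 1985 / g ^ 1985) := by field_simp
      _ ≤ mI ι * (1 * g ^ 317 / g ^ 1985) := by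
        gcongr; exact div_le_self (by positivity) (one_le_pow₀ h.num.one_le_g)
      _ ≤ _ := mul_le_mul_of_nonneg_left (hi (by norm_num) (by norm_num)) hm.le
  have c4 : g * |G.a α| * √(mI ι) / G.Z * ∑ β, (1 + G.rho β) ≤ mI ι * (1 / g / 4) := by
    calc _ ≤ g * g ^ 146 * √(mI ι) / (g ^ 1985 * √(mI ι)) * (2 * mI ι) := by
          gcongr; exacts [h.abs_a_le α, h.sum_one_rho]
      _ = mI ι * (2 * g ^ 147 / g ^ 1985) := by field_simp
      _ ≤ _ := mul_le_mul_of_nonneg_left (hi (by norm_num) (by norm_num)) hm.le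
  linarith

theorem cond_ok1 (α : ι) : ∑ β, ind (¬ G.ok1 g α β) ≤ mI ι * (1 / g) := by
  refine (sum_le_sum fun β _ => h.ind_ok1_le α β).trans ?_
  rw [← mul_sum]
  exact h.rho_le_m α (by norm_num)

theorem cond_ok3 (α : ι) : ∑ β, ind (¬ G.ok3 g α β) ≤ mI ι * (mI ι * (G.A g / g)) := by
  have hm := h.m_pos; have hg := h.g_pos; have hA := h.A_nonneg
  have h1 := h.E_ok3
  rw [E2, div_le_iff₀ (by positivity)] at h1
  refine (single_le_sum (f := fun α => ∑ β, ind (¬ G.ok3 g α β))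
    (fun _ _ => sum_nonneg fun _ _ => ind_nonneg _) (mem_univ α)).trans (h1.trans ?_)
  calc _ ≤ 1 * G.A g / g * mI ι ^ 2 := by
        gcongr
        exacts [h.h_le_one, by simpa using h.num.pow_mono (j := 1) (k := 22) (by norm_num)]
    _ = _ := by ring

end One

theorem Two.cond (h : Two g G G' bad) (α : ι) :
    ∑ β, |1 - ww g G G' bad α β| ≤ mI ι * (20 * mI ι * bb g G G') := by
  have hm := h.one.m_pos; have hg := h.one.g_pos
  refine (sum_le_sum fun β _ => h.one_sub_ww α β).trans ?_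
  simp only [sum_add_distrib, sum_const_mI]
  have a1 := h.sum_I6 α; have a2 := h.one.cond_ok0 α; have a3 := h.two.cond_ok0 α
  have a4 := h.one.cond_ok1 α; have a5 := h.two.cond_ok1 α
  have a6 := h.one.cond_ok3 α; have a7 := h.two.cond_ok3 α
  have a8 : 2 * g ^ 2 ≤ mI ι * (1 / g) := by
    rw [mul_one_div, le_div_iff₀ hg]
    calc 2 * g ^ 2 * g = 2 * g ^ 3 := by ring
      _ ≤ _ := (h.one.num.const_pow (by norm_num) (show 3 < 3995 by norm_num)).trans h.one.num.lo
  have e : mI ι * (20 * mI ι * bb g G G') =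
      20 * (mI ι * (1 / g) + mI ι * (mI ι * (G.A g / g)) + mI ι * (mI ι * (G'.A g / g))) := by
    rw [h.bb_eq]; field_simp
  have e2 : mI ι * (4 / g) = 4 * (mI ι * (1 / g)) := by ring
  have b1 : 0 ≤ mI ι * (mI ι * (G.A g / g)) := by have := h.one.A_nonneg; positivity
  have b2 : 0 ≤ mI ι * (mI ι * (G'.A g / g)) := by have := h.two.A_nonneg; positivity
  have b3 : 0 ≤ mI ι * (1 / g) := by positivity
  linarith

/-- Removal terms. -/
theorem Two.removal (h : Two g G G' bad) {u : ι → ℝ} (hu : ∀ α, 0 ≤ u α) :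
    E2 (fun α β => ww g G G' bad α β * -(u α + u β)) ≤
      -(2 * (∑ α, u α) / mI ι) + 40 * bb g G G' * ∑ α, u α := by
  have hm := h.one.m_pos
  have k := E2_cond hm hu h.cond
  have h1 : E2 (fun α β => ww g G G' bad α β * -(u α + u β)) ≤ E2 (fun α β => -(u α + u β) +
      (u α * |1 - ww g G G' bad α β| + u β * |1 - ww g G G' bad β α|)) := E2_mono fun α β => by
    rw [h.ww_symm α β]
    have := mul_le_mul_of_nonneg_left (le_abs_self (1 - ww g G G' bad α β))
      (add_nonneg (hu α) (hu β))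
    linarith
  rw [E2_add, E2_add, E2_neg, E2_add, E2_left hm, E2_right hm,
    E2_swap (fun α β => u α * |1 - ww g G G' bad α β|)] at h1
  have e : (∑ α, u α) / mI ι * (20 * mI ι * bb g G G') = 20 * bb g G G' * ∑ α, u α := by field_simp
  rw [mul_div_assoc]; linarith

theorem Two.E_ww_le (h : Two g G G' bad) {c : ℝ} (hc : 0 ≤ c) :
    E2 (fun α β => ww g G G' bad α β * c) ≤ c + 4 * (mI ι * bb g G G') * c := by
  have hm := h.one.m_pos; have hg := h.one.g_pos
  refine (E2_mono fun α β => mul_le_mul_of_nonneg_right (h.ww_le α β) hc).trans ?_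
  rw [E2_const hm]
  have : 1 / g ≤ mI ι * bb g G G' := by
    calc 1 / g = mI ι * (1 / (g * mI ι)) := by field_simp
      _ ≤ _ := by gcongr; exact h.le_bb
  have e : (1 + 4 / g) * c = c + 4 * (1 / g) * c := by ring
  rw [e]; gcongr

theorem Two.badlem (h : Two g G G' bad) {f1 f2 : ι → ℝ} (h1 : ∀ i, 0 ≤ f1 i) (h2 : ∀ i, 0 ≤ f2 i)
    (hb : bh g univ f1 f2 ≤ g ^ 10 * mI ι ^ 2) :
    E2 (fun α β => ww g G G' bad α β *
      (bhN g univ f1 f2 α β - bh g univ f1 f2 + 4 * bh g univ f1 f2 / mI ι)) ≤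
      200 * bb g G G' * (bh g univ f1 f2 + mI ι ^ 2) := by
  have hm := h.one.m_pos; have hg := h.one.g_pos; have hbb := h.bb_pos
  have s1 : 0 ≤ ∑ i, f1 i := sum_nonneg fun i _ => h1 i
  have s2 : 0 ≤ ∑ i, f2 i := sum_nonneg fun i _ => h2 i
  have hb0 : 0 ≤ bh g univ f1 f2 := by unfold bh; positivity
  have k1 := h.removal (u := fun i => 2 * g ^ 11980 * f1 i + 2 * g ^ 9000 * f2 i) fun i => by
    have := h1 i; have := h2 i; positivity
  have e1 : ∑ i, (2 * g ^ 11980 * f1 i + 2 * g ^ 9000 * f2 i) = 2 * bh g univ f1 f2 := by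
    rw [sum_add_distrib, ← mul_sum, ← mul_sum, bh]; ring
  rw [e1] at k1
  have k2 := h.E_ww_le (c := 4 * bh g univ f1 f2 / mI ι) (by positivity)
  have k3 : E2 (fun α β => ww g G G' bad α β * (2 * g ^ 9000 * (f1 α * f1 β))) ≤
      bb g G G' * mI ι ^ 2 := by
    refine (E2_mono (K := fun α β => 4 * g ^ 9000 * (f1 α * f1 β)) fun α β => ?_).trans ?_
    · have := h1 α; have := h1 β
      calc _ ≤ 2 * (2 * g ^ 9000 * (f1 α * f1 β)) := by gcongr; exact h.ww_le_two α β
        _ = _ := by ring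
    rw [E2_const_mul, E2_prod]
    have a1 : (∑ i, f1 i) / mI ι ≤ mI ι / g ^ 11970 := by
      rw [div_le_div_iff₀ hm (by positivity)]
      refine le_of_mul_le_mul_left (a := g ^ 10) ?_ (by positivity)
      have : 0 ≤ g ^ 9000 * ∑ i, f2 i := by positivity
      unfold bh at hb
      calc g ^ 10 * ((∑ i, f1 i) * g ^ 11970) = g ^ 11980 * ∑ i, f1 i := by ring
        _ ≤ g ^ 10 * mI ι ^ 2 := by linarith
        _ = _ := by ring
    calc _ ≤ 4 * g ^ 9000 * (mI ι / g ^ 11970 * (mI ι / g ^ 11970)) := by gcongr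
      _ = 4 * g * mI ι / g ^ 14940 * (1 / (g * mI ι)) * mI ι ^ 2 := by field_simp
      _ ≤ 1 * bb g G G' * mI ι ^ 2 := by
        gcongr
        · rw [div_le_one (by positivity)]
          calc 4 * g * mI ι ≤ 4 * g * g ^ 12002 := by gcongr; exact h.one.num.hi
            _ = 4 * g ^ 12003 := by ring
            _ ≤ _ := h.one.num.const_pow (by norm_num) (by norm_num)
        · exact h.le_bb
      _ = _ := by ring
  have e2 : E2 (fun α β => ww g G G' bad α β *
      (bhN g univ f1 f2 α β - bh g univ f1 f2 + 4 * bh g univ f1 f2 / mI ι)) =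
      E2 (fun α β => ww g G G' bad α β *
      -((2 * g ^ 11980 * f1 α + 2 * g ^ 9000 * f2 α) + (2 * g ^ 11980 * f1 β + 2 * g ^ 9000 * f2 β))) +
      E2 (fun α β => ww g G G' bad α β * (4 * bh g univ f1 f2 / mI ι)) +
      E2 (fun α β => ww g G G' bad α β * (2 * g ^ 9000 * (f1 α * f1 β))) := by
    rw [← E2_add, ← E2_add]
    exact E2_congr fun α β => by unfold bhN; ring
  have e3 : 4 * (mI ι * bb g G G') * (4 * bh g univ f1 f2 / mI ι) =
      16 * (bb g G G' * bh g univ f1 f2) := by field_simp; ring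
  have e4 : 2 * (2 * bh g univ f1 f2) / mI ι = 4 * bh g univ f1 f2 / mI ι := by ring
  have b1 : 0 ≤ bb g G G' * bh g univ f1 f2 := by positivity
  have b2 : 0 ≤ bb g G G' * mI ι ^ 2 := by positivity
  rw [e2]; linarith

end Vale.Agent.P049
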