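import Vale.Agent.P049.ToolG
import Vale.Agent.P049.ToolC
import Vale.Agent.P049.Da

set_option linter.unusedSectionVars false
set_option maxRecDepth 100000

namespace Vale.Agent.P049

open Finset

variable {ι : Type} [Fintype ι] [DecidableEq ι] {g : ℝ} {G G' : Gm ι} {bad : ι → ι → Bool}

namespace Db

theorem scal {g a b s d x y : ℝ} (hg : 1000 ≤ g) (hab : |a * b| ≤ 1) (hs : s ^ 2 ≤ 121 / 100)
    (hd : |1 / d - 1| ≤ 12 / g) :
    (x * ((b * x + s * y) / d) + y * ((s * x + a * y) / d)) ^ 2 ≤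
      (1 + 30 / g) * (b ^ 2 * x ^ 4 + a ^ 2 * y ^ 4) + 20 * g * (x ^ 2 * y ^ 2) := by
  have g0 : 0 < g := by linarith
  have t0 : 0 < 1 / g := by positivity
  have t1 : 1 / g ≤ 1 / 1000 := one_div_le_one_div_of_le (by norm_num) hg
  have h1 := add_sq_le_t (b * x ^ 2 + a * y ^ 2) (2 * s * x * y) t0
  rw [one_div_one_div] at h1
  rw [div_eq_mul_one_div 12] at hd
  rw [div_eq_mul_one_div 30]
  set t := 1 / g
  have h2 : (1 / d) ^ 2 ≤ 1 + 25 * t :=
    (sq_le_sq' (b := 1 + 12 * t) (by linarith [(abs_le.1 hd).1])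
      (by linarith [(abs_le.1 hd).2])).trans (by nlinarith)
  have p : 0 ≤ x ^ 2 * y ^ 2 := by positivity
  have q : 0 ≤ b ^ 2 * x ^ 4 + a ^ 2 * y ^ 4 := by positivity
  have h3 : (b * x ^ 2 + a * y ^ 2) ^ 2 ≤ b ^ 2 * x ^ 4 + a ^ 2 * y ^ 4 + 2 * (x ^ 2 * y ^ 2) := by
    nlinarith [mul_le_mul_of_nonneg_right (abs_le.1 hab).2 p]
  have h4 : (2 * s * x * y) ^ 2 ≤ 5 * (x ^ 2 * y ^ 2) := by
    nlinarith [mul_le_mul_of_nonneg_right hs p]
  have h5 : (b * x ^ 2 + a * y ^ 2 + 2 * s * x * y) ^ 2 ≤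
      (1 + t) * (b ^ 2 * x ^ 4 + a ^ 2 * y ^ 4) + 10 * g * (x ^ 2 * y ^ 2) := by
    nlinarith [mul_le_mul_of_nonneg_left h3 (show 0 ≤ 1 + t by linarith),
      mul_le_mul_of_nonneg_left h4 (show 0 ≤ 1 + g by linarith),
      mul_le_mul_of_nonneg_right t1 p, mul_le_mul_of_nonneg_right hg p]
  rw [show (x * ((b * x + s * y) / d) + y * ((s * x + a * y) / d)) ^ 2 =
    (1 / d) ^ 2 * (b * x ^ 2 + a * y ^ 2 + 2 * s * x * y) ^ 2 by ring]
  refine (mul_le_mul h2 h5 (sq_nonneg _) (by linarith)).trans ?_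
  have r : 0 ≤ g * (x ^ 2 * y ^ 2) := by positivity
  nlinarith [mul_le_mul_of_nonneg_right t1 r, mul_le_mul_of_nonneg_right t1 (mul_nonneg t0.le q),
    mul_nonneg t0.le q]

theorem g_big (h : One g G) : 1000 ≤ g := le_trans (by norm_num) h.num.hg

theorem Ydd (h : One g G) {α β : ι} (k : G.ok g α β) :
    -(G.Y α α * G.dd α β α) ≤ (12 * G.Y α α ^ 2 + 5 / mI ι ^ 2) / g := by
  have g0 := h.g_pos
  have h1 := h.ok_g1 k
  have h2 := h.ok_g2_sq k α
  have h3 := h.ok_c k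
  have h4 : G.Y β α ^ 2 ≤ 1 := by
    rw [h.symm, ← sq_abs]
    exact pow_le_one₀ (abs_nonneg _) (ZAc h k)
  have h5 : G.a α ^ 2 ≤ 2 * (G.Y α α ^ 2 + 1 / mI ι ^ 2) := by
    rw [G.a_eq]
    refine (sq2_le _ _).trans (le_of_eq ?_)
    rw [div_pow, h.sg_sq]
  have h6 : |G.Y α α * G.g2 α β α| ≤ 8 * G.Y α α ^ 2 + 5 / mI ι ^ 2 := by
    have := mul_le_of_le_one_right (sq_nonneg (G.a α)) h4
    rw [abs_le, div_eq_mul_one_div 5]
    constructor <;>
      nlinarith [sq_nonneg (G.Y α α - G.g2 α β α), sq_nonneg (G.Y α α + G.g2 α β α)]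
  have h7 : |G.Y β α * (G.Y α α * G.g2 α β α)| ≤ 1 / g * (8 * G.Y α α ^ 2 + 5 / mI ι ^ 2) := by
    rw [abs_mul, h.symm β α]
    exact mul_le_mul h3 h6 (abs_nonneg _) (by positivity)
  have h8 := mul_le_mul_of_nonneg_left (abs_le.1 h1).1 (sq_nonneg (G.Y α α))
  have e : (12 * G.Y α α ^ 2 + 5 / mI ι ^ 2) / g =
      G.Y α α ^ 2 * (4 / g) + 1 / g * (8 * G.Y α α ^ 2 + 5 / mI ι ^ 2) := by ring
  rw [e, Gm.dd]
  linarith [(abs_le.1 h7).1]
where
  ZAc (h : One g G) {α β : ι} (k : G.ok g α β) : |G.Y α β| ≤ 1 :=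
    (h.ok_c k).trans (h.inv_g_le.trans (by norm_num))

end Db

open Da Db in
theorem Two.Db (h : Two g G G' bad) :
    E2 (fun α β => ww g G G' bad α β * ∑ μ, G.dd α β μ ^ 2) ≤
      2 * h2I g ι * G.D / mI ι + 1000 * bb g G G' * G.Qd g := by
  have o := h.one
  have m0 := o.m_pos
  have g0 := o.g_pos
  have gb := g_big o
  have t0 : 0 < 1 / g := by positivity
  have t1 : 1 / g ≤ 1 / 1000 := one_div_le_one_div_of_le (by norm_num) gb
  have h1 : E2 (fun α β => ww g G G' bad α β * ∑ μ, G.dd α β μ ^ 2) ≤ E2 fun α β =>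
      (1 + 40 * (1 / g)) * ((∑ μ, G.Y α μ ^ 4) * G.a β ^ 2 + G.a α ^ 2 * ∑ μ, G.Y β μ ^ 4) +
        40 * g * ∑ μ, G.Y α μ ^ 2 * G.Y β μ ^ 2 := E2_mono fun α β => by
    refine (h.ww_mul_le fun k => sum_le_sum fun μ _ => scal gb (a := G.a α) (b := G.a β)
      (k.2.1.1.1.trans (by linarith)) (o.ok_s_sq k.2.1) ((o.ok_inv k.2.1).trans (by
        linarith [o.ok_e k.2.1, show 12 / g = 4 * (3 / g) by ring]))).trans ?_
    rw [sum_add_distrib, ← mul_sum, ← mul_sum, sum_add_distrib, ← mul_sum, ← mul_sum,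
      mul_comm (G.a β ^ 2), div_eq_mul_one_div 30]
    have w0 := h.ww_nonneg α β
    have w1 := h.ww_le α β
    have w2 := h.ww_le_two α β
    rw [div_eq_mul_one_div] at w1
    have p : 0 ≤ (∑ μ, G.Y α μ ^ 4) * G.a β ^ 2 + G.a α ^ 2 * ∑ μ, G.Y β μ ^ 4 := by positivity
    have q : 0 ≤ g * ∑ μ, G.Y α μ ^ 2 * G.Y β μ ^ 2 := by positivity
    have r : ww g G G' bad α β * (1 + 30 * (1 / g)) ≤ 1 + 40 * (1 / g) := by nlinarith
    nlinarith [mul_le_mul_of_nonneg_right r p, mul_le_mul_of_nonneg_right w2 q]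
  rw [E2_add, E2_const_mul, E2_const_mul, E2_add, E2_prod, E2_prod, E2_sum] at h1
  simp only [E2_prod, col_rho o] at h1
  have h2 : ∑ μ, G.rho μ / mI ι * (G.rho μ / mI ι) ≤ g ^ 22 * h2I g ι / mI ι := by
    simp only [← sq, div_pow, ← sum_div]
    rw [o.sum_rho_sq, show mI ι * G.r4 / mI ι ^ 2 = G.r4 / mI ι by field_simp]
    exact div_le_div_of_nonneg_right o.r4c m0.le
  have h3 : (∑ α, ∑ μ, G.Y α μ ^ 4) / mI ι ≤ h2I g ι / 2 + 3 * (1 / g) := by
    rw [div_le_iff₀' m0]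
    have c := mul_le_mul_of_nonneg_left o.num.h_le_h2 m0.le
    have e : 3 * mI ι / g = mI ι * (3 * (1 / g)) := by ring
    have := o.q4
    have := o.t2h
    unfold hI h2I at *
    linarith
  have h4 := mul_le_mul h3 o.E_a_sq (by positivity) (by have := o.h2_pos; positivity)
  have e1 : G.Dh / mI ι = 2 * (G.D / mI ι) + 2 * (1 / mI ι ^ 2) := by rw [Gm.Dh]; field_simp
  have b1 := le_bQ h (D_le o)
  have b2 := le_bQ h (x := g ^ 24 * h2I g ι) (le_trans (mul_le_mul_of_nonneg_right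
    (o.num.pow_mono (by norm_num)) o.h2_pos.le) (h2_le o))
  have b3 := le_bQ h (x := g * (1 / mI ι)) (le_trans (mul_le_mul
    (by simpa using o.num.pow_mono (show 1 ≤ 280 by norm_num)) (inv_m o) (by positivity)
    (by positivity)) (h2_le o))
  rw [show G.D / (g * mI ι) = 1 / g * (G.D / mI ι) by field_simp] at b1
  rw [show g ^ 24 * h2I g ι / (g * mI ι) = g * (g ^ 22 * h2I g ι / mI ι) by field_simp] at b2
  rw [show g * (1 / mI ι) / (g * mI ι) = 1 / mI ι ^ 2 by field_simp] at b3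
  rw [e1] at h4
  rw [mul_comm ((∑ α, G.a α ^ 2) / mI ι), mul_div_assoc] at *
  have h5 := mul_le_mul_of_nonneg_left h2 (show 0 ≤ 40 * g by positivity)
  have h6 := mul_le_mul_of_nonneg_left h4 (show 0 ≤ 1 + 40 * (1 / g) by positivity)
  have u0 := o.h2_pos
  have u1 : h2I g ι ≤ 1 := o.num.h2_le_one
  have d0 : 0 ≤ G.D / mI ι := div_nonneg o.D_nonneg m0.le
  have i0 : 0 ≤ 1 / mI ι ^ 2 := by positivity
  set t := 1 / g
  set u := h2I g ι
  set d := G.D / mI ι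
  set i := 1 / mI ι ^ 2
  have c1 : (1 + 40 * t) * (u / 2 + 3 * t) ≤ u / 2 + 30 * t := by nlinarith
  have c2 := mul_le_mul_of_nonneg_right c1 (show 0 ≤ 2 * d + 2 * i by positivity)
  have c3 := mul_le_mul_of_nonneg_right (show u / 2 + 30 * t ≤ 1 by linarith) i0
  have p := mul_pos h.bb_pos (Q_pos o)
  nlinarith

open Da Db in
theorem Two.Dc (h : Two g G G' bad) :
    E2 (fun α β => ww g G G' bad α β * (-(G.Y α α ^ 2 + G.Y β β ^ 2) -
      2 * G.Y α α * G.dd α β α - 2 * G.Y β β * G.dd α β β)) ≤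
      -(2 * G.D / mI ι) + 1000 * bb g G G' * G.Qd g := by
  have o := h.one
  have m0 := o.m_pos
  have g0 := o.g_pos
  have h1 := h.removal (u := fun α => G.Y α α ^ 2) fun α => sq_nonneg _
  rw [← G.D_eq] at h1
  have h2 : E2 (fun α β => ww g G G' bad α β * (-(G.Y α α ^ 2 + G.Y β β ^ 2) -
      2 * G.Y α α * G.dd α β α - 2 * G.Y β β * G.dd α β β)) ≤ E2 fun α β =>
      ww g G G' bad α β * -(G.Y α α ^ 2 + G.Y β β ^ 2) +
        4 * ((12 * G.Y α α ^ 2 + 5 / mI ι ^ 2) / g + (12 * G.Y β β ^ 2 + 5 / mI ι ^ 2) / g) :=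
    E2_mono fun α β => by
      refine (h.ww_mul_le (t := -(G.Y α α ^ 2 + G.Y β β ^ 2) + 2 *
        ((12 * G.Y α α ^ 2 + 5 / mI ι ^ 2) / g + (12 * G.Y β β ^ 2 + 5 / mI ι ^ 2) / g))
        fun k => ?_).trans ?_
      · have c1 := Ydd o k.2.1
        have c2 := Ydd o (o.ok_symm k.2.1)
        have e : G.dd β α β = G.dd α β β := by
          rw [Gm.dd, Gm.dd, Gm.g1_swap o.symm α β, Gm.g2_swap o.symm α β, add_comm]
        rw [e] at c2
        linarith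
      · have p : 0 ≤ (12 * G.Y α α ^ 2 + 5 / mI ι ^ 2) / g +
            (12 * G.Y β β ^ 2 + 5 / mI ι ^ 2) / g := by positivity
        nlinarith [mul_le_mul_of_nonneg_right (h.ww_le_two α β) p]
  rw [E2_add, E2_const_mul, E2_add, E2_left m0, E2_right m0, ← sum_div, sum_add_distrib,
    ← mul_sum, ← G.D_eq, sum_const_mI] at h2
  have b1 := le_bQ h (D_le o)
  have b2 := le_bQ h (x := 1 / mI ι) ((inv_m o).trans (le_trans
    (le_mul_of_one_le_left o.h2_pos.le (one_le_pow₀ o.num.one_le_g)) (h2_le o)))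
  have b3 := mul_le_mul_of_nonneg_left (D_le o) h.bb_pos.le
  have e : (12 * G.D + mI ι * (5 / mI ι ^ 2)) / g / mI ι =
      12 * (G.D / (g * mI ι)) + 5 * (1 / mI ι / (g * mI ι)) := by field_simp
  have p := mul_pos h.bb_pos (Q_pos o)
  linarith

end Vale.Agent.P049
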