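import Vale.Agent.P049.UpdD

namespace Vale.Agent.P049

open Finset

variable {ι : Type} [Fintype ι] [DecidableEq ι]

namespace UpdC

theorem row_sq {G : Gm ι} {α β : ι} (h : UH G α β) (μ : ι) :
    ∑ j ∈ rem univ α β, (G.M α β μ j - G.rr α β μ) ^ 2 = G.rho μ + G.De α β μ := by
  have hm : mI ι ≠ 0 := by have := h.big; positivity
  have hσ : G.sg ^ 2 = 1 := by rcases h.sg with e | e <;> rw [e] <;> norm_num
  have e1 : ∀ j, (G.M α β μ j - G.rr α β μ) ^ 2 =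
      G.M α β μ j ^ 2 - 2 * G.rr α β μ * G.M α β μ j + G.rr α β μ ^ 2 := fun l => by ring
  simp only [e1, sum_add_distrib, sum_sub_distrib, ← mul_sum, sum_const, nsmul_eq_mul,
    UpdD.sum_M h, card_rem h.ne]
  have e2 : ∑ j, G.M α β μ j ^ 2 = G.rho μ + (2 * (G.g1 α β μ * G.p α μ + G.g2 α β μ * G.p β μ) +
      G.g1 α β μ ^ 2 * G.rho α + G.g2 α β μ ^ 2 * G.rho β +
      2 * G.g1 α β μ * G.g2 α β μ * G.p α β) := by
    simp only [h.M_symm μ, h.M_eq, Gm.p_eq h.symm, Gm.rho_eq, mul_sum, ← sum_add_distrib, mul_add]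
    refine sum_congr rfl fun l _ => ?_
    rw [h.symm l μ]
    ring
  rw [sum_rem h.ne, e2, h.M_fst, h.M_snd]
  simp only [Gm.De, Gm.rr, s0, div_eq_mul_inv, one_mul]
  have a3 : (mI ι)⁻¹ * mI ι = 1 := inv_mul_cancel₀ hm
  set u := (mI ι)⁻¹
  linear_combination (-((1 - u) * G.g2 α β μ - G.g1 α β μ * u) ^ 2 -
    ((1 - u) * G.g1 α β μ - G.g2 α β μ * u) ^ 2 -
    (mI ι - 2) * u ^ 2 * (G.g1 α β μ + G.g2 α β μ) ^ 2) * hσ -
    u * (G.g1 α β μ + G.g2 α β μ) ^ 2 * a3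

theorem om_le {G : Gm ι} {α β : ι} (h : UH G α β) :
    ∑ j ∈ rem univ α β, (G.rr α β j - G.rb α β) ^ 2 ≤ G.om2 α β := by
  have hσ : G.sg ^ 2 = 1 := by rcases h.sg with e | e <;> rw [e] <;> norm_num
  refine (UpdD.cen1 _ _ _ (by rw [UpdD.sum_rr h, card_rem h.ne])).trans
    ((sum_le_sum_of_subset_of_nonneg (subset_univ _) fun _ _ _ => sq_nonneg _).trans ?_)
  simp only [Gm.om2, Gm.rho_eq, mul_sum, ← sum_add_distrib, sum_div]
  refine sum_le_sum fun j _ => ?_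
  rw [Gm.rr, Gm.g1, Gm.g2, ← add_div, ← mul_div_assoc, div_div, div_pow, mul_pow, mul_pow, neg_sq,
    hσ, one_mul]
  refine div_le_div_of_nonneg_right ?_ (by positivity)
  nlinarith [sq_nonneg ((G.a β + G.s α β) * G.Y α j - (G.s α β + G.a α) * G.Y β j)]

theorem scal {A B w a b s ξ η p : ℝ} (hA : 0 ≤ A) (hB : 0 ≤ B) (hw : 0 ≤ w) (h1 : |ξ| ≤ A * w)
    (h2 : |η| ≤ B * w) (h3 : |p| ≤ A * B) :
    A ^ 2 * (b * ξ + s * η) ^ 2 + 2 * p * ((b * ξ + s * η) * (s * ξ + a * η)) +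
      B ^ 2 * (s * ξ + a * η) ^ 2 ≤ (|b| * A ^ 2 + 2 * |s| * (A * B) + |a| * B ^ 2) ^ 2 * w ^ 2 := by
  have key : ∀ x y : ℝ, |x * ξ + y * η| ≤ (|x| * A + |y| * B) * w := fun x y => by
    refine (abs_add_le _ _).trans ?_
    rw [abs_mul, abs_mul]
    nlinarith [mul_le_mul_of_nonneg_left h1 (abs_nonneg x),
      mul_le_mul_of_nonneg_left h2 (abs_nonneg y)]
  have k1 := key b s
  have k2 := key s a
  set P := b * ξ + s * η
  set Q := s * ξ + a * η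
  have k3 : A ^ 2 * P ^ 2 + 2 * p * (P * Q) + B ^ 2 * Q ^ 2 ≤ (A * |P| + B * |Q|) ^ 2 := by
    have : p * (P * Q) ≤ A * B * (|P| * |Q|) := by
      refine (le_abs_self _).trans ?_
      rw [abs_mul, abs_mul]
      exact mul_le_mul_of_nonneg_right h3 (by positivity)
    rw [← sq_abs P, ← sq_abs Q]
    nlinarith
  refine k3.trans ?_
  rw [← mul_pow]
  refine pow_le_pow_left₀ (by positivity) ?_ 2
  nlinarith [mul_le_mul_of_nonneg_left k1 hA, mul_le_mul_of_nonneg_left k2 hB]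

theorem M_op {G : Gm ι} {α β : ι} (h : UH G α β) (v : ι → ℝ) :
    ∑ μ, (∑ j, G.M α β μ j * v j) ^ 2 ≤ 2 * (√G.t4 + G.nU α β ^ 2) * ∑ j, v j ^ 2 := by
  have k1 := Gm.op_le h.symm v
  have W0 : 0 ≤ ∑ j, v j ^ 2 := sum_nonneg fun _ _ => sq_nonneg _
  have key : ∀ γ, |∑ j, G.Y γ j * v j| ≤ √(G.rho γ) * √(∑ j, v j ^ 2) := fun γ => by
    rw [← Real.sqrt_mul (G.rho_nonneg γ)]
    exact Real.abs_le_sqrt (sum_mul_sq_le_sq_mul_sq _ _ _)
  have k2 := scal (a := G.a α) (b := G.a β) (s := G.s α β) (p := G.p α β) (Real.sqrt_nonneg _)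
    (Real.sqrt_nonneg _) (Real.sqrt_nonneg _) (key α) (key β) (by
      rw [← Real.sqrt_mul (G.rho_nonneg α)]
      exact Real.abs_le_sqrt (Gm.p_sq_le h.symm α β))
  rw [Real.sq_sqrt W0, Real.sq_sqrt (G.rho_nonneg α), Real.sq_sqrt (G.rho_nonneg β),
    ← Real.sqrt_mul (G.rho_nonneg α)] at k2
  set ξ := ∑ j, G.Y α j * v j with hξ
  set η := ∑ j, G.Y β j * v j with hη
  set P := G.a β * ξ + G.s α β * η with hP
  set Q := G.s α β * ξ + G.a α * η with hQ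
  have e1 : ∀ μ, ∑ j, G.M α β μ j * v j =
      ∑ j, G.Y μ j * v j + (G.Y α μ * P + G.Y β μ * Q) / G.dl α β := fun μ => by
    simp only [h.M_eq, Gm.g1, Gm.g2, hP, hQ, hξ, hη, mul_sum, ← sum_add_distrib, sum_div, mul_add]
    exact sum_congr rfl fun j _ => by ring
  have e2 : ∑ μ, ((G.Y α μ * P + G.Y β μ * Q) / G.dl α β) ^ 2 =
      (G.rho α * P ^ 2 + 2 * G.p α β * (P * Q) + G.rho β * Q ^ 2) / G.dl α β ^ 2 := by
    simp only [Gm.p_eq h.symm, Gm.rho_eq, mul_sum, sum_mul, ← sum_add_distrib, sum_div]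
    exact sum_congr rfl fun j _ => by ring
  have k3 : ∑ μ, ((G.Y α μ * P + G.Y β μ * Q) / G.dl α β) ^ 2 ≤ G.nU α β ^ 2 * ∑ j, v j ^ 2 := by
    rw [e2, Gm.nU, div_pow, sq_abs, div_mul_eq_mul_div]
    exact div_le_div_of_nonneg_right k2 (sq_nonneg _)
  have k4 : ∑ μ, (∑ j, G.M α β μ j * v j) ^ 2 ≤ ∑ μ, (2 * (∑ j, G.Y μ j * v j) ^ 2 +
      2 * ((G.Y α μ * P + G.Y β μ * Q) / G.dl α β) ^ 2) := sum_le_sum fun μ _ => by
    rw [e1]
    nlinarith [sq_nonneg (∑ j, G.Y μ j * v j - (G.Y α μ * P + G.Y β μ * Q) / G.dl α β)]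
  rw [sum_add_distrib, ← mul_sum, ← mul_sum] at k4
  linarith

end UpdC

theorem UH.rho_up {G : Gm ι} {α β : ι} (h : UH G α β) :
    ∑ μ ∈ rem univ α β, (rho (rem univ α β) (G.up α β) μ - G.rho μ - G.De α β μ) ^ 2 ≤
      16 * (√G.t4 + G.nU α β ^ 2) * G.om2 α β + 2 * mI ι * G.om2 α β ^ 2 := by
  have k1 := UpdC.om_le h
  set v : ι → ℝ := fun j => if j ∈ rem univ α β then G.rr α β j - G.rb α β else 0 with hv
  have k2 := UpdC.M_op h v
  have e1 : ∑ j, v j ^ 2 = ∑ j ∈ rem univ α β, (G.rr α β j - G.rb α β) ^ 2 := by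
    simp only [hv, ite_pow, zero_pow two_ne_zero, sum_ite_mem, univ_inter]
  have e2 : ∀ μ, ∑ j, G.M α β μ j * v j =
      ∑ j ∈ rem univ α β, G.M α β μ j * (G.rr α β j - G.rb α β) := fun μ => by
    simp only [hv, mul_ite, mul_zero, sum_ite_mem, univ_inter]
  have e3 : ∑ j ∈ rem univ α β, (G.rr α β j - G.rb α β) = 0 := by
    rw [sum_sub_distrib, UpdD.sum_rr h, sum_const, nsmul_eq_mul, card_rem h.ne, sub_self]
  rw [e1] at k2
  have W0 : 0 ≤ ∑ j ∈ rem univ α β, (G.rr α β j - G.rb α β) ^ 2 :=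
    sum_nonneg fun _ _ => sq_nonneg _
  set W := ∑ j ∈ rem univ α β, (G.rr α β j - G.rb α β) ^ 2 with hW
  have e4 : ∀ μ, rho (rem univ α β) (G.up α β) μ - G.rho μ - G.De α β μ =
      W - 2 * ∑ j, G.M α β μ j * v j := fun μ => by
    have : ∀ j, G.up α β μ j ^ 2 = (G.M α β μ j - G.rr α β μ) ^ 2 + (G.rr α β j - G.rb α β) ^ 2 -
        2 * (G.M α β μ j * (G.rr α β j - G.rb α β)) + 2 * G.rr α β μ * (G.rr α β j - G.rb α β) :=
      fun j => by rw [h.up_eq]; ring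
    rw [rho, sum_congr rfl fun j _ => this j, sum_add_distrib, sum_sub_distrib, sum_add_distrib,
      ← mul_sum, ← mul_sum, e3, UpdC.row_sq h, e2]
    ring
  have k3 : ∑ μ ∈ rem univ α β, (rho (rem univ α β) (G.up α β) μ - G.rho μ - G.De α β μ) ^ 2 ≤
      ∑ μ, (8 * (∑ j, G.M α β μ j * v j) ^ 2 + 2 * W ^ 2) := by
    refine le_trans (sum_le_sum fun μ _ => ?_)
      (sum_le_sum_of_subset_of_nonneg (subset_univ _) fun _ _ _ => by positivity)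
    rw [e4]
    nlinarith [sq_nonneg (W + 2 * ∑ j, G.M α β μ j * v j)]
  rw [sum_add_distrib, ← mul_sum, sum_const, nsmul_eq_mul] at k3
  have m0 : 0 ≤ mI ι := Nat.cast_nonneg _
  have k4 : mI ι * W ^ 2 ≤ mI ι * G.om2 α β ^ 2 :=
    mul_le_mul_of_nonneg_left (pow_le_pow_left₀ W0 k1 2) m0
  have k5 : (√G.t4 + G.nU α β ^ 2) * W ≤ (√G.t4 + G.nU α β ^ 2) * G.om2 α β :=
    mul_le_mul_of_nonneg_left k1 (by positivity)
  have k6 : ((univ : Finset ι).card : ℝ) = mI ι := rfl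
  rw [k6] at k3
  linarith

end Vale.Agent.P049
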