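import Vale.Agent.P049.Vb2

namespace Vale.Agent.P049

open Finset

variable {ι : Type} [Fintype ι] [DecidableEq ι] {g : ℝ} {G G' : Gm ι} {bad : ι → ι → Bool}

namespace Vb

theorem gg_le (h : One g G) (α : ι) : G.gg α ≤ mI ι / g := by
  have h1 := h.ggb α
  have hg := h.g_pos
  have h2 : √(zeI g ι) ≤ 1 := Real.sqrt_le_one.2 h.num.ze_le_one
  have h3 : g ^ 1 ≤ g ^ 750 := h.num.pow_mono (by norm_num)
  rw [le_div_iff₀ hg]
  have := G.gg_nonneg α
  have := h.m_pos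
  nlinarith

theorem cross (h : One g G) :
    ∑ μ, (∑ α, G.Y α μ ^ 2 * G.f α) ^ 2 ≤ G.V * (mI ι / g) := by
  have hs := h.symm
  calc ∑ μ, (∑ α, G.Y α μ ^ 2 * G.f α) ^ 2
      ≤ ∑ μ, ∑ α, G.f α ^ 2 * (G.rho μ * G.Y α μ ^ 2) := by
        refine sum_le_sum fun μ _ => ?_
        have h1 := sum_mul_sq_le_sq_mul_sq univ (fun α => G.Y α μ) (fun α => G.Y α μ * G.f α)
        have e1 : ∑ α, G.Y α μ ^ 2 = G.rho μ := by
          rw [G.rho_eq]; exact sum_congr rfl fun α _ => by rw [hs]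
        rw [e1, mul_sum] at h1
        calc _ = (∑ α, G.Y α μ * (G.Y α μ * G.f α)) ^ 2 := by
              congr 1; exact sum_congr rfl fun α _ => by ring
          _ ≤ _ := h1
          _ = _ := sum_congr rfl fun α _ => by ring
    _ = ∑ α, G.f α ^ 2 * G.gg α := by
        rw [sum_comm]; exact sum_congr rfl fun α _ => by rw [Gm.gg, mul_sum]
    _ ≤ ∑ α, G.f α ^ 2 * (mI ι / g) :=
        sum_le_sum fun α _ => mul_le_mul_of_nonneg_left (gg_le h α) (sq_nonneg _)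
    _ = _ := by rw [← sum_mul, G.V_eq]

theorem coef {g w q : ℝ} (hg : 1 / g ≤ 1 / 10 ^ 30) (h0 : 0 < 1 / g) (hw : w ≤ 1 + 4 * (1 / g))
    (hq : |q - 1| ≤ 39 * (1 / g)) : w * ((1 + 1 / g) * q ^ 2) ≤ 1 + 100 * (1 / g) := by
  set t := 1 / g
  have h1 : q ^ 2 ≤ (1 + 39 * t) ^ 2 := by
    rw [abs_le] at hq
    exact sq_le_sq' (by linarith) (by linarith)
  have ht : t ≤ 1 / 1000 := hg.trans (by norm_num)
  have h1' : q ^ 2 ≤ 1 + 80 * t := by nlinarith
  have h2 : (1 + t) * q ^ 2 ≤ 1 + 90 * t := by nlinarith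
  have h3 : w * ((1 + t) * q ^ 2) ≤ (1 + 4 * t) * (1 + 90 * t) :=
    (mul_le_mul_of_nonneg_right hw (by positivity)).trans
      (mul_le_mul_of_nonneg_left h2 (by positivity))
  nlinarith

end Vb

theorem One.Vb1 (h : One g G) :
    E2 (fun α β => ∑ μ, (G.Y β μ ^ 2 * G.f α + G.Y α μ ^ 2 * G.f β) ^ 2) ≤
      (1 - G.z) * G.V / mI ι + 10 * G.V / (g * mI ι) := by
  have hm := h.m_pos
  have hg := h.g_pos
  have hV := h.V_nonneg
  have e : ∀ α β, ∑ μ, (G.Y β μ ^ 2 * G.f α + G.Y α μ ^ 2 * G.f β) ^ 2 =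
      G.f α ^ 2 * (∑ μ, G.Y β μ ^ 4) + (∑ μ, G.Y α μ ^ 4) * G.f β ^ 2 +
        2 * ∑ μ, (G.Y α μ ^ 2 * G.f α) * (G.Y β μ ^ 2 * G.f β) := by
    intro α β
    simp only [mul_sum, sum_mul, ← sum_add_distrib]
    exact sum_congr rfl fun μ _ => by ring
  simp only [e, E2_add, E2_const_mul]
  rw [E2_prod (fun α => G.f α ^ 2) (fun β => ∑ μ, G.Y β μ ^ 4),
    E2_prod (fun β => ∑ μ, G.Y β μ ^ 4) (fun α => G.f α ^ 2),
    E2_sum univ (fun μ α β => (G.Y α μ ^ 2 * G.f α) * (G.Y β μ ^ 2 * G.f β)), ← G.V_eq]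
  have e2 : ∑ μ, E2 (fun α β => (G.Y α μ ^ 2 * G.f α) * (G.Y β μ ^ 2 * G.f β)) =
      (∑ μ, (∑ α, G.Y α μ ^ 2 * G.f α) ^ 2) / mI ι ^ 2 := by
    rw [sum_div]
    refine sum_congr rfl fun μ _ => ?_
    rw [E2_prod (fun α => G.Y α μ ^ 2 * G.f α) (fun α => G.Y α μ ^ 2 * G.f α)]
    ring
  rw [e2]
  have h1 : (∑ μ, (∑ α, G.Y α μ ^ 2 * G.f α) ^ 2) / mI ι ^ 2 ≤ G.V / (g * mI ι) := by
    refine (div_le_div_of_nonneg_right (Vb.cross h) (sq_nonneg _)).trans (le_of_eq ?_)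
    field_simp
  have h2 : (∑ β, ∑ μ, G.Y β μ ^ 4) / mI ι ≤ (1 - G.z) / 2 + 3 / g := by
    refine (div_le_div_of_nonneg_right h.q4 hm.le).trans (le_of_eq ?_)
    rw [h.t2_eq_z]
    field_simp
  have h3 := mul_le_mul_of_nonneg_left h2 (div_nonneg hV hm.le)
  have e3 : G.V / mI ι * ((1 - G.z) / 2 + 3 / g) =
      (1 - G.z) * G.V / mI ι / 2 + 3 * (G.V / (g * mI ι)) := by field_simp
  have h4 : 0 ≤ G.V / (g * mI ι) := by positivity
  rw [mul_div_assoc 10]
  nlinarith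

theorem Two.Vb (h : Two g G G' bad) :
    E2 (fun α β => ww g G G' bad α β * ∑ μ, G.De α β μ ^ 2) ≤
      (1 - G.z) * G.V / mI ι + 1000 * bb g G G' * G.Qv g := by
  have hm := h.one.m_pos
  have hg := h.one.g_pos
  have hV := h.one.V_nonneg
  have hg1 := h.one.num.one_le_g
  set U : ι → ι → ℝ := fun α β => ∑ μ, (G.Y β μ ^ 2 * G.f α + G.Y α μ ^ 2 * G.f β) ^ 2 with hU
  set W : ι → ι → ℝ := fun α β => ind (adm g G G' bad α β) * ∑ μ, (G.De α β μ -
      (G.s α β / G.dl α β) ^ 2 * (G.Y β μ ^ 2 * G.f α + G.Y α μ ^ 2 * G.f β)) ^ 2 with hW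
  have h1 : E2 U ≤ _ := h.one.Vb1
  have h2 : E2 W ≤ _ := h.Vb2
  have pt : ∀ α β, ww g G G' bad α β * ∑ μ, G.De α β μ ^ 2 ≤
      (1 + 100 * (1 / g)) * U α β + 4 * g * W α β := by
    intro α β
    have u0 : 0 ≤ U α β := sum_nonneg fun _ _ => sq_nonneg _
    have s0' : 0 ≤ ∑ μ, (G.De α β μ -
      (G.s α β / G.dl α β) ^ 2 * (G.Y β μ ^ 2 * G.f α + G.Y α μ ^ 2 * G.f β)) ^ 2 :=
      sum_nonneg fun _ _ => sq_nonneg _
    have w0 : 0 ≤ W α β := mul_nonneg (ind_nonneg _) s0'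
    by_cases k : adm g G G' bad α β
    · have ok := k.2.1
      set q := (G.s α β / G.dl α β) ^ 2 with hq
      have hq1 : |q - 1| ≤ 39 * (1 / g) := by
        have := h.one.ok_q2 ok
        have := h.one.ok_e ok
        have e : 3 / g = 3 * (1 / g) := by ring
        linarith
      have hw : ww g G G' bad α β ≤ 1 + 4 * (1 / g) := by
        have := h.ww_le α β
        have e : 4 / g = 4 * (1 / g) := by ring
        linarith
      have hc := Vb.coef h.one.inv_g_le (by positivity) hw hq1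
      have h3 : ∑ μ, G.De α β μ ^ 2 ≤ (1 + 1 / g) * q ^ 2 * U α β + (1 + g) * W α β := by
        simp only [hU, hW, ind_of k, one_mul, mul_sum, ← sum_add_distrib]
        refine sum_le_sum fun μ _ => ?_
        have := add_sq_le_t (q * (G.Y β μ ^ 2 * G.f α + G.Y α μ ^ 2 * G.f β))
          (G.De α β μ - q * (G.Y β μ ^ 2 * G.f α + G.Y α μ ^ 2 * G.f β)) (t := 1 / g) (by positivity)
        rw [add_sub_cancel, one_div_one_div, mul_pow, ← mul_assoc] at this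
        exact this
      have hw0 := h.ww_nonneg α β
      have h4 := mul_le_mul_of_nonneg_left h3 hw0
      have h5 := mul_le_mul_of_nonneg_right hc u0
      have h6 : ww g G G' bad α β * ((1 + g) * W α β) ≤ 2 * ((g + g) * W α β) :=
        mul_le_mul (h.ww_le_two α β) (mul_le_mul_of_nonneg_right (by linarith) w0)
          (by positivity) (by norm_num)
      nlinarith
    · rw [ww_of_not k, zero_mul]
      positivity
  refine (E2_mono pt).trans ?_
  simp only [E2_add, E2_const_mul]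
  change (1 + 100 * (1 / g)) * E2 U + 4 * g * E2 W ≤ _
  have h3 : 4 * g * E2 W ≤ 4 * (bb g G G' * G.Qv g) := by
    refine (mul_le_mul_of_nonneg_left h2 (by positivity)).trans (le_of_eq ?_)
    field_simp
  have h4 : G.V / (g * mI ι) ≤ bb g G G' * G.Qv g := by
    rw [div_eq_mul_one_div, mul_comm]
    exact mul_le_mul h.le_bb h.one.V_le_Qv hV h.bb_pos.le
  have h5 := mul_le_mul_of_nonneg_left h1 (by positivity : 0 ≤ 1 + 100 * (1 / g))
  have h6 : 1 / g * ((1 - G.z) * G.V / mI ι) ≤ G.V / (g * mI ι) := by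
    have e : G.V / (g * mI ι) = 1 / g * (1 * G.V / mI ι) := by field_simp
    rw [e]
    have := h.one.z_pos
    gcongr
    linarith
  have h7 : 1 / g * (G.V / (g * mI ι)) ≤ 1 / 100 * (G.V / (g * mI ι)) :=
    mul_le_mul_of_nonneg_right (h.one.inv_g_le.trans (by norm_num)) (by positivity)
  have h8 : 0 ≤ G.V / (g * mI ι) := by positivity
  rw [mul_div_assoc 10] at h5
  nlinarith

end Vale.Agent.P049
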