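import Vale.Agent.P049.ToolG
import Vale.Agent.P049.ToolC

namespace Vale.Agent.P049

open Finset

variable {ι : Type} [Fintype ι] [DecidableEq ι] {g : ℝ} {G G' : Gm ι} {bad : ι → ι → Bool}

namespace Vc

theorem sq4 (a b c d : ℝ) : (a + b + c + d) ^ 2 ≤ 4 * (a ^ 2 + b ^ 2 + c ^ 2 + d ^ 2) := by
  nlinarith [sq_nonneg (a - b), sq_nonneg (a - c), sq_nonneg (a - d), sq_nonneg (b - c),
    sq_nonneg (b - d), sq_nonneg (c - d)]

theorem s1 {t g1 g2 f ρ p u w q : ℝ} (hf : f = ρ - 1) (hg1 : g1 ^ 2 ≤ 16 * t ^ 2)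
    (h1' : g1 ^ 2 ≤ 5 * w) (h2 : g2 ^ 2 ≤ 5 * u) (hu : 0 ≤ u) (hp : p ^ 2 ≤ q) :
    (2 * (g1 * ρ + g2 * p)) ^ 2 ≤ 256 * t ^ 2 * f ^ 2 + 80 * w + 40 * (u * q) := by
  have b1 : ρ ^ 2 ≤ 2 * f ^ 2 + 2 := by rw [hf]; nlinarith [sq_nonneg (ρ - 2)]
  have b2 : g1 ^ 2 * ρ ^ 2 ≤ g1 ^ 2 * (2 * f ^ 2 + 2) :=
    mul_le_mul_of_nonneg_left b1 (sq_nonneg _)
  have b3 : g1 ^ 2 * f ^ 2 ≤ 16 * t ^ 2 * f ^ 2 := mul_le_mul_of_nonneg_right hg1 (sq_nonneg _)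
  have b4 : g2 ^ 2 * p ^ 2 ≤ 5 * u * q := mul_le_mul h2 hp (sq_nonneg _) (by positivity)
  linarith [sq_nonneg (g1 * ρ - g2 * p)]

theorem s2 {t i g1 f x : ℝ} (hx : x = f + i) (hg1 : g1 ^ 2 ≤ 16 * t ^ 2) (ht2 : t ^ 2 ≤ 1 / 10000) :
    (g1 ^ 2 * x) ^ 2 ≤ t ^ 2 * f ^ 2 + i ^ 2 := by
  have b1 : x ^ 2 ≤ 2 * f ^ 2 + 2 * i ^ 2 := by
    rw [hx]; linarith [sq_nonneg (f - i)]
  have b2 : (g1 ^ 2) ^ 2 ≤ t ^ 2 / 2 := by
    have := pow_le_pow_left₀ (sq_nonneg _) hg1 2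
    nlinarith [sq_nonneg t]
  have b3 := mul_le_mul b2 b1 (sq_nonneg _) (by positivity)
  rw [mul_pow]
  nlinarith [sq_nonneg i]

theorem s3 {i g2 ρ' u K : ℝ} (hi : 0 ≤ i) (hi1 : i ≤ 1) (h2 : g2 ^ 2 ≤ 5 * u) (hu : 0 ≤ u)
    (huK : u ≤ K) : (g2 ^ 2 * (ρ' - (1 - i))) ^ 2 ≤ 50 * (u * (K * (ρ' ^ 2 + 1))) := by
  have b1 : (ρ' - (1 - i)) ^ 2 ≤ 2 * (ρ' ^ 2 + 1) := by nlinarith [sq_nonneg (ρ' + (1 - i))]
  have b2 : (g2 ^ 2) ^ 2 ≤ 25 * (u * K) := by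
    have := pow_le_pow_left₀ (sq_nonneg _) h2 2
    nlinarith
  have b3 := mul_le_mul b2 b1 (sq_nonneg _) ((sq_nonneg _).trans b2)
  rw [mul_pow]
  linarith

theorem s4 {i g1 g2 p u q : ℝ} (hi : 0 ≤ i) (hi1 : i ≤ 1) (h1 : g1 ^ 2 ≤ 1 / 40)
    (h2 : g2 ^ 2 ≤ 5 * u) (hu : 0 ≤ u) (hp : p ^ 2 ≤ q) :
    (2 * g1 * g2 * (p + i)) ^ 2 ≤ u * q + u := by
  have b1 : (p + i) ^ 2 ≤ 2 * q + 2 := by nlinarith [sq_nonneg (p - i)]
  have b2 : g1 ^ 2 * g2 ^ 2 ≤ 1 / 40 * (5 * u) := mul_le_mul h1 h2 (sq_nonneg _) (by norm_num)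
  have b3 := mul_le_mul b2 b1 (sq_nonneg _) (by positivity)
  linarith

/-- The pointwise bound for the change of the row norm at `α`. -/
theorem scal {t i g1 g2 f ρ ρ' p s u v c K R : ℝ} (ht : 0 ≤ t) (ht1 : t ≤ 1 / 100) (hi : 0 ≤ i)
    (hi1 : i ≤ 1) (hs : s = 1 - i) (hf : f = ρ - 1) (h1 : |g1| ≤ 4 * t)
    (h1' : g1 ^ 2 ≤ 5 * (u * v + c ^ 2))
    (h2 : g2 ^ 2 ≤ 5 * u) (hu : 0 ≤ u) (huK : u ≤ K) (hp : p ^ 2 ≤ ρ * ρ') (hρ : ρ ≤ R)
    (hρ' : 0 ≤ ρ') :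
    (2 * (g1 * ρ + g2 * p) + g1 ^ 2 * (ρ - s) + g2 ^ 2 * (ρ' - s) + 2 * g1 * g2 * (p + i)) ^ 2 ≤
      2000 * t ^ 2 * f ^ 2 + 400 * c ^ 2 + 5 * i ^ 2 +
        u * (400 * v + 5 + 200 * R * ρ' + 250 * K * (ρ' ^ 2 + 1)) := by
  have hg1 : g1 ^ 2 ≤ 16 * t ^ 2 := by
    have := pow_le_pow_left₀ (abs_nonneg _) h1 2
    rw [sq_abs] at this
    linarith
  have ht2 : t ^ 2 ≤ 1 / 10000 := (pow_le_pow_left₀ ht ht1 2).trans (by norm_num)
  have hpR : p ^ 2 ≤ R * ρ' := hp.trans (mul_le_mul_of_nonneg_right hρ hρ')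
  have a1 := s1 hf hg1 h1' h2 hu hpR
  have a2 := s2 (x := ρ - s) (f := f) (i := i) (by rw [hs, hf]; ring) hg1 ht2
  have a3 := s3 (ρ' := ρ') hi hi1 h2 hu huK
  have a4 := s4 hi hi1 (g1 := g1) (by linarith) h2 hu hpR
  rw [← hs] at a3
  have hR : 0 ≤ u * (R * ρ') := mul_nonneg hu ((sq_nonneg _).trans hpR)
  have hK : 0 ≤ u * (K * (ρ' ^ 2 + 1)) := mul_nonneg hu (mul_nonneg (hu.trans huK) (by positivity))
  have huv : 0 ≤ u * v + c ^ 2 := by linarith [sq_nonneg g1]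
  refine (sq4 _ _ _ _).trans ?_
  generalize (2 * (g1 * ρ + g2 * p)) ^ 2 = x1 at a1
  generalize (g1 ^ 2 * (ρ - s)) ^ 2 = x2 at a2
  generalize (g2 ^ 2 * (ρ' - s)) ^ 2 = x3 at a3
  generalize (2 * g1 * g2 * (p + i)) ^ 2 = x4 at a4
  linarith [sq_nonneg i, sq_nonneg (t * f)]

theorem big (h : One g G) : g ^ 1985 ≤ √(mI ι) * √G.z := by
  rw [← Real.sqrt_mul h.m_pos.le]
  refine Real.le_sqrt_of_sq_le ?_
  have h1 : g ^ 3970 ≤ mI ι * zeI g ι ^ 2 := h.num.F2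
  have h2 := h.ze_le_z
  have h3 := h.ze_pos
  have h4 : zeI g ι ≤ 1 := h.num.ze_le_one
  have h5 : zeI g ι ^ 2 ≤ G.z := by nlinarith
  calc (g ^ 1985) ^ 2 = g ^ 3970 := by rw [← pow_mul]
    _ ≤ _ := h1.trans (mul_le_mul_of_nonneg_left h5 h.m_pos.le)

theorem fin {g r y Da D A1 A2 : ℝ} (hg : 10 ^ 30 ≤ g) (hr : 1 ≤ r) (hy : g ^ 400 * g ^ 300 ≤ r * y)
    (hD : D ≤ 2 * g ^ 300) (hA1 : A1 ≤ 1) (hA2 : A2 ≤ g ^ 21) (hDa : Da ≤ g ^ 300)
    (h0 : 0 ≤ D) :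
    400 * (1 / r ^ 2) + 5 * (1 / r ^ 2) ^ 2 +
      D / r ^ 2 * (400 * Da + 5 + 200 * (g ^ 11 * r) * A1 + 250 * (2 * g ^ 300) * (A2 + 1)) ≤ y := by
  have g1 : (1 : ℝ) ≤ g := le_trans (by norm_num) hg
  have pm : ∀ {j k : ℕ}, j ≤ k → g ^ j ≤ g ^ k := fun e => pow_le_pow_right₀ g1 e
  set P := g ^ 300 with hP
  set Q := g ^ 400 with hQ
  have p1 : 1 ≤ P := one_le_pow₀ g1
  have p2 : g ^ 11 ≤ P := pm (by norm_num)
  have p3 : 1 ≤ g ^ 21 := one_le_pow₀ g1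
  have p4 : 10 ^ 30 * (P * g ^ 21) ≤ Q := by
    calc 10 ^ 30 * (P * g ^ 21) ≤ g * (P * g ^ 21) := by gcongr
      _ = g ^ 322 := by rw [hP]; ring
      _ ≤ Q := pm (by norm_num)
  have p5 : P ≤ P * g ^ 21 := le_mul_of_one_le_right (by positivity) p3
  have b1 : 400 * Da + 5 + 200 * (g ^ 11 * r) * A1 + 250 * (2 * P) * (A2 + 1) ≤
      2000 * (P * g ^ 21) * r := by
    have c1 : g ^ 11 * r * A1 ≤ P * g ^ 21 * r := by
      have : g ^ 11 * r * A1 ≤ g ^ 11 * r * 1 := mul_le_mul_of_nonneg_left hA1 (by positivity)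
      have : g ^ 11 * r ≤ P * g ^ 21 * r := mul_le_mul_of_nonneg_right (by linarith) (by linarith)
      linarith
    have c2 : P * (A2 + 1) ≤ P * (g ^ 21 + g ^ 21) := by gcongr
    have c3 : P * g ^ 21 ≤ P * g ^ 21 * r := le_mul_of_one_le_right (by positivity) hr
    nlinarith
  have b2 : D / r ^ 2 * (400 * Da + 5 + 200 * (g ^ 11 * r) * A1 + 250 * (2 * P) * (A2 + 1)) ≤
      4000 * (P * (P * g ^ 21)) * (1 / r) := by
    calc _ ≤ D / r ^ 2 * (2000 * (P * g ^ 21) * r) := mul_le_mul_of_nonneg_left b1 (by positivity)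
      _ ≤ 2 * P / r ^ 2 * (2000 * (P * g ^ 21) * r) := by gcongr
      _ = _ := by field_simp; norm_num
  have r0 : 0 < r := by linarith
  have b3 : 1 / r ^ 2 ≤ 1 / r := by
    apply one_div_le_one_div_of_le r0; nlinarith
  have b4 : 1 / r ≤ 1 := (div_le_one r0).2 hr
  have b5 : (1 / r ^ 2) ^ 2 ≤ 1 / r := by
    have : 0 ≤ 1 / r ^ 2 := by positivity
    nlinarith
  have b6 : Q * P * (1 / r) ≤ y := by
    rw [mul_one_div, div_le_iff₀ r0]; linarith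
  have b7 : (405 + 4000 * (P * (P * g ^ 21))) * (1 / r) ≤ Q * P * (1 / r) := by
    refine mul_le_mul_of_nonneg_right ?_ (by positivity)
    nlinarith
  linarith

omit [DecidableEq ι] in
theorem De_swap (hs : ∀ i j, G.Y i j = G.Y j i) (α β μ : ι) : G.De β α μ = G.De α β μ := by
  simp only [Gm.De, Gm.g1_swap hs α β, Gm.g2_swap hs α β, Gm.p_symm hs β α]
  ring

theorem om {g Z m r a b ρ ρ' s d : ℝ} (hg : 1000 ≤ g) (hr : r ^ 2 = m) (hr0 : 0 < r) (hZ : 0 ≤ Z)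
    (hZm : Z ≤ m) (hρ : 0 ≤ ρ) (hρ' : 0 ≤ ρ') (hd : 3 / 4 ≤ d) (hs : |s| ≤ 11 / 10)
    (h1 : (1 + ρ) * (1 + ρ') ≤ Z / g) (h2 : |b| * r * (1 + ρ) ≤ Z / g)
    (h3 : |a| * r * (1 + ρ') ≤ Z / g) :
    ((|b| * ρ + 2 * |s| * √(ρ * ρ') + |a| * ρ') / |d|) ^ 2 ≤ Z ∧
      2 * ((b + s) ^ 2 * ρ + (s + a) ^ 2 * ρ') / d ^ 2 ≤ 8 * ((b ^ 2 + 2) * ρ + (a ^ 2 + 2) * ρ') ∧
      8 * ((b ^ 2 + 2) * ρ + (a ^ 2 + 2) * ρ') ≤ Z := by
  have hm : 0 < m := by rw [← hr]; positivity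
  have k0 : Z / g ≤ Z / 1000 := by gcongr
  have key : ∀ {x y : ℝ}, 0 ≤ y → |x| * r * (1 + y) ≤ Z / g → x ^ 2 * (1 + y) ^ 2 ≤ Z / 1000 := by
    intro x y hy k
    have k1 := pow_le_pow_left₀ (by positivity) (k.trans k0) 2
    rw [mul_pow, mul_pow, sq_abs, hr] at k1
    refine le_of_mul_le_mul_left ?_ hm
    nlinarith
  have k2 := key hρ h2
  have k3 := key hρ' h3
  have hs2 : s ^ 2 ≤ 121 / 100 := by
    rw [← sq_abs]; nlinarith [abs_nonneg s]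
  have hd2 : 9 / 16 ≤ d ^ 2 := by nlinarith
  have hp : 0 ≤ ρ * ρ' := mul_nonneg hρ hρ'
  have q1 : b ^ 2 * ρ ^ 2 + b ^ 2 * ρ ≤ Z / 1000 := by nlinarith [mul_nonneg (sq_nonneg b) hρ, sq_nonneg b]
  have q2 : a ^ 2 * ρ' ^ 2 + a ^ 2 * ρ' ≤ Z / 1000 := by
    nlinarith [mul_nonneg (sq_nonneg a) hρ', sq_nonneg a]
  have q3 : ρ + ρ' + ρ * ρ' ≤ Z / 1000 := by linarith
  have q4 : 0 ≤ b ^ 2 * ρ := by positivity
  have q5 : 0 ≤ a ^ 2 * ρ' := by positivity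
  have q6 : 0 ≤ b ^ 2 * ρ ^ 2 := by positivity
  have q7 : 0 ≤ a ^ 2 * ρ' ^ 2 := by positivity
  refine ⟨?_, ?_, by linarith⟩
  · rw [div_pow, sq_abs, div_le_iff₀ (by linarith)]
    refine (sq3_le _ _ _).trans (le_trans ?_ (mul_le_mul_of_nonneg_left hd2 hZ))
    simp only [mul_pow, sq_abs, Real.sq_sqrt hp]
    have := mul_le_mul_of_nonneg_right hs2 hp
    linarith
  · rw [div_le_iff₀ (by linarith)]
    refine le_trans ?_ (mul_le_mul_of_nonneg_left hd2 (by positivity))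
    have e1 : (b + s) ^ 2 ≤ 2 * b ^ 2 + 4 := by nlinarith [sq_nonneg (b - s)]
    have e2 : (s + a) ^ 2 ≤ 2 * a ^ 2 + 4 := by nlinarith [sq_nonneg (a - s)]
    have := mul_le_mul_of_nonneg_right e1 hρ
    have := mul_le_mul_of_nonneg_right e2 hρ'
    linarith

end Vc

theorem Two.Vc0 (h : Two g G G' bad) :
    E2 (fun α β => ind (adm g G G' bad α β) * G.De α β α ^ 2) ≤ 10 ^ 4 * G.Qv g / (g ^ 2 * mI ι) := by
  have o := h.one
  have hm := o.m_pos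
  have hg := o.g_pos
  have hs := o.symm
  have hm1 : 1 ≤ mI ι := by simpa using o.num.pow_le_m (k := 0) (by norm_num)
  set u : ι → ℝ := fun α => G.Y α α ^ 2 + G.a α ^ 2 with hu
  set v : ι → ℝ := fun β => 400 * G.a β ^ 2 + 5 + 200 * (g ^ 11 * √(mI ι)) * G.rho β +
    250 * (2 * g ^ 300) * (G.rho β ^ 2 + 1) with hv
  have p1 : g ^ 292 ≤ g ^ 300 := o.num.pow_mono (by norm_num)
  have p2 : g ^ 291 ≤ g ^ 300 := o.num.pow_mono (by norm_num)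
  have pt : ∀ α β, ind (adm g G G' bad α β) * G.De α β α ^ 2 ≤
      2000 * (1 / g) ^ 2 * G.f α ^ 2 + 400 * G.Y α β ^ 2 + 5 * (1 / mI ι) ^ 2 + u α * v β := by
    intro α β
    have := G.rho_nonneg β
    refine ind_mul_le (by simp only [hu, hv]; positivity) fun k => ?_
    have ok := k.2.1
    have c1 : G.Y α β ^ 2 ≤ 1 := by
      have := (o.ok_c ok).trans (o.inv_g_le.trans (by norm_num : _ ≤ (1 : ℝ)))
      rw [← sq_abs]; nlinarith [abs_nonneg (G.Y α β)]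
    have c2 := o.ok_g1_sq ok α
    have c3 := o.ok_g2_sq ok α
    rw [hs β α] at c2 c3
    have := Vc.scal (t := 1 / g) (i := 1 / mI ι) (g1 := G.g1 α β α) (g2 := G.g2 α β α) (f := G.f α)
      (ρ := G.rho α) (ρ' := G.rho β) (p := G.p α β) (s := s0 ι) (u := u α) (v := G.a β ^ 2)
      (c := G.Y α β) (K := 2 * g ^ 300) (R := g ^ 11 * √(mI ι)) (by positivity)
      (o.inv_g_le.trans (by norm_num)) (by positivity) ((div_le_one hm).2 hm1) rfl rfl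
      (by rw [mul_one_div]; exact o.ok_g1 ok)
      (by simp only [hu]; nlinarith [sq_nonneg (G.a α * G.a β)])
      (by simp only [hu]; nlinarith [sq_nonneg (G.a α)]) (by simp only [hu]; positivity)
      (by simp only [hu]; linarith [o.ymax α α, o.a_sq_le α]) (Gm.p_sq_le hs α β) (o.rmax α) this
    rw [Gm.De, Gm.p_diag hs, Gm.p_symm hs β α]
    exact this
  refine (E2_mono pt).trans ?_
  simp only [E2_add, E2_const_mul]
  rw [E2_left hm (fun α => G.f α ^ 2), E2_prod u v, E2_const hm, ← G.V_eq]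
  have hr : √(mI ι) ^ 2 = mI ι := Real.sq_sqrt hm.le
  have e1 : (∑ β, v β) / mI ι = 400 * ((∑ β, G.a β ^ 2) / mI ι) + 5 +
      200 * (g ^ 11 * √(mI ι)) * ((∑ β, G.rho β) / mI ι) + 250 * (2 * g ^ 300) * (G.r4 + 1) := by
    simp only [hv, sum_add_distrib, ← mul_sum, sum_const_mI, o.sum_rho_sq]
    field_simp
  have e2 : ∑ α, u α ≤ 2 * g ^ 300 := by
    simp only [hu, sum_add_distrib, ← G.D_eq]
    linarith [o.sum_a_sq, o.D_le_Dh, o.Dha]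
  have e3 : (∑ β, G.a β ^ 2) / mI ι ≤ g ^ 300 :=
    (div_le_self (sum_nonneg fun _ _ => sq_nonneg _) hm1).trans (by linarith [o.sum_a_sq, o.Dha])
  have hb : g ^ 400 * g ^ 300 ≤ √(mI ι) * √G.z := by
    rw [← pow_add]; exact (o.num.pow_mono (by norm_num)).trans (Vc.big o)
  have f1 := Vc.fin o.num.hg (Real.one_le_sqrt.2 hm1) hb e2 (o.E_rho.trans o.h_le_one) o.r4a e3
    (sum_nonneg fun _ _ => by simp only [hu]; positivity)
  rw [hr, ← e1] at f1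
  have f2 : E2 (fun α β => G.Y α β ^ 2) ≤ 1 / mI ι :=
    o.E_Y_sq.trans (div_le_div_of_nonneg_right o.h_le_one hm.le)
  have f3 : √G.z ≤ G.Qv g / (g ^ 2 * mI ι) := by
    rw [le_div_iff₀ (by positivity)]
    refine le_trans ?_ o.le_Qv
    have : g ^ 2 ≤ g ^ 10 := o.num.pow_mono (by norm_num)
    have := mul_le_mul_of_nonneg_right this (by positivity : 0 ≤ mI ι * √G.z)
    linarith
  have f4 : (1 / g) ^ 2 * (G.V / mI ι) ≤ G.Qv g / (g ^ 2 * mI ι) := by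
    have e : (1 / g) ^ 2 * (G.V / mI ι) = G.V / (g ^ 2 * mI ι) := by field_simp
    rw [e]
    exact div_le_div_of_nonneg_right o.V_le_Qv (by positivity)
  have f5 : 0 ≤ G.Qv g / (g ^ 2 * mI ι) := div_nonneg o.Qv_nonneg (by positivity)
  rw [mul_div_assoc (10 ^ 4 : ℝ)]
  linarith

theorem Two.Vc (h : Two g G G' bad) :
    E2 (fun α β => ww g G G' bad α β *
      (-(G.f α ^ 2 + G.f β ^ 2) - 2 * G.f α * G.De α β α - 2 * G.f β * G.De α β β)) ≤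
      -(2 * G.V / mI ι) + 1000 * bb g G G' * G.Qv g := by
  have o := h.one
  have hm := o.m_pos
  have hg := o.g_pos
  have hs := o.symm
  set T : ι → ι → ℝ := fun α β => ind (adm g G G' bad α β) * G.De α β α ^ 2 with hT
  have h1 : E2 T ≤ _ := h.Vc0
  have h2 := h.removal (u := fun α => G.f α ^ 2) fun _ => sq_nonneg _
  have one : ∀ α β, ww g G G' bad α β * -(2 * G.f α * G.De α β α) ≤
      200 / g * G.f α ^ 2 + g / 50 * T α β := by
    intro α β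
    have a1 : -(2 * G.f α * G.De α β α) ≤ 100 / g * G.f α ^ 2 + g / 100 * G.De α β α ^ 2 := by
      have e : 100 / g * G.f α ^ 2 + g / 100 * G.De α β α ^ 2 + 2 * G.f α * G.De α β α =
          100 / g * (G.f α + g / 100 * G.De α β α) ^ 2 := by field_simp; ring
      have : 0 ≤ 100 / g * (G.f α + g / 100 * G.De α β α) ^ 2 := by positivity
      linarith
    have a2 := mul_le_mul_of_nonneg_left a1 (h.ww_nonneg α β)
    have a3 := h.ww_mul_le_ind (α := α) (β := β) (s := g / 100 * G.De α β α ^ 2) (by positivity)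
    have a4 := mul_le_mul_of_nonneg_right (h.ww_le_two α β)
      (by positivity : 0 ≤ 100 / g * G.f α ^ 2)
    have e1 : 200 / g = 2 * (100 / g) := by ring
    simp only [hT, e1]
    linarith
  have pt : ∀ α β, ww g G G' bad α β *
      (-(G.f α ^ 2 + G.f β ^ 2) - 2 * G.f α * G.De α β α - 2 * G.f β * G.De α β β) ≤
      ww g G G' bad α β * -(G.f α ^ 2 + G.f β ^ 2) + (200 / g * G.f α ^ 2 + g / 50 * T α β) +
        (200 / g * G.f β ^ 2 + g / 50 * T β α) := by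
    intro α β
    have a1 := one α β
    have a2 := one β α
    rw [h.ww_symm α β, Vc.De_swap hs α β] at a2
    linarith
  refine (E2_mono pt).trans ?_
  simp only [E2_add, E2_const_mul]
  rw [E2_swap T, E2_left hm (fun α => G.f α ^ 2), E2_right hm (fun α => G.f α ^ 2), ← G.V_eq]
  rw [← G.V_eq] at h2
  have b0 : G.Qv g / (g * mI ι) ≤ bb g G G' * G.Qv g := by
    rw [div_eq_mul_one_div, mul_comm]
    exact mul_le_mul_of_nonneg_right h.le_bb o.Qv_nonneg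
  have b1 : g / 50 * E2 T ≤ 200 * (G.Qv g / (g * mI ι)) := by
    refine (mul_le_mul_of_nonneg_left h1 (by positivity)).trans (le_of_eq ?_)
    field_simp; ring
  have b2 : 200 / g * (G.V / mI ι) ≤ 200 * (G.Qv g / (g * mI ι)) := by
    have e : 200 / g * (G.V / mI ι) = 200 * (G.V / (g * mI ι)) := by field_simp
    rw [e]
    have := o.V_le_Qv
    gcongr
  have b3 := mul_le_mul_of_nonneg_left o.V_le_Qv h.bb_pos.le
  have b4 := mul_nonneg h.bb_pos.le o.Qv_nonneg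
  change _ + (_ + g / 50 * E2 T) + (_ + g / 50 * E2 T) ≤ _
  linarith

theorem Two.Vom (h : Two g G G' bad) :
    E2 (fun α β => ind (adm g G G' bad α β) *
      (16 * (√G.t4 + G.nU α β ^ 2) * G.om2 α β + 2 * mI ι * G.om2 α β ^ 2)) ≤
      bb g G G' * G.Qv g / (g * mI ι) := by
  have o := h.one
  have hm := o.m_pos
  have hg := o.g_pos
  have hZ := o.Z_pos
  have hz := o.z_pos
  have hl := o.l2_nonneg
  have hm1 : 1 ≤ mI ι := by simpa using o.num.pow_le_m (k := 0) (by norm_num)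
  set C := (16 * G.l2 + 18 * G.z) / mI ι * 8 with hC
  have pt : ∀ α β, ind (adm g G G' bad α β) *
      (16 * (√G.t4 + G.nU α β ^ 2) * G.om2 α β + 2 * mI ι * G.om2 α β ^ 2) ≤
      C * (G.rho α * (G.a β ^ 2 + 2)) + C * ((G.a α ^ 2 + 2) * G.rho β) := by
    intro α β
    have r1 := G.rho_nonneg α
    have r2 := G.rho_nonneg β
    refine ind_mul_le (by positivity) fun k => ?_
    have ok := k.2.1
    obtain ⟨a1, a2, a3⟩ := Vc.om (le_trans (by norm_num) o.num.hg) (Real.sq_sqrt hm.le)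
      (Real.sqrt_pos.2 hm) hZ.le o.Z_le r1 r2 (o.ok_dl ok).1 (o.ok_s ok) ok.1.2.1 ok.1.2.2.1
      ok.1.2.2.2
    change G.nU α β ^ 2 ≤ _ at a1
    set S := 8 * ((G.a β ^ 2 + 2) * G.rho α + (G.a α ^ 2 + 2) * G.rho β) with hS
    have b1 : G.om2 α β ≤ S / mI ι ^ 2 := by
      rw [Gm.om2, ← div_div]
      exact div_le_div_of_nonneg_right a2 (sq_nonneg _)
    have b0 : 0 ≤ G.om2 α β := by rw [Gm.om2]; positivity
    have b2 : mI ι * G.om2 α β ≤ G.Z := by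
      have c1 : G.om2 α β ≤ G.Z / mI ι ^ 2 :=
        b1.trans (div_le_div_of_nonneg_right a3 (sq_nonneg _))
      rw [le_div_iff₀ (by positivity)] at c1
      have : mI ι * G.om2 α β * 1 ≤ mI ι * G.om2 α β * mI ι :=
        mul_le_mul_of_nonneg_left hm1 (by positivity)
      linarith
    have b3 : 16 * (√G.t4 + G.nU α β ^ 2) * G.om2 α β + 2 * mI ι * G.om2 α β ^ 2 ≤
        (16 * (mI ι * G.l2) + 18 * G.Z) * G.om2 α β := by
      rw [o.sqrt_t4]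
      have := mul_le_mul_of_nonneg_right a1 b0
      have := mul_le_mul_of_nonneg_right b2 b0
      linarith
    refine b3.trans ((mul_le_mul_of_nonneg_left b1 (by positivity)).trans (le_of_eq ?_))
    rw [o.Z_eq_z, hC, hS]
    field_simp
  refine (E2_mono pt).trans ?_
  simp only [E2_add, E2_const_mul]
  rw [E2_prod G.rho (fun β => G.a β ^ 2 + 2), E2_prod (fun β => G.a β ^ 2 + 2) G.rho]
  have e1 : (∑ β, G.rho β) / mI ι ≤ 1 := o.E_rho.trans o.h_le_one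
  have e2 : (∑ β, (G.a β ^ 2 + 2)) / mI ι ≤ 3 := by
    rw [div_le_iff₀ hm, sum_add_distrib, sum_const_mI]
    have := o.num.pow_le_m (k := 291) (by norm_num)
    linarith [o.sum_a_sq, o.Dha]
  have e0 : 0 ≤ (∑ β, (G.a β ^ 2 + 2)) / mI ι := by positivity
  have e3 : (∑ β, G.rho β) / mI ι * ((∑ β, (G.a β ^ 2 + 2)) / mI ι) ≤ 1 * 3 :=
    mul_le_mul e1 e2 e0 (by norm_num)
  have hC0 : 0 ≤ C := by positivity
  have e4 := mul_le_mul_of_nonneg_left e3 hC0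
  have hsz : 0 < √G.z := Real.sqrt_pos.2 hz
  have hsq : √G.z ^ 2 = G.z := Real.sq_sqrt hz.le
  have y1 : 2000 * G.l2 / (g ^ 9 * √G.z) ≤ mI ι * bb g G G' := by
    apply h.young2
    have e : (2000 * G.l2 / (g ^ 9 * √G.z)) ^ 2 * G.z = 2000 ^ 2 / g ^ 18 * G.l2 ^ 2 := by
      rw [div_pow, mul_pow, mul_pow, hsq]; field_simp
    rw [e]
    refine mul_le_mul_of_nonneg_right ?_ (sq_nonneg _)
    rw [div_le_iff₀ (by positivity), ← pow_add]
    simpa using o.num.const_pow (c := 2000 ^ 2) (by norm_num) (j := 0) (k := 118 + 18) (by norm_num)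
  rw [div_le_iff₀ (by positivity)] at y1
  have y2 : 2000 * G.z ≤ mI ι * bb g G G' * (g ^ 9 * √G.z) := by
    have c1 : 1 / g ≤ mI ι * bb g G G' := by
      have := mul_le_mul_of_nonneg_left h.le_bb hm.le
      rwa [show mI ι * (1 / (g * mI ι)) = 1 / g by field_simp] at this
    have c2 : (2000 : ℝ) ≤ g ^ 8 := by
      simpa using o.num.const_pow (c := 2000) (by norm_num) (j := 0) (k := 8) (by norm_num)
    calc 2000 * G.z ≤ g ^ 8 * √G.z := mul_le_mul c2 o.z_le_sqrt hz.le (by positivity)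
      _ = 1 / g * (g ^ 9 * √G.z) := by field_simp
      _ ≤ _ := mul_le_mul_of_nonneg_right c1 (by positivity)
  have y3 : bb g G G' * (g ^ 9 * √G.z) ≤ bb g G G' * G.Qv g / (g * mI ι) := by
    rw [mul_div_assoc]
    refine mul_le_mul_of_nonneg_left ?_ h.bb_pos.le
    rw [le_div_iff₀ (by positivity)]
    linarith [o.le_Qv]
  have y4 : C * 6 ≤ bb g G G' * (g ^ 9 * √G.z) := by
    rw [hC, mul_assoc, div_mul_eq_mul_div, div_le_iff₀ hm]
    linarith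
  linarith

end Vale.Agent.P049
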