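import Vale.Agent.P049.Va
import Vale.Agent.P049.Vb
import Vale.Agent.P049.Vc
import Vale.Agent.P049.UpdC

namespace Vale.Agent.P049

open Finset

variable {ι : Type} [Fintype ι] [DecidableEq ι] {g : ℝ} {G G' : Gm ι} {bad : ι → ι → Bool}

theorem Two.uh (h : Two g G G' bad) {α β : ι} (k : adm g G G' bad α β) : UH G α β where
  sg := h.one.sg
  symm := h.one.symm
  row := h.one.row
  ne := h.adm_ne k
  dl := (h.one.ok_dl_pos k.2.1).ne'
  big := by
    have h1 := h.one.num.pow_le_m (k := 1) (by norm_num)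
    have h2 := h.one.num.hg
    rw [pow_one] at h1
    exact lt_of_lt_of_le (by norm_num) (h2.trans h1)

namespace Vlem

theorem pt {α β : ι} (u : UH G α β) {t : ℝ} (ht : 0 < t) :
    vS (rem univ α β) (G.up α β) - G.V ≤
      2 * ∑ μ, G.f μ * G.De α β μ + (1 + 2 * t) * ∑ μ, G.De α β μ ^ 2 +
      (-(G.f α ^ 2 + G.f β ^ 2) - 2 * G.f α * G.De α β α - 2 * G.f β * G.De α β β) + 2 * t * G.V +
      (1 + 1 / t) * (16 * (√G.t4 + G.nU α β ^ 2) * G.om2 α β + 2 * mI ι * G.om2 α β ^ 2) := by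
  have h1 : vS (rem univ α β) (G.up α β) ≤
      (1 + t) * ∑ μ ∈ rem univ α β, (G.f μ + G.De α β μ) ^ 2 + (1 + 1 / t) *
        ∑ μ ∈ rem univ α β, (rho (rem univ α β) (G.up α β) μ - G.rho μ - G.De α β μ) ^ 2 := by
    rw [vS, mul_sum, mul_sum, ← sum_add_distrib]
    refine sum_le_sum fun μ _ => ?_
    refine le_trans (le_of_eq ?_) (add_sq_le_t _ _ ht)
    rw [Gm.f]; ring
  have h2 := mul_le_mul_of_nonneg_left u.rho_up (by positivity : 0 ≤ 1 + 1 / t)
  have e1 : ∑ μ, (G.f μ + G.De α β μ) ^ 2 =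
      G.V + 2 * ∑ μ, G.f μ * G.De α β μ + ∑ μ, G.De α β μ ^ 2 := by
    rw [G.V_eq, mul_sum, ← sum_add_distrib, ← sum_add_distrib]
    exact sum_congr rfl fun μ _ => by ring
  have h3 : ∑ μ, (G.f μ + G.De α β μ) ^ 2 ≤ 2 * G.V + 2 * ∑ μ, G.De α β μ ^ 2 := by
    rw [G.V_eq, ← mul_add, ← sum_add_distrib, mul_sum]
    exact sum_le_sum fun μ _ => sq2_le _ _
  have h4 : ∑ μ ∈ rem univ α β, (G.f μ + G.De α β μ) ^ 2 ≤ ∑ μ, (G.f μ + G.De α β μ) ^ 2 :=
    sum_le_sum_of_subset_of_nonneg (subset_univ _) fun _ _ _ => sq_nonneg _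
  have h5 := mul_le_mul_of_nonneg_left (h4.trans h3) ht.le
  have e2 := sum_rem u.ne fun μ => (G.f μ + G.De α β μ) ^ 2
  rw [e1] at e2
  linarith [sq_nonneg (G.De α β α), sq_nonneg (G.De α β β)]

end Vlem

theorem Two.Vlem (h : Two g G G' bad) :
    E2 (fun α β => ww g G G' bad α β *
      (vS (rem univ α β) (G.up α β) - G.V + (1 + G.z) * G.V / mI ι)) ≤
      10 ^ 5 * bb g G G' * G.Qv g := by
  have o := h.one
  have hm := o.m_pos
  have hg := o.g_pos
  have hV := o.V_nonneg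
  have hz := o.z_pos
  have hz1 := o.z_le_one
  have hm1 : 1 ≤ mI ι := by simpa using o.num.pow_le_m (k := 0) (by norm_num)
  have hgm : 1 ≤ g * mI ι := one_le_mul_of_one_le_of_one_le o.num.one_le_g hm1
  set t := 1 / (g * mI ι) with ht
  have t0 : 0 < t := by positivity
  have t1 : t ≤ 1 := (div_le_one (by positivity)).2 hgm
  set A : ι → ι → ℝ := fun α β => ww g G G' bad α β * ∑ μ, G.f μ * G.De α β μ with hA
  set B : ι → ι → ℝ := fun α β => ww g G G' bad α β * ∑ μ, G.De α β μ ^ 2 with hB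
  set C : ι → ι → ℝ := fun α β => ww g G G' bad α β *
    (-(G.f α ^ 2 + G.f β ^ 2) - 2 * G.f α * G.De α β α - 2 * G.f β * G.De α β β) with hC
  set D : ι → ι → ℝ := fun α β => ind (adm g G G' bad α β) *
    (16 * (√G.t4 + G.nU α β ^ 2) * G.om2 α β + 2 * mI ι * G.om2 α β ^ 2) with hD
  have h1 : E2 A ≤ _ := h.Va
  have h2 : E2 B ≤ _ := h.Vb
  have h3 : E2 C ≤ _ := h.Vc
  have h4 : E2 D ≤ _ := h.Vom
  have pt : ∀ α β, ww g G G' bad α β *
      (vS (rem univ α β) (G.up α β) - G.V + (1 + G.z) * G.V / mI ι) ≤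
      2 * A α β + (1 + 2 * t) * B α β + C α β + 2 * (1 + 1 / t) * D α β +
        (4 * t * G.V + (1 + 4 / g) * ((1 + G.z) * G.V / mI ι)) := by
    intro α β
    have a0 : 0 ≤ G.om2 α β := by
      have := G.rho_nonneg α
      have := G.rho_nonneg β
      rw [Gm.om2]; positivity
    have a1 := h.ww_mul_le fun k : adm g G G' bad α β => Vlem.pt (h.uh k) t0
    have a2 := mul_le_mul_of_nonneg_left (h.ww_mul_le_ind (α := α) (β := β)
      (s := 16 * (√G.t4 + G.nU α β ^ 2) * G.om2 α β + 2 * mI ι * G.om2 α β ^ 2) (by positivity))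
      (by positivity : 0 ≤ 1 + 1 / t)
    have a3 := mul_le_mul_of_nonneg_right (h.ww_le_two α β) (by positivity : 0 ≤ 2 * t * G.V)
    have a4 := mul_le_mul_of_nonneg_right (h.ww_le α β)
      (by positivity : 0 ≤ (1 + G.z) * G.V / mI ι)
    simp only [hA, hB, hC, hD]
    linarith
  refine (E2_mono pt).trans ?_
  simp only [E2_add, E2_const_mul, E2_const hm]
  change 2 * E2 A + (1 + 2 * t) * E2 B + E2 C + 2 * (1 + 1 / t) * E2 D + _ ≤ _
  set X := bb g G G' * G.Qv g with hX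
  have x0 : 0 ≤ X := mul_nonneg h.bb_pos.le o.Qv_nonneg
  have b0 : t * G.V ≤ X := mul_le_mul h.le_bb o.V_le_Qv hV h.bb_pos.le
  have b1 : 2 * (1 + 1 / t) * E2 D ≤ 4 * X := by
    refine (mul_le_mul_of_nonneg_left h4 (by positivity)).trans ?_
    have e : 2 * (1 + 1 / t) * (X / (g * mI ι)) = 2 * (t * X) + 2 * X := by
      rw [ht]; field_simp
    rw [e]
    linarith [mul_le_mul_of_nonneg_right t1 x0]
  have b2 : (1 - G.z) * G.V / mI ι ≤ G.V :=
    (div_le_self (mul_nonneg (by linarith) hV) hm1).trans (by nlinarith)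
  have b3 : t * E2 B ≤ 1001 * X := by
    have c1 := mul_le_mul_of_nonneg_left h2 t0.le
    have c2 := mul_le_mul_of_nonneg_left b2 t0.le
    have c3 := mul_le_mul_of_nonneg_right t1 x0
    linarith
  have b4 : 4 / g * ((1 + G.z) * G.V / mI ι) ≤ 8 * X := by
    have e : 4 / g * ((1 + G.z) * G.V / mI ι) = 4 * ((1 + G.z) * (t * G.V)) := by
      rw [ht]; field_simp
    rw [e]
    have := mul_le_mul_of_nonneg_right (by linarith : 1 + G.z ≤ 2) (by positivity : 0 ≤ t * G.V)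
    linarith
  have e1 : (1 - G.z) * G.V / mI ι + (1 + G.z) * G.V / mI ι = 2 * G.V / mI ι := by ring
  linarith

end Vale.Agent.P049
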