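import Vale.Agent.P049.Da
import Vale.Agent.P049.Db
import Vale.Agent.P049.Vlem

set_option linter.unusedSectionVars false
set_option maxRecDepth 100000

namespace Vale.Agent.P049

open Finset

variable {ι : Type} [Fintype ι] [DecidableEq ι] {g : ℝ} {G G' : Gm ι} {bad : ι → ι → Bool}

namespace Dlem

theorem m_big (h : One g G) : 4 ≤ mI ι :=
  le_trans (le_trans (by norm_num) h.num.hg) (by simpa using h.num.pow_le_m (k := 1) (by norm_num))

theorem rr_sq (h : One g G) {α β : ι} (k : G.ok g α β) : ∑ μ, G.rr α β μ ^ 2 ≤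
    10 / mI ι ^ 2 * (G.rho α * (1 + G.a β ^ 2) + (1 + G.a α ^ 2) * G.rho β) := by
  rw [G.rho_eq, G.rho_eq, sum_mul, mul_sum _ _ (1 + _), ← sum_add_distrib, mul_sum]
  refine sum_le_sum fun μ _ => ?_
  rw [Gm.rr, div_pow, mul_pow, neg_sq, h.sg_sq, one_mul, div_mul_eq_mul_div]
  refine div_le_div_of_nonneg_right ?_ (sq_nonneg _)
  linarith [sq2_le (G.g1 α β μ) (G.g2 α β μ), h.ok_g1_sq k μ, h.ok_g2_sq k μ]

theorem g_sq (h : One g G) {α β : ι} (k : G.ok g α β) (μ : ι) :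
    (G.g1 α β μ + G.g2 α β μ) ^ 2 ≤ 40 * g ^ 583 := by
  have g0 := h.g_pos
  have c1 := mul_le_mul (h.a_sq_le β) (h.ymax α μ) (sq_nonneg _) (by positivity)
  have c2 := mul_le_mul (h.a_sq_le α) (h.ymax β μ) (sq_nonneg _) (by positivity)
  rw [← pow_add, show 291 + 292 = 583 from rfl] at c1 c2
  have c3 := h.num.pow_mono (show 292 ≤ 583 by norm_num)
  linarith [sq2_le (G.g1 α β μ) (G.g2 α β μ), h.ok_g1_sq k μ, h.ok_g2_sq k μ, h.ymax α μ,
    h.ymax β μ]

theorem rb_sq (h : One g G) {α β : ι} (k : G.ok g α β) :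
    mI ι * G.rb α β ^ 2 ≤ h2I g ι / mI ι ^ 2 := by
  have m4 := m_big h
  have g0 := h.g_pos
  have c1 : (G.g1 α β α + G.g2 α β α + G.g1 α β β + G.g2 α β β) ^ 2 ≤ mI ι * h2I g ι / 4 := by
    have := (h.num.const_pow (c := 640) (by norm_num) (show 583 < 2000 by norm_num)).trans h.num.Fh2
    rw [add_assoc]
    unfold h2I
    linarith [sq2_le (G.g1 α β α + G.g2 α β α) (G.g1 α β β + G.g2 α β β), g_sq h k α, g_sq h k β]
  have u := h.h2_pos
  rw [Gm.rb, div_pow, mul_pow, h.sg_sq, one_mul]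
  calc _ ≤ mI ι * (mI ι * h2I g ι / 4 / (mI ι * (mI ι / 2)) ^ 2) := by
        gcongr
        linarith
    _ = _ := by field_simp; ring

end Dlem

open Da Dlem in
theorem Two.Dchi (h : Two g G G' bad) :
    E2 (fun α β => ind (adm g G G' bad α β) * ∑ μ, (G.rb α β - 2 * G.rr α β μ) ^ 2) ≤
      bb g G G' * G.Qd g / (g * mI ι) := by
  have o := h.one
  have m0 := o.m_pos
  have g0 := o.g_pos
  have u := o.h2_pos
  have h1 : E2 (fun α β => ind (adm g G G' bad α β) * ∑ μ, (G.rb α β - 2 * G.rr α β μ) ^ 2) ≤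
      E2 fun α β => 2 * (h2I g ι / mI ι ^ 2) +
        80 / mI ι ^ 2 * (G.rho α * (1 + G.a β ^ 2) + (1 + G.a α ^ 2) * G.rho β) :=
    E2_mono fun α β => ind_mul_le
      (by have := G.rho_nonneg α; have := G.rho_nonneg β; positivity) fun k => by
        have c1 : ∑ μ, (G.rb α β - 2 * G.rr α β μ) ^ 2 ≤
            ∑ μ, (2 * G.rb α β ^ 2 + 8 * G.rr α β μ ^ 2) :=
          sum_le_sum fun μ _ => by nlinarith [sq_nonneg (G.rb α β + 2 * G.rr α β μ)]
        rw [sum_add_distrib, sum_const_mI, ← mul_sum] at c1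
        have c2 := rr_sq o k.2.1
        have c3 := rb_sq o k.2.1
        rw [show 80 / mI ι ^ 2 = 8 * (10 / mI ι ^ 2) by ring]
        linarith
  rw [E2_add, E2_const m0, E2_const_mul, E2_add, E2_prod, E2_prod] at h1
  have h2 : (∑ α, (1 + G.a α ^ 2)) / mI ι ≤ 2 := by
    rw [sum_add_distrib, sum_const_mI, div_le_iff₀ m0]
    linarith [o.sum_a_sq, o.Dha, o.num.pow_le_m (k := 291) (by norm_num)]
  have h3 := mul_le_mul (o.E_rho.trans o.num.h_le_h2) h2 (by positivity) o.num.h2_pos.le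
  have h4 := le_bQ h (x := 322 * g ^ 2 * h2I g ι) (le_trans (mul_le_mul_of_nonneg_right
    (o.num.const_pow (by norm_num) (by norm_num)) u.le) (h2_le o))
  refine h1.trans (le_trans ?_ (div_le_div_of_nonneg_right h4 (by positivity)))
  rw [show 322 * g ^ 2 * h2I g ι / (g * mI ι) / (g * mI ι) =
    2 * (h2I g ι / mI ι ^ 2) + 80 / mI ι ^ 2 * (h2I g ι * 2 + h2I g ι * 2) by field_simp; ring,
    mul_comm ((∑ α, (1 + G.a α ^ 2)) / mI ι)]
  exact add_le_add le_rfl (mul_le_mul_of_nonneg_left (add_le_add h3 h3) (by positivity))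

open Da Dlem in
theorem Two.Dlem (h : Two g G G' bad) :
    E2 (fun α β => ww g G G' bad α β *
      (dS (rem univ α β) (G.up α β) - G.D + 2 * (1 - h2I g ι) * G.D / mI ι)) ≤
      10 ^ 5 * bb g G G' * G.Qd g := by
  have o := h.one
  have m0 := o.m_pos
  have g0 := o.g_pos
  have m4 := m_big o
  have g1 := o.num.one_le_g
  have u0 := o.h2_pos
  have u1 : h2I g ι ≤ 1 := o.num.h2_le_one
  have d0 := o.D_nonneg
  have t0 : 0 < 1 / (g * mI ι) := by positivity
  have t1 : 1 / (g * mI ι) ≤ 1 / 4 := one_div_le_one_div_of_le (by norm_num) (by nlinarith)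
  have c0 : 0 ≤ 2 * (G.D / (g * mI ι)) + 2 * (1 - h2I g ι) * G.D / mI ι := by
    have := sub_nonneg.2 u1; positivity
  have h1 : E2 (fun α β => ww g G G' bad α β *
      (dS (rem univ α β) (G.up α β) - G.D + 2 * (1 - h2I g ι) * G.D / mI ι)) ≤ E2 fun α β =>
      2 * (ww g G G' bad α β * ∑ μ, G.Y μ μ * G.dd α β μ) +
      (1 + 2 * (1 / (g * mI ι))) * (ww g G G' bad α β * ∑ μ, G.dd α β μ ^ 2) +
      ww g G G' bad α β * (-(G.Y α α ^ 2 + G.Y β β ^ 2) -
        2 * G.Y α α * G.dd α β α - 2 * G.Y β β * G.dd α β β) +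
      ww g G G' bad α β * (2 * (G.D / (g * mI ι)) + 2 * (1 - h2I g ι) * G.D / mI ι) +
      2 * (1 + g * mI ι) *
        (ind (adm g G G' bad α β) * ∑ μ, (G.rb α β - 2 * G.rr α β μ) ^ 2) := E2_mono fun α β => by
    have c1 := mul_le_mul_of_nonneg_left (h.ww_mul_le_ind (α := α) (β := β)
      (sum_nonneg (s := univ) fun μ _ => sq_nonneg (G.rb α β - 2 * G.rr α β μ)))
      (show 0 ≤ 1 + g * mI ι by positivity)
    refine (h.ww_mul_le (t := 2 * ∑ μ, G.Y μ μ * G.dd α β μ +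
      (1 + 2 * (1 / (g * mI ι))) * ∑ μ, G.dd α β μ ^ 2 + (-(G.Y α α ^ 2 + G.Y β β ^ 2) -
        2 * G.Y α α * G.dd α β α - 2 * G.Y β β * G.dd α β β) +
      (2 * (G.D / (g * mI ι)) + 2 * (1 - h2I g ι) * G.D / mI ι) +
      (1 + g * mI ι) * ∑ μ, (G.rb α β - 2 * G.rr α β μ) ^ 2) fun k => ?_).trans (by linarith)
    have c2 : dS (rem univ α β) (G.up α β) ≤
        (1 + 1 / (g * mI ι)) * ∑ μ ∈ rem univ α β, (G.Y μ μ + G.dd α β μ) ^ 2 +
        (1 + g * mI ι) * ∑ μ ∈ rem univ α β, (G.rb α β - 2 * G.rr α β μ) ^ 2 := by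
      rw [dS, mul_sum, mul_sum, ← sum_add_distrib]
      refine sum_le_sum fun μ _ => ?_
      have := add_sq_le_t (G.Y μ μ + G.dd α β μ) (G.rb α β - 2 * G.rr α β μ) t0
      rw [one_div_one_div] at this
      rw [(h.uh k).up_diag]
      exact le_trans (le_of_eq (by ring)) this
    have c3 := mul_le_mul_of_nonneg_left (sum_le_sum_of_subset_of_nonneg (subset_univ (rem univ α β))
      fun μ _ _ => sq_nonneg (G.rb α β - 2 * G.rr α β μ)) (show 0 ≤ 1 + g * mI ι by positivity)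
    have c4 := sum_rem (h.adm_ne k) fun μ => (G.Y μ μ + G.dd α β μ) ^ 2
    have c5 : ∑ μ, (G.Y μ μ + G.dd α β μ) ^ 2 =
        G.D + 2 * ∑ μ, G.Y μ μ * G.dd α β μ + ∑ μ, G.dd α β μ ^ 2 := by
      rw [G.D_eq, mul_sum, ← sum_add_distrib, ← sum_add_distrib]
      exact sum_congr rfl fun μ _ => by ring
    have c6 : ∑ μ ∈ rem univ α β, (G.Y μ μ + G.dd α β μ) ^ 2 ≤ 2 * (G.D + ∑ μ, G.dd α β μ ^ 2) := by
      refine (sum_le_sum_of_subset_of_nonneg (subset_univ _) fun μ _ _ => sq_nonneg _).trans ?_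
      rw [G.D_eq, ← sum_add_distrib, mul_sum]
      exact sum_le_sum fun μ _ => sq2_le _ _
    have c7 := mul_le_mul_of_nonneg_left c6 t0.le
    rw [div_eq_mul_one_div G.D (g * mI ι)]
    nlinarith [sq_nonneg (G.dd α β α), sq_nonneg (G.dd α β β)]
  rw [E2_add, E2_add, E2_add, E2_add, E2_const_mul, E2_const_mul, E2_const_mul] at h1
  have b1 := le_bQ h (D_le o)
  have p := mul_pos h.bb_pos (Q_pos o)
  have h2 := mul_le_mul_of_nonneg_left h.Db (show 0 ≤ 1 + 2 * (1 / (g * mI ι)) by positivity)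
  have h3 := mul_le_mul_of_nonneg_left h.Dchi (show 0 ≤ 2 * (1 + g * mI ι) by positivity)
  rw [show 2 * (1 + g * mI ι) * (bb g G G' * G.Qd g / (g * mI ι)) =
    2 * (1 + 1 / (g * mI ι)) * (bb g G G' * G.Qd g) by field_simp; ring] at h3
  have h4 := h.E_ww_le c0
  have h5 : 4 * (mI ι * bb g G G') * (2 * (G.D / (g * mI ι)) + 2 * (1 - h2I g ι) * G.D / mI ι) ≤
      16 * (bb g G G' * G.Qd g) := by
    rw [show 4 * (mI ι * bb g G G') * (2 * (G.D / (g * mI ι)) + 2 * (1 - h2I g ι) * G.D / mI ι) =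
      8 * (bb g G G' * (G.D / g + (1 - h2I g ι) * G.D)) by field_simp; ring]
    have c1 := div_le_self d0 g1
    have c2 : G.D / g + (1 - h2I g ι) * G.D ≤ 2 * G.Qd g := by nlinarith [D_le o]
    linarith [mul_le_mul_of_nonneg_left c2 h.bb_pos.le]
  have h6 : 1 / (g * mI ι) * (2 * h2I g ι * G.D / mI ι) ≤ G.D / (g * mI ι) := by
    rw [one_div_mul_eq_div]
    refine div_le_div_of_nonneg_right ?_ (by positivity)
    rw [div_le_iff₀ m0]
    nlinarith
  have h7 := mul_le_mul_of_nonneg_right t1 p.le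
  have e : 2 * (1 - h2I g ι) * G.D / mI ι = 2 * G.D / mI ι - 2 * h2I g ι * G.D / mI ι := by ring
  nlinarith [h.Da, h.Dc]

end Vale.Agent.P049
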