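import Vale.Agent.P049.ToolP

namespace Vale.Agent.P049

open Finset

variable {ι : Type} [Fintype ι] [DecidableEq ι] {g : ℝ} {G G' : Gm ι} {bad : ι → ι → Bool}

namespace ZA

theorem amul {x y k q : ℝ} (hx : |x| ≤ k) (hy : |y| ≤ q) : |x * y| ≤ k * q := by
  rw [abs_mul]; exact mul_le_mul hx hy (abs_nonneg _) ((abs_nonneg _).trans hx)

theorem div_bd {x d B : ℝ} (hd : 3 / 4 ≤ d) (hB : 0 ≤ B) (h : x ≤ B) : x / d ≤ 4 / 3 * B := by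
  rw [div_le_iff₀ (by linarith)]; nlinarith

theorem six {x1 x2 x3 x4 x5 x6 t s d : ℝ} (t0 : 0 ≤ t) (t1 : t ≤ 1) (hs : s ^ 2 ≤ 121 / 100)
    (hd : 3 / 4 ≤ d) : ((x1 + x2 - t * (x3 + x4) - 2 * x5 + 2 * s * x6) / d) ^ 2 ≤
      100 * (x1 ^ 2 + x2 ^ 2 + x3 ^ 2 + x4 ^ 2 + x5 ^ 2 + x6 ^ 2) := by
  have h0 : ∀ a b c d e f : ℝ, (a + b + c + d + e + f) ^ 2 ≤
      6 * (a ^ 2 + b ^ 2 + c ^ 2 + d ^ 2 + e ^ 2 + f ^ 2) := fun a b c d e f => by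
    nlinarith [sq_nonneg (a - b), sq_nonneg (a - c), sq_nonneg (a - d), sq_nonneg (a - e),
      sq_nonneg (a - f), sq_nonneg (b - c), sq_nonneg (b - d), sq_nonneg (b - e), sq_nonneg (b - f),
      sq_nonneg (c - d), sq_nonneg (c - e), sq_nonneg (c - f), sq_nonneg (d - e), sq_nonneg (d - f),
      sq_nonneg (e - f)]
  have h1 := h0 x1 x2 (-(t * x3)) (-(t * x4)) (-(2 * x5)) (2 * s * x6)
  have tt : t ^ 2 ≤ 1 := pow_le_one₀ t0 t1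
  have h3 := mul_le_mul_of_nonneg_right tt (sq_nonneg x3)
  have h4 := mul_le_mul_of_nonneg_right tt (sq_nonneg x4)
  have h6 := mul_le_mul_of_nonneg_right hs (sq_nonneg x6)
  have h7 : (x1 + x2 - t * (x3 + x4) - 2 * x5 + 2 * s * x6) ^ 2 ≤
      30 * (x1 ^ 2 + x2 ^ 2 + x3 ^ 2 + x4 ^ 2 + x5 ^ 2 + x6 ^ 2) := by
    nlinarith [sq_nonneg x1, sq_nonneg x2, sq_nonneg x3, sq_nonneg x4, sq_nonneg x5, sq_nonneg x6]
  have d2 : 9 / 16 ≤ d ^ 2 := by nlinarith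
  have W0 : 0 ≤ x1 ^ 2 + x2 ^ 2 + x3 ^ 2 + x4 ^ 2 + x5 ^ 2 + x6 ^ 2 := by positivity
  rw [div_pow, div_le_iff₀ (by linarith)]
  nlinarith

theorem s0_bd (h : One g G) : 1 / 2 ≤ s0 ι ∧ s0 ι ≤ 1 := by
  have h1 := h.inv_m_le.trans h.inv_g_le
  have h2 : 0 < 1 / mI ι := one_div_pos.2 h.m_pos
  unfold s0
  constructor <;> linarith

theorem big (h : One g G) : g ^ 584 ≤ G.Z / g := by
  rw [le_div_iff₀ h.g_pos, ← pow_succ]
  exact (h.num.pow_mono (by norm_num)).trans h.Z_big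

theorem one_le (h : One g G) : 1 ≤ G.Z / g := (one_le_pow₀ h.num.one_le_g).trans (big h)

theorem ysq (h : One g G) (i j : ι) : G.Y i j ^ 2 ≤ G.Z / g :=
  (h.ymax i j).trans ((h.num.pow_mono (by norm_num)).trans (big h))

theorem psq (h : One g G) {α β : ι} (k : G.ok g α β) : G.p α β ^ 2 ≤ G.Z / g := by
  have := G.rho_nonneg α
  have := G.rho_nonneg β
  nlinarith [Gm.p_sq_le h.symm α β, k.1.2.1]

theorem bm (h : One g G) {α β : ι} (k : G.ok g α β) :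
    G.a β ^ 2 * G.rho α ^ 2 * mI ι ≤ (G.Z / g) ^ 2 := by
  have r0 := G.rho_nonneg α
  have h1 : |G.a β| * √(mI ι) * G.rho α ≤ G.Z / g :=
    le_trans (by gcongr; linarith) k.1.2.2.1
  have h2 := pow_le_pow_left₀ (by positivity) h1 2
  rw [mul_pow, mul_pow, sq_abs, Real.sq_sqrt h.m_pos.le] at h2
  linarith

theorem brho (h : One g G) {α β : ι} (k : G.ok g α β) : G.a β ^ 2 * G.rho α ^ 2 ≤ G.Z / g := by
  have h1 : G.Z / g ≤ mI ι := (div_le_self h.Z_pos.le h.num.one_le_g).trans h.Z_le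
  have h2 := one_le h
  refine le_of_mul_le_mul_right ((bm h k).trans ?_) h.m_pos
  rw [sq]; gcongr

theorem br (h : One g G) {α β : ι} (k : G.ok g α β) :
    G.a β ^ 2 * G.r α α ^ 2 ≤ (G.Z / g) ^ 2 := by
  refine le_trans ?_ (bm h k)
  have h1 := Gm.r_sq_le h.symm α α
  have h2 := mul_le_mul_of_nonneg_right h.sqrt_t4_le_m (mul_self_nonneg (G.rho α))
  rw [mul_assoc]
  gcongr
  nlinarith

theorem Gt_bd (h : One g G) (α β : ι) :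
    |G.Gt α β - 1| ≤ 2 * G.rho α + 2 * G.rho β + 4 * (G.rho α * G.rho β) := by
  have r1 := G.rho_nonneg α
  have r2 := G.rho_nonneg β
  have s1 := (s0_bd h).1
  have q : ∀ x : ℝ, 0 ≤ x → 0 ≤ x / s0 ι ∧ x / s0 ι ≤ 2 * x := fun x hx =>
    ⟨by positivity, by rw [div_le_iff₀ (by linarith)]; nlinarith⟩
  obtain ⟨a1, a2⟩ := q _ r1
  obtain ⟨b1, b2⟩ := q _ r2
  have c1 := mul_le_mul a2 b2 b1 (by linarith)
  have c2 := mul_nonneg a1 b1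
  have c3 := mul_nonneg r1 r2
  unfold Gm.Gt
  rw [abs_le]; constructor <;> nlinarith

theorem Gt_ok (h : One g G) {α β : ι} (k : G.ok g α β) : |G.Gt α β - 1| ≤ 4 * (G.Z / g) := by
  nlinarith [Gt_bd h α β, k.1.2.1, G.rho_nonneg α, G.rho_nonneg β]

theorem c_one (h : One g G) {α β : ι} (k : G.ok g α β) :
    |G.Y α β| ≤ 1 ∧ |G.a α * G.a β| ≤ 1 := by
  have := h.inv_g_le
  constructor <;> linarith [h.ok_c k, k.1.1]

theorem num_le {t σ c T A u v p m : ℝ} (t0 : 0 ≤ t) (t1 : t ≤ 1) (hσ : |σ| = 1) (hc : |c| ≤ 1) :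
    4 * t * (σ * c) * T + c ^ 2 * (4 - 2 * (T + 1)) + 2 * T * A - 2 * u * v - 2 * p ^ 2 - 4 * p / m ≤
      6 * ((|c| + |A|) * |T| + c ^ 2 + u ^ 2 + v ^ 2 + 1 / m ^ 2) := by
  have h1 : |t * σ * (c * T)| ≤ 1 * (|c| * |T|) :=
    amul (by rw [abs_mul, hσ, mul_one, abs_of_nonneg t0]; exact t1) (abs_mul _ _).le
  have h2 : |c * (c * T)| ≤ 1 * (|c| * |T|) := amul hc (abs_mul _ _).le
  have h3 : |A * T| ≤ |A| * |T| := (abs_mul _ _).le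
  have h4 : 1 / m ^ 2 = (1 / m) ^ 2 := by rw [div_pow, one_pow]
  have h5 : 4 * p / m = 4 * p * (1 / m) := by ring
  have h6 : 0 ≤ |A| * |T| := by positivity
  rw [h4, h5]
  nlinarith [abs_le.1 h1, abs_le.1 h2, abs_le.1 h3, sq_nonneg (u + v), sq_nonneg (p + 1 / m),
    sq_nonneg c, sq_nonneg u, sq_nonneg v, sq_nonneg (1 / m)]

theorem num_abs {t σ c T A u v p m s r x y q : ℝ} (t0 : 0 ≤ t) (t1 : t ≤ 1) (hσ : |σ| = 1)
    (hc : |c| ≤ 1) (hA : |A| ≤ 1) (hs : |s| ≤ 11 / 10) (qT : |T| ≤ q) (qc : |c| ≤ q)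
    (quv : |u * v| ≤ q) (qp : p ^ 2 ≤ q) (qpm : |p / m| ≤ q) (qr : |r| ≤ q) (qx : |x| ≤ q)
    (qy : |y| ≤ q) :
    |4 * t * (σ * c) * T + c ^ 2 * (4 - 2 * (T + 1)) + 2 * T * A - 2 * u * v - 2 * p ^ 2 -
      4 * p / m + 4 * s * r + 2 * (x + y)| ≤ 30 * q := by
  have h0 : |c * T| ≤ 1 * q := amul hc qT
  have h1 : |t * σ * (c * T)| ≤ 1 * (1 * q) :=
    amul (by rw [abs_mul, hσ, mul_one, abs_of_nonneg t0]; exact t1) h0
  have h2 : |c * (c * T)| ≤ 1 * (1 * q) := amul hc h0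
  have h3 : |A * T| ≤ 1 * q := amul hA qT
  have h4 : |c * c| ≤ 1 * q := amul hc qc
  have h5 : |s * r| ≤ 11 / 10 * q := amul hs qr
  have e : 4 * t * (σ * c) * T + c ^ 2 * (4 - 2 * (T + 1)) + 2 * T * A - 2 * u * v - 2 * p ^ 2 -
      4 * p / m + 4 * s * r + 2 * (x + y) = 4 * (t * σ * (c * T)) + 2 * (c * c) - 2 * (c * (c * T)) +
      2 * (A * T) - 2 * (u * v) - 2 * p ^ 2 - 4 * (p / m) + 4 * (s * r) + 2 * x + 2 * y := by ring
  have p0 := sq_nonneg p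
  rw [abs_le] at h1 h2 h3 h4 h5 quv qpm qx qy
  rw [e, abs_le]
  constructor <;> linarith [h1.1, h1.2, h2.1, h2.2, h3.1, h3.2, h4.1, h4.2, h5.1, h5.2, quv.1, quv.2,
    qpm.1, qpm.2, qx.1, qx.2, qy.1, qy.2]

end ZA

namespace One

variable (h : One g G) {α β : ι} (k : G.ok g α β)
include h k

theorem yy_sq : G.yy α β ^ 2 ≤ 100 * G.Wy α β := by
  have := ZA.six (x1 := G.a β * G.rho α) (x2 := G.a α * G.rho β) (x3 := G.Y α α) (x4 := G.Y β β)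
    (x5 := G.Y α β / mI ι) (x6 := G.p α β) (by linarith [(ZA.s0_bd h).1]) (ZA.s0_bd h).2
    (h.ok_s_sq k) (h.ok_dl k).1
  rw [mul_pow, mul_pow, div_pow _ (mI ι), ← mul_div_assoc] at this
  exact this

theorem Wy_le : G.Wy α β ≤ 6 * (G.Z / g) := by
  have m1 : 1 ≤ mI ι ^ 2 := one_le_pow₀ (by simpa using h.num.pow_le_m (k := 0) (by norm_num))
  have h1 := (div_le_self (sq_nonneg (G.Y α β)) m1).trans (ZA.ysq h α β)
  unfold Gm.Wy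
  linarith [ZA.brho h k, ZA.brho h (h.ok_symm k), ZA.ysq h α α, ZA.ysq h β β, ZA.psq h k]

theorem xx_le : G.xx α β + 2 - 2 * G.Gt α β ≤
    4 * (G.s α β / G.dl α β * G.r α β) + 2 * (G.a β * G.r α α / G.dl α β) +
      2 * (G.a α * G.r β β / G.dl α β) + 100 * G.Wy α β +
      20 * ((|G.Y α β| + |G.a α * G.a β|) * |G.Gt α β - 1| + G.Y α β ^ 2 + G.Y α α ^ 2 +
        G.Y β β ^ 2 + 1 / mI ι ^ 2) := by
  have h1 := ZA.num_le (T := G.Gt α β - 1) (A := G.a α * G.a β) (u := G.Y α α) (v := G.Y β β)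
    (p := G.p α β) (m := mI ι) (by linarith [(ZA.s0_bd h).1]) (ZA.s0_bd h).2 h.abs_sg
    (ZA.c_one h k).1
  have B0 : 0 ≤ (|G.Y α β| + |G.a α * G.a β|) * |G.Gt α β - 1| + G.Y α β ^ 2 + G.Y α α ^ 2 +
      G.Y β β ^ 2 + 1 / mI ι ^ 2 := by positivity
  have h2 := ZA.div_bd (h.ok_dl k).1 (by linarith) h1
  have h3 := h.yy_sq k
  have e : G.xx α β + 2 - 2 * G.Gt α β = G.yy α β ^ 2 +
      (4 * s0 ι * (G.sg * G.Y α β) * (G.Gt α β - 1) + G.Y α β ^ 2 * (4 - 2 * (G.Gt α β - 1 + 1)) +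
        2 * (G.Gt α β - 1) * (G.a α * G.a β) - 2 * G.Y α α * G.Y β β - 2 * G.p α β ^ 2 -
        4 * G.p α β / mI ι) / G.dl α β + (4 * (G.s α β / G.dl α β * G.r α β) +
        2 * (G.a β * G.r α α / G.dl α β) + 2 * (G.a α * G.r β β / G.dl α β)) := by
    unfold Gm.xx; ring
  rw [e]
  linarith

theorem xx_sq : G.xx α β ^ 2 ≤ 10 ^ 6 * ((G.Gt α β - 1) ^ 2 + G.Z / g * G.Wy α β + G.Y α β ^ 2 +
    G.Y α α ^ 2 * G.Y β β ^ 2 + G.r α β ^ 2 + G.a β ^ 2 * G.r α α ^ 2 +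
      G.a α ^ 2 * G.r β β ^ 2) := by
  have z1 := ZA.one_le h
  have Wp : G.p α β ^ 2 ≤ G.Wy α β := le_add_of_nonneg_left (by positivity)
  have W0 : 0 ≤ G.Wy α β := (sq_nonneg _).trans Wp
  have a1 := sq_nonneg (G.Gt α β - 1)
  have a2 : 0 ≤ G.Z / g * G.Wy α β := by positivity
  have a3 := sq_nonneg (G.Y α β)
  have a4 : 0 ≤ G.Y α α ^ 2 * G.Y β β ^ 2 := by positivity
  have a5 := sq_nonneg (G.r α β)
  have a6 : 0 ≤ G.a β ^ 2 * G.r α α ^ 2 := by positivity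
  have a7 : 0 ≤ G.a α ^ 2 * G.r β β ^ 2 := by positivity
  obtain ⟨Q, hQ⟩ : ∃ Q, Q = (G.Gt α β - 1) ^ 2 + G.Z / g * G.Wy α β + G.Y α β ^ 2 +
    G.Y α α ^ 2 * G.Y β β ^ 2 + G.r α β ^ 2 + G.a β ^ 2 * G.r α α ^ 2 +
      G.a α ^ 2 * G.r β β ^ 2 := ⟨_, rfl⟩
  rw [← hQ]
  have Q0 : 0 ≤ Q := by linarith
  have q0 := Real.sqrt_nonneg Q
  have m1 : 1 ≤ mI ι ^ 2 := one_le_pow₀ (by simpa using h.num.pow_le_m (k := 0) (by norm_num))
  have b1 : (G.p α β ^ 2) ^ 2 ≤ G.Z / g * G.Wy α β := by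
    rw [sq]; exact mul_le_mul (ZA.psq h k) Wp (sq_nonneg _) (by linarith)
  have b2 : (G.p α β / mI ι) ^ 2 ≤ G.Z / g * G.Wy α β := by
    rw [div_pow]
    exact (div_le_self (sq_nonneg _) m1).trans (Wp.trans (le_mul_of_one_le_left W0 z1))
  have h1 := ZA.num_abs (T := G.Gt α β - 1) (u := G.Y α α) (v := G.Y β β) (p := G.p α β)
    (m := mI ι) (r := G.r α β) (x := G.a β * G.r α α) (y := G.a α * G.r β β) (q := √Q)
    (by linarith [(ZA.s0_bd h).1]) (ZA.s0_bd h).2 h.abs_sg (ZA.c_one h k).1 (ZA.c_one h k).2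
    (h.ok_s k) (Real.abs_le_sqrt (by linarith)) (Real.abs_le_sqrt (by linarith))
    (Real.abs_le_sqrt (by rw [mul_pow]; linarith)) (Real.le_sqrt_of_sq_le (by linarith))
    (Real.abs_le_sqrt (by linarith)) (Real.abs_le_sqrt (by linarith))
    (Real.abs_le_sqrt (by rw [mul_pow]; linarith)) (Real.abs_le_sqrt (by rw [mul_pow]; linarith))
  have hT : |G.Gt α β - 1| ≤ √Q := Real.abs_le_sqrt (by linarith)
  have hW : G.Wy α β ≤ 3 * √Q := by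
    refine (abs_le_of_sq_le_sq' ?_ (by positivity)).2
    rw [mul_pow, Real.sq_sqrt Q0, sq]
    nlinarith [mul_le_mul_of_nonneg_right (h.Wy_le k) W0]
  have h2 := ZA.div_bd (h.ok_dl k).1 (by positivity) (abs_le.1 h1).2
  have h3 := ZA.div_bd (h.ok_dl k).1 (by positivity) (neg_le.1 (abs_le.1 h1).1)
  rw [neg_div] at h3
  have h4 : |G.xx α β| ≤ 1000 * √Q := by
    unfold Gm.xx
    rw [sub_add_cancel] at h2 h3
    rw [abs_le] at hT ⊢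
    constructor <;> linarith [hT.1, hT.2, h.yy_sq k, sq_nonneg (G.yy α β)]
  have h5 := pow_le_pow_left₀ (abs_nonneg _) h4 2
  rw [sq_abs, mul_pow, Real.sq_sqrt Q0] at h5
  linarith

theorem abs_xx : |G.xx α β| ≤ G.Z / 10 := by
  have z1 := ZA.one_le h
  have g0 := h.g_pos
  have z2 : G.Z / g ≤ (G.Z / g) ^ 2 := by nlinarith
  have a1 : (G.Gt α β - 1) ^ 2 ≤ 16 * (G.Z / g) ^ 2 := by
    have := pow_le_pow_left₀ (abs_nonneg _) (ZA.Gt_ok h k) 2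
    rw [sq_abs] at this; linarith
  have a2 : G.Z / g * G.Wy α β ≤ 6 * (G.Z / g) ^ 2 := by
    nlinarith [mul_le_mul_of_nonneg_left (h.Wy_le k) (show 0 ≤ G.Z / g by linarith)]
  have a4 : G.Y α α ^ 2 * G.Y β β ^ 2 ≤ (G.Z / g) ^ 2 := by
    rw [sq (G.Z / g)]
    exact mul_le_mul (ZA.ysq h _ _) (ZA.ysq h _ _) (sq_nonneg _) (by linarith)
  have a5 : G.r α β ^ 2 ≤ (G.Z / g) ^ 2 := by
    have := pow_le_pow_left₀ (abs_nonneg _) (show |G.r α β| ≤ G.Z / g from k.2.2) 2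
    rwa [sq_abs] at this
  have a6 : 10 ^ 6 * (G.Z / g) ≤ G.Z / 10 := by
    rw [← mul_div_assoc, div_le_div_iff₀ g0 (by norm_num)]
    nlinarith [h.num.hg, h.Z_pos]
  refine abs_le_of_sq_le_sq' ?_ (by linarith [h.Z_pos]) |> abs_le.2
  refine le_trans ?_ (pow_le_pow_left₀ (by positivity) a6 2)
  nlinarith [h.xx_sq k, ZA.ysq h α β, ZA.br h k, ZA.br h (h.ok_symm k), sq_nonneg (G.Z / g)]

end One

end Vale.Agent.P049
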