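import Vale.Agent.P049.ToolL

set_option maxRecDepth 100000
set_option linter.unusedSectionVars false

namespace Vale.Agent.P049

open Finset

variable {ι : Type} [Fintype ι] [DecidableEq ι] {g : ℝ} {G G' : Gm ι} {bad : ι → ι → Bool}

namespace ZW

theorem Bz_mul (h : Two g G G' bad) :
    g ^ 11 * Bz g G G' = G.z * hI g ι + G.GG g + G'.A g * (G.Z * hI g ι) := by
  have := h.one.g_pos
  rw [h.Bz_eq]; field_simp

theorem parts (h : Two g G G' bad) :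
    0 ≤ G.z * hI g ι ∧ 0 ≤ G.GG g ∧ 0 ≤ G'.A g * (G.Z * hI g ι) :=
  ⟨(mul_pos h.one.z_pos h.one.h_pos).le, h.one.GG_nonneg,
    mul_nonneg h.two.A_nonneg (mul_pos h.one.Z_pos h.one.h_pos).le⟩

theorem zh_GG (h : Two g G G' bad) : zeI g ι * hI g ι + G.GG g ≤ g ^ 11 * Bz g G G' := by
  have := mul_le_mul_of_nonneg_right h.one.ze_le_z h.one.h_pos.le
  linarith [Bz_mul h, (parts h).2.2]

theorem zh (h : Two g G G' bad) : zeI g ι * hI g ι ≤ g ^ 11 * Bz g G G' := by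
  linarith [zh_GG h, (parts h).2.1]

theorem zzh (h : Two g G G' bad) : G.z * hI g ι ≤ g ^ 11 * Bz g G G' := by
  linarith [Bz_mul h, (parts h).2.1, (parts h).2.2]

theorem GG (h : Two g G G' bad) : G.GG g ≤ g ^ 11 * Bz g G G' := by
  linarith [Bz_mul h, (parts h).1, (parts h).2.2]

theorem AZ (h : Two g G G' bad) : G'.A g * (G.Z * hI g ι) ≤ g ^ 11 * Bz g G G' := by
  linarith [Bz_mul h, (parts h).1, (parts h).2.1]

theorem Bz_pos (h : Two g G G' bad) : 0 < Bz g G G' :=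
  (mul_pos_iff_of_pos_left (pow_pos h.one.g_pos 11)).1
    ((mul_pos h.one.ze_pos h.one.h_pos).trans_le (zh h))

theorem l2 (h : Two g G G' bad) : g ^ 109 * G.l2 ^ 2 ≤ Bz g G G' := by
  refine le_of_mul_le_mul_left ?_ (pow_pos h.one.g_pos 11)
  calc _ = g ^ 120 * G.l2 ^ 2 := by ring
    _ ≤ _ := h.one.l2_le_GG.trans (GG h)

theorem l2' (h : Two g G G' bad) : g ^ 109 * G'.l2 ^ 2 * G.Z ≤ Bz g G G' * G'.Z := by
  refine le_of_mul_le_mul_left ?_ (pow_pos h.one.g_pos 11)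
  calc _ = g ^ 120 * G'.l2 ^ 2 * G.Z := by ring
    _ ≤ G'.GG g * G.Z := mul_le_mul_of_nonneg_right h.two.l2_le_GG h.one.Z_pos.le
    _ = G'.A g * (G.Z * hI g ι) * G'.Z := by rw [← h.two.A_mul]; ring
    _ ≤ g ^ 11 * Bz g G G' * G'.Z := mul_le_mul_of_nonneg_right (AZ h) h.two.Z_pos.le
    _ = _ := by ring

/-- A quantity below `ζ h / g ^ 13` or `GG / g ^ 13` is negligible. -/
theorem of_zh (h : Two g G G' bad) {x : ℝ} (hx : g ^ 13 * x ≤ zeI g ι * hI g ι) :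
    g ^ 2 * x ≤ Bz g G G' := by
  refine le_of_mul_le_mul_left ?_ (pow_pos h.one.g_pos 11)
  calc _ = g ^ 13 * x := by ring
    _ ≤ _ := hx.trans (zh h)

theorem ze_sq (h : One g G) : zeI g ι ^ 2 * hI g ι ≤ zeI g ι * hI g ι := by
  have h1 : zeI g ι ≤ 1 := h.num.ze_le_one
  have := h.ze_pos
  have := h.h_pos
  rw [sq]; gcongr; exact mul_le_of_le_one_right h.ze_pos.le h1

theorem r4m (h : One g G) : g ^ 600 * (G.r4 / mI ι) ≤ zeI g ι ^ 2 * hI g ι := by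
  rw [← mul_div_assoc, div_le_iff₀ h.m_pos]; linarith [h.r4b]

theorem Dhm (h : One g G) : g ^ 400 * (G.Dh / mI ι) ≤ zeI g ι ^ 2 * hI g ι := by
  rw [← mul_div_assoc, div_le_iff₀ h.m_pos]; linarith [h.Dhb]

theorem one_le_m (h : One g G) : 1 ≤ mI ι := by simpa using h.num.pow_le_m (k := 0) (by norm_num)

theorem pow_down (h : One g G) {x y : ℝ} {j k : ℕ} (hx : 0 ≤ x) (e : j ≤ k) (hy : g ^ k * x ≤ y) :
    g ^ j * x ≤ y := (mul_le_mul_of_nonneg_right (h.num.pow_mono e) hx).trans hy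

theorem E_br (h : One g G) : E2 (fun α β => G.a β ^ 2 * G.rho α ^ 2) ≤ G.Dh / mI ι * G.r4 := by
  simp only [mul_comm (G.a _ ^ 2)]
  rw [E2_prod (fun α => G.rho α ^ 2) fun β => G.a β ^ 2, mul_comm]
  exact mul_le_mul_of_nonneg_right h.E_a_sq h.r4_nonneg

theorem Dh_r4 (h : One g G) : g ^ 309 * (G.Dh / mI ι * G.r4) ≤ zeI g ι ^ 2 * hI g ι := by
  have := h.g_pos
  have := h.m_pos
  have := h.r4_nonneg
  calc _ = g ^ 309 * G.Dh * (G.r4 / mI ι) := by ring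
    _ ≤ g ^ 309 * g ^ 291 * (G.r4 / mI ι) := by gcongr; exact h.Dha
    _ = g ^ 600 * (G.r4 / mI ι) := by ring
    _ ≤ _ := r4m h

theorem E_diag (h : One g G) : g ^ 400 * E2 (fun α _ => G.Y α α ^ 2) ≤ zeI g ι ^ 2 * hI g ι := by
  rw [E2_left h.m_pos]
  refine le_trans ?_ (Dhm h)
  have := h.g_pos
  have := h.m_pos
  gcongr
  exact h.D_le_Dh

theorem hm (h : One g G) : g ^ 3994 * (hI g ι / mI ι) ≤ zeI g ι * hI g ι := by
  rw [← mul_div_assoc, div_le_iff₀ h.m_pos]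
  have : g ^ 3994 ≤ mI ι * zeI g ι := h.num.F2'
  linarith [mul_le_mul_of_nonneg_right this h.h_pos.le]

end ZW

theorem Two.E_Wy (h : Two g G G' bad) : E2 G.Wy ≤ Bz g G G' / g := by
  have o := h.one
  have g0 := o.g_pos
  have m0 := o.m_pos
  have e : E2 G.Wy = E2 (fun α β => G.a β ^ 2 * G.rho α ^ 2) +
      E2 (fun α β => G.a β ^ 2 * G.rho α ^ 2) + E2 (fun α _ => G.Y α α ^ 2) +
      E2 (fun α _ => G.Y α α ^ 2) + E2 (fun α β => G.Y α β ^ 2) / mI ι ^ 2 + G.l2 ^ 2 := by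
    rw [← o.E_p_sq, ← E2_div_const]
    conv_rhs => enter [1, 1, 1, 1, 2]; rw [← E2_swap]
    conv_rhs => enter [1, 1, 2]; rw [← E2_swap]
    simp only [← E2_add]
    rfl
  have a1 : g ^ 2 * E2 (fun α β => G.a β ^ 2 * G.rho α ^ 2) ≤ Bz g G G' :=
    ZW.of_zh h (ZW.pow_down o (E2_nonneg fun _ _ => by positivity) (by norm_num)
      ((mul_le_mul_of_nonneg_left (ZW.E_br o) (by positivity)).trans
        ((ZW.Dh_r4 o).trans (ZW.ze_sq o))))
  have a2 : g ^ 2 * E2 (fun α _ => G.Y α α ^ 2) ≤ Bz g G G' :=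
    ZW.of_zh h (ZW.pow_down o (E2_nonneg fun _ _ => by positivity) (by norm_num)
      ((ZW.E_diag o).trans (ZW.ze_sq o)))
  have n3 : 0 ≤ E2 (fun α β => G.Y α β ^ 2) := E2_nonneg fun _ _ => by positivity
  have a3 : g ^ 2 * (E2 (fun α β => G.Y α β ^ 2) / mI ι ^ 2) ≤ Bz g G G' :=
    ZW.of_zh h (ZW.pow_down o (by positivity) (by norm_num)
      ((mul_le_mul_of_nonneg_left ((div_le_self n3 (one_le_pow₀ (ZW.one_le_m o))).trans o.E_Y_sq)
        (by positivity)).trans (ZW.hm o)))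
  have a4 : g ^ 2 * G.l2 ^ 2 ≤ Bz g G G' := ZW.pow_down o (sq_nonneg _) (by norm_num) (ZW.l2 h)
  have a5 : g * (g * E2 G.Wy) ≤ g * Bz g G G' := by
    have := mul_le_mul_of_nonneg_right o.num.hg (ZW.Bz_pos h).le
    have := ZW.Bz_pos h
    rw [e]; linarith
  rw [le_div_iff₀' g0]
  exact le_of_mul_le_mul_left a5 g0

theorem Two.zh_le_Bz (h : Two g G G' bad) : zeI g ι * hI g ι / g ^ 11 ≤ Bz g G G' :=
  (div_le_iff₀' (pow_pos h.one.g_pos _)).2 (ZW.zh h)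

theorem Two.GG_le_Bz (h : Two g G G' bad) : G.GG g / g ^ 11 ≤ Bz g G G' :=
  (div_le_iff₀' (pow_pos h.one.g_pos _)).2 (ZW.GG h)

end Vale.Agent.P049
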