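import Vale.Agent.P049.TauP
import Vale.Agent.P049.ZA
import Vale.Agent.P049.ZW

set_option linter.unusedSectionVars false
set_option maxRecDepth 100000

namespace Vale.Agent.P049

open Finset

variable {ι : Type} [Fintype ι] [DecidableEq ι] {g : ℝ} {G G' : Gm ι} {bad : ι → ι → Bool}

namespace Tau

open TauP

/-- The numerator of `yy` without the `p` term. -/
noncomputable def H0 (G : Gm ι) (α β : ι) : ℝ :=
  G.a β * G.rho α + G.a α * G.rho β - s0 ι * (G.Y α α + G.Y β β) - 2 * G.Y α β / mI ι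

theorem E_H0 (h : One g G) :
    E2 (H0 G) + 2 * (G.t1 / mI ι) * G.z = 2 * (G.t1 / mI ι ^ 2) + 2 * (G.sg * (1 - G.z) / mI ι) := by
  have m0 := h.m_pos
  have e : E2 (H0 G) = E2 (fun α β => G.rho α * G.a β) + E2 (fun α β => G.a α * G.rho β) -
      s0 ι * (E2 (fun α _ => G.Y α α) + E2 fun _ β => G.Y β β) -
      2 / mI ι * E2 fun α β => G.Y α β := by
    rw [← E2_add, ← E2_add, ← E2_const_mul, ← E2_const_mul, ← E2_sub, ← E2_sub]
    exact E2_congr fun α β => by rw [H0]; ring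
  rw [e, E2_prod, E2_prod, E2_left m0, E2_right m0, E2_zero_of_row (X := fun α β => G.Y α β) h.row,
    h.sum_a, ← G.t2_eq_sum, ← G.t1_eq, h.t2_eq_z, s0]
  field_simp
  ring

theorem five {a b c d e t : ℝ} (t0 : 0 ≤ t) (t1 : t ≤ 1) :
    (a + b - t * (c + d) - 2 * e) ^ 2 ≤ 5 * (a ^ 2 + b ^ 2 + c ^ 2 + d ^ 2 + 4 * e ^ 2) := by
  have h1 : (t * c) ^ 2 ≤ c ^ 2 := by rw [mul_pow]; nlinarith [sq_nonneg c, mul_le_one₀ t1 t0 t1]
  have h2 : (t * d) ^ 2 ≤ d ^ 2 := by rw [mul_pow]; nlinarith [sq_nonneg d, mul_le_one₀ t1 t0 t1]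
  nlinarith [sq_nonneg (a - b), sq_nonneg (a + t * c), sq_nonneg (a + t * d), sq_nonneg (a + 2 * e),
    sq_nonneg (b + t * c), sq_nonneg (b + t * d), sq_nonneg (b + 2 * e), sq_nonneg (t * c - t * d),
    sq_nonneg (t * c - 2 * e), sq_nonneg (t * d - 2 * e)]

theorem E_H0_sq (h : One g G) :
    g ^ 250 * mI ι * E2 (fun α β => H0 G α β ^ 2) ≤ √(G.Z * hI g ι) ^ 2 := by
  have m0 := h.m_pos
  have g0 := h.g_pos
  have h0 := h.h_pos
  have h1 : E2 (fun α β => H0 G α β ^ 2) ≤ E2 fun α β => 5 * (G.rho α ^ 2 * G.a β ^ 2 +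
      G.a α ^ 2 * G.rho β ^ 2 + G.Y α α ^ 2 + G.Y β β ^ 2 + 4 / mI ι ^ 2 * G.Y α β ^ 2) :=
    E2_mono fun α β => by
      rw [H0, mul_div_assoc]
      exact (five (by linarith [(ZA.s0_bd h).1]) (ZA.s0_bd h).2).trans (le_of_eq (by ring))
  rw [E2_const_mul, E2_add, E2_add, E2_add, E2_add, E2_prod, E2_prod, E2_left m0, E2_right m0,
    E2_const_mul, h.E_rho_sq, ← G.D_eq] at h1
  have h2 : (∑ α, G.a α ^ 2) / mI ι * G.r4 ≤ G.Dh / mI ι * g ^ 21 :=
    mul_le_mul h.E_a_sq h.r4a h.r4_nonneg (div_nonneg h.Dh_nonneg m0.le)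
  have h3 : G.D / mI ι ≤ G.Dh / mI ι * g ^ 21 :=
    (div_le_div_of_nonneg_right h.D_le_Dh m0.le).trans
      (le_mul_of_one_le_right (div_nonneg h.Dh_nonneg m0.le) (one_le_pow₀ h.num.one_le_g))
  have h4 := mul_le_mul_of_nonneg_left h.E_Y_sq (show 0 ≤ 4 / mI ι ^ 2 by positivity)
  have h5 := mul_le_mul_of_nonneg_left (h1.trans (show _ ≤
    20 * (G.Dh / mI ι * g ^ 21) + 5 * (4 / mI ι ^ 2 * (hI g ι / mI ι)) by linarith))
    (show 0 ≤ g ^ 250 * mI ι by positivity)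
  have e : g ^ 250 * mI ι * (20 * (G.Dh / mI ι * g ^ 21) + 5 * (4 / mI ι ^ 2 * (hI g ι / mI ι))) =
      40 * g ^ 271 * G.Dh / 2 + 40 * g ^ 250 / mI ι ^ 2 * hI g ι / 2 := by field_simp; ring
  have h6 := (mul_le_mul_of_nonneg_right (h.num.const_pow (c := 40) (by norm_num)
    (show 271 < 400 by norm_num)) h.Dh_nonneg).trans (h.Dhb.trans (W_ge h))
  have h7 : 40 * g ^ 250 / mI ι ^ 2 * hI g ι ≤ G.Z * hI g ι := by
    refine mul_le_mul_of_nonneg_right ((div_le_self (by positivity) (one_le_pow₀ ?_)).trans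
      ((h.num.const_pow (by norm_num) (by norm_num)).trans h.Z_big)) h0.le
    simpa using h.num.pow_le_m (k := 0) (by norm_num)
  rw [Real.sq_sqrt (W_pos h).le]
  linarith

theorem t1_sq (h : One g G) : (g ^ 126 * G.t1) ^ 2 ≤ mI ι * (G.Z * hI g ι) := by
  rw [mul_pow, ← pow_mul]
  refine (mul_le_mul_of_nonneg_left h.t1_sq (pow_nonneg h.g_pos.le _)).trans ?_
  rw [mul_assoc, ← mul_assoc, ← pow_add]
  exact mul_le_mul_of_nonneg_right (h.num.pow_le_m (by norm_num)) (W_pos h).le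

theorem core (h : Two g G G' bad) :
    |E2 (fun α β => ww g G G' bad α β * (G.yy α β + 2 * (G.t1 / mI ι) * G.z)) -
      2 * E2 fun α β => ww g G G' bad α β * (G.s α β / G.dl α β * G.p α β)| ≤
      264 * (bb g G G' * √(G.Z * hI g ι)) := by
  have o := h.one
  have m0 := o.m_pos
  have g0 := o.g_pos
  have g1 := o.num.one_le_g
  have m1 : 1 ≤ mI ι := by simpa using o.num.pow_le_m (k := 0) (by norm_num)
  have h1 := h.genW (q := fun α β => 1 / G.dl α β) (Real.sqrt_nonneg _)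
    (fun α β k => by linarith [o.ok_inv k.2.1, o.e_nonneg α β, h.two.e_nonneg α β]) (E_H0_sq o)
  have h2 := h.genW (q := fun _ _ => 1) (H := fun _ _ => 2 * (G.t1 / mI ι) * G.z)
    (Real.sqrt_nonneg (G.Z * hI g ι))
    (fun α β _ => by
      rw [sub_self, abs_zero]; linarith [o.e_nonneg α β, h.two.e_nonneg α β]) (by
      rw [E2_const m0, Real.sq_sqrt (W_pos o).le]
      have c := o.num.const_pow (c := 4) (by norm_num) (show 250 < 252 by norm_num)
      have z1 : G.z ^ 2 ≤ 1 := pow_le_one₀ o.z_pos.le o.z_le_one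
      calc _ = 4 * g ^ 250 * G.t1 ^ 2 * G.z ^ 2 / mI ι := by field_simp; ring
        _ ≤ g ^ 252 * G.t1 ^ 2 * 1 / mI ι := by gcongr
        _ = (g ^ 126 * G.t1) ^ 2 / mI ι := by ring
        _ ≤ _ := by rw [div_le_iff₀' m0]; exact t1_sq o)
  rw [E2_const m0] at h2
  have h3 := le_bu h (x := g * G.t1 / mI ι) (by
    rw [div_pow, div_le_iff₀' (by positivity)]
    refine le_trans ?_ ((t1_sq o).trans (mul_le_mul_of_nonneg_right (by nlinarith) (W_pos o).le))
    rw [mul_pow, mul_pow, ← pow_mul]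
    exact mul_le_mul_of_nonneg_right (o.num.pow_mono (by norm_num)) (sq_nonneg _))
  have h4 := le_bu h (x := g * (G.sg * (1 - G.z))) (by
    have c1 : 1 - G.z ≤ hI g ι := le_of_mul_le_mul_left (o.t2_eq_z ▸ o.t2h) m0
    have c2 := sub_nonneg.2 o.z_le_one
    have c3 := o.h_pos
    rw [mul_pow, mul_pow, o.sg_sq, one_mul]
    calc _ ≤ g ^ 3994 * (hI g ι * 1) := by
          rw [sq (1 - G.z)]
          gcongr
          exacts [by norm_num, c1.trans o.h_le_one]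
      _ ≤ _ := by rw [mul_one]; exact mul_le_mul_of_nonneg_right o.Z_big c3.le)
  rw [show g * G.t1 / mI ι / (g * mI ι) = G.t1 / mI ι ^ 2 by field_simp] at h3
  rw [mul_div_mul_left _ _ g0.ne'] at h4
  have e : E2 (fun α β => ww g G G' bad α β * (G.yy α β + 2 * (G.t1 / mI ι) * G.z)) =
      E2 (fun α β => ww g G G' bad α β * (1 / G.dl α β * H0 G α β)) +
      E2 (fun α β => ww g G G' bad α β * (1 * (2 * (G.t1 / mI ι) * G.z))) +
      2 * E2 fun α β => ww g G G' bad α β * (G.s α β / G.dl α β * G.p α β) := by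
    rw [← E2_const_mul, ← E2_add, ← E2_add]
    exact E2_congr fun α β => by rw [Gm.yy, H0]; ring
  have := E_H0 o
  rw [abs_le] at h1 h2 h3 h4 ⊢
  constructor <;> linarith [h1.1, h1.2, h2.1, h2.2, h3.1, h3.2, h4.1, h4.2]

end Tau

theorem Two.Tau_up (h : Two g G G' bad) :
    E2 (fun α β => ww g G G' bad α β * (G.yy α β + 2 * (G.t1 / mI ι) * G.z)) ≤
      1000 * bb g G G' * √(g ^ 4 * G.Z * hI g ι) := by
  have b1 := mul_le_mul_of_nonneg_left (TauP.sqrt_le h.one 4) h.bb_pos.le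
  have p0 : 0 ≤ bb g G G' * √(G.Z * hI g ι) := mul_nonneg h.bb_pos.le (Real.sqrt_nonneg _)
  linarith [(abs_le.1 (Tau.core h)).2, h.TauP.1]
theorem Two.Tau_dn (h : Two g G G' bad) :
    E2 (fun α β => ww g G G' bad α β * -(G.yy α β + 2 * (G.t1 / mI ι) * G.z)) ≤
      1000 * bb g G G' * √(g ^ 125 * G.Z * hI g ι) := by
  have b1 := mul_le_mul_of_nonneg_left (TauP.sqrt_le h.one 125) h.bb_pos.le
  have p0 : 0 ≤ bb g G G' * √(G.Z * hI g ι) := mul_nonneg h.bb_pos.le (Real.sqrt_nonneg _)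
  simp only [mul_neg, E2_neg]
  linarith [(abs_le.1 (Tau.core h)).1, h.TauP.2]
theorem Two.Tau_sq (h : Two g G G' bad) :
    E2 (fun α β => ww g G G' bad α β * G.yy α β ^ 2) ≤ bb g G G' * (G.Z * hI g ι) := by
  have g0 := h.one.g_pos
  have h1 : E2 (fun α β => ww g G G' bad α β * G.yy α β ^ 2) ≤ E2 fun α β => 200 * G.Wy α β :=
    E2_mono fun α β => (h.ww_mul_le fun k => h.one.yy_sq k.2.1).trans (by
      have : 0 ≤ G.Wy α β := by unfold Gm.Wy; positivity
      nlinarith [h.ww_le_two α β])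
  rw [E2_const_mul] at h1
  refine h1.trans ((mul_le_mul_of_nonneg_left h.E_Wy (by norm_num)).trans ?_)
  have c := h.one.num.const_pow (c := 200) (by norm_num) (show 0 < 11 by norm_num)
  have p := mul_pos h.bb_pos (TauP.W_pos h.one)
  rw [show 200 * (Bz g G G' / g) = 200 * (bb g G G' * (G.Z * hI g ι)) / g ^ 11 by
    rw [Bz]; field_simp, div_le_iff₀ (by positivity)]
  nlinarith

end Vale.Agent.P049
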