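import Vale.Agent.P049.UpdA

namespace Vale.Agent.P049

open Finset

variable {ι : Type} [Fintype ι] [DecidableEq ι]

namespace UpdB

omit [Fintype ι] [DecidableEq ι] in
theorem cen_sq (R : Finset ι) (M : ι → ι → ℝ) (r : ι → ℝ) (b n : ℝ) (hn : (R.card : ℝ) = n)
    (h1 : ∀ i, ∑ j ∈ R, M i j = n * r i) (h2 : ∀ i j, M i j = M j i) (h3 : ∑ i ∈ R, r i = n * b) :
    ∑ i ∈ R, ∑ j ∈ R, (M i j - r i - r j + b) ^ 2 =
      ∑ i ∈ R, ∑ j ∈ R, M i j ^ 2 - 2 * n * ∑ i ∈ R, r i ^ 2 + n ^ 2 * b ^ 2 := by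
  have e1 : ∀ i, ∑ j ∈ R, (M i j - r i - r j + b) ^ 2 = ∑ j ∈ R, M i j ^ 2 -
      2 * ∑ j ∈ R, M i j * r j + ∑ j ∈ R, r j ^ 2 - n * r i ^ 2 + 2 * n * b * r i - n * b ^ 2 := by
    intro i
    have : ∀ j, (M i j - r i - r j + b) ^ 2 = M i j ^ 2 - 2 * (M i j * r j) + r j ^ 2 +
        (b - r i) ^ 2 + 2 * (b - r i) * M i j - 2 * (b - r i) * r j := fun j => by ring
    simp only [this, sum_add_distrib, sum_sub_distrib, ← mul_sum, sum_const, nsmul_eq_mul, hn, h1,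
      h3]
    ring
  have e2 : ∑ i ∈ R, ∑ j ∈ R, M i j * r j = n * ∑ i ∈ R, r i ^ 2 := by
    rw [sum_comm, mul_sum]
    refine sum_congr rfl fun j _ => ?_
    simp only [h2 _ j]
    rw [← sum_mul, h1]; ring
  simp only [e1, sum_add_distrib, sum_sub_distrib, ← mul_sum, sum_const, nsmul_eq_mul, hn, h3, e2]
  ring

theorem scal {σ u a b s e A B p r1 r2 r3 : ℝ} (hσ : σ = 1 ∨ σ = -1) (he : e * (s ^ 2 - a * b) = 1)
    {ya yb c G11 G12 G22 x1 x2 y1 y2 : ℝ} (h1 : ya = a - σ * u) (h2 : yb = b - σ * u)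
    (h3 : c = σ * (1 - u) - s) (k1 : G11 = (b ^ 2 * A + 2 * b * s * p + s ^ 2 * B) * e ^ 2)
    (k2 : G12 = (b * s * A + (a * b + s ^ 2) * p + s * a * B) * e ^ 2)
    (k3 : G22 = (s ^ 2 * A + 2 * s * a * p + a ^ 2 * B) * e ^ 2)
    (l1 : x1 = (b * ya + s * c) * e) (l2 : x2 = (s * ya + a * c) * e)
    (l3 : y1 = (b * c + s * yb) * e) (l4 : y2 = (s * c + a * yb) * e) :
    2 * ((b * r1 + s * r2) * e + (s * r2 + a * r3) * e) + A * G11 + 2 * p * G12 + B * G22 -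
      2 * ((1 - u) ^ 2 * G22 - 2 * (1 - u) * u * G12 + u ^ 2 * G11) -
      2 * ((1 - u) ^ 2 * G11 - 2 * (1 - u) * u * G12 + u ^ 2 * G22) +
      ((1 - u) * x2 - x1 * u) ^ 2 + ((1 - u) * x1 - x2 * u) ^ 2 + ((1 - u) * y2 - y1 * u) ^ 2 +
      ((1 - u) * y1 - y2 * u) ^ 2 - 2 * (u - 2 * u ^ 2) * (G11 + 2 * G12 + G22 - (x1 + x2) ^ 2 -
        (y1 + y2) ^ 2) + u ^ 2 * (x1 + x2 + y1 + y2) ^ 2 =
    -2 + ((b * A + a * B - (1 - u) * (ya + yb) - 2 * c * u + 2 * s * p) * e) ^ 2 +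
      (2 * (1 - u - A) * (1 - u - B) - 4 * (1 - u) * (σ * c) + 4 * c ^ 2 - 2 * (a * b) -
        2 * ya * yb - 2 * p ^ 2 - 4 * p * u + 4 * s * r2 + 2 * (b * r1 + a * r3)) * e := by
  have key : ∀ W : ℝ, W = 2 * (1 - u - A) * (1 - u - B) - 4 * (1 - u) * (σ * c) + 4 * c ^ 2 -
      2 * (a * b) - 2 * ya * yb - 2 * p ^ 2 - 4 * p * u →
      ((W - 2 * (s ^ 2 - a * b)) * e - 2) * (e * (s ^ 2 - a * b) - 1) = 0 := fun W _ => by
    rw [he]; ring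
  have := key _ rfl
  subst h1 h2 h3 k1 k2 k3 l1 l2 l3 l4
  rcases hσ with rfl | rfl <;> linear_combination this

end UpdB

theorem UH.tau2_up {G : Gm ι} {α β : ι} (h : UH G α β) :
    tau2 (rem univ α β) (G.up α β) = G.t2 + G.xx α β := by
  have hm : mI ι ≠ 0 := by have := h.big; positivity
  have hm2 : mI ι - 2 ≠ 0 := by have := h.big; exact ne_of_gt (by linarith)
  have hs0 : s0 ι ≠ 0 := by
    have := h.big
    rw [s0, sub_ne_zero, ne_comm, ne_eq, div_eq_one_iff_eq hm]; linarith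
  have hd := h.dl
  have hσ : G.sg ^ 2 = 1 := by rcases h.sg with e | e <;> rw [e] <;> norm_num
  have g1s : ∑ i, G.g1 α β i = 0 := by
    simp only [Gm.g1, ← sum_div, sum_add_distrib, ← mul_sum, h.row]; simp
  have g2s : ∑ i, G.g2 α β i = 0 := by
    simp only [Gm.g2, ← sum_div, sum_add_distrib, ← mul_sum, h.row]; simp
  have hr : ∑ i ∈ rem univ α β, G.rr α β i = (mI ι - 2) * G.rb α β := by
    rw [sum_rem h.ne]
    simp only [Gm.rr, Gm.rb, ← sum_div, sum_add_distrib, ← mul_sum, g1s, g2s]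
    field_simp; ring
  have e0 := UpdB.cen_sq (rem univ α β) (G.M α β) (G.rr α β) (G.rb α β) _ (card_rem h.ne)
    (fun i => by rw [← h.M_rem i]; field_simp) h.M_symm hr
  set e := (G.dl α β)⁻¹ with he
  set u := (mI ι)⁻¹ with hu
  have hp := Gm.p_eq h.symm α β
  have k1 : ∑ i, G.g1 α β i ^ 2 =
      (G.a β ^ 2 * G.rho α + 2 * G.a β * G.s α β * G.p α β + G.s α β ^ 2 * G.rho β) * e ^ 2 := by
    simp only [hp, Gm.rho_eq, mul_sum, ← sum_add_distrib, sum_mul, Gm.g1, div_eq_mul_inv, ← he]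
    exact sum_congr rfl fun i _ => by ring
  have k2 : ∑ i, G.g1 α β i * G.g2 α β i = (G.a β * G.s α β * G.rho α +
      (G.a α * G.a β + G.s α β ^ 2) * G.p α β + G.s α β * G.a α * G.rho β) * e ^ 2 := by
    simp only [hp, Gm.rho_eq, mul_sum, ← sum_add_distrib, sum_mul, Gm.g1, Gm.g2, div_eq_mul_inv,
      ← he]
    exact sum_congr rfl fun i _ => by ring
  have k3 : ∑ i, G.g2 α β i ^ 2 =
      (G.s α β ^ 2 * G.rho α + 2 * G.s α β * G.a α * G.p α β + G.a α ^ 2 * G.rho β) * e ^ 2 := by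
    simp only [hp, Gm.rho_eq, mul_sum, ← sum_add_distrib, sum_mul, Gm.g2, div_eq_mul_inv, ← he]
    exact sum_congr rfl fun i _ => by ring
  have k4 : ∑ j, G.p α j * G.g1 α β j = (G.a β * G.r α α + G.s α β * G.r α β) * e := by
    simp only [Gm.r_eq h.symm, mul_sum, ← sum_add_distrib, sum_mul, Gm.g1, div_eq_mul_inv, ← he]
    exact sum_congr rfl fun i _ => by ring
  have k5 : ∑ j, G.p β j * G.g2 α β j = (G.s α β * G.r α β + G.a α * G.r β β) * e := by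
    rw [Gm.r_symm h.symm α β]
    simp only [Gm.r_eq h.symm, mul_sum, ← sum_add_distrib, sum_mul, Gm.g2, div_eq_mul_inv, ← he]
    exact sum_congr rfl fun i _ => by ring
  have k6 : ∑ i, ∑ j, G.M α β i j ^ 2 = G.t2 + (2 * (∑ j, G.p α j * G.g1 α β j +
      ∑ j, G.p β j * G.g2 α β j) + G.rho α * ∑ i, G.g1 α β i ^ 2 +
      2 * G.p α β * ∑ i, G.g1 α β i * G.g2 α β i + G.rho β * ∑ i, G.g2 α β i ^ 2) := by
    rw [Gm.t2_eq_fro, fro_eq_sum_col, sum_comm]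
    simp only [mul_sum, ← sum_add_distrib]
    refine sum_congr rfl fun j _ => ?_
    simp only [col, Gm.p_eq h.symm, Gm.rho_eq, h.M_eq, mul_sum, sum_mul, ← sum_add_distrib,
      h.symm j]
    exact sum_congr rfl fun i _ => by ring
  have hs : s0 ι = 1 - u := by rw [s0, one_div]
  have k7 : ∑ i, G.M α β i α ^ 2 = (1 - u) ^ 2 * ∑ i, G.g2 α β i ^ 2 -
      2 * (1 - u) * u * ∑ i, G.g1 α β i * G.g2 α β i + u ^ 2 * ∑ i, G.g1 α β i ^ 2 := by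
    simp only [h.M_fst, mul_pow, hσ, one_mul, hs, div_eq_mul_inv, ← hu, mul_sum, ← sum_add_distrib,
      ← sum_sub_distrib]
    exact sum_congr rfl fun i _ => by ring
  have k8 : ∑ i, G.M α β i β ^ 2 = (1 - u) ^ 2 * ∑ i, G.g1 α β i ^ 2 -
      2 * (1 - u) * u * ∑ i, G.g1 α β i * G.g2 α β i + u ^ 2 * ∑ i, G.g2 α β i ^ 2 := by
    simp only [h.M_snd, mul_pow, hσ, one_mul, hs, div_eq_mul_inv, ← hu, mul_sum, ← sum_add_distrib,
      ← sum_sub_distrib]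
    exact sum_congr rfl fun i _ => by ring
  have k9 : ∀ i, G.rr α β i ^ 2 = u ^ 2 * (G.g1 α β i + G.g2 α β i) ^ 2 := fun i => by
    rw [Gm.rr, div_eq_mul_inv, ← hu, mul_pow, mul_pow, neg_sq, hσ]; ring
  have k10 : ∑ i, G.rr α β i ^ 2 = u ^ 2 * (∑ i, G.g1 α β i ^ 2 +
      2 * ∑ i, G.g1 α β i * G.g2 α β i + ∑ i, G.g2 α β i ^ 2) := by
    simp only [k9, mul_sum, ← sum_add_distrib]
    exact sum_congr rfl fun i _ => by ring
  have k11 : (mI ι - 2) ^ 2 * G.rb α β ^ 2 =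
      u ^ 2 * (G.g1 α β α + G.g2 α β α + G.g1 α β β + G.g2 α β β) ^ 2 := by
    rw [Gm.rb, div_pow, mul_pow, hσ, hu]; field_simp
  have k12 : ∑ i ∈ rem univ α β, ∑ j ∈ rem univ α β, G.M α β i j ^ 2 = ∑ i, ∑ j, G.M α β i j ^ 2 -
      2 * ∑ i, G.M α β i α ^ 2 - 2 * ∑ i, G.M α β i β ^ 2 + G.M α β α α ^ 2 + G.M α β α β ^ 2 +
      G.M α β β α ^ 2 + G.M α β β β ^ 2 := by
    have s1 : ∀ k, ∑ j, G.M α β k j ^ 2 = ∑ i, G.M α β i k ^ 2 := fun k =>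
      sum_congr rfl fun j _ => by rw [h.M_symm k j]
    simp only [sum_rem h.ne, sum_sub_distrib]
    rw [s1 α, s1 β]
    ring
  have k13 : G.xx α β = -2 + ((G.a β * G.rho α + G.a α * G.rho β - (1 - u) * (G.Y α α + G.Y β β) -
      2 * G.Y α β * u + 2 * G.s α β * G.p α β) * e) ^ 2 +
      (2 * (1 - u - G.rho α) * (1 - u - G.rho β) - 4 * (1 - u) * (G.sg * G.Y α β) +
        4 * G.Y α β ^ 2 - 2 * (G.a α * G.a β) - 2 * G.Y α α * G.Y β β - 2 * G.p α β ^ 2 -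
        4 * G.p α β * u + 4 * G.s α β * G.r α β + 2 * (G.a β * G.r α α + G.a α * G.r β β)) * e := by
    have a1 : G.Gt α β * s0 ι ^ 2 = (s0 ι - G.rho α) * (s0 ι - G.rho β) := by
      rw [Gm.Gt]; field_simp
    have a2 : e * G.dl α β = 1 := inv_mul_cancel₀ hd
    rw [Gm.dl_eq, Gm.s_eq] at a2
    rw [Gm.xx, Gm.yy, ← hs]
    simp only [div_eq_mul_inv, ← he, ← hu]
    linear_combination (2 * e) * a1 - 2 * G.Gt α β * a2 + 2 * e * G.Gt α β * s0 ι ^ 2 * hσ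
  have a2 : e * (G.s α β ^ 2 - G.a α * G.a β) = 1 := inv_mul_cancel₀ hd
  have fin := UpdB.scal (u := u) (r1 := G.r α α) (r2 := G.r α β) (r3 := G.r β β) h.sg a2
    (ya := G.Y α α) (yb := G.Y β β) (c := G.Y α β) (x1 := G.g1 α β α) (x2 := G.g2 α β α)
    (y1 := G.g1 α β β) (y2 := G.g2 α β β)
    (by rw [Gm.a_eq, div_eq_mul_inv, ← hu]; ring) (by rw [Gm.a_eq, div_eq_mul_inv, ← hu]; ring)
    (by rw [Gm.s_eq, hs]; ring) k1 k2 k3 (by rw [Gm.g1, h.symm β α]; rfl)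
    (by rw [Gm.g2, h.symm β α]; rfl) rfl rfl
  have a3 : u * mI ι = 1 := inv_mul_cancel₀ hm
  have e1 : tau2 (rem univ α β) (G.up α β) = ∑ i ∈ rem univ α β, ∑ j ∈ rem univ α β,
      (G.M α β i j - G.rr α β i - G.rr α β j + G.rb α β) ^ 2 := by
    simp only [tau2, rho, h.up_eq]
  rw [e1, e0, k11, k12, sum_rem h.ne, k10, k9, k9, k13, k6, k7, k8, k4, k5, h.M_fst, h.M_fst,
    h.M_snd, h.M_snd, ← fin]
  simp only [mul_pow, hσ, one_mul, hs, div_eq_mul_inv, ← hu]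
  linear_combination (-2 * u * (∑ i, G.g1 α β i ^ 2 + 2 * ∑ i, G.g1 α β i * G.g2 α β i +
    ∑ i, G.g2 α β i ^ 2 - (G.g1 α β α + G.g2 α β α) ^ 2 - (G.g1 α β β + G.g2 α β β) ^ 2)) * a3

end Vale.Agent.P049
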