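import Vale.Agent.P049.ZB

set_option maxRecDepth 100000
set_option linter.unusedSectionVars false

namespace Vale.Agent.P049

open Finset

variable {ι : Type} [Fintype ι] [DecidableEq ι] {g : ℝ} {G G' : Gm ι} {bad : ι → ι → Bool}

namespace ZC

theorem abs_r (h : One g G) (α β : ι) :
    |G.r α β| ≤ √(mI ι * hI g ι) / 2 * (G.rho α + G.rho β) := by
  have r1 := G.rho_nonneg α
  have r2 := G.rho_nonneg β
  have t0 : 0 ≤ mI ι * hI g ι := (mul_pos h.m_pos h.h_pos).le
  refine abs_le.2 (abs_le_of_sq_le_sq' ((Gm.r_sq_le h.symm α β).trans ?_) (by positivity))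
  rw [mul_pow, div_pow, Real.sq_sqrt t0]
  calc _ ≤ mI ι * hI g ι * ((G.rho α + G.rho β) ^ 2 / 4) := by
        gcongr
        · exact G.sqrt_t4_le.trans h.t2h
        · nlinarith [sq_nonneg (G.rho α - G.rho β)]
    _ = _ := by ring

theorem t_r4 (h : One g G) : g ^ 253 * (√(mI ι * hI g ι) * (G.r4 / mI ι)) ≤ zeI g ι * hI g ι := by
  have g0 := h.g_pos
  have m0 := h.m_pos
  have h0 := h.h_pos
  have z0 := h.ze_pos
  have r0 := h.r4_nonneg
  refine (abs_le_of_sq_le_sq' ?_ (by positivity)).2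
  rw [mul_pow, mul_pow, Real.sq_sqrt (by positivity)]
  calc _ = g ^ 506 * G.r4 * (G.r4 / mI ι) * hI g ι := by field_simp
    _ ≤ g ^ 579 * g ^ 21 * (G.r4 / mI ι) * hI g ι := by
        gcongr ?_ * ?_ * _ * _
        exacts [h.num.pow_mono (by norm_num), h.r4a]
    _ = g ^ 600 * (G.r4 / mI ι) * hI g ι := by ring
    _ ≤ zeI g ι ^ 2 * hI g ι * hI g ι := by gcongr ?_ * _; exact ZW.r4m h
    _ = _ := by ring

theorem t_m (h : One g G) : g ^ 1000 * (√(mI ι * hI g ι) / mI ι) ≤ zeI g ι := by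
  have g0 := h.g_pos
  have m0 := h.m_pos
  have h0 := h.h_pos
  have z0 := h.ze_pos
  have F : g ^ 3970 ≤ mI ι * zeI g ι ^ 2 := h.num.F2
  refine (abs_le_of_sq_le_sq' ?_ (by positivity)).2
  rw [mul_pow, div_pow, Real.sq_sqrt (by positivity)]
  calc _ = g ^ 2000 * hI g ι / mI ι := by field_simp
    _ ≤ mI ι * zeI g ι ^ 2 * 1 / mI ι := by
        gcongr ?_ * ?_ / _
        exacts [(h.num.pow_mono (by norm_num)).trans F, h.h_le_one]
    _ = _ := by field_simp

theorem E_c_rho (h : One g G) (h' : One g G') :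
    E2 (fun α β => G'.Y α β ^ 2 * G.rho α) ≤ (G.r4 / mI ι + G'.r4 / mI ι) / 2 := by
  have m0 := h.m_pos
  have h1 : ∑ α, ∑ β, G'.Y α β ^ 2 * G.rho α ≤ ∑ α, (G.rho α ^ 2 + G'.rho α ^ 2) / 2 := by
    refine sum_le_sum fun α _ => ?_
    rw [← sum_mul, ← G'.rho_eq]
    nlinarith [sq_nonneg (G.rho α - G'.rho α)]
  rw [← sum_div, sum_add_distrib, h.sum_rho_sq, h'.sum_rho_sq] at h1
  rw [E2, div_le_iff₀ (by positivity)]
  refine h1.trans (le_of_eq ?_)
  field_simp

theorem E_c_r (h : One g G) (h' : One g G') : g ^ 253 *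
    E2 (fun α β => G'.Y α β ^ 2 * |G.r α β|) ≤ zeI g ι * hI g ι := by
  have g0 := h.g_pos
  have t0 := Real.sqrt_nonneg (mI ι * hI g ι)
  have h1 := E_c_rho h h'
  have h2 := E_c_rho h h'
  rw [← E2_swap] at h2
  have h3 := mul_le_mul_of_nonneg_left (add_le_add h1 h2) (show 0 ≤ √(mI ι * hI g ι) / 2 by linarith)
  rw [← E2_add, ← E2_const_mul] at h3
  have h4 : E2 (fun α β => G'.Y α β ^ 2 * |G.r α β|) ≤ _ := le_trans (E2_mono fun α β => by
    rw [h'.symm β α]
    linarith [mul_le_mul_of_nonneg_left (abs_r h α β) (sq_nonneg (G'.Y α β))]) h3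
  linarith [mul_le_mul_of_nonneg_left h4 (pow_pos g0 253).le, t_r4 h, t_r4 h']

theorem E_c_r' (h : Two g G G' bad) {G'' : Gm ι} (h' : One g G'') : g ^ 242 *
    E2 (fun α β => G''.Y α β ^ 2 * |G.r α β|) ≤ Bz g G G' := by
  refine le_of_mul_le_mul_left ?_ (pow_pos h.one.g_pos 11)
  rw [← mul_assoc, ← pow_add]
  exact (E_c_r h.one h').trans (ZW.zh h)

theorem E_I6 (h : Two g G G' bad) : E2 (fun α β => I6 bad α β * |G.r α β|) ≤ Bz g G G' := by
  have o := h.one
  have g0 := o.g_pos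
  have m0 := o.m_pos
  have h0 := o.h_pos
  have t0 := Real.sqrt_nonneg (mI ι * hI g ι)
  have h1 := (h.E_I6_left G.rho_nonneg).trans (mul_le_mul_of_nonneg_left o.E_rho (by positivity))
  have h2 := (h.E_I6_right G.rho_nonneg).trans (mul_le_mul_of_nonneg_left o.E_rho (by positivity))
  have h3 := mul_le_mul_of_nonneg_left (add_le_add h1 h2) (show 0 ≤ √(mI ι * hI g ι) / 2 by linarith)
  rw [← E2_add, ← E2_const_mul] at h3
  have h4 : E2 (fun α β => I6 bad α β * |G.r α β|) ≤ _ := le_trans (E2_mono fun α β => by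
    linarith [mul_le_mul_of_nonneg_left (abs_r o α β) (show 0 ≤ I6 bad α β from ind_nonneg _)]) h3
  refine h4.trans (le_of_mul_le_mul_left (le_trans ?_ (ZW.zh h)) (pow_pos g0 11))
  calc _ = 2 * g ^ 13 * (√(mI ι * hI g ι) / mI ι) * hI g ι := by ring
    _ ≤ g ^ 1000 * (√(mI ι * hI g ι) / mI ι) * hI g ι := by
        gcongr ?_ * _ * _; exact o.num.const_pow (by norm_num) (by norm_num)
    _ ≤ _ := by gcongr ?_ * _; exact t_m o

theorem E_I3 (h : Two g G G' bad) : E2 (fun α β => I3 g G G' α β * |G.r α β|) ≤ Bz g G G' := by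
  have o := h.one
  have g0 := o.g_pos
  have B0 := ZW.Bz_pos h
  have G0 := o.GG_nonneg
  refine E2_cs' B0.le h.E_I3_sq (by simp only [sq_abs]; exact o.E_r_sq) ?_
  have h1 : G.A g * (G.Z * hI g ι) + G'.A g * (G.Z * hI g ι) ≤ g ^ 11 * Bz g G G' := by
    rw [o.A_mul]; linarith [ZW.Bz_mul h, (ZW.parts h).1]
  calc _ = 2 * ((G.A g * (G.Z * hI g ι) + G'.A g * (G.Z * hI g ι)) * G.GG g) / g ^ 46 := by
        field_simp
    _ ≤ g ^ 24 * (g ^ 11 * Bz g G G' * (g ^ 11 * Bz g G G')) / g ^ 46 := by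
        gcongr ?_ * (?_ * ?_) / _
        · rw [o.A_mul]; exact mul_nonneg (add_nonneg G0 (ZW.parts h).2.2) G0
        · simpa using o.num.const_pow (c := 2) (j := 0) (by norm_num) (by norm_num)
        · exact ZW.GG h
    _ = _ := by field_simp

theorem E_Us (h : Two g G G' bad) : E2 (fun α β => Us g G G' bad α β * |G.r α β|) ≤ Bz g G G' := by
  have o := h.one
  have g0 := o.g_pos
  have m0 := o.m_pos
  have B0 := ZW.Bz_pos h
  have G0 := o.GG_nonneg
  have := (ZW.parts h).1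
  refine E2_cs' B0.le h.E_Us_sq (by simp only [sq_abs]; exact o.E_r_sq) ?_
  calc _ = 300 * (G.z * hI g ι * G.GG g) / g ^ 24 := by rw [o.Z_eq_z]; field_simp
    _ ≤ g ^ 2 * (g ^ 11 * Bz g G G' * (g ^ 11 * Bz g G G')) / g ^ 24 := by
        gcongr ?_ * (?_ * ?_) / _
        · simpa using o.num.const_pow (c := 300) (j := 0) (by norm_num) (by norm_num)
        · exact ZW.zzh h
        · exact ZW.GG h
    _ = _ := by field_simp

end ZC

theorem Two.ZB2 (h : Two g G G' bad) :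
    E2 (fun α β => ww g G G' bad α β * (G.s α β / G.dl α β * G.r α β)) ≤
      -G.GG g + 100 * Bz g G G' := by
  have o := h.one
  have h0 : E2 (fun α β => G.sg * G.r α β) = 0 := by
    refine (E2_const_mul G.sg fun α β => G.r α β).trans ?_
    rw [E2_zero_of_row (X := fun α β => G.r α β) (row_mul o.row _), mul_zero]
  have h1 : E2 (fun α β => ww g G G' bad α β * (G.s α β / G.dl α β * G.r α β)) ≤
      E2 fun α β => G.sg * G.r α β - (G.x1 g α β + G'.x1 g α β) * (G.sg * G.r α β) -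
        (G.x3 g α β + G'.x3 g α β) * (G.sg * G.r α β) + (2 * (I3 g G G' α β * |G.r α β|) +
        26 * (Us g G G' bad α β * |G.r α β|) + 2 * (I6 bad α β * |G.r α β|) +
        2 * (g ^ 242 * (G.Y α β ^ 2 * |G.r α β|)) + 2 * (g ^ 242 * (G'.Y α β ^ 2 * |G.r α β|))) := by
    refine E2_mono fun α β => ?_
    have p := h.P3 (α := α) (β := β) (q := G.sg * G.s α β / G.dl α β) fun k => by
      linarith [o.ok_q k.2.1, o.e_nonneg α β, h.two.e_nonneg α β]
    have q := (le_abs_self _).trans ((abs_mul _ (G.sg * G.r α β)).trans_le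
      (mul_le_mul_of_nonneg_right p (abs_nonneg _)))
    rw [abs_mul, o.abs_sg, one_mul] at q
    have e : ww g G G' bad α β * (G.s α β / G.dl α β * G.r α β) =
        ww g G G' bad α β * (G.sg * G.s α β / G.dl α β) * (G.sg * G.r α β) := by
      linear_combination -(ww g G G' bad α β * (G.s α β / G.dl α β * G.r α β)) * o.sg_sq
    rw [e]
    linarith
  simp only [E2_add, E2_sub] at h1
  rw [h0, E2_const_mul 2, E2_const_mul 26, E2_const_mul 2, E2_const_mul 2, E2_const_mul 2,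
    E2_const_mul (g ^ 242), E2_const_mul (g ^ 242)] at h1
  linarith [h.ZB1, ZC.E_I3 h, ZC.E_Us h, ZC.E_I6 h, ZC.E_c_r' h o, ZC.E_c_r' h h.two, ZW.Bz_pos h]

end Vale.Agent.P049
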