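import Vale.Agent.P049.ToolG
import Vale.Agent.P049.ZA
import Vale.Agent.P049.ZW

set_option maxRecDepth 100000
set_option linter.unusedSectionVars false

namespace Vale.Agent.P049

open Finset

variable {ι : Type} [Fintype ι] [DecidableEq ι] {g : ℝ} {G G' : Gm ι} {bad : ι → ι → Bool}

namespace ZD

theorem Zh (h : One g G) : 1 / 8 ≤ G.Z * hI g ι := by
  have F : 1 / 8 ≤ mI ι * zeI g ι ^ 2 * hI g ι := h.num.F3
  have h1 := mul_le_mul_of_nonneg_left (ZW.ze_sq h) h.m_pos.le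
  have h2 := mul_le_mul_of_nonneg_right h.Zlo h.h_pos.le
  linarith

theorem sq_add {t s x c : ℝ} (hs : |s| = 1) (ht : t ^ 2 ≤ c * x) (hx : 1 / 8 ≤ x) (hc : 16 ≤ c) :
    (t + s) ^ 2 ≤ 3 * c * x := by
  have : s ^ 2 = 1 := by rw [← sq_abs, hs, one_pow]
  nlinarith [sq_nonneg (t - s)]

theorem main (h : Two g G G' bad) : E2 (fun α β => G.a β * G.r α α) ≤ Bz g G G' := by
  have o := h.one
  have g0 := o.g_pos
  have m0 := o.m_pos
  have h0 := o.h_pos
  have z0 := o.z_pos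
  have B0 := ZW.Bz_pos h
  have c16 : ∀ k, 0 < k → 16 ≤ g ^ k := fun k hk => by
    simpa using o.num.const_pow (c := 16) (j := 0) (by norm_num) hk
  simp only [mul_comm (G.a _)]
  rw [E2_prod (fun α => G.r α α) G.a, o.sum_a, div_mul_div_comm, ← sq, div_le_iff₀ (by positivity)]
  rcases le_total 0 (G.t1 + G.sg) with k | k
  · have a1 : (G.t1 + G.sg) ^ 2 ≤ 3 * g ^ 14 * (G.Z * hI g ι) := by
      refine le_trans ?_ (sq_add (s := 1) abs_one (o.tp.trans_eq (mul_assoc _ _ _)) (Zh o)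
        (c16 _ (by norm_num)))
      gcongr
      · exact le_max_left _ _
      · exact (le_abs_self _).trans o.abs_sg.le
    have a2 : (∑ α, G.r α α) ^ 2 ≤ mI ι * hI g ι * (mI ι ^ 2 * G.l2 ^ 2) := by
      rw [← o.t4_eq]
      exact (Gm.tr_r_sq o.symm).trans (mul_le_mul_of_nonneg_right o.t2h G.t4_nonneg)
    refine (abs_le_of_sq_le_sq' ?_ (by positivity)).2
    rw [mul_pow]
    calc _ ≤ mI ι * hI g ι * (mI ι ^ 2 * G.l2 ^ 2) * (3 * g ^ 14 * (G.Z * hI g ι)) :=
          mul_le_mul a2 a1 (sq_nonneg _) (by positivity)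
      _ = 3 * g ^ 25 * G.l2 ^ 2 * (G.z * hI g ι) * hI g ι * mI ι ^ 4 / g ^ 11 := by
          rw [o.Z_eq_z]; field_simp
      _ ≤ Bz g G G' * (g ^ 11 * Bz g G G') * 1 * mI ι ^ 4 / g ^ 11 := by
          gcongr ?_ * ?_ * ?_ * _ / _
          · exact (mul_le_mul_of_nonneg_right (o.num.const_pow (by norm_num) (by norm_num))
              (sq_nonneg _)).trans (ZW.l2 h)
          · exact ZW.zzh h
          · exact o.h_le_one
      _ = _ := by field_simp
  · have a1 : (G.t1 + G.sg) ^ 2 ≤ 3 * g ^ 135 * (G.Z * hI g ι) :=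
      sq_add o.abs_sg (o.t1_sq.trans_eq (mul_assoc _ _ _)) (Zh o) (c16 _ (by norm_num))
    have a2 : -(mI ι * hI g ι) ≤ ∑ α, G.r α α := by
      have := low_trace o.low G.Y
      rw [← Gm.ip_Y_p o.symm]
      linarith [o.t2h, G.t2_eq_fro, show ip G.Y G.p = ip G.Y (G.Y * G.Y) from rfl]
    refine (mul_le_mul_of_nonpos_right a2 k).trans (abs_le_of_sq_le_sq' ?_ (by positivity)).2
    rw [mul_pow, neg_sq]
    calc _ ≤ (mI ι * hI g ι) ^ 2 * (3 * g ^ 135 * (G.Z * hI g ι)) := by gcongr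
      _ = 3 * g ^ 157 * hI g ι * (G.z * hI g ι ^ 2) * mI ι ^ 3 / g ^ 22 := by
          rw [o.Z_eq_z]; field_simp
      _ ≤ G.Z * 1 * (G.z * hI g ι ^ 2) * mI ι ^ 3 / g ^ 22 := by
          gcongr ?_ * ?_ * _ * _ / _
          · exact o.Z_pos.le
          · exact (o.num.const_pow (by norm_num) (by norm_num)).trans o.Z_big
          · exact o.h_le_one
      _ = (G.z * hI g ι) ^ 2 * mI ι ^ 4 / g ^ 22 := by rw [o.Z_eq_z]; ring
      _ ≤ (g ^ 11 * Bz g G G') ^ 2 * mI ι ^ 4 / g ^ 22 := by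
          gcongr ?_ ^ 2 * _ / _; exact ZW.zzh h
      _ = _ := by field_simp

theorem rd (h : One g G) (α : ι) : G.r α α ^ 2 ≤ mI ι * hI g ι * G.rho α ^ 2 := by
  refine (Gm.r_sq_le h.symm α α).trans ?_
  rw [← sq]
  exact mul_le_mul_of_nonneg_right (G.sqrt_t4_le.trans h.t2h) (sq_nonneg _)

theorem E_brr (h : One g G) : E2 (fun α β => (G.a β * G.r α α) ^ 2) ≤
    mI ι * hI g ι * (G.Dh / mI ι * G.r4) := by
  refine le_trans ?_ (mul_le_mul_of_nonneg_left (ZW.E_br h) (mul_pos h.m_pos h.h_pos).le)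
  rw [← E2_const_mul]
  refine E2_mono fun α β => ?_
  linarith [mul_le_mul_of_nonneg_left (rd h α) (sq_nonneg (G.a β))]

theorem bQ : bb g G G' * (G.Z * hI g ι / g ^ 10) = Bz g G G' := by unfold Bz; ring

theorem gen (h : Two g G G' bad) {H : ι → ι → ℝ}
    (hH : g ^ 270 * E2 (fun α β => H α β ^ 2) ≤ mI ι * (zeI g ι ^ 2 * hI g ι))
    (h6 : E2 (fun α β => I6 bad α β * |H α β|) ≤ Bz g G G') :
    E2 (fun α β => UU g G G' bad α β * |H α β|) ≤ 5 * Bz g G G' := by
  have o := h.one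
  have g0 := o.g_pos
  have m0 := o.m_pos
  have h0 := o.h_pos
  have z0 := o.Z_pos
  have := h.genH (H := H) (Q := G.Z * hI g ι / g ^ 10) (by positivity) (by
    calc _ = mI ι * hI g ι * (g ^ 270 * E2 fun α β => H α β ^ 2) / g ^ 20 := by field_simp
      _ ≤ mI ι * hI g ι * (mI ι * (zeI g ι ^ 2 * hI g ι)) / g ^ 20 := by gcongr ?_ / _; gcongr
      _ = mI ι * (mI ι * zeI g ι ^ 2) * hI g ι ^ 2 / g ^ 20 := by ring
      _ ≤ G.Z ^ 2 * hI g ι ^ 2 / g ^ 20 := by gcongr ?_ * _ / _; exact o.W_le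
      _ = _ := by ring)
  rw [mul_assoc, bQ] at this
  linarith

theorem six (h : Two g G G' bad) :
    E2 (fun α β => I6 bad α β * |G.a β * G.r α α|) ≤ Bz g G G' := by
  have o := h.one
  have g0 := o.g_pos
  have m0 := o.m_pos
  have h0 := o.h_pos
  have z0 := o.ze_pos
  have r0 := o.r4_nonneg
  have d0 := o.Dh_nonneg
  have B0 := ZW.Bz_pos h
  have i6 : ∀ α β, I6 bad α β ^ 2 = I6 bad α β := fun α β => ind_sq _
  have e : E2 (fun α β => I6 bad α β * |G.a β * G.r α α|) =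
      E2 fun α β => I6 bad α β * |G.a β| * (I6 bad α β * |G.r α α|) :=
    E2_congr fun α β => by
      rw [abs_mul]; linear_combination -(|G.a β| * |G.r α α|) * i6 α β
  rw [e]
  refine E2_cs' (a := 2 * g ^ 2 / mI ι * (G.Dh / mI ι))
    (b := 2 * g ^ 2 / mI ι * (mI ι * hI g ι * G.r4)) B0.le ?_ ?_ ?_
  · simp only [mul_pow, i6, sq_abs]
    exact (h.E_I6_right fun α => sq_nonneg (G.a α)).trans
      (mul_le_mul_of_nonneg_left o.E_a_sq (by positivity))
  · simp only [mul_pow, i6, sq_abs]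
    refine (h.E_I6_left fun α => sq_nonneg (G.r α α)).trans
      (mul_le_mul_of_nonneg_left ?_ (by positivity))
    rw [Gm.r4, ← mul_div_assoc, mul_sum]
    gcongr with α
    exact rd o α
  · calc _ = 4 * g ^ 26 * (G.Dh / mI ι * G.r4) * hI g ι / (g ^ 22 * mI ι) := by field_simp; ring
      _ ≤ zeI g ι ^ 2 * hI g ι * hI g ι / (g ^ 22 * 1) := by
          gcongr ?_ * _ / (_ * ?_)
          · exact (mul_le_mul_of_nonneg_right (o.num.const_pow (by norm_num) (by norm_num))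
              (by positivity)).trans (ZW.Dh_r4 o)
          · exact ZW.one_le_m o
      _ = (zeI g ι * hI g ι) ^ 2 / g ^ 22 := by ring
      _ ≤ (g ^ 11 * Bz g G G') ^ 2 / g ^ 22 := by gcongr ?_ ^ 2 / _; exact ZW.zh h
      _ = _ := by field_simp

theorem S_sq (h : One g G) : (1 - G.z) ^ 2 ≤ G.r4 := by
  have m0 := h.m_pos
  have h1 : (∑ α, G.rho α) ^ 2 ≤ mI ι * ∑ α, G.rho α ^ 2 := sq_sum_le_card_mul_sum_sq
  rw [← G.t2_eq_sum, h.t2_eq_z, h.sum_rho_sq, mul_pow, ← mul_assoc, ← sq] at h1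
  exact le_of_mul_le_mul_left h1 (by positivity)

theorem S_le (h : One g G) : 1 - G.z ≤ hI g ι :=
  le_of_mul_le_mul_left (h.t2_eq_z ▸ h.t2h) h.m_pos

end ZD

theorem Two.ZT (h : Two g G G' bad) :
    E2 (fun α β => ww g G G' bad α β * (G.a β * G.r α α / G.dl α β)) ≤ 200 * Bz g G G' := by
  have o := h.one
  have g0 := o.g_pos
  have h1 : E2 (fun α β => ww g G G' bad α β * (G.a β * G.r α α / G.dl α β)) ≤
      E2 fun α β => G.a β * G.r α α + 26 * (UU g G G' bad α β * |G.a β * G.r α α|) := by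
    refine E2_mono fun α β => ?_
    have p := h.P2 (α := α) (β := β) (q := 1 / G.dl α β) fun k => by
      linarith [o.ok_inv k.2.1, o.e_nonneg α β, h.two.e_nonneg α β]
    have q := (le_abs_self _).trans ((abs_mul _ (G.a β * G.r α α)).trans_le
      (mul_le_mul_of_nonneg_right p (abs_nonneg _)))
    rw [div_eq_mul_one_div (G.a β * G.r α α)]
    linarith
  rw [E2_add, E2_const_mul 26] at h1
  have h2 := ZD.gen h (H := fun α β => G.a β * G.r α α) (by
    have m0 := o.m_pos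
    have h0 := o.h_pos
    have r0 := o.r4_nonneg
    have d0 := o.Dh_nonneg
    calc _ ≤ g ^ 309 * (mI ι * 1 * (G.Dh / mI ι * G.r4)) := by
          refine mul_le_mul (o.num.pow_mono (by norm_num)) ((ZD.E_brr o).trans ?_)
            (E2_nonneg fun _ _ => sq_nonneg _) (by positivity)
          gcongr _ * ?_ * _
          exact o.h_le_one
      _ = mI ι * (g ^ 309 * (G.Dh / mI ι * G.r4)) := by ring
      _ ≤ _ := mul_le_mul_of_nonneg_left (ZW.Dh_r4 o) m0.le) (ZD.six h)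
  linarith [ZD.main h, ZW.Bz_pos h]

theorem Two.ZT' (h : Two g G G' bad) :
    E2 (fun α β => ww g G G' bad α β * (G.a α * G.r β β / G.dl α β)) ≤ 200 * Bz g G G' := by
  refine le_trans (le_of_eq ?_) h.ZT
  rw [← E2_swap]
  exact E2_congr fun α β => by rw [h.ww_symm, Gm.dl_symm h.one.symm β α]

theorem One.E_Gt (h : One g G) : E2 G.Gt ≤ G.z ^ 2 := by
  have m0 := h.m_pos
  have z0 := h.z_pos
  have z1 := h.z_le_one
  obtain ⟨s1, s2⟩ := ZA.s0_bd h
  have e : (∑ α, (1 - G.rho α / s0 ι)) / mI ι = 1 - (1 - G.z) / s0 ι := by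
    rw [sum_sub_distrib, sum_const_mI, ← sum_div, ← G.t2_eq_sum, h.t2_eq_z]; field_simp
  have e2 : E2 G.Gt = _ := E2_prod (fun α => 1 - G.rho α / s0 ι) fun α => 1 - G.rho α / s0 ι
  rw [e2, e, ← sq]
  have a1 : 1 - G.z ≤ (1 - G.z) / s0 ι := le_div_self (by linarith) (by linarith) s2
  have a2 : 1 / mI ι ≤ G.z := by
    rw [Gm.z]; gcongr
    exact (one_le_pow₀ h.num.one_le_g).trans h.Z_big
  have a3 : (1 - G.z) / s0 ι ≤ 1 + G.z := by
    rw [div_le_iff₀ (by linarith), s0]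
    nlinarith [one_div_pos.2 m0]
  exact sq_le_sq' (by linarith) (by linarith)

theorem One.E_Gt_sq (h : One g G) : E2 (fun α β => (G.Gt α β - 1) ^ 2) ≤ g ^ 22 * G.r4 := by
  have h1 : E2 (fun α β => (G.Gt α β - 1) ^ 2) ≤ E2 fun α β => 12 * G.rho α ^ 2 +
      12 * G.rho β ^ 2 + 48 * (G.rho α ^ 2 * G.rho β ^ 2) := by
    refine E2_mono fun α β => ?_
    have := pow_le_pow_left₀ (abs_nonneg _) (ZA.Gt_bd h α β) 2
    rw [sq_abs] at this
    nlinarith [sq_nonneg (G.rho α - G.rho β), sq_nonneg (G.rho α - 2 * (G.rho α * G.rho β)),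
      sq_nonneg (G.rho β - 2 * (G.rho α * G.rho β))]
  rw [E2_add, E2_add, E2_const_mul, E2_const_mul, E2_const_mul, E2_left h.m_pos, E2_right h.m_pos,
    E2_prod (fun α => G.rho α ^ 2) fun α => G.rho α ^ 2, h.E_rho_sq] at h1
  have r0 := h.r4_nonneg
  have h2 := mul_le_mul_of_nonneg_right h.r4a r0
  have h3 := mul_le_mul_of_nonneg_right
    (h.num.const_pow (c := 72) (by norm_num) (show 21 < 22 by norm_num)) r0
  have h4 := mul_le_mul_of_nonneg_right (one_le_pow₀ (n := 21) h.num.one_le_g) r0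
  linarith

theorem Two.ZG (h : Two g G G' bad) :
    E2 (fun α β => ww g G G' bad α β * (G.Gt α β - G.z ^ 2)) ≤ 10 * Bz g G G' := by
  have o := h.one
  have g0 := o.g_pos
  have m0 := o.m_pos
  have h0 := o.h_pos
  have z0 := o.z_pos
  have z1 := o.z_le_one
  have r0 := o.r4_nonneg
  have h1 : E2 (fun α β => ww g G G' bad α β * (G.Gt α β - G.z ^ 2)) ≤
      E2 fun α β => G.Gt α β - G.z ^ 2 + UU g G G' bad α β * |G.Gt α β - G.z ^ 2| := by
    refine E2_mono fun α β => ?_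
    have p : |1 - ww g G G' bad α β| ≤ UU g G G' bad α β := le_add_of_nonneg_right (h.ee_nonneg α β)
    have q := (neg_le_abs _).trans ((abs_mul _ (G.Gt α β - G.z ^ 2)).trans_le
      (mul_le_mul_of_nonneg_right p (abs_nonneg _)))
    linarith
  rw [E2_add, E2_sub, E2_const m0] at h1
  have zz : 0 ≤ 1 - G.z ^ 2 ∧ 1 - G.z ^ 2 ≤ 2 * (1 - G.z) := by constructor <;> nlinarith
  have h2 := ZD.gen h (H := fun α β => G.Gt α β - G.z ^ 2) (by
    have a1 : E2 (fun α β => (G.Gt α β - G.z ^ 2) ^ 2) ≤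
        E2 fun α β => 2 * (G.Gt α β - 1) ^ 2 + 8 * G.r4 := by
      refine E2_mono fun α β => ?_
      have := pow_le_pow_left₀ zz.1 zz.2 2
      nlinarith [ZD.S_sq o, sq_nonneg (G.Gt α β - 1 - (1 - G.z ^ 2))]
    rw [E2_add, E2_const_mul, E2_const m0] at a1
    have a2 := mul_le_mul_of_nonneg_right
      (o.num.const_pow (c := 10) (by norm_num) (show 22 < 330 by norm_num)) r0
    have a3 := mul_le_mul_of_nonneg_right (one_le_pow₀ (n := 22) o.num.one_le_g) r0
    calc _ ≤ g ^ 270 * (g ^ 330 * G.r4) := by gcongr _ * ?_; linarith [o.E_Gt_sq]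
      _ = g ^ 600 * G.r4 := by ring
      _ ≤ _ := o.r4b.trans_eq (mul_assoc _ _ _)) (by
    have u0 : ∀ α, 0 ≤ 2 * G.rho α + 2 * G.rho α ^ 2 + hI g ι := fun α => by
      have := G.rho_nonneg α; positivity
    have a0 : (∑ α, (2 * G.rho α + 2 * G.rho α ^ 2 + hI g ι)) / mI ι ≤ 3 * hI g ι + 2 * G.r4 := by
      rw [sum_add_distrib, sum_add_distrib, ← mul_sum, ← mul_sum, sum_const_mI, add_div, add_div,
        mul_div_assoc, mul_div_assoc, o.E_rho_sq, mul_div_cancel_left₀ _ m0.ne']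
      linarith [o.E_rho]
    have a1 := (h.E_I6_left u0).trans (mul_le_mul_of_nonneg_left a0 (by positivity))
    have a2 := (h.E_I6_right u0).trans (mul_le_mul_of_nonneg_left a0 (by positivity))
    have a3 := add_le_add a1 a2
    rw [← E2_add] at a3
    refine le_trans (E2_mono fun α β => ?_) (a3.trans ?_)
    · rw [← mul_add]
      refine mul_le_mul_of_nonneg_left ?_ (ind_nonneg _)
      have b1 := abs_le.1 (ZA.Gt_bd o α β)
      rw [abs_le]
      constructor <;> nlinarith [ZD.S_le o, sq_nonneg (G.rho α - G.rho β), b1.1, b1.2, zz.1, zz.2]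
    · refine le_of_mul_le_mul_left (le_trans ?_ (ZW.zh h)) (pow_pos g0 11)
      have b1 := mul_le_mul_of_nonneg_right
        (o.num.const_pow (c := 24) (by norm_num) (show 13 < 3994 by norm_num)) (div_pos h0 m0).le
      have b2 := mul_le_mul_of_nonneg_right
        (o.num.const_pow (c := 16) (by norm_num) (show 13 < 600 by norm_num)) (div_nonneg r0 m0.le)
      have e : g ^ 11 * (2 * g ^ 2 / mI ι * (3 * hI g ι + 2 * G.r4) +
          2 * g ^ 2 / mI ι * (3 * hI g ι + 2 * G.r4)) =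
          12 * g ^ 13 * (hI g ι / mI ι) + 8 * g ^ 13 * (G.r4 / mI ι) := by ring
      rw [e]
      linarith [ZW.hm o, ZW.r4m o, ZW.ze_sq o])
  linarith [o.E_Gt, ZW.Bz_pos h]

end Vale.Agent.P049
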