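import Vale.Agent.P049.ZA
import Vale.Agent.P049.ZC
import Vale.Agent.P049.ZD
import Vale.Agent.P049.ZW

set_option maxRecDepth 100000
set_option linter.unusedSectionVars false

namespace Vale.Agent.P049

open Finset

variable {ι : Type} [Fintype ι] [DecidableEq ι] {g : ℝ} {G G' : Gm ι} {bad : ι → ι → Bool}

namespace ZE

theorem cs (h : One g G) {H : ι → ι → ℝ} (hH : E2 (fun α β => H α β ^ 2) ≤ hI g ι / mI ι) :
    g ^ 13 * E2 (fun α β => |H α β| * |G.Gt α β - 1|) ≤ zeI g ι * hI g ι := by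
  have g0 := h.g_pos
  have m0 := h.m_pos
  have h0 := h.h_pos
  have z0 := h.ze_pos
  have r0 := h.r4_nonneg
  rw [← le_div_iff₀' (by positivity)]
  refine E2_cs' (by positivity) (by simp only [sq_abs]; exact hH)
    (by simp only [sq_abs]; exact h.E_Gt_sq) ?_
  calc _ = g ^ 48 * (G.r4 / mI ι) * hI g ι / g ^ 26 := by field_simp
    _ ≤ zeI g ι ^ 2 * hI g ι * hI g ι / g ^ 26 := by
        gcongr ?_ * _ / _
        exact ZW.pow_down h (by positivity) (by norm_num) (ZW.r4m h)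
    _ = _ := by field_simp

theorem ab (h : One g G) : E2 (fun α β => (G.a α * G.a β) ^ 2) ≤ hI g ι / mI ι :=
  h.E_ab_sq.trans (div_le_self (div_pos h.h_pos h.m_pos).le (one_le_pow₀ h.num.one_le_g))

theorem inv_m (h : One g G) : g ^ 13 * (1 / mI ι ^ 2) ≤ zeI g ι * hI g ι := by
  have g0 := h.g_pos
  have m0 := h.m_pos
  have F : g ^ 3994 ≤ mI ι * zeI g ι := h.num.F2'
  have h1 := mul_le_mul F h.mh (by norm_num) (mul_pos m0 h.ze_pos).le
  have h2 := h.num.const_pow (c := 2) (by norm_num) (show 13 < 3994 by norm_num)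
  rw [mul_one_div, div_le_iff₀ (by positivity)]
  linarith

theorem Zz (h : One g G) : mI ι * (zeI g ι ^ 2 * hI g ι) ≤ zeI g ι * hI g ι * G.Z := by
  linarith [mul_le_mul_of_nonneg_left h.Zlo (mul_pos h.ze_pos h.h_pos).le]

theorem T_sq (h : One g G) :
    g ^ 13 * (g / G.Z * E2 fun α β => (G.Gt α β - 1) ^ 2) ≤ zeI g ι * hI g ι := by
  have g0 := h.g_pos
  rw [div_mul_eq_mul_div, ← mul_div_assoc, div_le_iff₀ h.Z_pos]
  calc _ ≤ g ^ 13 * (g * (g ^ 22 * G.r4)) := by gcongr _ * (_ * ?_); exact h.E_Gt_sq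
    _ = g ^ 36 * G.r4 := by ring
    _ ≤ _ := ZW.pow_down h h.r4_nonneg (by norm_num)
        ((h.r4b.trans_eq (mul_assoc _ _ _)).trans (Zz h))

theorem brr (h : One g G) :
    g ^ 13 * (g / G.Z * E2 fun α β => (G.a β * G.r α α) ^ 2) ≤ zeI g ι * hI g ι := by
  have g0 := h.g_pos
  have m0 := h.m_pos
  have r0 := h.r4_nonneg
  have d0 := h.Dh_nonneg
  rw [div_mul_eq_mul_div, ← mul_div_assoc, div_le_iff₀ h.Z_pos]
  calc _ ≤ g ^ 13 * (g * (mI ι * 1 * (G.Dh / mI ι * G.r4))) := by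
        gcongr _ * (_ * ?_)
        refine (ZD.E_brr h).trans ?_
        gcongr _ * ?_ * _
        exact h.h_le_one
    _ = mI ι * (g ^ 14 * (G.Dh / mI ι * G.r4)) := by ring
    _ ≤ mI ι * (zeI g ι ^ 2 * hI g ι) := by
        gcongr _ * ?_
        exact ZW.pow_down h (by positivity) (by norm_num) (ZW.Dh_r4 h)
    _ ≤ _ := Zz h

theorem r_sq (h : Two g G G' bad) :
    g ^ 2 * (g / G.Z * E2 fun α β => G.r α β ^ 2) ≤ Bz g G G' := by
  have o := h.one
  have g0 := o.g_pos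
  have z0 := o.Z_pos
  have B0 := ZW.Bz_pos h
  calc _ ≤ g ^ 2 * (g / G.Z * (G.GG g * G.Z / g ^ 24)) := by
        gcongr _ * (_ * ?_); exact o.E_r_sq
    _ = G.GG g / g ^ 21 := by field_simp
    _ ≤ g ^ 11 * Bz g G G' / g ^ 11 := by
        gcongr ?_ / ?_
        exacts [ZW.GG h, o.num.pow_mono (by norm_num)]
    _ = _ := by field_simp

/-- The sum of the error terms. -/
noncomputable def er (g : ℝ) (G : Gm ι) (α β : ι) : ℝ :=
  G.Wy α β + |G.Y α β| * |G.Gt α β - 1| + |G.a α * G.a β| * |G.Gt α β - 1| + G.Y α β ^ 2 +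
    G.Y α α ^ 2 + G.Y β β ^ 2 + 1 / mI ι ^ 2 + g / G.Z * (G.Gt α β - 1) ^ 2 +
    g / G.Z * G.r α β ^ 2 + g / G.Z * (G.a β * G.r α α) ^ 2 + g / G.Z * (G.a α * G.r β β) ^ 2

theorem Wy_nonneg (α β : ι) : 0 ≤ G.Wy α β := by unfold Gm.Wy; positivity

theorem er_nonneg (h : One g G) (α β : ι) : 0 ≤ er g G α β := by
  have := h.g_pos
  have := h.Z_pos
  have := Wy_nonneg (G := G) α β
  unfold er; positivity

theorem E_er (h : Two g G G' bad) : g * E2 (er g G) ≤ 2 * Bz g G G' := by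
  have o := h.one
  have g0 := o.g_pos
  have B0 := ZW.Bz_pos h
  have e : E2 (er g G) = E2 G.Wy + E2 (fun α β => |G.Y α β| * |G.Gt α β - 1|) +
      E2 (fun α β => |G.a α * G.a β| * |G.Gt α β - 1|) + E2 (fun α β => G.Y α β ^ 2) +
      E2 (fun α _ => G.Y α α ^ 2) + E2 (fun α _ => G.Y α α ^ 2) + 1 / mI ι ^ 2 +
      g / G.Z * E2 (fun α β => (G.Gt α β - 1) ^ 2) + g / G.Z * E2 (fun α β => G.r α β ^ 2) +
      g / G.Z * E2 (fun α β => (G.a β * G.r α α) ^ 2) +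
      g / G.Z * E2 (fun α β => (G.a β * G.r α α) ^ 2) := by
    conv_rhs => enter [2, 2]; rw [← E2_swap]
    conv_rhs => enter [1, 1, 1, 1, 1, 2]; rw [← E2_swap]
    conv_rhs => enter [1, 1, 1, 1, 2]; rw [← E2_const o.m_pos (1 / mI ι ^ 2)]
    simp only [← E2_const_mul, ← E2_add]
    rfl
  have a1 := (le_div_iff₀' g0).1 h.E_Wy
  have a2 := ZW.of_zh h (cs o (H := fun α β => G.Y α β) o.E_Y_sq)
  have a3 := ZW.of_zh h (cs o (ab o))
  have a4 : g ^ 2 * E2 (fun α β => G.Y α β ^ 2) ≤ Bz g G G' :=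
    ZW.of_zh h (ZW.pow_down o (E2_nonneg fun _ _ => sq_nonneg _) (by norm_num)
      ((mul_le_mul_of_nonneg_left o.E_Y_sq (by positivity)).trans (ZW.hm o)))
  have a5 : g ^ 2 * E2 (fun α _ => G.Y α α ^ 2) ≤ Bz g G G' :=
    ZW.of_zh h (ZW.pow_down o (E2_nonneg fun _ _ => by positivity) (by norm_num)
      ((ZW.E_diag o).trans (ZW.ze_sq o)))
  have a6 := ZW.of_zh h (inv_m o)
  have a7 := ZW.of_zh h (T_sq o)
  have a8 := r_sq h
  have a9 := ZW.of_zh h (brr o)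
  have b1 := mul_le_mul_of_nonneg_left a1 g0.le
  have b2 := mul_le_mul_of_nonneg_right o.num.hg B0.le
  refine le_of_mul_le_mul_left ?_ g0
  rw [e]
  linarith

theorem point (h : One g G) {α β : ι} (k : G.ok g α β) :
    G.xx α β + 2 * (1 - G.z ^ 2) + g * G.xx α β ^ 2 / G.Z ≤
      4 * (G.s α β / G.dl α β * G.r α β) + 2 * (G.a β * G.r α α / G.dl α β) +
        2 * (G.a α * G.r β β / G.dl α β) + 2 * (G.Gt α β - G.z ^ 2) + 2 * 10 ^ 6 * er g G α β := by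
  have g0 := h.g_pos
  have z0 := h.Z_pos
  have q0 : 0 < g / G.Z := by positivity
  have e0 : g / G.Z * (G.Z / g) = 1 := by field_simp
  have a1 := mul_le_mul_of_nonneg_left (h.xx_sq k) q0.le
  have a2 : g / G.Z * (G.Z / g * G.Wy α β) = G.Wy α β := by rw [← mul_assoc, e0, one_mul]
  have a3 : g / G.Z * G.Y α β ^ 2 ≤ G.Y α β ^ 2 :=
    mul_le_of_le_one_left (sq_nonneg _) (e0 ▸ le_mul_of_one_le_right q0.le (ZA.one_le h))
  have a4 : g / G.Z * (G.Y α α ^ 2 * G.Y β β ^ 2) ≤ G.Y α α ^ 2 := by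
    calc _ ≤ g / G.Z * (G.Y α α ^ 2 * (G.Z / g)) := by gcongr; exact ZA.ysq h β β
      _ = _ := by field_simp
  have e : g * G.xx α β ^ 2 / G.Z = g / G.Z * G.xx α β ^ 2 := by ring
  have n1 := Wy_nonneg (G := G) α β
  have n2 : 0 ≤ |G.Y α β| * |G.Gt α β - 1| := by positivity
  have n3 : 0 ≤ |G.a α * G.a β| * |G.Gt α β - 1| := by positivity
  have n4 : 0 ≤ 1 / mI ι ^ 2 := by positivity
  have n5 : 0 ≤ g / G.Z * (G.Gt α β - 1) ^ 2 := by positivity
  have n6 : 0 ≤ g / G.Z * G.r α β ^ 2 := by positivity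
  have n7 : 0 ≤ g / G.Z * (G.a β * G.r α α) ^ 2 := by positivity
  have n8 : 0 ≤ g / G.Z * (G.a α * G.r β β) ^ 2 := by positivity
  rw [e, er]
  linarith [h.xx_le k, sq_nonneg (G.Y α β), sq_nonneg (G.Y α α), sq_nonneg (G.Y β β)]

end ZE

theorem Two.Zlem (h : Two g G G' bad) :
    E2 (fun α β => ww g G G' bad α β *
      (G.xx α β + 2 * (1 - G.z ^ 2) + g * G.xx α β ^ 2 / G.Z)) ≤
      10 ^ 4 * Bz g G G' - 4 * G.GG g := by
  have o := h.one
  have h1 : E2 (fun α β => ww g G G' bad α β *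
      (G.xx α β + 2 * (1 - G.z ^ 2) + g * G.xx α β ^ 2 / G.Z)) ≤ E2 fun α β =>
      4 * (ww g G G' bad α β * (G.s α β / G.dl α β * G.r α β)) +
      2 * (ww g G G' bad α β * (G.a β * G.r α α / G.dl α β)) +
      2 * (ww g G G' bad α β * (G.a α * G.r β β / G.dl α β)) +
      2 * (ww g G G' bad α β * (G.Gt α β - G.z ^ 2)) + 4 * 10 ^ 6 * ZE.er g G α β := by
    refine E2_mono fun α β => (h.ww_mul_le fun k => ZE.point o k.2.1).trans ?_
    linarith [mul_le_mul_of_nonneg_right (h.ww_le_two α β) (ZE.er_nonneg o α β)]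
  rw [E2_add, E2_add, E2_add, E2_add, E2_const_mul, E2_const_mul, E2_const_mul, E2_const_mul,
    E2_const_mul] at h1
  have h2 : 0 ≤ E2 (ZE.er g G) := E2_nonneg (ZE.er_nonneg o)
  have h3 := mul_le_mul_of_nonneg_right o.num.hg h2
  linarith [h.ZB2, h.ZT, h.ZT', h.ZG, ZE.E_er h, ZW.Bz_pos h]

end Vale.Agent.P049
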