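import Vale.Agent.P049.LogB
import Vale.Agent.P049.ZE
import Vale.Agent.P049.Tau
import Vale.Agent.P049.Dlem
import Vale.Agent.P049.UpdB

set_option maxRecDepth 100000

namespace Vale.Agent.P049

open Finset

variable {ι : Type} [Fintype ι] [DecidableEq ι] {g : ℝ} {G G' : Gm ι} {bad : ι → ι → Bool}

/-- The logarithmic change of the factors of one game. -/
noncomputable def dLog (g : ℝ) (G : Gm ι) (α β : ι) : ℝ :=
  Real.log (phi1 g (rem univ α β) (G.up α β) √((rem univ α β).card * zz (rem univ α β) (G.up α β))) -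
    Real.log (phi1 g univ G.Y √(mI ι * G.Z)) +
    (Real.log ((rem univ α β).card / zz (rem univ α β) (G.up α β)) - Real.log (mI ι / G.Z)) / 12000

namespace CombA

theorem zz_eq (h : Two g G G' bad) {α β : ι} (k : adm g G G' bad α β) :
    zz (rem univ α β) (G.up α β) = G.Z - 2 - G.xx α β := by
  rw [zz, (h.uh k).tau2_up, card_rem (h.adm_ne k), G.Z_eq]; ring

theorem tau_term {w : ι → ι → ℝ} {y u : ι → ι → ℝ} {t W W0 b : ℝ} (ht : 0 ≤ t) (hW0 : 0 < W0)
    (hW : W0 ≤ W) (hb : 0 ≤ b) (h1 : E2 (fun α β => w α β * u α β) ≤ 1000 * b * √W)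
    (h2 : E2 (fun α β => w α β * y α β ^ 2) ≤ b * W0) :
    E2 (fun α β => w α β * ((2 * t * u α β + y α β ^ 2) / (W + t ^ 2))) ≤ 1001 * b := by
  have e : E2 (fun α β => w α β * ((2 * t * u α β + y α β ^ 2) / (W + t ^ 2)))
      = (2 * t * E2 (fun α β => w α β * u α β) + E2 (fun α β => w α β * y α β ^ 2)) / (W + t ^ 2) := by
    rw [← E2_const_mul, ← E2_add, ← E2_div_const]
    exact E2_congr fun α β => by ring
  have hWp : 0 < W := hW0.trans_le hW
  rw [e, div_le_iff₀ (by positivity)]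
  have a := mul_le_mul_of_nonneg_left h1 (by positivity : 0 ≤ 2 * t)
  have c := Real.sq_sqrt hWp.le
  have d : 2 * t * √W ≤ W + t ^ 2 := by nlinarith [sq_nonneg (√W - t)]
  have := mul_le_mul_of_nonneg_left d hb
  have := mul_le_mul_of_nonneg_left hW hb
  have := mul_nonneg hb (sq_nonneg t)
  nlinarith

end CombA

open CombA

theorem Two.zz_up (h : Two g G G' bad) {α β : ι} (k : adm g G G' bad α β) :
    1 ≤ zz (rem univ α β) (G.up α β) := by
  rw [zz_eq h k]
  have a := (abs_le.1 (h.one.abs_xx k.2.1)).2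
  have b := h.one.Z_big
  have c := h.one.num.const_pow (c := 10) (by norm_num) (j := 0) (k := 3994) (by norm_num)
  rw [pow_zero] at c
  linarith

theorem Two.dLog (h : Two g G G' bad) :
    E2 (fun α β => ww g G G' bad α β * dLog g G α β) ≤
      4 * 10 ^ 5 * bb g G G' - G.A g / 6000 := by
  have o := h.one
  have hg := o.g_pos
  have hg1 := o.num.one_le_g
  have hm := o.m_pos
  have hb := h.bb_pos
  have hZ := o.Z_pos
  have hh0 := o.h_pos
  have hZh : 0 < G.Z * hI g ι := mul_pos hZ hh0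
  obtain ⟨κ, k1, k2, hκ⟩ := log_one (τ := G.t1) o.num o.Zlo o.Z_le o.V_nonneg o.D_nonneg
  have κ0 : 0 ≤ κ := le_trans (by change 0 ≤ 1 / (24000 * (G.Z * hI g ι)); positivity) k1
  have hQv : 0 < G.Qv g := by
    have := o.V_nonneg
    have := Real.sqrt_pos.2 (mul_pos hm hZ)
    unfold Gm.Qv; positivity
  have hQd : 0 < G.Qd g := by
    have := o.D_nonneg
    have := o.h2_pos
    unfold Gm.Qd; positivity
  have a1 : E2 (fun α β => ww g G G' bad α β * P049.dLog g G α β) ≤ E2 (fun α β =>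
      κ * (ww g G G' bad α β * (G.xx α β + 2 * (1 - G.z ^ 2) + g * G.xx α β ^ 2 / G.Z)) +
      ww g G G' bad α β * ((2 * max G.t1 0 * (G.yy α β + 2 * (G.t1 / mI ι) * G.z) + G.yy α β ^ 2) /
        (g ^ 4 * G.Z * hI g ι + max G.t1 0 ^ 2)) +
      ww g G G' bad α β * ((2 * max (-G.t1) 0 * -(G.yy α β + 2 * (G.t1 / mI ι) * G.z)
        + G.yy α β ^ 2) / (g ^ 125 * G.Z * hI g ι + max (-G.t1) 0 ^ 2)) +
      ww g G G' bad α β * (vS (rem univ α β) (G.up α β) - G.V + (1 + G.z) * G.V / mI ι) / G.Qv g +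
      ww g G G' bad α β * (dS (rem univ α β) (G.up α β) - G.D + 2 * (1 - h2I g ι) * G.D / mI ι)
        / G.Qd g + 2 * bb g G G') := by
    refine E2_mono fun α β => ?_
    have b1 := h.ww_mul_le (α := α) (β := β) (s := P049.dLog g G α β) fun k => by
      have c := hκ (G.xx α β) (G.yy α β) (vS (rem univ α β) (G.up α β))
        (dS (rem univ α β) (G.up α β)) (o.abs_xx k.2.1)
        (by
          have : 0 ≤ tau2 (rem univ α β) (G.up α β) :=
            sum_nonneg fun _ _ => sum_nonneg fun _ _ => sq_nonneg _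
          rw [(h.uh k).tau2_up] at this
          rw [G.Z_eq]; linarith)
        (sum_nonneg fun _ _ => sq_nonneg _) (sum_nonneg fun _ _ => sq_nonneg _)
      have e1 := phi1_eq g (rem univ α β) (G.up α β)
      have e2 : phi1 g univ G.Y √(mI ι * G.Z) = ph g (mI ι) G.Z G.t1 G.V G.D := phi1_eq g univ G.Y
      refine le_trans (le_of_eq ?_) c
      unfold P049.dLog
      rw [e1, e2, zz_eq h k, card_rem (h.adm_ne k), (h.uh k).tau1_up]
    have b2 := mul_le_mul (h.ww_le_two α β) h.le_bb (by positivity) (by norm_num)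
    refine b1.trans ?_
    simp only [Gm.z, Gm.Qv, Gm.Qd, hI, h2I]
    rw [mul_div_assoc (ww g G G' bad α β), mul_div_assoc (ww g G G' bad α β)]
    linarith
  rw [E2_add, E2_add, E2_add, E2_add, E2_add, E2_const_mul, E2_div_const, E2_div_const,
    E2_const hm] at a1
  have a2 := mul_le_mul_of_nonneg_left h.Zlem κ0
  have a3 := tau_term (le_max_right G.t1 0) hZh (W := g ^ 4 * G.Z * hI g ι)
    (by rw [mul_assoc]; exact le_mul_of_one_le_left hZh.le (one_le_pow₀ hg1)) hb.le h.Tau_up h.Tau_sq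
  have a4 := tau_term (le_max_right (-G.t1) 0) hZh (W := g ^ 125 * G.Z * hI g ι)
    (by rw [mul_assoc]; exact le_mul_of_one_le_left hZh.le (one_le_pow₀ hg1)) hb.le h.Tau_dn h.Tau_sq
  have a5 := (div_le_iff₀ hQv).2 h.Vlem
  have a6 := (div_le_iff₀ hQd).2 h.Dlem
  have a7 : κ * Bz g G G' ≤ 8 * bb g G G' := by
    have c : 0 ≤ Bz g G G' := by unfold Bz; positivity
    refine (mul_le_mul_of_nonneg_right k2 c).trans (le_of_eq ?_)
    change 8 * g ^ 10 / (G.Z * hI g ι) * _ = _
    unfold Bz; field_simp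
  have a8 : G.A g / 24000 ≤ κ * G.GG g := by
    refine le_trans (le_of_eq ?_) (mul_le_mul_of_nonneg_right k1 o.GG_nonneg)
    change _ = 1 / (24000 * (G.Z * hI g ι)) * _
    rw [← o.A_mul]; field_simp
  nlinarith

end Vale.Agent.P049
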