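import Vale.Agent.P049.FactB

set_option maxRecDepth 100000

namespace Vale.Agent.P049

open Finset

variable {ι : Type} [Fintype ι] [DecidableEq ι]

namespace FactC

theorem psd {c : ℝ} {Y : Matrix ι ι ℝ} (h : Game c univ Y) :
    (Matrix.of fun i j => Y i j + c * ((if i = j then 1 else 0) - 1 / mI ι)).PosSemidef := by
  refine .of_dotProduct_mulVec_nonneg (Matrix.IsHermitian.ext fun i j => ?_) fun x => ?_
  · simp [h.symm j (mem_univ _) i (mem_univ _), eq_comm]
  · refine (h.psd x).trans_eq ?_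
    simp only [qf, pd, dotProduct, Matrix.mulVec, Matrix.of_apply, star_trivial, add_mul, mul_add,
      sub_mul, mul_sub, sum_add_distrib, sum_sub_distrib, mul_ite, ite_mul, mul_one, mul_zero,
      zero_mul, sum_ite_eq, mem_univ, if_true, mul_sum, sum_mul, sum_div, mul_assoc, mI]
    congr 2
    · exact sum_congr rfl fun i _ => by ring
    · exact sum_congr rfl fun i _ => sum_congr rfl fun j _ => by ring

theorem tp {g : ℝ} (hn : Num g (mI ι)) {G : Gm ι} (h : One g G) : G.t1 ≤ mI ι / g / 2 := by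
  have g0 := hn.g_pos
  have m0 := hn.m_pos
  refine (le_max_left _ 0).trans (abs_le_of_sq_le_sq' (h.tp.trans ?_) (by positivity)).2
  have h1 := hn.const_pow (c := 4) (by norm_num) (show 16 < 17 by norm_num)
  have h2 := hn.pow_le_m (show 17 ≤ 3995 by norm_num)
  have h3 : G.Z ≤ mI ι := sub_le_self _ G.t2_nonneg
  have h4 : hI g ι ≤ 1 := hn.h_le_one
  have h5 : 0 < hI g ι := hn.h_pos
  calc _ ≤ g ^ 14 * mI ι * 1 := by gcongr
    _ = 4 * g ^ 16 * mI ι / (4 * g ^ 2) := by field_simp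
    _ ≤ mI ι * mI ι / (4 * g ^ 2) := by gcongr; linarith
    _ = _ := by ring

end FactC

theorem cross_of_game {c : ℝ} (hc0 : 0 ≤ c) {Y Y' : Matrix ι ι ℝ} (h : Game c univ Y)
    (h' : Game c univ Y') (hm : 0 < mI ι) :
    -(c * (tau1 univ Y + tau1 univ Y')) - c ^ 2 * mI ι ≤ ∑ i, (Y * Y') i i := by
  have h1 := ((FactC.psd h).hadamard (FactC.psd h')).dotProduct_mulVec_nonneg fun _ => 1
  have r := fun i => h.row i (mem_univ _)
  have r' := fun i => h'.row i (mem_univ _)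
  have e : ∀ i j, (Y i j + c * ((if i = j then 1 else 0) - 1 / mI ι)) *
      (Y' i j + c * ((if i = j then 1 else 0) - 1 / mI ι)) = Y i j * Y' j i -
      c / mI ι * Y i j - c / mI ι * Y' i j + c ^ 2 / mI ι ^ 2 +
      if i = j then c * Y i i + c * Y' i i + c ^ 2 * (1 - 2 / mI ι) else 0 := fun i j => by
    rw [h'.symm j (mem_univ _) i (mem_univ _)]
    split_ifs with hij
    · subst hij; ring
    · ring
  simp only [dotProduct, Matrix.mulVec, Matrix.hadamard_apply, Matrix.of_apply, star_trivial, mul_one,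
    one_mul, e, sum_add_distrib, sum_sub_distrib, ← mul_sum, r, r', sum_ite_eq, mem_univ, if_true,
    sum_const_mI, mul_zero, sub_zero] at h1
  rw [show mI ι * (mI ι * (c ^ 2 / mI ι ^ 2)) = c ^ 2 by field_simp,
    show c ^ 2 * (mI ι - mI ι * (2 / mI ι)) = c ^ 2 * mI ι - 2 * c ^ 2 by field_simp] at h1
  simp only [Matrix.mul_apply, tau1]
  nlinarith [sq_nonneg c]

theorem two_of_phi {g c b : ℝ} (hn : Num g (mI ι)) (hc0 : 0 ≤ c) (hc : c ^ 2 ≤ 1 / 2)
    {Y Y' : Matrix ι ι ℝ} (h : Game c univ Y) (h' : Game c univ Y') (hZ : 0 < zz univ Y)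
    (hZ' : 0 < zz univ Y') (hb : 0 ≤ b) (hP : Phi g univ Y Y' b ≤ g ^ 120000)
    {bad : ι → ι → Bool} (hbad : BadOk g univ bad) :
    Two g ⟨1, Y⟩ ⟨-1, Y'⟩ bad ∧ b ≤ g ^ 10 * mI ι ^ 2 := by
  obtain ⟨b1, b2, b3, b4⟩ := base_of_phi hn.one_le_g hZ hZ' hb hP
  have o1 := one_of_base hn hc0 hc ⟨1, Y⟩ (Or.inl rfl) h b1
  have o2 := one_of_base hn hc0 hc ⟨-1, Y'⟩ (Or.inr rfl) h' b2
  refine ⟨⟨o1, o2, rfl, hbad, hn.F7 b3 ?_, ?_⟩, b4⟩
  · refine (fro_mul_le Y Y').trans ((mul_le_mul o1.t2h o2.t2h (fro_nonneg _)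
      (mul_nonneg hn.m_pos.le hn.h_pos.le)).trans_eq ?_)
    unfold hI; ring
  · refine le_trans ?_ (cross_of_game hc0 h h' hn.m_pos)
    have a1 : tau1 univ Y ≤ _ := FactC.tp hn o1
    have a2 : tau1 univ Y' ≤ _ := FactC.tp hn o2
    have g0 := hn.g_pos
    have m0 := hn.m_pos
    have a3 : c * (tau1 univ Y + tau1 univ Y') ≤ 1 * (mI ι / g) :=
      (mul_le_mul_of_nonneg_left (by linarith) hc0).trans
        (mul_le_mul_of_nonneg_right (by nlinarith) (by positivity))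
    have a4 := mul_le_mul_of_nonneg_right hc m0.le
    rw [div_eq_mul_one_div (mI ι)] at a3
    linarith

end Vale.Agent.P049
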