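import Vale.Agent.P049.ToolG

namespace Vale.Agent.P049

open Finset

variable {ι : Type} [Fintype ι] [DecidableEq ι] {g : ℝ} {G G' : Gm ι} {bad : ι → ι → Bool}

namespace Nc

theorem t4 {x y z w X Y Z W : ℝ} (hx : |x| ≤ X) (hy : |y| ≤ Y) (hz : |z| ≤ Z) (hw : |w| ≤ W) :
    |x * y * z * w| ≤ X * Y * Z * W := by
  have := (abs_nonneg _).trans hx
  have := (abs_nonneg _).trans hy
  have := (abs_nonneg _).trans hz
  rw [abs_mul, abs_mul, abs_mul]
  gcongr

theorem half {T x y d : ℝ} (hT : 1 ≤ T) (hx : 1 ≤ x) (hy : 0 ≤ y) (hd : 0 ≤ d) :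
    2 * (d ^ 2 * x ^ 4) + 22 / 5 * (d * x ^ 3 * y) ≤ 5 * (x ^ 4 * (T * d ^ 2 + y ^ 2 / T)) := by
  have T0 : 0 < T := by linarith
  have a1 : 2 * (d * y) ≤ T * d ^ 2 + y ^ 2 / T := by
    have : 0 ≤ (T * d - y) ^ 2 / T := by positivity
    have e : (T * d - y) ^ 2 / T = T * d ^ 2 + y ^ 2 / T - 2 * (d * y) := by field_simp; ring
    linarith
  have a2 : d ^ 2 ≤ T * d ^ 2 + y ^ 2 / T := by
    have : 0 ≤ y ^ 2 / T := by positivity
    nlinarith [sq_nonneg d]
  have a3 : d * x ^ 3 * y ≤ x ^ 4 * (d * y) := by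
    have := mul_le_mul_of_nonneg_right (pow_le_pow_right₀ hx (show 3 ≤ 4 by norm_num))
      (mul_nonneg hd hy)
    linarith
  have x4 : 0 ≤ x ^ 4 := by positivity
  have a4 := mul_le_mul_of_nonneg_left a1 x4
  have a5 := mul_le_mul_of_nonneg_left a2 x4
  have : 0 ≤ x ^ 4 * (d * y) := by positivity
  linarith

theorem rest {a b a' b' s s' n11 n12 n21 n22 k11 k12 k21 k22 c d x y n T : ℝ} (hT : 1 ≤ T)
    (hx : 1 ≤ x) (hy : 1 ≤ y) (hn : 0 ≤ n)
    (ha : |a| ≤ c) (ha' : |a'| ≤ c) (hb : |b| ≤ d) (hb' : |b'| ≤ d) (hs : |s| ≤ 11 / 10)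
    (hs' : |s'| ≤ 11 / 10) (h11 : |n11| ≤ 2 * (x * x)) (h12 : |n12| ≤ 2 * (x * y))
    (h21 : |n21| ≤ 2 * (y * x)) (h22 : |n22| ≤ 2 * (y * y)) (l11 : |k11| ≤ n * (x * x))
    (l12 : |k12| ≤ n * (x * y)) (l21 : |k21| ≤ n * (y * x)) (l22 : |k22| ≤ n * (y * y)) :
    b * b' * n11 * k11 + b * s' * n11 * k12 + s * b' * n11 * k21 + b * s' * n12 * k11 +
      b * a' * n12 * k12 + s * a' * n12 * k22 + s * b' * n21 * k11 + a * b' * n21 * k21 +
      a * s' * n21 * k22 + s * a' * n22 * k12 + a * s' * n22 * k21 + a * a' * n22 * k22 ≤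
      10 * n * (x ^ 4 * (T * d ^ 2 + y ^ 2 / T) + y ^ 4 * (T * c ^ 2 + x ^ 2 / T)) := by
  have c0 := (abs_nonneg _).trans ha
  have d0 := (abs_nonneg _).trans hb
  have p1 := half hT hx (by linarith : 0 ≤ y) d0
  have p2 := half hT hy (by linarith : 0 ≤ x) c0
  have p3 : 2 * (c * d * x ^ 2 * y ^ 2) ≤ d ^ 2 * x ^ 4 + c ^ 2 * y ^ 4 := by
    nlinarith [sq_nonneg (d * x ^ 2 - c * y ^ 2)]
  have p4 := mul_le_mul_of_nonneg_left (add_le_add (add_le_add p1 p2) p3) hn
  have q1 := (abs_le.1 (t4 hb hb' h11 l11)).2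
  have q2 := (abs_le.1 (t4 hb hs' h11 l12)).2
  have q3 := (abs_le.1 (t4 hs hb' h11 l21)).2
  have q4 := (abs_le.1 (t4 hb hs' h12 l11)).2
  have q5 := (abs_le.1 (t4 hb ha' h12 l12)).2
  have q6 := (abs_le.1 (t4 hs ha' h12 l22)).2
  have q7 := (abs_le.1 (t4 hs hb' h21 l11)).2
  have q8 := (abs_le.1 (t4 ha hb' h21 l21)).2
  have q9 := (abs_le.1 (t4 ha hs' h21 l22)).2
  have q10 := (abs_le.1 (t4 hs ha' h22 l12)).2
  have q11 := (abs_le.1 (t4 ha hs' h22 l21)).2
  have q12 := (abs_le.1 (t4 ha ha' h22 l22)).2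
  linarith

noncomputable def KK (G G' : Gm ι) : Matrix ι ι ℝ := G.Y * P0 G G' * G'.Y
noncomputable def uu (G G' : Gm ι) (α : ι) : ℝ := 1 + G.rho α + G'.rho α
noncomputable def cc (G G' : Gm ι) (α : ι) : ℝ := |G.a α| + |G'.a α|
noncomputable def FF (g : ℝ) (G G' : Gm ι) (α β : ι) : ℝ :=
  uu G G' α ^ 2 * (g ^ 6000 * cc G G' β ^ 2 + uu G G' β / g ^ 6000)

theorem KK_eq (h : One g G') (α β : ι) :
    KK G G' α β = ∑ i, ∑ j, G.Y α i * P0 G G' i j * G'.Y β j := by
  simp only [KK, Matrix.mul_apply (M := G.Y * P0 G G'), Matrix.mul_apply (N := P0 G G'), sum_mul]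
  rw [sum_comm]
  exact sum_congr rfl fun i _ => sum_congr rfl fun j _ => by rw [h.symm j β]

theorem ip_T3 (h : One g G') (α β : ι) : ip (P0 G G') (T3 G G' α β) =
    G.s α β * G'.s α β / (G.dl α β * G'.dl α β) *
      (nu G G' β β * KK G G' α α + nu G G' α α * KK G G' β β) +
    (G.s α β * G'.s α β * nu G G' β α * KK G G' α β +
      G.s α β * G'.s α β * nu G G' α β * KK G G' β α +
    (G.a β * G'.a β * nu G G' α α * KK G G' α α + G.a β * G'.s α β * nu G G' α α * KK G G' α β +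
      G.s α β * G'.a β * nu G G' α α * KK G G' β α + G.a β * G'.s α β * nu G G' α β * KK G G' α α +
      G.a β * G'.a α * nu G G' α β * KK G G' α β + G.s α β * G'.a α * nu G G' α β * KK G G' β β +
      G.s α β * G'.a β * nu G G' β α * KK G G' α α + G.a α * G'.a β * nu G G' β α * KK G G' β α +
      G.a α * G'.s α β * nu G G' β α * KK G G' β β + G.s α β * G'.a α * nu G G' β β * KK G G' α β +
      G.a α * G'.s α β * nu G G' β β * KK G G' β α + G.a α * G'.a α * nu G G' β β * KK G G' β β)) /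
      (G.dl α β * G'.dl α β) := by
  simp only [KK_eq h, ip, T3, Gm.g1, Gm.g2, mul_sum, sum_div, ← sum_add_distrib]
  exact sum_congr rfl fun i _ => sum_congr rfl fun j _ => by ring

theorem one_le_uu (α : ι) : 1 ≤ uu G G' α := by
  unfold uu; linarith [G.rho_nonneg α, G'.rho_nonneg α]

theorem KK_sq (h : One g G') (α β : ι) : KK G G' α β ^ 2 ≤ G.rho α * NN G G' * G'.rho β := by
  rw [KK_eq h, NN_eq]; exact bil_sq_le _ _ _

theorem rho_uu (α β : ι) : 1 + G.rho α * G'.rho β ≤ uu G G' α * uu G G' β := by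
  unfold uu
  have := G.rho_nonneg α
  have := G'.rho_nonneg α
  have := G.rho_nonneg β
  have := G'.rho_nonneg β
  nlinarith [mul_nonneg ‹0 ≤ G.rho α› ‹0 ≤ G.rho β›, mul_nonneg ‹0 ≤ G'.rho α› ‹0 ≤ G.rho β›,
    mul_nonneg ‹0 ≤ G'.rho α› ‹0 ≤ G'.rho β›]

theorem nu_sq (h : One g G') (α β : ι) : nu G G' α β ^ 2 ≤ 2 * (uu G G' α * uu G G' β) := by
  have a1 := P0_sq_le (G := G) h.symm α β
  have a2 := rho_uu (G := G) (G' := G') α β
  have a3 : 0 < 1 / mI ι := one_div_pos.2 h.m_pos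
  have a4 : 1 / mI ι ≤ 1 := h.inv_m_le.trans ((div_le_one h.g_pos).2 h.num.one_le_g)
  have a5 : ((if α = β then 1 else 0) - 1 / mI ι) ^ 2 ≤ 1 := by split_ifs <;> nlinarith
  rw [nu, add_sub_assoc]
  nlinarith [sq_nonneg (P0 G G' α β - ((if α = β then 1 else 0) - 1 / mI ι))]

theorem KK_sq' (h : One g G') (α β : ι) :
    KK G G' α β ^ 2 ≤ NN G G' * (uu G G' α * uu G G' β) := by
  have N0 : 0 ≤ NN G G' := NN_eq G G' ▸ fro_nonneg _
  have := mul_le_mul_of_nonneg_left (rho_uu (G := G) (G' := G') α β) N0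
  linarith [KK_sq (G := G) h α β]

theorem abs_nu (h : One g G') (α β : ι) : |nu G G' α β| ≤ 2 * (√(uu G G' α) * √(uu G G' β)) := by
  have a := one_le_uu (G := G) (G' := G') α
  have b := one_le_uu (G := G) (G' := G') β
  refine abs_le_of_sq_le_sq ((nu_sq h α β).trans ?_) (by positivity)
  rw [mul_pow, mul_pow, Real.sq_sqrt (by linarith), Real.sq_sqrt (by linarith)]
  nlinarith

theorem abs_KK (h : One g G') (α β : ι) :
    |KK G G' α β| ≤ √(NN G G') * (√(uu G G' α) * √(uu G G' β)) := by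
  have a := one_le_uu (G := G) (G' := G') α
  have b := one_le_uu (G := G) (G' := G') β
  refine abs_le_of_sq_le_sq ((KK_sq' h α β).trans_eq ?_) (by positivity)
  rw [mul_pow, mul_pow, Real.sq_sqrt (show 0 ≤ NN G G' from NN_eq G G' ▸ fro_nonneg _),
    Real.sq_sqrt (by linarith), Real.sq_sqrt (by linarith)]

theorem point (h : Two g G G' bad) (α β : ι) :
    ww g G G' bad α β * ip (P0 G G') (T3 G G' α β) ≤
      -(ww g G G' bad α β * (G.sg * G.s α β / G.dl α β * (G'.sg * G'.s α β / G'.dl α β) *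
          (nu G G' β β * KK G G' α α)) +
        ww g G G' bad β α * (G.sg * G.s β α / G.dl β α * (G'.sg * G'.s β α / G'.dl β α) *
          (nu G G' α α * KK G G' β β))) +
      ((5 * (|P0 G G' β α| * |KK G G' α β| + 1 / mI ι * |KK G G' α β|) +
        40 * √(NN G G') * FF g G G' α β) +
      (5 * (|P0 G G' α β| * |KK G G' β α| + 1 / mI ι * |KK G G' β α|) +
        40 * √(NN G G') * FF g G G' β α)) := by
  have m0 := h.one.m_pos
  have g0 := h.one.g_pos
  have u0 : ∀ α, 0 ≤ uu G G' α := fun α => zero_le_one.trans (one_le_uu α)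
  have F0 : ∀ α β, 0 ≤ FF g G G' α β := fun α β => by have := u0 β; unfold FF; positivity
  have R0 : ∀ α β, 0 ≤ 5 * (|P0 G G' β α| * |KK G G' α β| + 1 / mI ι * |KK G G' α β|) +
      40 * √(NN G G') * FF g G G' α β := fun α β => by have := F0 α β; positivity
  by_cases k : adm g G G' bad α β
  swap
  · rw [h.ww_symm α β, ww_of_not k]
    simpa using add_nonneg (R0 α β) (R0 β α)
  have e : G.sg * G.s α β / G.dl α β * (G'.sg * G'.s α β / G'.dl α β) =
      -(G.s α β * G'.s α β / (G.dl α β * G'.dl α β)) := by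
    rw [h.sg]
    linear_combination (-(G.s α β * G'.s α β / (G.dl α β * G'.dl α β))) * h.one.sg_sq
  rw [h.ww_symm α β, Gm.s_symm h.one.symm β α, Gm.dl_symm h.one.symm β α, Gm.s_symm h.two.symm β α,
    Gm.dl_symm h.two.symm β α, e, ip_T3 h.two]
  have w1 : ∀ α, 1 ≤ √(uu G G' α) := fun α => Real.one_le_sqrt.2 (one_le_uu α)
  have r := rest (T := g ^ 6000) (one_le_pow₀ h.one.num.one_le_g) (w1 α) (w1 β)
    (Real.sqrt_nonneg (NN G G')) (c := cc G G' α) (d := cc G G' β)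
    (le_add_of_nonneg_right (abs_nonneg _)) (le_add_of_nonneg_left (abs_nonneg _))
    (le_add_of_nonneg_right (abs_nonneg _)) (le_add_of_nonneg_left (abs_nonneg _))
    (h.one.ok_s k.2.1) (h.two.ok_s k.2.2) (abs_nu h.two α α) (abs_nu h.two α β) (abs_nu h.two β α)
    (abs_nu h.two β β) (abs_KK h.two α α) (abs_KK h.two α β) (abs_KK h.two β α) (abs_KK h.two β β)
  have s4 : ∀ α, √(uu G G' α) ^ 4 = uu G G' α ^ 2 := fun α => by
    rw [show (4 : ℕ) = 2 * 2 from rfl, pow_mul, Real.sq_sqrt (u0 α)]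
  rw [s4, s4, Real.sq_sqrt (u0 α), Real.sq_sqrt (u0 β)] at r
  have hn : ∀ α β, α ≠ β → |nu G G' α β| ≤ |P0 G G' α β| + 1 / mI ι := fun α β hne => by
    rw [nu, if_neg hne, add_zero]
    exact (abs_sub _ _).trans_eq (by rw [abs_of_pos (one_div_pos.2 m0)])
  have c1 := (abs_le.1 (t4 (h.one.ok_s k.2.1) (h.two.ok_s k.2.2) (hn β α (h.adm_ne k).symm)
    (le_refl |KK G G' α β|))).2
  have c2 := (abs_le.1 (t4 (h.one.ok_s k.2.1) (h.two.ok_s k.2.2) (hn α β (h.adm_ne k))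
    (le_refl |KK G G' β α|))).2
  have d1 := (h.one.ok_dl k.2.1).1
  have d2 := (h.two.ok_dl k.2.2).1
  have d3 : 1 / 2 ≤ G.dl α β * G'.dl α β := by nlinarith
  have key : ∀ {S B : ℝ}, 0 ≤ B → S ≤ B / 4 →
      ww g G G' bad α β * (S / (G.dl α β * G'.dl α β)) ≤ B := fun {S B} hB hS => by
    have a1 : S / (G.dl α β * G'.dl α β) ≤ B / 2 := by
      rw [div_le_iff₀ (by linarith)]; nlinarith
    have := mul_le_mul_of_nonneg_left a1 (h.ww_nonneg α β)
    have := mul_le_mul_of_nonneg_right (h.ww_le_two α β) hB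
    linarith
  have p1 : 0 ≤ (|P0 G G' β α| + 1 / mI ι) * |KK G G' α β| := by positivity
  have p2 : 0 ≤ (|P0 G G' α β| + 1 / mI ι) * |KK G G' β α| := by positivity
  rw [mul_add]
  refine add_le_add (le_of_eq (by ring)) (key (add_nonneg (R0 α β) (R0 β α)) ?_)
  unfold FF
  linarith

theorem sum_uu_sq (h : Two g G G' bad) : (∑ α, uu G G' α ^ 2) / mI ι ≤ g ^ 22 := by
  have m0 := h.one.m_pos
  have a1 : ∑ α, uu G G' α ^ 2 ≤ ∑ α, 3 * (1 + G.rho α ^ 2 + G'.rho α ^ 2) :=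
    sum_le_sum fun α _ => by
      unfold uu
      nlinarith [sq_nonneg (1 - G.rho α), sq_nonneg (1 - G'.rho α), sq_nonneg (G.rho α - G'.rho α)]
  rw [← mul_sum, sum_add_distrib, sum_add_distrib, h.one.sum_rho_sq, h.two.sum_rho_sq,
    sum_const_mI] at a1
  have a2 : (1 : ℝ) ≤ g ^ 21 := one_le_pow₀ h.one.num.one_le_g
  have a3 := h.one.num.const_pow (c := 9) (j := 21) (k := 22) (by norm_num) (by norm_num)
  rw [div_le_iff₀ m0]
  nlinarith [h.one.r4a, h.two.r4a]

theorem Qn_ge (h : Two g G G' bad) : g ^ 7000 * √(NN G G') ≤ Qn g G G' := by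
  have N0 : 0 ≤ NN G G' := NN_eq G G' ▸ fro_nonneg _
  have : 0 ≤ g ^ 7000 * √(NN G G') := mul_nonneg (pow_nonneg h.one.g_pos.le _) (Real.sqrt_nonneg _)
  have e : g ^ 14000 = (g ^ 7000) ^ 2 := by rw [← pow_mul]
  rw [Qn, e]
  nlinarith [Real.sq_sqrt N0, sq_nonneg (g ^ 7000 - √(NN G G'))]

theorem small (h : Two g G G' bad) {x : ℝ} (hx : x ≤ g ^ 6999 / mI ι) :
    √(NN G G') * x ≤ bb g G G' * Qn g G G' := by
  have m0 := h.one.m_pos
  have g0 := h.one.g_pos
  calc _ ≤ √(NN G G') * (g ^ 6999 / mI ι) := by gcongr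
    _ = 1 / (g * mI ι) * (g ^ 7000 * √(NN G G')) := by
        rw [show g ^ 7000 = g * g ^ 6999 from pow_succ' g 6999]
        generalize g ^ 6999 = t
        field_simp
    _ ≤ _ := mul_le_mul h.le_bb (Qn_ge h) (mul_nonneg (pow_nonneg g0.le _) (Real.sqrt_nonneg _))
        h.bb_pos.le

theorem E_FF (h : Two g G G' bad) : E2 (FF g G G') ≤ g ^ 6999 / mI ι := by
  have m0 := h.one.m_pos
  have g0 := h.one.g_pos
  have a1 : ∑ β, cc G G' β ^ 2 ≤ 4 * g ^ 291 := by
    have : ∑ β, cc G G' β ^ 2 ≤ ∑ β, 2 * (G.a β ^ 2 + G'.a β ^ 2) := sum_le_sum fun β _ => by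
      unfold cc
      nlinarith [sq_nonneg (|G.a β| - |G'.a β|), sq_abs (G.a β), sq_abs (G'.a β)]
    rw [← mul_sum, sum_add_distrib] at this
    linarith [h.one.sum_a_sq, h.two.sum_a_sq, h.one.Dha, h.two.Dha]
  have a2 : ∑ β, uu G G' β ≤ 3 * g ^ 12002 := by
    simp only [uu, sum_add_distrib, sum_const_mI, ← Gm.t2_eq_sum]
    linarith [h.one.t2_le, h.two.t2_le, h.one.num.hi]
  have a3 : ∑ β, (g ^ 6000 * cc G G' β ^ 2 + uu G G' β / g ^ 6000) ≤ g ^ 6300 := by
    rw [sum_add_distrib, ← mul_sum, ← sum_div]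
    have p0 : 0 < g ^ 6000 := pow_pos g0 _
    have b1 := mul_le_mul_of_nonneg_left a1 p0.le
    have b2 := div_le_div_of_nonneg_right a2 p0.le
    rw [mul_left_comm, ← pow_add] at b1
    rw [mul_div_assoc, show g ^ 12002 = g ^ 6002 * g ^ 6000 from pow_add g 6002 6000,
      mul_div_cancel_right₀ _ p0.ne'] at b2
    have b3 := h.one.num.pow_mono (j := 6002) (k := 6000 + 291) (by norm_num)
    have b4 := h.one.num.const_pow (c := 7) (j := 6000 + 291) (k := 6300) (by norm_num)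
      (by norm_num)
    generalize g ^ (6000 + 291) = t1 at *
    generalize g ^ 6002 = t2 at *
    generalize g ^ 6300 = t3 at *
    generalize g ^ 6000 = t4 at *
    linarith
  have a4 : 0 ≤ ∑ β, (g ^ 6000 * cc G G' β ^ 2 + uu G G' β / g ^ 6000) :=
    sum_nonneg fun β _ => add_nonneg (mul_nonneg (pow_nonneg g0.le _) (sq_nonneg _))
      (div_nonneg (zero_le_one.trans (one_le_uu β)) (pow_nonneg g0.le _))
  refine (E2_prod (fun α => uu G G' α ^ 2) _).trans_le ?_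
  calc _ ≤ g ^ 22 * (g ^ 6300 / mI ι) := mul_le_mul (sum_uu_sq h)
        (div_le_div_of_nonneg_right a3 m0.le) (div_nonneg a4 m0.le) (pow_nonneg g0.le _)
    _ = g ^ (22 + 6300) / mI ι := by rw [pow_add, mul_div_assoc]
    _ ≤ _ := div_le_div_of_nonneg_right (h.one.num.pow_mono (by norm_num)) m0.le

theorem fro_KK (h : Two g G G' bad) : fro (KK G G') ≤ mI ι ^ 2 * (G.l2 * G'.l2) * NN G G' := by
  have a := (Gm.fro_mul_Y h.two.symm (G.Y * P0 G G')).trans
    (mul_le_mul_of_nonneg_left (Gm.fro_Y_mul h.one.symm _) (Real.sqrt_nonneg _))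
  rw [h.one.sqrt_t4, h.two.sqrt_t4, ← NN_eq] at a
  exact a.trans_eq (by ring)

theorem E_cross (h : Two g G G' bad) : E2 (fun α β => |P0 G G' β α| * |KK G G' α β|) ≤
    bb g G G' * NN G G' := by
  have m0 := h.one.m_pos
  have N0 : 0 ≤ NN G G' := NN_eq G G' ▸ fro_nonneg _
  have y : ∀ {G G' : Gm ι}, Two g G G' bad → G.l2 ≤ mI ι * bb g G G' := fun h =>
    h.young2 ((mul_le_of_le_one_right (sq_nonneg _) h.one.z_le_one).trans
      (le_mul_of_one_le_left (sq_nonneg _) (one_le_pow₀ h.one.num.one_le_g)))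
  have y1 := y h
  have y2 := y h.swap
  rw [bb_swap] at y2
  refine E2_cs' (a := NN G G' / mI ι ^ 2) (b := G.l2 * G'.l2 * NN G G')
    (mul_nonneg h.bb_pos.le N0) ?_ ?_ ?_
  · simp only [sq_abs]
    rw [E2_swap fun α β => P0 G G' α β ^ 2, E2_sq_eq, NN_eq]
  · simp only [sq_abs]
    rw [E2_sq_eq, div_le_iff₀ (by positivity)]
    exact (fro_KK h).trans_eq (by ring)
  · have := h.one.l2_nonneg
    have := h.two.l2_nonneg
    calc _ ≤ NN G G' / mI ι ^ 2 * (mI ι * bb g G G' * (mI ι * bb g G G') * NN G G') := by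
          gcongr; exact this.trans y2
      _ = _ := by field_simp

theorem E_absK (h : Two g G G' bad) : E2 (fun α β => |KK G G' α β|) ≤ √(NN G G') := by
  have m0 := h.one.m_pos
  have N0 : 0 ≤ NN G G' := NN_eq G G' ▸ fro_nonneg _
  have := E2_cs (H := fun _ _ => (1 : ℝ)) (K := fun α β => |KK G G' α β|) zero_le_one
    (Real.sqrt_nonneg (NN G G')) (E2_const m0 _).le (by
      simp only [sq_abs]
      rw [E2_sq_eq, div_le_iff₀ (by positivity), Real.sq_sqrt N0]
      refine (fro_KK h).trans ?_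
      have := mul_le_one₀ h.one.l2_le_one h.two.l2_nonneg h.two.l2_le_one
      calc _ ≤ mI ι ^ 2 * 1 * NN G G' := by gcongr
        _ = _ := by ring)
  simpa using this

theorem main (h : Two g G G' bad) : NN G G' / mI ι / 2 - 132 * bb g G G' * Qn g G G' ≤
    E2 (fun α β => ww g G G' bad α β * (G.sg * G.s α β / G.dl α β *
      (G'.sg * G'.s α β / G'.dl α β) * (nu G G' β β * KK G G' α α))) := by
  have m0 := h.one.m_pos
  have g0 := h.one.g_pos
  have N0 : 0 ≤ NN G G' := NN_eq G G' ▸ fro_nonneg _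
  have NQ : NN G G' ≤ Qn g G G' := le_add_of_nonneg_right (by positivity)
  have hw := h.genW (H := fun α β => nu G G' β β * KK G G' α α) (Q := Qn g G G')
    (q := fun α β => G.sg * G.s α β / G.dl α β * (G'.sg * G'.s α β / G'.dl α β)) (N0.trans NQ)
    (fun α β k => by
      have a1 := h.one.ok_q k.2.1
      have a2 := h.two.ok_q k.2.2
      have a3 := h.one.ok_e' k.2.1
      have a4 := h.one.e_nonneg α β
      have a5 := h.two.e_nonneg α β
      generalize G.sg * G.s α β / G.dl α β = q at *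
      generalize G'.sg * G'.s α β / G'.dl α β = q' at *
      rw [show q * q' - 1 = (q - 1) + (q' - 1) + (q - 1) * (q' - 1) by ring]
      have a6 : |(q - 1) * (q' - 1)| ≤ 6 * G.e α β * (6 * G'.e α β) := by rw [abs_mul]; gcongr
      have a7 := abs_add_three (q - 1) (q' - 1) ((q - 1) * (q' - 1))
      nlinarith) (by
      simp only [mul_pow, mul_comm (nu G G' _ _ ^ 2)]
      rw [E2_prod (fun α => KK G G' α α ^ 2) fun β => nu G G' β β ^ 2]
      have a1 : (∑ α, KK G G' α α ^ 2) / mI ι ≤ NN G G' * g ^ 22 := by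
        refine le_trans ?_ (mul_le_mul_of_nonneg_left (sum_uu_sq h) N0)
        rw [← mul_div_assoc, mul_sum]
        gcongr with α
        exact (KK_sq' h.two α α).trans_eq (by ring)
      have a2 : (∑ α, nu G G' α α ^ 2) / mI ι ≤ 2 * g ^ 22 := by
        refine le_trans ?_ (mul_le_mul_of_nonneg_left (sum_uu_sq h) zero_le_two)
        rw [← mul_div_assoc, mul_sum]
        gcongr with α
        exact (nu_sq h.two α α).trans_eq (by ring)
      calc _ ≤ g ^ 250 * g ^ 12002 * (NN G G' * g ^ 22 * (2 * g ^ 22)) := by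
            gcongr; exact h.one.num.hi
        _ = 2 * g ^ 12296 * NN G G' := by ring
        _ ≤ (g ^ 7000) ^ 2 * NN G G' := by
            rw [← pow_mul]; gcongr ?_ * _
            exact h.one.num.const_pow (by norm_num) (by norm_num)
        _ = (g ^ 7000 * √(NN G G')) ^ 2 := by rw [mul_pow, Real.sq_sqrt N0]
        _ ≤ _ := pow_le_pow_left₀ (by positivity) (Qn_ge h) 2)
  have e1 : ∑ α, KK G G' α α = NN G G' := by
    have : ∑ α, KK G G' α α = (G.Y * P0 G G' * G'.Y).trace := rfl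
    rw [this, NN_eq, ← ip_self, ip_eq_trace, ← P0_swap h.one.symm h.two.symm,
      Matrix.trace_mul_comm, ← Matrix.mul_assoc]
    rfl
  have e2 : ∑ β, nu G G' β β = ∑ β, P0 G G' β β + mI ι - 1 := by
    simp only [nu, if_true, sum_sub_distrib, sum_add_distrib, sum_const_mI]
    field_simp
  have e3 : E2 (fun α β => nu G G' β β * KK G G' α α) =
      NN G G' / mI ι * ((∑ β, P0 G G' β β + mI ι - 1) / mI ι) := by
    simp only [mul_comm (nu G G' _ _)]
    rw [E2_prod (fun α => KK G G' α α) fun β => nu G G' β β, e1, e2]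
  have e4 : 1 / 2 - 2 * (1 / g) ≤ (∑ β, P0 G G' β β + mI ι - 1) / mI ι := by
    have a1 := h.cross
    have a2 := h.one.inv_m_le
    rw [div_le_iff₀ m0] at a2
    rw [le_div_iff₀ m0]
    linarith
  have e5 := mul_le_mul_of_nonneg_left e4 (div_nonneg N0 m0.le)
  have e6 : NN G G' / mI ι * (1 / g) ≤ bb g G G' * Qn g G G' := by
    calc _ = 1 / (g * mI ι) * NN G G' := by field_simp
      _ ≤ _ := mul_le_mul h.le_bb NQ N0 h.bb_pos.le
  rw [e3] at hw
  linarith [(abs_le.1 hw).1]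

end Nc

theorem Two.Nc (h : Two g G G' bad) :
    E2 (fun α β => ww g G G' bad α β * ip (P0 G G') (T3 G G' α β)) ≤
      -(NN G G' / mI ι) + 1000 * bb g G G' * Qn g G G' := by
  have m0 := h.one.m_pos
  have N0 : 0 ≤ NN G G' := NN_eq G G' ▸ fro_nonneg _
  have NQ : NN G G' ≤ Qn g G G' := le_add_of_nonneg_right (pow_nonneg h.one.g_pos.le _)
  have e : ∀ K : ι → ι → ℝ, E2 (fun α β => K α β + K β α) = 2 * E2 K := fun K => by
    rw [E2_add, E2_swap K, two_mul]
  refine (E2_mono (Nc.point h)).trans ?_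
  rw [E2_add, E2_neg, e fun α β => ww g G G' bad α β * (G.sg * G.s α β / G.dl α β *
      (G'.sg * G'.s α β / G'.dl α β) * (nu G G' β β * Nc.KK G G' α α)),
    e fun α β => 5 * (|P0 G G' β α| * |Nc.KK G G' α β| + 1 / mI ι * |Nc.KK G G' α β|) +
      40 * √(NN G G') * Nc.FF g G G' α β, E2_add, E2_const_mul, E2_const_mul, E2_add, E2_const_mul]
  have a1 := Nc.small h (Nc.E_FF h)
  have a2 := Nc.small h (x := 1 / mI ι)
    (div_le_div_of_nonneg_right (one_le_pow₀ h.one.num.one_le_g) m0.le)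
  have a3 := mul_le_mul_of_nonneg_left (Nc.E_absK h) (one_div_pos.2 m0).le
  have a4 := mul_le_mul_of_nonneg_left NQ h.bb_pos.le
  have a5 := mul_nonneg h.bb_pos.le N0
  linarith [Nc.main h, Nc.E_cross h]

end Vale.Agent.P049
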