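import Vale.Agent.P049.Nx

set_option maxRecDepth 100000
set_option linter.unusedSectionVars false

namespace Vale.Agent.P049

open Finset

variable {ι : Type} [Fintype ι] [DecidableEq ι] {g : ℝ} {G G' : Gm ι} {bad : ι → ι → Bool}

namespace Nd

theorem rho_m (h : One g G) (α : ι) : g ^ 1900 * G.rho α ≤ mI ι := by
  have hg := h.g_pos
  have hm := h.m_pos
  have h0 := G.rho_nonneg α
  refine abs_le_of_sq_le_sq' ?_ hm.le |>.2
  calc (g ^ 1900 * G.rho α) ^ 2 = g ^ 3800 * G.rho α ^ 2 := by ring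
    _ ≤ g ^ 3800 * (g ^ 22 * mI ι) := by gcongr; exact Nx.rho_sq_le h α
    _ = g ^ 3822 * mI ι := by ring
    _ ≤ mI ι * mI ι := by gcongr; exact h.num.pow_le_m (by norm_num)
    _ = _ := by ring

noncomputable def T0 (G G' : Gm ι) (α β : ι) : Matrix ι ι ℝ := fun i j =>
  P0 G G' i α * G'.Y β j + P0 G G' i β * G'.Y α j
noncomputable def R1 (G G' : Gm ι) (α β : ι) : Matrix ι ι ℝ := fun i j =>
  T1 G G' α β i j - G'.sg * T0 G G' α β i j
noncomputable def T00 (G G' : Gm ι) (α β : ι) : Matrix ι ι ℝ := fun i j =>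
  G'.sg * (T0 G G' α β i j - T0 G' G α β j i)

theorem fro_T0 (hs' : ∀ i j, G'.Y i j = G'.Y j i) (α β : ι) : fro (T0 G G' α β) =
    col (P0 G G') α * G'.rho β + G'.rho α * col (P0 G G') β +
      2 * (((P0 G G').transpose * P0 G G') α β * G'.p α β) := by
  rw [mul_comm (G'.rho α)]
  simp only [fro, col, T0, G'.rho_eq, Gm.p_eq hs', Matrix.mul_apply, Matrix.transpose_apply,
    sum_mul_sum]
  simp only [mul_sum, ← sum_add_distrib]
  exact sum_congr rfl fun i _ => sum_congr rfl fun j _ => by ring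

theorem fro_T0_le (α β : ι) : fro (T0 G G' α β) ≤
    2 * (col (P0 G G') α * G'.rho β + G'.rho α * col (P0 G G') β) := by
  rw [mul_comm (G'.rho α)]
  simp only [fro, col, T0, G'.rho_eq, sum_mul_sum]
  simp only [mul_sum, ← sum_add_distrib]
  refine sum_le_sum fun i _ => sum_le_sum fun j _ => ?_
  nlinarith [sq_nonneg (P0 G G' i α * G'.Y β j - P0 G G' i β * G'.Y α j)]

theorem E_col_rho (h : One g G') :
    E2 (fun α β => col (P0 G G') α * G'.rho β + G'.rho α * col (P0 G G') β) ≤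
      2 * (NN G G' / mI ι) := by
  have hm := h.m_pos
  rw [E2_add, E2_prod (fun α => col (P0 G G') α) (fun β => G'.rho β),
    E2_prod (fun β => G'.rho β) (fun α => col (P0 G G') α), ← fro_eq_sum_col, ← NN_eq]
  have hN : 0 ≤ NN G G' / mI ι := div_nonneg (fro_nonneg _) hm.le
  have h1 := h.E_rho.trans h.h_le_one
  nlinarith

theorem E_T0 (h : One g G') : E2 (fun α β => fro (T0 G G' α β)) ≤
    2 * (NN G G' / mI ι) + 2 * (G'.l2 * (NN G G' / mI ι)) := by
  have hm := h.m_pos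
  simp only [fro_T0 h.symm]
  rw [E2_add, E2_const_mul, E2_ip]
  have h1 := E_col_rho (G := G) h
  have h2 : ip ((P0 G G').transpose * P0 G G') G'.p = fro (P0 G G' * G'.Y) := by
    rw [Gm.p, ip_mul_right, Gm.Y_transpose h.symm, ip_comm, Matrix.mul_assoc, ip_mul_left,
      Matrix.transpose_transpose, ip_self]
  have h3 := Gm.fro_mul_Y h.symm (P0 G G')
  rw [h.sqrt_t4, ← NN_eq] at h3
  have h4 : fro (P0 G G' * G'.Y) / mI ι ^ 2 ≤ G'.l2 * (NN G G' / mI ι) := by
    calc _ ≤ mI ι * G'.l2 * NN G G' / mI ι ^ 2 := by gcongr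
      _ = _ := by field_simp
  rw [h2]
  linarith

theorem ip_T0 (hs : ∀ i j, G.Y i j = G.Y j i) (hs' : ∀ i j, G'.Y i j = G'.Y j i) (α β : ι) :
    ip (T0 G G' α β) (T0 G' G α β).transpose =
      (G.Y * P0 G G').transpose α β * (P0 G G' * G'.Y) α β +
      (G.Y * P0 G G') α α * (P0 G G' * G'.Y) β β +
      (P0 G G' * G'.Y) α α * (G.Y * P0 G G') β β +
      (G.Y * P0 G G') α β * (P0 G G' * G'.Y).transpose α β := by
  rw [mul_comm ((P0 G G' * G'.Y) α α)]
  simp only [ip, T0, P0_swap hs hs', Matrix.transpose_apply, Matrix.mul_apply (N := G'.Y),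
    Matrix.mul_apply (M := G.Y), sum_mul_sum]
  simp only [← sum_add_distrib]
  refine sum_congr rfl fun i _ => sum_congr rfl fun j _ => ?_
  rw [hs' j α, hs' j β]
  ring

theorem Qn_nonneg (h : One g G) : 0 ≤ Qn g G G' := by
  have := h.g_pos
  have : 0 ≤ NN G G' := fro_nonneg _
  unfold Qn; positivity

theorem tr_lo (h : Two g G G' bad) : -mI ι ≤ ∑ α, (G.Y * P0 G G') α α := by
  have h1 := low_trace h.two.low G.Y
  have h2 : ip G.Y (G'.Y * G.Y) = ∑ α, (G.Y * P0 G G') α α := by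
    rw [← ip_transpose, Matrix.transpose_mul, Gm.Y_transpose h.one.symm,
      Gm.Y_transpose h.two.symm, ip_eq_trace, Gm.Y_transpose h.one.symm]
    rfl
  have h3 := h.one.t2_le
  rw [G.t2_eq_fro] at h3
  linarith

theorem tr_hi (h : Two g G G' bad) : g * ∑ α, (G.Y * P0 G G') α α ≤ Qn g G G' := by
  have hg := h.one.g_pos
  have hm := h.one.m_pos
  have h2 : ip G.Y (P0 G G') = ∑ α, (G.Y * P0 G G') α α := by
    rw [ip_eq_trace, Gm.Y_transpose h.one.symm]; rfl
  have h1 := ip_sq_le G.Y (P0 G G')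
  rw [h2, ← G.t2_eq_fro, ← NN_eq] at h1
  have hN : 0 ≤ NN G G' := fro_nonneg _
  refine abs_le_of_sq_le_sq' ?_ (Qn_nonneg h.one) |>.2
  calc (g * ∑ α, (G.Y * P0 G G') α α) ^ 2 = g ^ 2 * (∑ α, (G.Y * P0 G G') α α) ^ 2 := by ring
    _ ≤ g ^ 2 * (g ^ 12002 * NN G G') := by
        gcongr
        exact h1.trans (mul_le_mul_of_nonneg_right (h.one.t2_le.trans h.one.num.hi) hN)
    _ = g ^ 12004 * NN G G' := by ring
    _ ≤ g ^ 14000 * NN G G' := by gcongr; exacts [h.one.num.one_le_g, by norm_num]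
    _ ≤ _ := by
        unfold Qn
        have : 0 < g ^ 14000 := by positivity
        nlinarith [sq_nonneg (NN G G'), sq_nonneg (g ^ 14000)]

theorem tr_swap (h : Two g G G' bad) :
    ∑ α, (P0 G G' * G'.Y) α α = ∑ α, (G'.Y * P0 G' G) α α := by
  refine sum_congr rfl fun α _ => ?_
  have : P0 G G' * G'.Y = (G'.Y * P0 G' G).transpose := by
    rw [Matrix.transpose_mul, P0_swap h.one.symm h.two.symm, Matrix.transpose_transpose,
      Gm.Y_transpose h.two.symm]
  rw [this, Matrix.transpose_apply]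

theorem Qn_swap (h : Two g G G' bad) : Qn g G' G = Qn g G G' := by
  unfold Qn; rw [NN_swap h.one.symm h.two.symm]

theorem neg_mul_le {x y m c : ℝ} (hm : 0 ≤ m) (hc : 0 ≤ c) (h1 : -m ≤ x) (h2 : -m ≤ y)
    (h3 : x ≤ c) (h4 : y ≤ c) : -(x * y) ≤ m * c := by
  have := mul_nonneg hm hc
  rcases le_total 0 x with a | a <;> rcases le_total 0 y with b | b
  · nlinarith [mul_nonneg a b]
  · nlinarith
  · nlinarith
  · nlinarith [mul_nonneg_of_nonpos_of_nonpos a b]

theorem N_le (h : Two g G G' bad) : NN G G' / mI ι / g ≤ bb g G G' * Qn g G G' := by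
  have hg := h.one.g_pos
  have hm := h.one.m_pos
  have hN : 0 ≤ NN G G' := fro_nonneg _
  calc NN G G' / mI ι / g = 1 / (g * mI ι) * NN G G' := by field_simp
    _ ≤ bb g G G' * Qn g G G' := by
        have := h.bb_pos
        gcongr
        · exact h.le_bb
        · exact le_add_of_nonneg_right (by positivity)

theorem l2N_le (h : Two g G G' bad) : G.l2 * (NN G G' / mI ι) ≤ bb g G G' * Qn g G G' := by
  have hg := h.one.g_pos
  have hm := h.one.m_pos
  have hN : 0 ≤ NN G G' := fro_nonneg _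
  have h1 : G.l2 ≤ mI ι * bb g G G' := by
    refine h.young2 ?_
    have a := h.one.z_le_one
    have b := one_le_pow₀ (n := 118) h.one.num.one_le_g
    nlinarith [sq_nonneg G.l2]
  have := h.bb_pos
  calc G.l2 * (NN G G' / mI ι) ≤ mI ι * bb g G G' * (NN G G' / mI ι) := by gcongr
    _ = bb g G G' * NN G G' := by field_simp
    _ ≤ _ := by gcongr; exact le_add_of_nonneg_right (by positivity)

theorem l2N_le' (h : Two g G G' bad) : G'.l2 * (NN G G' / mI ι) ≤ bb g G G' * Qn g G G' := by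
  have := l2N_le h.swap
  rwa [NN_swap h.one.symm h.two.symm, bb_swap, Qn_swap h] at this

theorem tr_tr (h : Two g G G' bad) :
    -((∑ α, (G.Y * P0 G G') α α) / mI ι * ((∑ α, (P0 G G' * G'.Y) α α) / mI ι)) ≤
      bb g G G' * Qn g G G' := by
  have hg := h.one.g_pos
  have hm := h.one.m_pos
  have hQ := Qn_nonneg (G' := G') h.one
  have h1 := tr_lo h
  have h2 := tr_lo h.swap
  have h3 := tr_hi h
  have h4 := tr_hi h.swap
  rw [Qn_swap h] at h4
  rw [← tr_swap h] at h2 h4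
  have h5 := neg_mul_le hm.le (div_nonneg hQ hg.le) h1 h2 ((le_div_iff₀' hg).2 h3)
    ((le_div_iff₀' hg).2 h4)
  calc _ = -((∑ α, (G.Y * P0 G G') α α) * (∑ α, (P0 G G' * G'.Y) α α)) / mI ι ^ 2 := by
        field_simp
    _ ≤ mI ι * (Qn g G G' / g) / mI ι ^ 2 := by gcongr
    _ = 1 / (g * mI ι) * Qn g G G' := by field_simp
    _ ≤ _ := by gcongr; exact h.le_bb

theorem ip_lo (X W : Matrix ι ι ℝ) : -(2 * ip X W) ≤ fro X + fro W := by
  have := fro_nonneg (X + W)
  rw [fro_add] at this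
  linarith

theorem E_ip (h : Two g G G' bad) :
    -E2 (fun α β => ip (T0 G G' α β) (T0 G' G α β).transpose) ≤ 4 * (bb g G G' * Qn g G G') := by
  have hm := h.one.m_pos
  simp only [ip_T0 h.one.symm h.two.symm]
  rw [E2_add, E2_add, E2_add, E2_ip, E2_ip,
    E2_prod (fun α => (G.Y * P0 G G') α α) (fun β => (P0 G G' * G'.Y) β β),
    E2_prod (fun β => (P0 G G' * G'.Y) β β) (fun α => (G.Y * P0 G G') α α)]
  have h1 := tr_tr h
  have h2 := ip_lo (G.Y * P0 G G').transpose (P0 G G' * G'.Y)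
  have h3 := ip_lo (G.Y * P0 G G') (P0 G G' * G'.Y).transpose
  rw [fro_transpose] at h2 h3
  have h4 := Gm.fro_Y_mul h.one.symm (P0 G G')
  have h5 := Gm.fro_mul_Y h.two.symm (P0 G G')
  rw [h.one.sqrt_t4, ← NN_eq] at h4
  rw [h.two.sqrt_t4, ← NN_eq] at h5
  have h6 : -(ip (G.Y * P0 G G').transpose (P0 G G' * G'.Y) / mI ι ^ 2 +
      ip (G.Y * P0 G G') (P0 G G' * G'.Y).transpose / mI ι ^ 2) ≤
      G.l2 * (NN G G' / mI ι) + G'.l2 * (NN G G' / mI ι) := by
    calc _ = -(ip (G.Y * P0 G G').transpose (P0 G G' * G'.Y) +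
          ip (G.Y * P0 G G') (P0 G G' * G'.Y).transpose) / mI ι ^ 2 := by ring
      _ ≤ (mI ι * G.l2 * NN G G' + mI ι * G'.l2 * NN G G') / mI ι ^ 2 := by gcongr; linarith
      _ = _ := by field_simp
  have h7 := l2N_le h
  have h8 := l2N_le' h
  linarith

theorem fro_T00 (h : Two g G G' bad) (α β : ι) : fro (T00 G G' α β) =
    fro (T0 G G' α β) + fro (T0 G' G α β) - 2 * ip (T0 G G' α β) (T0 G' G α β).transpose := by
  rw [← fro_transpose (T0 G' G α β)]
  simp only [fro, ip, T00, Matrix.transpose_apply, mul_pow, h.two.sg_sq, mul_sum,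
    ← sum_add_distrib, ← sum_sub_distrib]
  exact sum_congr rfl fun i _ => sum_congr rfl fun j _ => by ring

theorem E_T00 (h : Two g G G' bad) : E2 (fun α β => fro (T00 G G' α β)) ≤
    4 * (NN G G' / mI ι) + 12 * (bb g G G' * Qn g G G') := by
  simp only [fro_T00 h]
  rw [E2_sub, E2_add, E2_const_mul]
  have h1 := E_T0 (G := G) h.two
  have h2 := E_T0 (G := G') h.one
  rw [NN_swap h.one.symm h.two.symm] at h2
  have h3 := E_ip h
  have h7 := l2N_le h
  have h8 := l2N_le' h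
  linarith

theorem decomp (h : Two g G G' bad) (α β : ι) : T1 G G' α β + T2 G G' α β + T3 G G' α β =
    T00 G G' α β + (R1 G G' α β + (R1 G' G α β).transpose + T3 G G' α β) := by
  rw [T2_eq h.one.symm h.two.symm]
  ext i j
  simp only [Matrix.add_apply, Matrix.transpose_apply, R1, T00, h.sg]
  ring

theorem fro_add3 (X W V : Matrix ι ι ℝ) : fro (X + W + V) ≤ 3 * (fro X + fro W + fro V) := by
  simp only [fro_eq_sum_col, ← sum_add_distrib, mul_sum]
  exact sum_le_sum fun j _ => Nx.col_add3 X W V j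

theorem fro_R1 (h : One g G') {α β : ι} (k : G'.ok g α β) : fro (R1 G G' α β) ≤
    3 * (648 / g ^ 2 * (col (P0 G G') α * G'.rho β + G'.rho α * col (P0 G G') β) +
      2 * (col (P0 G G') α * G'.rho α * G'.a β ^ 2) +
      2 * (G'.a α ^ 2 * (col (P0 G G') β * G'.rho β))) := by
  have hg := h.g_pos
  have hd := h.ok_dl_pos k
  have h1 : fro (R1 G G' α β) ≤ 3 * ((G'.s α β / G'.dl α β - G'.sg) ^ 2 * fro (T0 G G' α β) +
      1 / G'.dl α β ^ 2 * (G'.a β ^ 2 * (col (P0 G G') α * G'.rho α)) +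
      1 / G'.dl α β ^ 2 * (G'.a α ^ 2 * (col (P0 G G') β * G'.rho β))) := by
    simp only [fro, col, G'.rho_eq, sum_mul_sum]
    simp only [mul_sum, ← sum_add_distrib]
    refine sum_le_sum fun i _ => sum_le_sum fun j _ => ?_
    have e : R1 G G' α β i j = (G'.s α β / G'.dl α β - G'.sg) * T0 G G' α β i j +
        1 / G'.dl α β * (G'.a β * (P0 G G' i α * G'.Y α j)) +
        1 / G'.dl α β * (G'.a α * (P0 G G' i β * G'.Y β j)) := by
      simp only [R1, T1, T0, Gm.g1, Gm.g2]; ring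
    rw [e]
    generalize (G'.s α β / G'.dl α β - G'.sg) = γ
    have : ∀ x y z : ℝ, (x + y + z) ^ 2 ≤ 3 * (x ^ 2 + y ^ 2 + z ^ 2) := fun x y z => by
      nlinarith [sq_nonneg (x - y), sq_nonneg (x - z), sq_nonneg (y - z)]
    refine (this _ _ _).trans_eq ?_
    ring
  have h2 : (G'.s α β / G'.dl α β - G'.sg) ^ 2 ≤ 324 / g ^ 2 := by
    have a := (h.ok_q k).trans (mul_le_mul_of_nonneg_left (h.ok_e k) (by norm_num))
    have b : (G'.s α β / G'.dl α β - G'.sg) ^ 2 = |G'.sg * G'.s α β / G'.dl α β - 1| ^ 2 := by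
      rw [sq_abs]
      have := h.sg_sq
      linear_combination (1 - (G'.s α β / G'.dl α β) ^ 2) * this
    rw [b]
    calc _ ≤ (6 * (3 / g)) ^ 2 := by gcongr
      _ = _ := by ring
  have h3 : 1 / G'.dl α β ^ 2 ≤ 2 := (h.ok_inv_sq k).trans (by norm_num)
  have c1 := col_nonneg (P0 G G') α
  have c2 := col_nonneg (P0 G G') β
  have c3 := G'.rho_nonneg α
  have c4 := G'.rho_nonneg β
  have c5 := fro_nonneg (T0 G G' α β)
  refine h1.trans ?_
  calc _ ≤ 3 * (324 / g ^ 2 * (2 * (col (P0 G G') α * G'.rho β + G'.rho α * col (P0 G G') β)) +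
      2 * (G'.a β ^ 2 * (col (P0 G G') α * G'.rho α)) +
      2 * (G'.a α ^ 2 * (col (P0 G G') β * G'.rho β))) := by gcongr; exact fro_T0_le α β
    _ = _ := by ring

theorem E_diag (h : One g G') :
    (∑ α, col (P0 G G') α * G'.rho α) / mI ι * ((∑ β, G'.a β ^ 2) / mI ι) ≤
      NN G G' / mI ι / g ^ 2 := by
  have hg := h.g_pos
  have hm := h.m_pos
  have hN : 0 ≤ NN G G' := fro_nonneg _
  have h1 : ∑ α, col (P0 G G') α * G'.rho α ≤ NN G G' * (mI ι / g ^ 1900) := by
    rw [NN_eq, fro_eq_sum_col, sum_mul]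
    exact sum_le_sum fun α _ => mul_le_mul_of_nonneg_left
      ((le_div_iff₀' (by positivity)).2 (rho_m h α)) (col_nonneg _ _)
  have h2 := h.sum_a_sq.trans h.Dha
  calc _ ≤ NN G G' * (mI ι / g ^ 1900) / mI ι * (g ^ 291 / mI ι) := by gcongr
    _ = NN G G' / mI ι / g ^ 1609 := by field_simp
    _ ≤ _ := by gcongr; exacts [h.num.one_le_g, by norm_num]

theorem E_R1 (h : Two g G G' bad) :
    E2 (fun α β => ind (adm g G G' bad α β) * fro (R1 G G' α β)) ≤
      3900 * (NN G G' / mI ι / g ^ 2) := by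
  have hg := h.one.g_pos
  have h1 : E2 (fun α β => ind (adm g G G' bad α β) * fro (R1 G G' α β)) ≤ E2 (fun α β =>
      3 * (648 / g ^ 2 * (col (P0 G G') α * G'.rho β + G'.rho α * col (P0 G G') β) +
      2 * (col (P0 G G') α * G'.rho α * G'.a β ^ 2) +
      2 * (G'.a α ^ 2 * (col (P0 G G') β * G'.rho β)))) :=
    E2_mono fun α β => ind_mul_le (by
      have c1 := col_nonneg (P0 G G') α
      have c2 := col_nonneg (P0 G G') β
      have c3 := G'.rho_nonneg α
      have c4 := G'.rho_nonneg β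
      positivity) fun k => fro_R1 h.two k.2.2
  rw [E2_const_mul, E2_add, E2_add, E2_const_mul, E2_const_mul, E2_const_mul,
    E2_prod (fun α => col (P0 G G') α * G'.rho α) (fun β => G'.a β ^ 2),
    E2_prod (fun β => G'.a β ^ 2) (fun α => col (P0 G G') α * G'.rho α)] at h1
  have h2 := E_diag (G := G) h.two
  have h3 : 648 / g ^ 2 *
      E2 (fun α β => col (P0 G G') α * G'.rho β + G'.rho α * col (P0 G G') β) ≤
      1296 * (NN G G' / mI ι / g ^ 2) := by
    calc _ ≤ 648 / g ^ 2 * (2 * (NN G G' / mI ι)) := by gcongr; exact E_col_rho h.two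
      _ = _ := by ring
  linarith

theorem scal {g N B A C : ℝ} (hg : 10 ^ 30 ≤ g) (hN : 0 ≤ N) (h1 : N / g ≤ B)
    (hA : A ≤ 4 * N + 12 * B) (hC : C ≤ 7800 * (N / g ^ 2) + g ^ 1000) (h2 : 9 * g ^ 1001 ≤ B) :
    (1 + 4 / g) * (1 + 1 / g) * A + 9 * g * C ≤ 4 * N + 10 ^ 5 * B := by
  have g0 : 0 < g := lt_of_lt_of_le (by norm_num) hg
  have hB : 0 ≤ B := le_trans (by positivity) h1
  have a1 : 1 / g ≤ 1 / 10 := by
    rw [div_le_div_iff₀ g0 (by norm_num)]; linarith
  have a0 : 0 < 1 / g := by positivity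
  have e4 : 4 / g = 4 * (1 / g) := by ring
  have a2 : (1 + 4 / g) * (1 + 1 / g) ≤ 1 + 6 * (1 / g) := by rw [e4]; nlinarith
  have a3 : (1 + 4 / g) * (1 + 1 / g) * A ≤ (1 + 6 * (1 / g)) * (4 * N + 12 * B) := by
    calc _ ≤ (1 + 4 / g) * (1 + 1 / g) * (4 * N + 12 * B) := by gcongr
      _ ≤ _ := by gcongr
  have a4 : 9 * g * C ≤ 70200 * (N / g) + 9 * g ^ 1001 := by
    calc _ ≤ 9 * g * (7800 * (N / g ^ 2) + g ^ 1000) := by gcongr
      _ = _ := by field_simp; ring
  have a5 : (1 + 6 * (1 / g)) * (4 * N + 12 * B) = 4 * N + 12 * B + 24 * (N / g) + 72 * (1 / g * B) := by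
    ring
  have a6 : 1 / g * B ≤ 1 / 10 * B := by gcongr
  linarith

end Nd

open Nd

theorem Two.Nd (h : Two g G G' bad) :
    E2 (fun α β => ww g G G' bad α β * fro (T1 G G' α β + T2 G G' α β + T3 G G' α β)) ≤
      4 * NN G G' / mI ι + 10 ^ 5 * bb g G G' * Qn g G G' := by
  have hg := h.one.g_pos
  have hm := h.one.m_pos
  have h1 : E2 (fun α β => ww g G G' bad α β * fro (T1 G G' α β + T2 G G' α β + T3 G G' α β)) ≤
      E2 (fun α β => (1 + 4 / g) * (1 + 1 / g) * fro (T00 G G' α β) +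
        9 * g * (ind (adm g G G' bad α β) * fro (R1 G G' α β) +
          ind (adm g G' G bad α β) * fro (R1 G' G α β) +
          ind (adm g G G' bad α β) * fro (T3 G G' α β))) := by
    refine E2_mono fun α β => ?_
    rw [decomp h, ind_congr (adm_swap (G := G) (G' := G'))]
    have a := fro_add_le (T00 G G' α β) (R1 G G' α β + (R1 G' G α β).transpose + T3 G G' α β)
      (t := 1 / g) (by positivity)
    have b := fro_add3 (R1 G G' α β) (R1 G' G α β).transpose (T3 G G' α β)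
    rw [fro_transpose] at b
    rw [one_div_one_div] at a
    have c1 := fro_nonneg (R1 G G' α β)
    have c2 := fro_nonneg (R1 G' G α β)
    have c3 := fro_nonneg (T3 G G' α β)
    have c4 := fro_nonneg (T00 G G' α β)
    have c5 := fro_nonneg (R1 G G' α β + (R1 G' G α β).transpose + T3 G G' α β)
    have d : 1 + g ≤ 3 / 2 * g := by have := h.one.num.hg; linarith
    have e : (1 + g) * fro (R1 G G' α β + (R1 G' G α β).transpose + T3 G G' α β) ≤
        3 / 2 * g * (3 * (fro (R1 G G' α β) + fro (R1 G' G α β) + fro (T3 G G' α β))) := by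
      gcongr
    have w0 := h.ww_nonneg α β
    have w1 := h.ww_le α β
    have w2 := h.ww_mul_le_ind (α := α) (β := β) (s := 3 / 2 * g *
      (3 * (fro (R1 G G' α β) + fro (R1 G' G α β) + fro (T3 G G' α β)))) (by positivity)
    have w3 : ww g G G' bad α β * ((1 + 1 / g) * fro (T00 G G' α β)) ≤
        (1 + 4 / g) * ((1 + 1 / g) * fro (T00 G G' α β)) := by gcongr
    calc _ ≤ ww g G G' bad α β * ((1 + 1 / g) * fro (T00 G G' α β) + 3 / 2 * g *
          (3 * (fro (R1 G G' α β) + fro (R1 G' G α β) + fro (T3 G G' α β)))) := by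
          gcongr; linarith
      _ ≤ (1 + 4 / g) * ((1 + 1 / g) * fro (T00 G G' α β)) +
          2 * (ind (adm g G G' bad α β) * (3 / 2 * g *
          (3 * (fro (R1 G G' α β) + fro (R1 G' G α β) + fro (T3 G G' α β))))) := by
          rw [mul_add]; exact add_le_add w3 w2
      _ = _ := by ring
  rw [E2_add, E2_const_mul, E2_const_mul, E2_add, E2_add] at h1
  have h2 := E_R1 h
  have h3 := E_R1 h.swap
  rw [NN_swap h.one.symm h.two.symm] at h3
  have h4 := h.Nx3
  have h5 : 9 * g ^ 1001 ≤ bb g G G' * Qn g G G' := by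
    have a := h.one.num.const_pow (c := 9) (by norm_num) (show 1001 < 1990 by norm_num)
    have b := Nx.pow_le_Qn h
    have hN : 0 ≤ NN G G' := fro_nonneg _
    have := h.bb_pos
    calc _ ≤ g ^ 14000 / (g ^ 2 * mI ι) := a.trans b
      _ ≤ g ^ 14000 / (g ^ 1 * mI ι) := by gcongr; exacts [h.one.num.one_le_g, by norm_num]
      _ = 1 / (g * mI ι) * g ^ 14000 := by ring
      _ ≤ _ := by
          gcongr
          · exact h.le_bb
          · exact le_add_of_nonneg_left hN
  have h6 := scal h.one.num.hg (div_nonneg (fro_nonneg (P0 G G')) hm.le) (N_le h) (E_T00 h)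
    (C := E2 (fun α β => ind (adm g G G' bad α β) * fro (R1 G G' α β)) +
      E2 (fun α β => ind (adm g G' G bad α β) * fro (R1 G' G α β)) +
      E2 (fun α β => ind (adm g G G' bad α β) * fro (T3 G G' α β)))
    (by rw [← NN_eq]; linarith) h5
  rw [← NN_eq] at h6
  rw [mul_div_assoc, mul_assoc]
  exact h1.trans h6

end Vale.Agent.P049
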