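import Vale.Agent.P049.UpdA

namespace Vale.Agent.P049

open Finset

variable {ι : Type} [Fintype ι] [DecidableEq ι]

namespace UpdD

omit [Fintype ι] [DecidableEq ι] in
theorem cen1 (R : Finset ι) (v : ι → ℝ) (b : ℝ) (h : ∑ i ∈ R, v i = R.card * b) :
    ∑ i ∈ R, (v i - b) ^ 2 ≤ ∑ i ∈ R, v i ^ 2 := by
  have : ∀ i, (v i - b) ^ 2 = v i ^ 2 - 2 * b * v i + b ^ 2 := fun i => by ring
  simp only [this, sum_add_distrib, sum_sub_distrib, ← mul_sum, h, sum_const, nsmul_eq_mul]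
  nlinarith [mul_nonneg (Nat.cast_nonneg (α := ℝ) R.card) (sq_nonneg b)]

omit [Fintype ι] [DecidableEq ι] in
theorem cen2 (R S : Finset ι) (u : ι → ι → ℝ) (ub w : ι → ℝ)
    (h : ∀ l, ∑ i ∈ R, u i l = R.card * ub l) :
    ∑ i ∈ R, (∑ l ∈ S, (u i l - ub l) * w l) ^ 2 ≤ ∑ i ∈ R, (∑ l ∈ S, u i l * w l) ^ 2 := by
  simp only [sub_mul, sum_sub_distrib]
  refine cen1 R _ _ ?_
  rw [sum_comm, mul_sum]
  exact sum_congr rfl fun l _ => by rw [← sum_mul, h, mul_assoc]

theorem sum_rr {G : Gm ι} {α β : ι} (h : UH G α β) :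
    ∑ i ∈ rem univ α β, G.rr α β i = (mI ι - 2) * G.rb α β := by
  have hm : mI ι ≠ 0 := by have := h.big; positivity
  have hm2 : mI ι - 2 ≠ 0 := by have := h.big; exact ne_of_gt (by linarith)
  have g1s : ∑ i, G.g1 α β i = 0 := by
    simp only [Gm.g1, ← sum_div, sum_add_distrib, ← mul_sum, h.row]; simp
  have g2s : ∑ i, G.g2 α β i = 0 := by
    simp only [Gm.g2, ← sum_div, sum_add_distrib, ← mul_sum, h.row]; simp
  rw [sum_rem h.ne]
  simp only [Gm.rr, Gm.rb, ← sum_div, sum_add_distrib, ← mul_sum, g1s, g2s]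
  field_simp; ring

theorem sum_M {G : Gm ι} {α β : ι} (h : UH G α β) (i : ι) :
    ∑ l ∈ rem univ α β, G.M α β i l = (mI ι - 2) * G.rr α β i := by
  have hm2 : mI ι - 2 ≠ 0 := by have := h.big; exact ne_of_gt (by linarith)
  rw [← h.M_rem i]; field_simp

theorem sum_u {G : Gm ι} {α β : ι} (h : UH G α β) (l : ι) :
    ∑ i ∈ rem univ α β, (G.M α β i l - G.rr α β i) =
      (rem univ α β).card * (G.rr α β l - G.rb α β) := by
  simp only [sum_sub_distrib, h.M_symm _ l]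
  rw [sum_M h, sum_rr h, card_rem h.ne]; ring

theorem L_eq {G G' : Gm ι} {α β : ι} (h : UH G α β) (h' : UH G' α β) (hs : G'.sg = -G.sg)
    (i j : ι) : ∑ l ∈ rem univ α β, (G.M α β i l - G.rr α β i) * (G'.M α β j l - G'.rr α β j) =
      LL G G' α β i j := by
  have hm : mI ι ≠ 0 := by have := h.big; positivity
  have hσ : G.sg ^ 2 = 1 := by rcases h.sg with e | e <;> rw [e] <;> norm_num
  have e1 : ∀ l, (G.M α β i l - G.rr α β i) * (G'.M α β j l - G'.rr α β j) =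
      G.M α β i l * G'.M α β j l - G'.rr α β j * G.M α β i l - G.rr α β i * G'.M α β j l +
        G.rr α β i * G'.rr α β j := fun l => by ring
  simp only [e1, sum_add_distrib, sum_sub_distrib, ← mul_sum, sum_const, nsmul_eq_mul, sum_M h,
    sum_M h', card_rem h.ne]
  have e2 : ∑ l, G.M α β i l * G'.M α β j l = P0 G G' i j + T1 G G' α β i j + T2 G G' α β i j +
      (G.g1 α β i * (P0 G G' α α * G'.g1 α β j + P0 G G' α β * G'.g2 α β j) +
        G.g2 α β i * (P0 G G' β α * G'.g1 α β j + P0 G G' β β * G'.g2 α β j)) := by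
    simp only [h.M_symm i, h'.M_symm j, h.M_eq, h'.M_eq, T1, T2, P0, Matrix.mul_apply, mul_sum,
      sum_mul, ← sum_add_distrib, mul_add]
    refine sum_congr rfl fun l _ => ?_
    rw [h.symm l i, h'.symm l α, h'.symm l β]
    ring
  rw [sum_rem h.ne, e2, h.M_fst, h.M_snd, h'.M_fst, h'.M_snd]
  simp only [LL, Matrix.add_apply, T3, nu, if_true, if_neg h.ne, if_neg h.ne.symm, Gm.rr, hs, s0,
    div_eq_mul_inv, one_mul]
  have a3 : (mI ι)⁻¹ * mI ι = 1 := inv_mul_cancel₀ hm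
  set u := (mI ι)⁻¹
  linear_combination (((1 - u) * G.g2 α β i - G.g1 α β i * u) * ((1 - u) * G'.g2 α β j -
    G'.g1 α β j * u) + ((1 - u) * G.g1 α β i - G.g2 α β i * u) * ((1 - u) * G'.g1 α β j -
    G'.g2 α β j * u) + (mI ι - 2) * u ^ 2 * (G.g1 α β i + G.g2 α β i) *
    (G'.g1 α β j + G'.g2 α β j)) * hσ + u * (G.g1 α β i + G.g2 α β i) *
    (G'.g1 α β j + G'.g2 α β j) * a3

end UpdD

theorem UH.nS_up {G G' : Gm ι} {α β : ι} (h : UH G α β) (h' : UH G' α β) (hs : G'.sg = -G.sg) :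
    nS (rem univ α β) (G.up α β) (G'.up α β) ≤
      fro (LL G G' α β) - col (LL G G' α β) α - col (LL G G' α β) β := by
  have e1 : ∀ i l, G.up α β i l = G.M α β i l - G.rr α β i - (G.rr α β l - G.rb α β) :=
    fun i l => by rw [h.up_eq]; ring
  have e2 : ∀ l j, G'.up α β l j = G'.M α β j l - G'.rr α β j - (G'.rr α β l - G'.rb α β) :=
    fun l j => by rw [h'.up_eq, h'.M_symm l]; ring
  rw [fro_eq_sum_col, ← sum_rem h.ne, nS, sum_comm]
  simp only [e1, e2]
  refine (sum_le_sum fun j _ => UpdD.cen2 _ _ (fun i l => G.M α β i l - G.rr α β i)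
    (fun l => G.rr α β l - G.rb α β) _ (UpdD.sum_u h)).trans ?_
  rw [sum_comm]
  simp only [mul_comm (G.M α β _ _ - G.rr α β _)]
  refine (sum_le_sum fun i _ => UpdD.cen2 _ _ (fun i l => G'.M α β i l - G'.rr α β i)
    (fun l => G'.rr α β l - G'.rb α β) _ (UpdD.sum_u h')).trans ?_
  rw [sum_comm]
  refine sum_le_sum fun j _ => ?_
  simp only [mul_comm (G'.M α β _ _ - G'.rr α β _), UpdD.L_eq h h' hs]
  exact sum_le_sum_of_subset_of_nonneg (subset_univ _) fun _ _ _ => sq_nonneg _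

end Vale.Agent.P049
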