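import Vale.Agent.P049.Na
import Vale.Agent.P049.Nc
import Vale.Agent.P049.Nd
import Vale.Agent.P049.ToolC
import Vale.Agent.P049.UpdD
import Vale.Agent.P049.Vlem

namespace Vale.Agent.P049

open Finset

variable {ι : Type} [Fintype ι] [DecidableEq ι] {g : ℝ} {G G' : Gm ι} {bad : ι → ι → Bool}

namespace Nlem

theorem col_ge {g : ℝ} (hg : 0 < g) (X W : Matrix ι ι ℝ) (j : ι) :
    (1 - 1 / g) * col X j - g * col W j ≤ col (X + W) j := by
  simp only [col, mul_sum, ← sum_sub_distrib, Matrix.add_apply]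
  refine sum_le_sum fun i _ => ?_
  have e : (X i j + W i j) ^ 2 - ((1 - 1 / g) * X i j ^ 2 - g * W i j ^ 2)
      = (X i j + g * W i j) ^ 2 / g + W i j ^ 2 := by field_simp; ring
  have : 0 ≤ (X i j + g * W i j) ^ 2 / g + W i j ^ 2 := by positivity
  linarith

theorem T_symm (h : Two g G G' bad) (α β : ι) :
    T1 G G' β α + T2 G G' β α + T3 G G' β α = T1 G G' α β + T2 G G' α β + T3 G G' α β := by
  ext i j
  simp only [Matrix.add_apply, T1, T2, T3, Gm.g1_swap h.one.symm α β, Gm.g2_swap h.one.symm α β,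
    Gm.g1_swap h.two.symm α β, Gm.g2_swap h.two.symm α β]
  ring

theorem LL_eq (α β : ι) :
    LL G G' α β = P0 G G' + (T1 G G' α β + T2 G G' α β + T3 G G' α β) := by
  simp only [LL, add_assoc]

theorem NN_le (h : Two g G G' bad) : 0 ≤ NN G G' ∧ NN G G' ≤ Qn g G G' := by
  have := h.one.g_pos
  have a : 0 ≤ g ^ 14000 := pow_nonneg this.le _
  exact ⟨NN_eq G G' ▸ fro_nonneg _, by unfold Qn; linarith⟩

end Nlem

open Nlem

theorem Two.Ne (h : Two g G G' bad) :
    E2 (fun α β => ww g G G' bad α β * -(col (LL G G' α β) α + col (LL G G' α β) β)) ≤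
      -(2 * NN G G' / mI ι) + 10 ^ 4 * bb g G G' * Qn g G G' := by
  have hg := h.one.g_pos
  have hm := h.one.m_pos
  have hb := h.bb_pos
  have hg1 : 1 / g ≤ 1 := h.one.inv_g_le.trans (by norm_num)
  obtain ⟨N0, NQ⟩ := NN_le h
  set T : ι → ι → Matrix ι ι ℝ := fun α β => T1 G G' α β + T2 G G' α β + T3 G G' α β with hT
  have a1 : E2 (fun α β => ww g G G' bad α β * -(col (LL G G' α β) α + col (LL G G' α β) β)) ≤
      E2 (fun α β => (1 - 1 / g) * (ww g G G' bad α β * -(col (P0 G G') α + col (P0 G G') β))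
        + (2 * g * (ind (adm g G G' bad α β) * col (T α β) α)
          + 2 * g * (ind (adm g G G' bad α β) * col (T α β) β))) := by
    refine E2_mono fun α β => ?_
    have b1 := mul_le_mul_of_nonneg_left (col_ge hg (P0 G G') (T α β) α) (h.ww_nonneg α β)
    have b2 := mul_le_mul_of_nonneg_left (col_ge hg (P0 G G') (T α β) β) (h.ww_nonneg α β)
    have b3 := mul_le_mul_of_nonneg_left (h.ww_mul_le_ind (α := α) (β := β)
      (col_nonneg (T α β) α)) hg.le
    have b4 := mul_le_mul_of_nonneg_left (h.ww_mul_le_ind (α := α) (β := β)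
      (col_nonneg (T α β) β)) hg.le
    rw [LL_eq]
    change _ * -(col (P0 G G' + T α β) α + col (P0 G G' + T α β) β) ≤ _
    linarith
  have a2 : E2 (fun α β => ind (adm g G G' bad α β) * col (T α β) β)
      = E2 (fun α β => ind (adm g G G' bad α β) * col (T α β) α) := by
    rw [← E2_swap]
    refine E2_congr fun α β => ?_
    simp only [hT, T_symm h α β, h.ind_adm_symm α β]
  rw [E2_add, E2_add, E2_const_mul, E2_const_mul, E2_const_mul, a2] at a1
  have a3 := h.removal (u := col (P0 G G')) (col_nonneg _)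
  rw [← fro_eq_sum_col, ← NN_eq] at a3
  have a4 := mul_le_mul_of_nonneg_left h.Nxcol (by positivity : 0 ≤ 2 * g)
  have a5 := mul_le_mul_of_nonneg_left a3 (sub_nonneg.2 hg1)
  have a6 : 2 * g * (1000 * Qn g G G' / (g ^ 2 * mI ι)) = 2000 * (1 / (g * mI ι) * Qn g G G') := by
    field_simp; ring
  have a7 := mul_le_mul_of_nonneg_right h.le_bb (N0.trans NQ)
  have a8 : 1 / g * (2 * NN G G' / mI ι) = 2 * (1 / (g * mI ι) * NN G G') := by field_simp
  have a9 := mul_le_mul h.le_bb NQ N0 hb.le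
  have a10 := mul_le_mul_of_nonneg_left NQ hb.le
  have a11 : 0 ≤ 1 / g * (40 * bb g G G' * NN G G') := by positivity
  have a12 := mul_nonneg hb.le (N0.trans NQ)
  change _ ≤ _ at a4
  simp only [hT] at a1
  nlinarith

theorem Two.Nlem (h : Two g G G' bad) :
    E2 (fun α β => ww g G G' bad α β *
      (nS (rem univ α β) (G.up α β) (G'.up α β) - NN G G')) ≤ 10 ^ 6 * bb g G G' * Qn g G G' := by
  have hs := h.one.symm
  have hs' := h.two.symm
  obtain ⟨N0, NQ⟩ := NN_le h
  have a1 : E2 (fun α β => ww g G G' bad α β *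
      (nS (rem univ α β) (G.up α β) (G'.up α β) - NN G G')) ≤
      E2 (fun α β => 2 * (ww g G G' bad α β * ip (P0 G G') (T1 G G' α β))
        + 2 * (ww g G' G bad α β * ip (P0 G' G) (T1 G' G α β))
        + 2 * (ww g G G' bad α β * ip (P0 G G') (T3 G G' α β))
        + ww g G G' bad α β * fro (T1 G G' α β + T2 G G' α β + T3 G G' α β)
        + ww g G G' bad α β * -(col (LL G G' α β) α + col (LL G G' α β) β)) := by
    refine E2_mono fun α β => ?_
    refine (h.ww_mul_le (t := fro (LL G G' α β) - col (LL G G' α β) α - col (LL G G' α β) β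
      - NN G G') fun k => ?_).trans (le_of_eq ?_)
    · have := UH.nS_up (h.uh k) (h.swap.uh (adm_swap.2 k)) h.sg
      linarith
    · have e1 : ip (P0 G' G) (T1 G' G α β) = ip (P0 G G') (T2 G G' α β) := by
        rw [T2_eq hs hs', P0_swap hs hs', ← ip_transpose, Matrix.transpose_transpose]
      have e2 : ip (P0 G G') (T1 G G' α β + T2 G G' α β + T3 G G' α β) = ip (P0 G G') (T1 G G' α β)
          + ip (P0 G G') (T2 G G' α β) + ip (P0 G G') (T3 G G' α β) := by
        simp only [ip, Matrix.add_apply, mul_add, sum_add_distrib]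
      nth_rewrite 1 [LL_eq]
      rw [fro_add, e1, e2, ww_swap, NN_eq]
      ring
  rw [E2_add, E2_add, E2_add, E2_add, E2_const_mul, E2_const_mul, E2_const_mul] at a1
  have a2 := h.Na
  have a3 := h.swap.Na
  have e : Qn g G' G = Qn g G G' := by unfold Qn; rw [NN_swap hs hs']
  rw [bb_swap, e] at a3
  have a4 := h.Nc
  have a5 := h.Nd
  have a6 := h.Ne
  have a7 := mul_nonneg h.bb_pos.le (N0.trans NQ)
  have e1 : 4 * NN G G' / mI ι = 4 * (NN G G' / mI ι) := by ring
  have e2 : 2 * NN G G' / mI ι = 2 * (NN G G' / mI ι) := by ring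
  nlinarith

end Vale.Agent.P049
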