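import Vale.Agent.P049.CombA
import Vale.Agent.P049.Nlem
import Vale.Agent.P049.FactC

set_option maxRecDepth 100000

namespace Vale.Agent.P049

open Finset

namespace CombB

theorem log_Phi {κ : Type} [DecidableEq κ] {g : ℝ} (hg : 1 ≤ g) {F : Finset κ} {Y Y' : κ → κ → ℝ}
    {b : ℝ} (hZ : 0 < zz F Y) (hZ' : 0 < zz F Y') (hb : 0 ≤ b) :
    Real.log (Phi g F Y Y' b) = 12000 * ((Real.log (phi1 g F Y √(F.card * zz F Y))
      + Real.log (F.card / zz F Y) / 12000) + (Real.log (phi1 g F Y' √(F.card * zz F Y'))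
      + Real.log (F.card / zz F Y') / 12000) + Real.log (1 + nS F Y Y' / g ^ 14000)
      + Real.log (1 + b / (F.card : ℝ) ^ 2)) := by
  have a1 := (one_pos.trans_le (one_le_phi1 hg hZ (Real.sqrt_nonneg (F.card * zz F Y)))).ne'
  have a2 := (one_pos.trans_le (one_le_phi1 hg hZ' (Real.sqrt_nonneg (F.card * zz F Y')))).ne'
  have a3 := (one_pos.trans_le (FactA.nS_fac hg F Y Y')).ne'
  have a4 := (one_pos.trans_le (FactA.one_le hb (sq_nonneg (F.card : ℝ)))).ne'
  have a5 := (one_pos.trans_le (FactA.ratio hZ)).ne'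
  have a6 := (one_pos.trans_le (FactA.ratio hZ')).ne'
  have a7 := mul_ne_zero (mul_ne_zero (mul_ne_zero a1 a2) a3) a4
  rw [Phi, phiT, Real.log_mul (mul_ne_zero (pow_ne_zero _ a7) a5) a6,
    Real.log_mul (pow_ne_zero _ a7) a5, Real.log_pow,
    Real.log_mul (mul_ne_zero (mul_ne_zero a1 a2) a3) a4, Real.log_mul (mul_ne_zero a1 a2) a3,
    Real.log_mul a1 a2]
  push_cast
  ring

theorem scal {g m A : ℝ} (hg : 10 ^ 30 ≤ g) (hm : 10 ^ 30 ≤ m) (hA : 0 ≤ A) :
    12000 * (2 * 10 ^ 6 * ((1 / m + A) / g) - A / 6000 + 200 / m ^ 2) < 1 / (4 * m) / 2 := by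
  have hg0 : 0 < g := by linarith
  have hm0 : 0 < m := by linarith
  have a : (1 / m + A) / g ≤ (1 / m + A) / 10 ^ 30 := by gcongr
  have b : 200 / m ^ 2 ≤ 200 / 10 ^ 30 * (1 / m) := by
    rw [show 200 / m ^ 2 = 200 / m * (1 / m) by field_simp]; gcongr
  have c : 1 / (4 * m) / 2 = 1 / 8 * (1 / m) := by field_simp; norm_num
  have d : 0 < 1 / m := by positivity
  rw [c]
  linarith

end CombB

theorem step_univ {ι : Type} [Fintype ι] [DecidableEq ι] {g c : ℝ} (hn : Num g (mI ι)) (hc0 : 0 ≤ c)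
    (hc : c ^ 2 ≤ 1 / 2) {Y Y' : ι → ι → ℝ} (h : Game c univ Y) (h' : Game c univ Y')
    (hZ : 0 < zz univ Y) (hZ' : 0 < zz univ Y') {bad : ι → ι → Bool} (hbad : BadOk g univ bad)
    {f1 f2 : ι → ℝ} (h1 : ∀ i, 0 ≤ f1 i) (h2 : ∀ i, 0 ≤ f2 i)
    (hP : Phi g univ Y Y' (bh g univ f1 f2) ≤ g ^ 120000) {b' : ι → ι → ℝ}
    (hb : ∀ α β, bad α β = false → 0 ≤ b' α β ∧ b' α β ≤ bhN g univ f1 f2 α β) :
    ∃ α β, bad α β = false ∧ 0 < dl univ 1 Y α β ∧ 0 < dl univ (-1) Y' α β ∧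
      1 ≤ zz (rem univ α β) (upd univ 1 Y α β) ∧ 1 ≤ zz (rem univ α β) (upd univ (-1) Y' α β) ∧
      Phi g (rem univ α β) (upd univ 1 Y α β) (upd univ (-1) Y' α β) (b' α β) ≤
        Phi g univ Y Y' (bh g univ f1 f2) * Real.exp (1 / (4 * mI ι)) := by
  have hg := hn.g_pos
  have hg1 := hn.one_le_g
  have hm := hn.m_pos
  have hm1 : 10 ^ 30 ≤ mI ι := hn.hg.trans (by simpa using hn.pow_le_m (k := 1) (by norm_num))
  set b := bh g univ f1 f2 with hbd
  have b0 : 0 ≤ b := add_nonneg (mul_nonneg (pow_nonneg hg.le _) (sum_nonneg fun i _ => h1 i))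
    (mul_nonneg (pow_nonneg hg.le _) (sum_nonneg fun i _ => h2 i))
  obtain ⟨t, hbm⟩ := two_of_phi hn hc0 hc h h' hZ hZ' b0 hP hbad
  set G : Gm ι := ⟨1, Y⟩ with hG
  set G' : Gm ι := ⟨-1, Y'⟩ with hG'
  have hq : 0 < g ^ 14000 := pow_pos hg _
  have N0 : 0 ≤ NN G G' := (Nlem.NN_le t).1
  have hQ : 0 < Qn g G G' := add_pos_of_nonneg_of_pos N0 hq
  have hbq : 0 < b + mI ι ^ 2 := by positivity
  by_contra hcon
  have key : ∀ α β, ww g G G' bad α β * (1 / (4 * mI ι)) ≤ 12000 * (ww g G G' bad α β * dLog g G α β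
      + ww g G' G bad α β * dLog g G' α β
      + ww g G G' bad α β * (nS (rem univ α β) (G.up α β) (G'.up α β) - NN G G') / Qn g G G'
      + ww g G G' bad α β * (bhN g univ f1 f2 α β - b + 4 * b / mI ι) / (b + mI ι ^ 2)
      + 200 / mI ι ^ 2) := by
    intro α β
    have a := t.ww_mul_le (α := α) (β := β) (s := 1 / (4 * mI ι))
      (t := 12000 * (dLog g G α β + dLog g G' α β
        + (nS (rem univ α β) (G.up α β) (G'.up α β) - NN G G') / Qn g G G'
        + (bhN g univ f1 f2 α β - b + 4 * b / mI ι) / (b + mI ι ^ 2) + 100 / mI ι ^ 2)) fun k => by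
      have z1 := t.zz_up k
      have z2 := t.swap.zz_up (adm_swap.2 k)
      have c1 : Phi g univ Y Y' b * Real.exp (1 / (4 * mI ι))
          < Phi g (rem univ α β) (G.up α β) (G'.up α β) (b' α β) := by
        by_contra c
        exact hcon ⟨α, β, k.1, t.one.ok_dl_pos k.2.1, t.two.ok_dl_pos k.2.2, z1, z2, not_lt.1 c⟩
      have p0 := one_pos.trans_le (one_le_Phi hg1 hZ hZ' b0)
      have c2 := Real.log_lt_log (mul_pos p0 (Real.exp_pos _)) c1
      rw [Real.log_mul p0.ne' (Real.exp_pos _).ne', Real.log_exp, CombB.log_Phi hg1 hZ hZ' b0,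
        CombB.log_Phi hg1 (one_pos.trans_le z1) (one_pos.trans_le z2) (hb α β k.1).1] at c2
      have c3 := log_N hq N0 (N' := nS (rem univ α β) (G.up α β) (G'.up α β))
        (sum_nonneg fun _ _ => sum_nonneg fun _ _ => sq_nonneg _)
      have c4 := log_B (m := mI ι) (by linarith) b0 (hb α β k.1).1
      have c5 : (b' α β - b + 4 * b / mI ι) / (b + mI ι ^ 2)
          ≤ (bhN g univ f1 f2 α β - b + 4 * b / mI ι) / (b + mI ι ^ 2) :=
        div_le_div_of_nonneg_right (by linarith [(hb α β k.1).2]) hbq.le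
      rw [← card_rem (t.adm_ne k)] at c4
      have e1 : phi1 g univ G.Y √(mI ι * G.Z)
        = phi1 g univ Y √((univ : Finset ι).card * zz univ Y) := rfl
      have e2 : phi1 g univ G'.Y √(mI ι * G'.Z)
        = phi1 g univ Y' √((univ : Finset ι).card * zz univ Y') := rfl
      have e3 : mI ι / G.Z = (univ : Finset ι).card / zz univ Y := rfl
      have e4 : mI ι / G'.Z = (univ : Finset ι).card / zz univ Y' := rfl
      have e5 : 1 + NN G G' / g ^ 14000 = 1 + nS univ Y Y' / g ^ 14000 := rfl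
      have e6 : 1 + b / mI ι ^ 2 = 1 + b / ((univ : Finset ι).card : ℝ) ^ 2 := rfl
      rw [e5] at c3
      rw [e6] at c4
      simp only [dLog, e1, e2, e3, e4, Qn]
      linarith
    have d := mul_le_mul_of_nonneg_right (t.ww_le_two α β) (by positivity : 0 ≤ 100 / mI ι ^ 2)
    have e : 200 / mI ι ^ 2 = 2 * (100 / mI ι ^ 2) := by ring
    rw [ww_swap (G := G) (G' := G'), mul_div_assoc (ww g G G' bad α β),
      mul_div_assoc (ww g G G' bad α β)]
    linarith
  have a1 := E2_mono key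
  rw [E2_mul_const, E2_const_mul, E2_add, E2_add, E2_add, E2_add, E2_div_const, E2_div_const,
    E2_const hm] at a1
  have a2 := mul_le_mul_of_nonneg_right t.E_ww (by positivity : 0 ≤ 1 / (4 * mI ι))
  have a3 := t.dLog
  have a4 := t.swap.dLog
  rw [bb_swap] at a4
  have a5 := (div_le_iff₀ hQ).2 t.Nlem
  have a6 := (div_le_iff₀ hbq).2 (t.badlem h1 h2 hbm)
  have a7 := CombB.scal hn.hg hm1 (add_nonneg t.one.A_nonneg t.two.A_nonneg)
  have a8 : (1 / mI ι + (G.A g + G'.A g)) / g = bb g G G' := by unfold bb; rw [add_assoc]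
  have a9 := t.bb_pos
  rw [a8] at a7
  linarith

end Vale.Agent.P049
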