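import Mathlib

/-! P049: generic definitions (over an ordered field, on a finite set `F` of free half-edges). -/

namespace Vale.Agent.P049

open Finset

section gen

variable {K : Type} [Field K] {κ : Type} [DecidableEq κ]

/-- `a*` of the plan. -/
def aS (F : Finset κ) (σ : K) (Y : κ → κ → K) (α : κ) : K := Y α α + σ / F.card
/-- `s*` of the plan. -/
def sS (F : Finset κ) (σ : K) (Y : κ → κ → K) (α β : κ) : K := σ * (1 - 1 / F.card) - Y α β
/-- `Δ` of the plan. -/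
def dl (F : Finset κ) (σ : K) (Y : κ → κ → K) (α β : κ) : K :=
  sS F σ Y α β ^ 2 - aS F σ Y α * aS F σ Y β
/-- `M = Y + U Γ Uᵀ`. -/
def mM (F : Finset κ) (σ : K) (Y : κ → κ → K) (α β i j : κ) : K :=
  Y i j + (aS F σ Y β * Y α i * Y α j + sS F σ Y α β * (Y α i * Y β j + Y β i * Y α j) +
    aS F σ Y α * Y β i * Y β j) / dl F σ Y α β
def rem (F : Finset κ) (α β : κ) : Finset κ := (F.erase α).erase β
/-- Double centering on `F`. -/
def cen (F : Finset κ) (M : κ → κ → K) (i j : κ) : K :=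
  M i j - (∑ l ∈ F, M i l) / F.card - (∑ l ∈ F, M l j) / F.card +
    (∑ l ∈ F, ∑ l' ∈ F, M l l') / (F.card : K) ^ 2
/-- The updated matrix after pairing `α` with `β`; it lives on `rem F α β`. -/
def upd (F : Finset κ) (σ : K) (Y : κ → κ → K) (α β : κ) : κ → κ → K :=
  cen (rem F α β) (mM F σ Y α β)

def tau1 (F : Finset κ) (Y : κ → κ → K) : K := ∑ i ∈ F, Y i i
def rho (F : Finset κ) (Y : κ → κ → K) (i : κ) : K := ∑ j ∈ F, Y i j ^ 2
def tau2 (F : Finset κ) (Y : κ → κ → K) : K := ∑ i ∈ F, rho F Y i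
def zz (F : Finset κ) (Y : κ → κ → K) : K := F.card - tau2 F Y
def vS (F : Finset κ) (Y : κ → κ → K) : K := ∑ i ∈ F, (rho F Y i - 1) ^ 2
def dS (F : Finset κ) (Y : κ → κ → K) : K := ∑ i ∈ F, Y i i ^ 2
def nS (F : Finset κ) (Y Y' : κ → κ → K) : K :=
  ∑ i ∈ F, ∑ j ∈ F, (∑ l ∈ F, Y i l * Y' l j) ^ 2
def hh (g m : K) : K := m / (m + g ^ 7990)
def h2 (g m : K) : K := m / (m + g ^ 5200)
def ze (g m : K) : K := g ^ 7990 / (m + g ^ 7990)

/-- The current weighted count of bad pairs, and the bound for it after pairing `α` with `β`. -/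
def bh (g : K) (F : Finset κ) (f1 f2 : κ → K) : K :=
  g ^ 11980 * ∑ i ∈ F, f1 i + g ^ 9000 * ∑ i ∈ F, f2 i
def bhN (g : K) (F : Finset κ) (f1 f2 : κ → K) (α β : κ) : K :=
  bh g F f1 f2 - g ^ 11980 * (2 * f1 α + 2 * f1 β) +
    g ^ 9000 * (2 * f1 α * f1 β - 2 * f2 α - 2 * f2 β)

variable [LinearOrder K]

/-- The factors of one game; `t` stands for `√(m Z)`. -/
def phi1 (g : K) (F : Finset κ) (Y : κ → κ → K) (t : K) : K :=
  (1 + g ^ 8000 * tau2 F Y / (F.card * zz F Y)) *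
    (1 + max (tau1 F Y) 0 ^ 2 / (g ^ 4 * zz F Y * hh g F.card)) *
    (1 + max (-tau1 F Y) 0 ^ 2 / (g ^ 125 * zz F Y * hh g F.card)) *
    (1 + vS F Y / (g ^ 10 * t)) * (1 + dS F Y / (g ^ 280 * h2 g F.card))
def phiT (g : K) (F : Finset κ) (Y Y' : κ → κ → K) (b t t' : K) : K :=
  (phi1 g F Y t * phi1 g F Y' t' * (1 + nS F Y Y' / g ^ 14000) * (1 + b / (F.card : K) ^ 2)) ^ 12000 *
    (F.card / zz F Y) * (F.card / zz F Y')

variable [IsStrictOrderedRing K] [FloorRing K]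

/-- Rounding: off-diagonal entries are rounded down, the diagonal restores zero row sums. -/
def rnd (Q : ℕ) (F : Finset κ) (Y : κ → κ → K) (i j : κ) : K :=
  if i ∈ F ∧ j ∈ F then
    (if i = j then -∑ l ∈ F, (if l = i then 0 else (⌊Q * Y i l⌋ : K) / Q) else (⌊Q * Y i j⌋ : K) / Q)
  else 0
/-- A rational lower approximation of `√(m Z)`. -/
def tHat (Q : ℕ) (F : Finset κ) (Y : κ → κ → K) : K :=
  (Nat.sqrt ⌊(Q : K) ^ 2 * (F.card * zz F Y)⌋.toNat : K) / Q
/-- A rational upper approximation of the potential. -/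
def phiH (Q : ℕ) (g : K) (F : Finset κ) (Y Y' : κ → κ → K) (b : K) : K :=
  phiT g F Y Y' b (tHat Q F Y) (tHat Q F Y')

end gen

section real

variable {κ : Type} [DecidableEq κ]

/-- The potential. -/
noncomputable def Phi (g : ℝ) (F : Finset κ) (Y Y' : κ → κ → ℝ) (b : ℝ) : ℝ :=
  phiT g F Y Y' b √(F.card * zz F Y) √(F.card * zz F Y')

def qf (F : Finset κ) (Y : κ → κ → ℝ) (y : κ → ℝ) : ℝ := ∑ i ∈ F, ∑ j ∈ F, y i * Y i j * y j
/-- Centered inner product on `F`. -/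
noncomputable def pd (F : Finset κ) (y x : κ → ℝ) : ℝ :=
  ∑ i ∈ F, y i * x i - (∑ i ∈ F, y i) * (∑ i ∈ F, x i) / F.card

/-- Symmetric on `F`, zero row sums, `Y + c P ⪰ 0`. -/
structure Game (c : ℝ) (F : Finset κ) (Y : κ → κ → ℝ) : Prop where
  symm : ∀ i ∈ F, ∀ j ∈ F, Y i j = Y j i
  row : ∀ i ∈ F, ∑ j ∈ F, Y i j = 0
  psd : ∀ y, 0 ≤ qf F Y y + c * pd F y y

/-- The domination invariant. -/
def Dom (c : ℝ) (F : Finset κ) (Y : κ → κ → ℝ) (x : κ → ℝ) (H : ℝ) : Prop :=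
  ∀ y, 2 * pd F y x ≤ H + (qf F Y y + c * pd F y y) / (1 - c ^ 2)

/-- A symmetric reflexive relation with few partners, and nonnegative counts. -/
structure BadOk (g : ℝ) (F : Finset κ) (bad : κ → κ → Bool) : Prop where
  symm : ∀ i j, bad i j = bad j i
  refl : ∀ i, bad i i = true
  few : ∀ i ∈ F, ((F.filter fun j => bad i j = true).card : ℝ) ≤ 2 * g ^ 2

end real

end Vale.Agent.P049
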