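import Vale.Agent.P049.D

namespace Vale.Agent.P049

open Finset

namespace DomS

theorem line {a b s n1 n2 : ℝ} (hd : 0 < s ^ 2 - a * b)
    (hk : -a * n1 ^ 2 + 2 * s * n1 * n2 - b * n2 ^ 2 < 0) (r1 r2 : ℝ) :
    ∃ θ : ℝ, 0 ≤ -a * (r1 + θ * n1) ^ 2 + 2 * s * (r1 + θ * n1) * (r2 + θ * n2) -
      b * (r2 + θ * n2) ^ 2 := by
  set k := -a * n1 ^ 2 + 2 * s * n1 * n2 - b * n2 ^ 2 with hkd
  set B := -a * n1 * r1 + s * (n1 * r2 + n2 * r1) - b * n2 * r2 with hB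
  have k0 : k ≠ 0 := hk.ne
  refine ⟨-B / k, ?_⟩
  have e1 : -a * (r1 + -B / k * n1) ^ 2 + 2 * s * (r1 + -B / k * n1) * (r2 + -B / k * n2) -
      b * (r2 + -B / k * n2) ^ 2 = (-a * r1 ^ 2 + 2 * s * r1 * r2 - b * r2 ^ 2) +
        2 * (-B / k) * B + (-B / k) ^ 2 * k := by rw [hB, hkd]; ring
  have e2 : (-a * r1 ^ 2 + 2 * s * r1 * r2 - b * r2 ^ 2) * k - B ^ 2 =
      -((s ^ 2 - a * b) * (n1 * r2 - n2 * r1) ^ 2) := by rw [hB, hkd]; ring
  have e3 : (-a * r1 ^ 2 + 2 * s * r1 * r2 - b * r2 ^ 2) + 2 * (-B / k) * B + (-B / k) ^ 2 * k =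
      ((-a * r1 ^ 2 + 2 * s * r1 * r2 - b * r2 ^ 2) * k - B ^ 2) / k := by field_simp; ring
  rw [e1, e3, e2]
  exact div_nonneg_of_nonpos (neg_nonpos.2 (by positivity)) hk.le

theorem scalar {m σ c p q u t1 t2 x1 x2 X : ℝ} (hσ : σ = 1 ∨ σ = -1) (hc : c ^ 2 < 1) (hm : 2 < m)
    (hd : 0 < (σ * (1 - 1 / m) - u) ^ 2 - (p + σ / m) * (q + σ / m))
    (hp : 0 ≤ p + q - 2 * σ * u + c * (2 - (1 - σ) ^ 2 / m)) :
    ∃ l1 l2 : ℝ, 2 * (l1 * t1 + l2 * t2) + (l1 ^ 2 * p + 2 * l1 * l2 * u + l2 ^ 2 * q) +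
      c * (l1 ^ 2 + l2 ^ 2 - (l1 + l2) ^ 2 / m) ≤
      (1 - c ^ 2) * (2 * (l1 * x1 + l2 * x2 - (l1 + l2) * X / m) -
        σ * (2 * x1 * x2 + (X - x1 - x2) ^ 2 / (m - 2) - X ^ 2 / m) +
        c * (x1 ^ 2 + x2 ^ 2 - X ^ 2 / m + (X - x1 - x2) ^ 2 / (m - 2))) +
      ((q + σ / m) * t1 ^ 2 + 2 * (σ * (1 - 1 / m) - u) * t1 * t2 + (p + σ / m) * t2 ^ 2) /
        ((σ * (1 - 1 / m) - u) ^ 2 - (p + σ / m) * (q + σ / m)) := by
  have m0 : m ≠ 0 := by linarith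
  have m2 : m - 2 ≠ 0 := by linarith
  have c1 : c < 1 := by nlinarith
  obtain ⟨a, ha⟩ : ∃ a, a = p + σ / m := ⟨_, rfl⟩
  obtain ⟨b, hb⟩ : ∃ b, b = q + σ / m := ⟨_, rfl⟩
  obtain ⟨s, hs⟩ : ∃ s, s = σ * (1 - 1 / m) - u := ⟨_, rfl⟩
  rw [← ha, ← hb, ← hs] at hd ⊢
  have hN : 0 < 2 - (1 - σ) ^ 2 / m := by
    rcases hσ with rfl | rfl
    · norm_num
    · rw [sub_pos, div_lt_iff₀ (by linarith)]; linarith
  have hk : -a * 1 ^ 2 + 2 * s * 1 * (-σ) - b * (-σ) ^ 2 < 0 := by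
    have : -a * 1 ^ 2 + 2 * s * 1 * (-σ) - b * (-σ) ^ 2 =
        -(2 - (1 - σ) ^ 2 / m) - (p + q - 2 * σ * u) := by
      rw [ha, hb, hs]; rcases hσ with rfl | rfl <;> ring
    nlinarith
  obtain ⟨r1, hr1⟩ : ∃ r, r = (b * t1 + s * t2) / (s ^ 2 - a * b) := ⟨_, rfl⟩
  obtain ⟨r2, hr2⟩ : ∃ r, r = (s * t1 + a * t2) / (s ^ 2 - a * b) := ⟨_, rfl⟩
  have d0 := hd.ne'
  have e1 : t1 = -a * r1 + s * r2 := by rw [hr1, hr2]; field_simp; ring
  have e2 : t2 = s * r1 - b * r2 := by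
    rw [hr1, hr2, ← mul_div_assoc, ← mul_div_assoc, ← sub_div, eq_div_iff d0]; ring
  have e3 : (b * t1 ^ 2 + 2 * s * t1 * t2 + a * t2 ^ 2) / (s ^ 2 - a * b) = r1 * t1 + r2 * t2 := by
    rw [hr1, hr2]; field_simp; ring
  obtain ⟨wu, hwu⟩ : ∃ w, w = ((x1 + x2) / 2 - X / m) * m / (m - 2) := ⟨_, rfl⟩
  obtain ⟨wv, hwv⟩ : ∃ w, w = (x1 - x2) / 2 := ⟨_, rfl⟩
  obtain ⟨θ, hθ⟩ := line hd hk ((σ - c) * wu - (σ + c) * wv - r1) ((σ - c) * wu + (σ + c) * wv - r2)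
  refine ⟨(σ - c) * wu - (σ + c) * wv + θ, (σ - c) * wu + (σ + c) * wv - θ * σ, ?_⟩
  have f1 : x1 = X / m + wu * (1 - 2 / m) + wv := by rw [hwu, hwv]; field_simp; ring
  have f2 : x2 = X / m + wu * (1 - 2 / m) - wv := by rw [hwu, hwv]; field_simp; ring
  have f3 : (X - x1 - x2) ^ 2 / (m - 2) = (1 - 2 / m) * (X - 2 * wu) ^ 2 / m := by
    rw [f1, f2]; field_simp; ring
  have g1 : p = a - σ / m := by rw [ha]; ring
  have g2 : q = b - σ / m := by rw [hb]; ring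
  have g3 : u = σ * (1 - 1 / m) - s := by rw [hs]; ring
  have h0 : 0 ≤ θ ^ 2 * ((1 - c) * (2 - (1 - σ) ^ 2 / m)) :=
    mul_nonneg (sq_nonneg _) (mul_nonneg (by linarith) hN.le)
  rw [e3, f3, ← sub_nonneg]
  refine (add_nonneg hθ h0).trans_eq ?_
  rw [f1, f2, g1, g2, g3, e1, e2]
  rcases hσ with rfl | rfl <;> ring

variable {κ : Type} [DecidableEq κ] {F : Finset κ} {α β : κ}

theorem sumF (hα : α ∈ F) (hβ : β ∈ F) (hne : α ≠ β) (f : κ → ℝ) :
    ∑ i ∈ F, f i = f α + f β + ∑ i ∈ rem F α β, f i := by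
  rw [rem, ← add_sum_erase F f hα, ← add_sum_erase (F.erase α) f (mem_erase.2 ⟨hne.symm, hβ⟩),
    add_assoc]

theorem cardR (hα : α ∈ F) (hβ : β ∈ F) (hne : α ≠ β) :
    ((rem F α β).card : ℝ) = F.card - 2 := by
  have := sumF hα hβ hne fun _ => 1
  simp only [sum_const, nsmul_eq_mul, mul_one] at this
  linarith

omit [DecidableEq κ] in
theorem qf_cen (R : Finset κ) (M : κ → κ → ℝ) (y : κ → ℝ) :
    qf R (cen R M) y = qf R M fun i => y i - (∑ j ∈ R, y j) / R.card := by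
  have e1 : qf R (cen R M) y = qf R M y - (∑ i ∈ R, y i * ∑ l ∈ R, M i l) * (∑ j ∈ R, y j) / R.card -
      (∑ i ∈ R, y i) * (∑ j ∈ R, (∑ l ∈ R, M l j) * y j) / R.card +
      (∑ i ∈ R, y i) * (∑ l ∈ R, ∑ l' ∈ R, M l l') * (∑ j ∈ R, y j) / (R.card : ℝ) ^ 2 := by
    generalize hT : ∑ l ∈ R, ∑ l' ∈ R, M l l' = T
    unfold qf cen
    rw [hT, sum_mul, sum_mul, sum_mul, sum_mul, sum_div, sum_div, sum_div, ← sum_sub_distrib,
      ← sum_sub_distrib, ← sum_add_distrib]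
    refine sum_congr rfl fun i _ => ?_
    generalize ∑ l ∈ R, M i l = r
    rw [mul_sum, mul_sum, mul_sum, sum_div, sum_div, sum_div, ← sum_sub_distrib,
      ← sum_sub_distrib, ← sum_add_distrib]
    exact sum_congr rfl fun j _ => by ring
  rw [e1]
  generalize ∑ j ∈ R, y j = S
  have e2 : ∑ j ∈ R, (∑ l ∈ R, M l j) * y j = ∑ l ∈ R, ∑ j ∈ R, M l j * y j := by
    rw [sum_comm]; exact sum_congr rfl fun j _ => sum_mul _ _ _
  rw [e2]
  unfold qf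
  rw [sum_mul, mul_sum, mul_sum, sum_mul, sum_div, sum_div, sum_div, ← sum_sub_distrib,
    ← sum_sub_distrib, ← sum_add_distrib]
  refine sum_congr rfl fun i _ => ?_
  rw [mul_sum, sum_mul, mul_sum, mul_sum, sum_mul, sum_div, sum_div, sum_div, ← sum_sub_distrib,
    ← sum_sub_distrib, ← sum_add_distrib]
  exact sum_congr rfl fun j _ => by ring

omit [DecidableEq κ] in
theorem pd_cen (R : Finset κ) (y x : κ → ℝ) :
    pd R y x = ∑ i ∈ R, (y i - (∑ j ∈ R, y j) / R.card) * x i := by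
  simp only [pd, sub_mul, sum_sub_distrib, ← mul_sum]
  ring

omit [DecidableEq κ] in
theorem sum_cen {R : Finset κ} (hR : (R.card : ℝ) ≠ 0) (y : κ → ℝ) :
    ∑ i ∈ R, (y i - (∑ j ∈ R, y j) / R.card) = 0 := by
  rw [sum_sub_distrib, sum_const, nsmul_eq_mul, mul_div_cancel₀ _ hR, sub_self]

theorem qf_split {Y : κ → κ → ℝ} (hs : ∀ i ∈ F, ∀ j ∈ F, Y i j = Y j i) (hα : α ∈ F) (hβ : β ∈ F)
    (hne : α ≠ β) (y : κ → ℝ) :
    qf F Y y = qf (rem F α β) Y y + 2 * (y α * ∑ j ∈ rem F α β, Y α j * y j +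
      y β * ∑ j ∈ rem F α β, Y β j * y j) +
      (y α ^ 2 * Y α α + 2 * y α * y β * Y α β + y β ^ 2 * Y β β) := by
  have hsub : ∀ i ∈ rem F α β, i ∈ F := fun i hi => mem_of_mem_erase (mem_of_mem_erase hi)
  unfold qf
  rw [sumF hα hβ hne, sumF hα hβ hne, sumF hα hβ hne fun j => y β * Y β j * y j,
    sum_congr rfl fun i _ => sumF hα hβ hne fun j => y i * Y i j * y j, sum_add_distrib,
    sum_add_distrib, hs β hβ α hα,
    sum_congr rfl fun i hi => show y i * Y i α * y α = y α * (Y α i * y i) by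
      rw [hs i (hsub i hi) α hα]; ring,
    sum_congr rfl fun i hi => show y i * Y i β * y β = y β * (Y β i * y i) by
      rw [hs i (hsub i hi) β hβ]; ring]
  simp only [mul_assoc, ← mul_sum]
  ring

theorem qf_mM (R : Finset κ) (σ : ℝ) (Y : κ → κ → ℝ) (y : κ → ℝ) :
    qf R (mM F σ Y α β) y = qf R Y y + (aS F σ Y β * (∑ j ∈ R, Y α j * y j) ^ 2 +
      2 * sS F σ Y α β * (∑ j ∈ R, Y α j * y j) * (∑ j ∈ R, Y β j * y j) +
      aS F σ Y α * (∑ j ∈ R, Y β j * y j) ^ 2) / dl F σ Y α β := by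
  have e : ∀ u v : κ → ℝ, (∑ j ∈ R, u j * y j) * (∑ j ∈ R, v j * y j) =
      ∑ i ∈ R, ∑ j ∈ R, u i * y i * (v j * y j) := fun u v => sum_mul_sum _ _ _ _
  rw [show ∀ a s b t1 t2 : ℝ, b * t1 ^ 2 + 2 * s * t1 * t2 + a * t2 ^ 2 =
    b * (t1 * t1) + s * (t1 * t2) + s * (t2 * t1) + a * (t2 * t2) from fun _ _ _ _ _ => by ring,
    e, e, e, e]
  unfold qf mM
  simp only [mul_sum, ← sum_add_distrib, sum_div]
  exact sum_congr rfl fun i _ => sum_congr rfl fun j _ => by ring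

end DomS

open DomS

variable {κ : Type} [DecidableEq κ] {F : Finset κ} {Y : κ → κ → ℝ} {c σ : ℝ} {α β : κ}

theorem dom_step (hσ : σ = 1 ∨ σ = -1) (hc0 : 0 ≤ c) (hc : c ^ 2 < 1) (h : Game c F Y) (hα : α ∈ F)
    (hβ : β ∈ F) (hne : α ≠ β) (hF : 2 < F.card) (hd : 0 < dl F σ Y α β) {x : κ → ℝ} {H : ℝ}
    (hD : Dom c F Y x H) :
    Dom c (rem F α β) (upd F σ Y α β) x
      (H - σ * (2 * x α * x β + (∑ i ∈ rem F α β, x i) ^ 2 / (rem F α β).card -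
        (∑ i ∈ F, x i) ^ 2 / F.card) - c * pd (rem F α β) x x + c * pd F x x) := by
  intro y'
  have hm : (2 : ℝ) < F.card := by exact_mod_cast hF
  have hR := cardR hα hβ hne
  have hR0 : ((rem F α β).card : ℝ) ≠ 0 := by linarith
  have hσ2 : σ ^ 2 = 1 := by rcases hσ with rfl | rfl <;> norm_num
  have ext : ∀ (l1 l2 : ℝ) (z : κ → ℝ), ∃ y : κ → ℝ, y α = l1 ∧ y β = l2 ∧
      ∀ i ∈ rem F α β, y i = z i := fun l1 l2 z =>
    ⟨fun i => if i = α then l1 else if i = β then l2 else z i, by simp, by simp [hne.symm],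
      fun i hi => by
        have h1 := ne_of_mem_erase hi
        have h2 := ne_of_mem_erase (mem_of_mem_erase hi)
        simp [h1, h2]⟩
  have hp : 0 ≤ Y α α + Y β β - 2 * σ * Y α β + c * (2 - (1 - σ) ^ 2 / F.card) := by
    obtain ⟨y, h1, h2, h3⟩ := ext 1 (-σ) 0
    have := h.psd y
    rw [qf_split h.symm hα hβ hne, pd, sumF hα hβ hne, sumF hα hβ hne y, h1, h2, qf,
      sum_eq_zero fun i hi => sum_eq_zero fun j _ => by rw [h3 i hi]; simp,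
      sum_eq_zero (f := fun j => Y α j * y j) fun i hi => by rw [h3 i hi]; simp,
      sum_eq_zero (f := fun j => Y β j * y j) fun i hi => by rw [h3 i hi]; simp,
      sum_eq_zero (f := fun j => y j * y j) fun i hi => by rw [h3 i hi]; simp,
      sum_eq_zero (f := y) fun i hi => by rw [h3 i hi]; simp] at this
    refine this.trans_eq ?_
    rcases hσ with rfl | rfl <;> ring
  set z : κ → ℝ := fun i => y' i - (∑ j ∈ rem F α β, y' j) / (rem F α β).card with hz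
  obtain ⟨l1, l2, hl⟩ := scalar (t1 := ∑ j ∈ rem F α β, Y α j * z j)
    (t2 := ∑ j ∈ rem F α β, Y β j * z j) (x1 := x α) (x2 := x β) (X := ∑ i ∈ F, x i) hσ hc hm hd hp
  obtain ⟨y, h1, h2, h3⟩ := ext l1 l2 z
  have z0 : ∑ i ∈ rem F α β, z i = 0 := sum_cen hR0 y'
  have a1 : ∑ i ∈ F, y i = l1 + l2 := by
    rw [sumF hα hβ hne, h1, h2, sum_congr rfl h3, z0, add_zero]
  have a2 : pd F y x = pd (rem F α β) y' x +
      (l1 * x α + l2 * x β - (l1 + l2) * (∑ i ∈ F, x i) / F.card) := by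
    rw [pd, a1, sumF hα hβ hne, h1, h2, pd_cen,
      sum_congr rfl fun i hi => show y i * x i = z i * x i by rw [h3 i hi]]
    ring
  have a3 : pd F y y = pd (rem F α β) y' y' + (l1 ^ 2 + l2 ^ 2 - (l1 + l2) ^ 2 / F.card) := by
    have : ∑ i ∈ rem F α β, z i * y' i = ∑ i ∈ rem F α β, z i * z i := by
      rw [← sub_eq_zero, ← sum_sub_distrib, sum_congr rfl fun i _ => show z i * y' i - z i * z i =
        z i * ((∑ j ∈ rem F α β, y' j) / (rem F α β).card) by simp only [hz]; ring, ← sum_mul, z0,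
        zero_mul]
    rw [pd, a1, sumF hα hβ hne, h1, h2, pd_cen, this,
      sum_congr rfl fun i hi => show y i * y i = z i * z i by rw [h3 i hi]]
    ring
  have a4 : qf (rem F α β) Y y = qf (rem F α β) Y z :=
    sum_congr rfl fun i hi => sum_congr rfl fun j hj => by rw [h3 i hi, h3 j hj]
  have a5 := qf_split h.symm hα hβ hne y
  rw [a4, h1, h2, sum_congr rfl fun j hj => show Y α j * y j = Y α j * z j by rw [h3 j hj],
    sum_congr rfl fun j hj => show Y β j * y j = Y β j * z j by rw [h3 j hj]] at a5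
  have a6 : ∑ i ∈ rem F α β, x i = ∑ i ∈ F, x i - x α - x β := by rw [sumF hα hβ hne]; ring
  have a7 : pd F x x = pd (rem F α β) x x + (x α ^ 2 + x β ^ 2 - (∑ i ∈ F, x i) ^ 2 / F.card +
      (∑ i ∈ F, x i - x α - x β) ^ 2 / (F.card - 2)) := by
    rw [pd, pd, a6, hR, sumF hα hβ hne fun i => x i * x i]
    ring
  have hy := hD y
  have c0 : 0 < 1 - c ^ 2 := by linarith
  rw [a2, a3, a5, ← sub_le_iff_le_add', le_div_iff₀ c0] at hy
  rw [upd, qf_cen, ← hz, qf_mM, a7, a6, hR, ← sub_le_iff_le_add', le_div_iff₀ c0]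
  unfold dl aS sS
  linarith

theorem game_step (hσ : σ = 1 ∨ σ = -1) (hc0 : 0 ≤ c) (hc : c ^ 2 < 1) (h : Game c F Y) (hα : α ∈ F)
    (hβ : β ∈ F) (hne : α ≠ β) (hF : 2 < F.card) (hd : 0 < dl F σ Y α β) :
    Game c (rem F α β) (upd F σ Y α β) := by
  have hm : (2 : ℝ) < F.card := by exact_mod_cast hF
  have hR0 : ((rem F α β).card : ℝ) ≠ 0 := by rw [cardR hα hβ hne]; linarith
  have c0 : 0 < 1 - c ^ 2 := by linarith
  have hs : ∀ i ∈ rem F α β, ∀ j ∈ rem F α β, mM F σ Y α β i j = mM F σ Y α β j i := by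
    intro i hi j hj
    unfold mM
    rw [h.symm i (mem_of_mem_erase (mem_of_mem_erase hi)) j (mem_of_mem_erase (mem_of_mem_erase hj))]
    ring
  refine ⟨fun i hi j hj => ?_, fun i _ => ?_, fun y => ?_⟩
  · unfold upd cen
    rw [hs i hi j hj, sum_congr rfl fun l hl => hs i hi l hl, sum_congr rfl fun l hl => hs l hl j hj]
    ring
  · unfold upd cen
    rw [sum_add_distrib, sum_sub_distrib, sum_sub_distrib, sum_const, sum_const, ← sum_div,
      sum_comm (f := fun j l => mM F σ Y α β l j), nsmul_eq_mul, nsmul_eq_mul]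
    field_simp
    ring
  · have := dom_step hσ hc0 hc h hα hβ hne hF hd (x := 0) (H := 0)
      (fun y => by simpa [pd] using div_nonneg (h.psd y) c0.le) y
    simp only [pd, Pi.zero_apply, mul_zero, sum_const_zero, zero_div, sub_zero, zero_add, ne_eq,
      OfNat.ofNat_ne_zero, not_false_eq_true, zero_pow, add_zero] at this
    rw [le_div_iff₀ c0, zero_mul] at this
    exact this

end Vale.Agent.P049
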