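import Vale.Agent.P049.A

/-! P049: calculus for `E2` and `ind`. -/

namespace Vale.Agent.P049

open Finset

variable {ι : Type} [Fintype ι]

theorem mI_nonneg : 0 ≤ mI ι := Nat.cast_nonneg _

theorem sum_const_mI (c : ℝ) : ∑ _i : ι, c = mI ι * c := by simp [mI]

theorem E2_add (H K : ι → ι → ℝ) : E2 (fun α β => H α β + K α β) = E2 H + E2 K := by
  simp only [E2, sum_add_distrib, add_div]

theorem E2_sub (H K : ι → ι → ℝ) : E2 (fun α β => H α β - K α β) = E2 H - E2 K := by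
  simp only [E2, sum_sub_distrib, sub_div]

theorem E2_neg (H : ι → ι → ℝ) : E2 (fun α β => -H α β) = -E2 H := by
  simp only [E2, sum_neg_distrib, neg_div]

theorem E2_const_mul (c : ℝ) (H : ι → ι → ℝ) : E2 (fun α β => c * H α β) = c * E2 H := by
  simp only [E2, ← mul_sum, mul_div_assoc]

theorem E2_mul_const (c : ℝ) (H : ι → ι → ℝ) : E2 (fun α β => H α β * c) = E2 H * c := by
  simp only [mul_comm _ c, E2_const_mul]

theorem E2_div_const (c : ℝ) (H : ι → ι → ℝ) : E2 (fun α β => H α β / c) = E2 H / c := by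
  simp only [div_eq_mul_inv, E2_mul_const]

theorem E2_mono {H K : ι → ι → ℝ} (h : ∀ α β, H α β ≤ K α β) : E2 H ≤ E2 K :=
  div_le_div_of_nonneg_right (sum_le_sum fun _ _ => sum_le_sum fun _ _ => h _ _) (sq_nonneg _)

theorem E2_nonneg {H : ι → ι → ℝ} (h : ∀ α β, 0 ≤ H α β) : 0 ≤ E2 H :=
  div_nonneg (sum_nonneg fun _ _ => sum_nonneg fun _ _ => h _ _) (sq_nonneg _)

theorem E2_congr {H K : ι → ι → ℝ} (h : ∀ α β, H α β = K α β) : E2 H = E2 K := by
  congr 1; funext α β; exact h α β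

theorem E2_swap (H : ι → ι → ℝ) : E2 (fun α β => H β α) = E2 H := by
  simp only [E2]; rw [sum_comm]

theorem E2_prod (u v : ι → ℝ) :
    E2 (fun α β => u α * v β) = (∑ α, u α) / mI ι * ((∑ β, v β) / mI ι) := by
  simp only [E2, ← mul_sum, ← sum_mul]; rw [div_mul_div_comm, sq]

theorem E2_left (hm : 0 < mI ι) (u : ι → ℝ) : E2 (fun α _ => u α) = (∑ α, u α) / mI ι := by
  have := E2_prod u (fun _ => (1 : ℝ))
  simp only [mul_one, sum_const_mI] at this
  rw [this, div_self hm.ne', mul_one]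

theorem E2_right (hm : 0 < mI ι) (u : ι → ℝ) : E2 (fun _ β => u β) = (∑ α, u α) / mI ι := by
  rw [← E2_left hm, ← E2_swap]

theorem E2_const (hm : 0 < mI ι) (c : ℝ) : E2 (fun _ _ : ι => c) = c := by
  rw [E2_left hm, sum_const_mI]; field_simp

theorem E2_sum {τ : Type} (s : Finset τ) (H : τ → ι → ι → ℝ) :
    E2 (fun α β => ∑ μ ∈ s, H μ α β) = ∑ μ ∈ s, E2 (H μ) := by
  simp only [E2]
  rw [← sum_div, sum_comm (s := s)]
  congr 1
  exact sum_congr rfl fun α _ => sum_comm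

theorem abs_E2_le (H : ι → ι → ℝ) : |E2 H| ≤ E2 fun α β => |H α β| := by
  rw [abs_le, ← E2_neg]
  exact ⟨E2_mono fun _ _ => neg_abs_le _, E2_mono fun _ _ => le_abs_self _⟩

/-- Conditioning on the first coordinate. -/
theorem E2_cond (hm : 0 < mI ι) {u : ι → ℝ} {H : ι → ι → ℝ} {c : ℝ} (hu : ∀ α, 0 ≤ u α)
    (h : ∀ α, ∑ β, H α β ≤ mI ι * c) : E2 (fun α β => u α * H α β) ≤ (∑ α, u α) / mI ι * c := by
  simp only [E2, ← mul_sum]
  rw [div_le_iff₀ (by positivity)]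
  calc ∑ α, u α * ∑ β, H α β ≤ ∑ α, u α * (mI ι * c) :=
        sum_le_sum fun α _ => mul_le_mul_of_nonneg_left (h α) (hu α)
    _ = _ := by rw [← sum_mul]; field_simp

theorem sum2_cs (H K : ι → ι → ℝ) : (∑ α, ∑ β, H α β * K α β) ^ 2 ≤
    (∑ α, ∑ β, H α β ^ 2) * ∑ α, ∑ β, K α β ^ 2 := by
  simp only [← Fintype.sum_prod_type']
  exact sum_mul_sq_le_sq_mul_sq _ _ _

theorem E2_cs_sq (H K : ι → ι → ℝ) : (E2 fun α β => H α β * K α β) ^ 2 ≤
    E2 (fun α β => H α β ^ 2) * E2 fun α β => K α β ^ 2 := by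
  simp only [E2]
  rw [div_pow, div_mul_div_comm, ← sq]
  exact div_le_div_of_nonneg_right (sum2_cs H K) (sq_nonneg _)

/-- Cauchy-Schwarz with given majorants. -/
theorem E2_cs {H K : ι → ι → ℝ} {a b : ℝ} (ha : 0 ≤ a) (hb : 0 ≤ b)
    (hH : E2 (fun α β => H α β ^ 2) ≤ a ^ 2) (hK : E2 (fun α β => K α β ^ 2) ≤ b ^ 2) :
    E2 (fun α β => H α β * K α β) ≤ a * b := by
  refine abs_le_of_sq_le_sq' ((E2_cs_sq H K).trans ?_) (mul_nonneg ha hb) |>.2
  rw [mul_pow]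
  exact mul_le_mul hH hK (E2_nonneg fun _ _ => sq_nonneg _) (sq_nonneg _)

/-- Cauchy-Schwarz against a target: `E[H²] E[K²] ≤ c²`. -/
theorem E2_cs' {H K : ι → ι → ℝ} {a b c : ℝ} (hc : 0 ≤ c)
    (hH : E2 (fun α β => H α β ^ 2) ≤ a) (hK : E2 (fun α β => K α β ^ 2) ≤ b)
    (h : a * b ≤ c ^ 2) : E2 (fun α β => H α β * K α β) ≤ c := by
  refine abs_le_of_sq_le_sq' ((E2_cs_sq H K).trans ?_) hc |>.2
  exact (mul_le_mul hH hK (E2_nonneg fun _ _ => sq_nonneg _)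
    ((E2_nonneg fun _ _ => sq_nonneg _).trans hH)).trans h

theorem E2_cs_sqrt (H K : ι → ι → ℝ) : E2 (fun α β => H α β * K α β) ≤
    √(E2 fun α β => H α β ^ 2) * √(E2 fun α β => K α β ^ 2) :=
  E2_cs (Real.sqrt_nonneg _) (Real.sqrt_nonneg _)
    (Real.sq_sqrt (E2_nonneg fun _ _ => sq_nonneg _)).ge
    (Real.sq_sqrt (E2_nonneg fun _ _ => sq_nonneg _)).ge

theorem ind_of {p : Prop} (h : p) : ind p = 1 := by simp [ind, h]
theorem ind_of_not {p : Prop} (h : ¬ p) : ind p = 0 := by simp [ind, h]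
theorem ind_nonneg (p : Prop) : 0 ≤ ind p := by unfold ind; split_ifs <;> norm_num
theorem ind_le_one (p : Prop) : ind p ≤ 1 := by unfold ind; split_ifs <;> norm_num
theorem ind_sq (p : Prop) : ind p ^ 2 = ind p := by unfold ind; split_ifs <;> norm_num
theorem ind_le {p : Prop} {t : ℝ} (h0 : 0 ≤ t) (h : p → 1 ≤ t) : ind p ≤ t := by
  unfold ind; split_ifs with hp
  exacts [h hp, h0]
theorem ind_mul_le {p : Prop} {s t : ℝ} (h0 : 0 ≤ t) (h : p → s ≤ t) : ind p * s ≤ t := by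
  unfold ind; split_ifs with hp
  · simpa using h hp
  · simpa using h0
theorem ind_congr {p q : Prop} (h : p ↔ q) : ind p = ind q := by rw [propext h]

end Vale.Agent.P049
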