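import Vale.Agent.P049.Num

set_option maxRecDepth 100000

namespace Vale.Agent.P049

open Finset

variable {κ : Type} [DecidableEq κ]

/-- The bounds read off from the potential. -/
structure Base (g : ℝ) (F : Finset κ) (Y : κ → κ → ℝ) : Prop where
  Zlo : F.card * ze g F.card ≤ zz F Y
  t2h : tau2 F Y ≤ F.card * hh g F.card
  tp : max (tau1 F Y) 0 ^ 2 ≤ g ^ 14 * zz F Y * hh g F.card
  tm : max (-tau1 F Y) 0 ^ 2 ≤ g ^ 135 * zz F Y * hh g F.card
  Vb : vS F Y ≤ g ^ 20 * √(F.card * zz F Y)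
  Db : dS F Y ≤ g ^ 290 * h2 g F.card

namespace FactA

theorem fac {x y c : ℝ} (hx : 1 ≤ x) (hy : 1 ≤ y) (h : x * y ≤ c) : x ≤ c ∧ y ≤ c :=
  ⟨(le_mul_of_one_le_right (by linarith) hy).trans h, (le_mul_of_one_le_left (by linarith) hx).trans h⟩

theorem one_le {x y : ℝ} (hx : 0 ≤ x) (hy : 0 ≤ y) : 1 ≤ 1 + x / y :=
  le_add_of_nonneg_right (div_nonneg hx hy)

theorem unfac {x y c : ℝ} (hy : 0 < y) (h : 1 + x / y ≤ c) : x ≤ c * y :=
  (div_le_iff₀ hy).1 (by linarith)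

omit [DecidableEq κ] in
theorem t2_nonneg (F : Finset κ) (Y : κ → κ → ℝ) : 0 ≤ tau2 F Y :=
  sum_nonneg fun _ _ => sum_nonneg fun _ _ => sq_nonneg _

omit [DecidableEq κ] in
theorem m_pos {F : Finset κ} {Y : κ → κ → ℝ} (hZ : 0 < zz F Y) : (0 : ℝ) < F.card := by
  have := t2_nonneg F Y
  unfold zz at hZ; linarith

omit [DecidableEq κ] in
theorem ratio {F : Finset κ} {Y : κ → κ → ℝ} (hZ : 0 < zz F Y) : 1 ≤ F.card / zz F Y :=
  (one_le_div hZ).2 (sub_le_self _ (t2_nonneg F Y))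

omit [DecidableEq κ] in
theorem five {g : ℝ} (hg : 1 ≤ g) {F : Finset κ} {Y : κ → κ → ℝ} (hZ : 0 < zz F Y) {t : ℝ}
    (ht : 0 ≤ t) : 1 ≤ 1 + g ^ 8000 * tau2 F Y / (F.card * zz F Y) ∧
    1 ≤ 1 + max (tau1 F Y) 0 ^ 2 / (g ^ 4 * zz F Y * hh g F.card) ∧
    1 ≤ 1 + max (-tau1 F Y) 0 ^ 2 / (g ^ 125 * zz F Y * hh g F.card) ∧
    1 ≤ 1 + vS F Y / (g ^ 10 * t) ∧ 1 ≤ 1 + dS F Y / (g ^ 280 * h2 g F.card) := by
  have g0 : 0 < g := by linarith
  have := t2_nonneg F Y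
  have : 0 ≤ hh g F.card := by unfold hh; positivity
  have : 0 ≤ h2 g F.card := by unfold h2; positivity
  exact ⟨one_le (by positivity) (by positivity), one_le (sq_nonneg _) (by positivity),
    one_le (sq_nonneg _) (by positivity), one_le (sum_nonneg fun _ _ => sq_nonneg _) (by positivity),
    one_le (sum_nonneg fun _ _ => sq_nonneg _) (by positivity)⟩

theorem base1 {g : ℝ} (hg : 1 ≤ g) {F : Finset κ} {Y : κ → κ → ℝ} (hZ : 0 < zz F Y)
    (h : phi1 g F Y √(F.card * zz F Y) ≤ g ^ 10) : Base g F Y := by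
  have g0 : 0 < g := by linarith
  have m0 := m_pos hZ
  have h0 : 0 < hh g F.card := by unfold hh; positivity
  have h20 : 0 < h2 g F.card := by unfold h2; positivity
  obtain ⟨a1, a2, a3, a4, a5⟩ := five hg hZ (Real.sqrt_nonneg (F.card * zz F Y))
  have b2 := one_le_mul_of_one_le_of_one_le a1 a2
  have b3 := one_le_mul_of_one_le_of_one_le b2 a3
  obtain ⟨c4, d5⟩ := fac (one_le_mul_of_one_le_of_one_le b3 a4) a5 h
  obtain ⟨c3, d4⟩ := fac b3 a4 c4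
  obtain ⟨c2, d3⟩ := fac b2 a3 c3
  obtain ⟨d1, d2⟩ := fac a1 a2 c2
  have e1 := unfac (by positivity) d1
  have t : tau2 F Y ≤ F.card * hh g F.card := by
    rw [show g ^ 8000 = g ^ 10 * g ^ 7990 by ring, mul_assoc] at e1
    have e2 := le_of_mul_le_mul_left e1 (by positivity)
    rw [hh, ← mul_div_assoc, le_div_iff₀ (by positivity)]
    unfold zz at e2
    linarith
  refine ⟨?_, t, (unfac (by positivity) d2).trans_eq (by ring),
    (unfac (by positivity) d3).trans_eq (by ring), (unfac (by positivity) d4).trans_eq (by ring),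
    (unfac (by positivity) d5).trans_eq (by ring)⟩
  have : ze g F.card = 1 - hh g F.card := by unfold ze hh; field_simp; ring
  rw [this, zz]; linarith

omit [DecidableEq κ] in
theorem nS_fac {g : ℝ} (hg : 1 ≤ g) (F : Finset κ) (Y Y' : κ → κ → ℝ) :
    1 ≤ 1 + nS F Y Y' / g ^ 14000 :=
  one_le (sum_nonneg fun _ _ => sum_nonneg fun _ _ => sq_nonneg _) (pow_nonneg (by linarith) _)

end FactA

open FactA

theorem one_le_phi1 {g : ℝ} (hg : 1 ≤ g) {F : Finset κ} {Y : κ → κ → ℝ} (hZ : 0 < zz F Y) {t : ℝ}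
    (ht : 0 ≤ t) : 1 ≤ phi1 g F Y t := by
  obtain ⟨a1, a2, a3, a4, a5⟩ := five hg hZ ht
  exact one_le_mul_of_one_le_of_one_le (one_le_mul_of_one_le_of_one_le
    (one_le_mul_of_one_le_of_one_le (one_le_mul_of_one_le_of_one_le a1 a2) a3) a4) a5

theorem base_of_phi {g : ℝ} (hg : 1 ≤ g) {F : Finset κ} {Y Y' : κ → κ → ℝ} {b : ℝ}
    (hZ : 0 < zz F Y) (hZ' : 0 < zz F Y') (hb : 0 ≤ b) (h : Phi g F Y Y' b ≤ g ^ 120000) :
    Base g F Y ∧ Base g F Y' ∧ nS F Y Y' ≤ g ^ 14010 ∧ b ≤ g ^ 10 * (F.card : ℝ) ^ 2 := by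
  have g0 : 0 < g := by linarith
  have a1 := one_le_phi1 hg hZ (Real.sqrt_nonneg (F.card * zz F Y))
  have a2 := one_le_phi1 hg hZ' (Real.sqrt_nonneg (F.card * zz F Y'))
  have a3 := nS_fac hg F Y Y'
  have a4 := one_le hb (sq_nonneg (F.card : ℝ))
  have b2 := one_le_mul_of_one_le_of_one_le a1 a2
  have b3 := one_le_mul_of_one_le_of_one_le b2 a3
  have b5 := one_le_pow₀ (n := 12000) (one_le_mul_of_one_le_of_one_le b3 a4)
  have c := (fac b5 (ratio hZ) (fac (one_le_mul_of_one_le_of_one_le b5 (ratio hZ)) (ratio hZ') h).1).1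
  rw [show g ^ 120000 = (g ^ 10) ^ 12000 from pow_mul g 10 12000] at c
  obtain ⟨c3, d4⟩ := fac b3 a4 (le_of_pow_le_pow_left₀ (by norm_num) (by positivity) c)
  obtain ⟨c2, d3⟩ := fac b2 a3 c3
  obtain ⟨d1, d2⟩ := fac a1 a2 c2
  exact ⟨base1 hg hZ d1, base1 hg hZ' d2, (unfac (pow_pos g0 _) d3).trans_eq (pow_add g 10 14000).symm,
    unfac (pow_pos (m_pos hZ) 2) d4⟩

theorem one_le_Phi {g : ℝ} (hg : 1 ≤ g) {F : Finset κ} {Y Y' : κ → κ → ℝ} {b : ℝ}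
    (hZ : 0 < zz F Y) (hZ' : 0 < zz F Y') (hb : 0 ≤ b) : 1 ≤ Phi g F Y Y' b :=
  one_le_mul_of_one_le_of_one_le (one_le_mul_of_one_le_of_one_le (one_le_pow₀
    (one_le_mul_of_one_le_of_one_le (one_le_mul_of_one_le_of_one_le (one_le_mul_of_one_le_of_one_le
      (one_le_phi1 hg hZ (Real.sqrt_nonneg _)) (one_le_phi1 hg hZ' (Real.sqrt_nonneg _)))
      (nS_fac hg F Y Y')) (one_le hb (sq_nonneg _)))) (ratio hZ)) (ratio hZ')

theorem Phi_mono {g : ℝ} (hg : 1 ≤ g) {F : Finset κ} {Y Y' : κ → κ → ℝ} {b b' : ℝ}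
    (hZ : 0 < zz F Y) (hZ' : 0 < zz F Y') (hb : 0 ≤ b) (hb' : b ≤ b') :
    Phi g F Y Y' b ≤ Phi g F Y Y' b' := by
  have a := zero_le_one.trans (one_le_mul_of_one_le_of_one_le (one_le_mul_of_one_le_of_one_le
    (one_le_phi1 hg hZ (Real.sqrt_nonneg (F.card * zz F Y)))
    (one_le_phi1 hg hZ' (Real.sqrt_nonneg (F.card * zz F Y')))) (nS_fac hg F Y Y'))
  exact mul_le_mul_of_nonneg_right (mul_le_mul_of_nonneg_right (pow_le_pow_left₀
    (mul_nonneg a (zero_le_one.trans (one_le hb (sq_nonneg _)))) (mul_le_mul_of_nonneg_left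
      (add_le_add_right (div_le_div_of_nonneg_right hb' (sq_nonneg _)) _) a) _)
    (zero_le_one.trans (ratio hZ))) (zero_le_one.trans (ratio hZ'))

end Vale.Agent.P049
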