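import Vale.Agent.P049.Ex

namespace Vale.Agent.P049

open Finset

variable {ι : Type} [Fintype ι]

theorem fro_nonneg (X : Matrix ι ι ℝ) : 0 ≤ fro X :=
  sum_nonneg fun _ _ => sum_nonneg fun _ _ => sq_nonneg _
theorem fro_transpose (X : Matrix ι ι ℝ) : fro X.transpose = fro X := by
  simp only [fro, Matrix.transpose_apply]; exact sum_comm
theorem fro_eq_sum_col (X : Matrix ι ι ℝ) : fro X = ∑ j, col X j := sum_comm
theorem col_nonneg (X : Matrix ι ι ℝ) (j : ι) : 0 ≤ col X j := sum_nonneg fun _ _ => sq_nonneg _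
theorem fro_mul_le (X W : Matrix ι ι ℝ) : fro (X * W) ≤ fro X * fro W := by
  rw [fro_eq_sum_col W, fro, fro, sum_mul_sum]
  refine sum_le_sum fun i _ => sum_le_sum fun j _ => ?_
  rw [Matrix.mul_apply]
  exact sum_mul_sq_le_sq_mul_sq _ _ _
theorem ip_sq_le (X W : Matrix ι ι ℝ) : ip X W ^ 2 ≤ fro X * fro W := sum2_cs _ _
theorem fro_add (X W : Matrix ι ι ℝ) : fro (X + W) = fro X + 2 * ip X W + fro W := by
  simp only [fro, ip, Matrix.add_apply, mul_sum, ← sum_add_distrib]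
  exact sum_congr rfl fun i _ => sum_congr rfl fun j _ => by ring
theorem add_sq_le_t (u v : ℝ) {t : ℝ} (ht : 0 < t) :
    (u + v) ^ 2 ≤ (1 + t) * u ^ 2 + (1 + 1 / t) * v ^ 2 := by
  have : (1 + t) * u ^ 2 + (1 + 1 / t) * v ^ 2 - (u + v) ^ 2 = (t * u - v) ^ 2 / t := by
    field_simp; ring
  have h2 : 0 ≤ (t * u - v) ^ 2 / t := by positivity
  linarith
theorem fro_add_le (X W : Matrix ι ι ℝ) {t : ℝ} (ht : 0 < t) :
    fro (X + W) ≤ (1 + t) * fro X + (1 + 1 / t) * fro W := by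
  simp only [fro, Matrix.add_apply, mul_sum, ← sum_add_distrib]
  exact sum_le_sum fun i _ => sum_le_sum fun j _ => add_sq_le_t _ _ ht
theorem mulVec_sq_le (X : Matrix ι ι ℝ) (v : ι → ℝ) :
    ∑ i, (∑ j, X i j * v j) ^ 2 ≤ fro X * ∑ j, v j ^ 2 := by
  rw [fro, sum_mul]
  exact sum_le_sum fun i _ => sum_mul_sq_le_sq_mul_sq _ _ _
theorem bil_sq_le (X : Matrix ι ι ℝ) (u v : ι → ℝ) :
    (∑ i, ∑ j, u i * X i j * v j) ^ 2 ≤ (∑ i, u i ^ 2) * fro X * ∑ j, v j ^ 2 := by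
  have : ∑ i, ∑ j, u i * X i j * v j = ∑ i, u i * ∑ j, X i j * v j := by
    simp only [mul_sum, mul_assoc]
  rw [this, mul_assoc]
  exact (sum_mul_sq_le_sq_mul_sq _ _ _).trans
    (mul_le_mul_of_nonneg_left (mulVec_sq_le X v) (sum_nonneg fun _ _ => sq_nonneg _))
/-- Triangle inequality for a sum of rank one matrices. -/
theorem fro_rank_le (u v : ι → ι → ℝ) (c : ι → ℝ) :
    ∑ α, ∑ β, (∑ μ, u α μ * c μ * v β μ) ^ 2 ≤
      (∑ μ, |c μ| * (√(∑ α, u α μ ^ 2) * √(∑ β, v β μ ^ 2))) ^ 2 := by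
  let X : Matrix ι ι ℝ := fun α β => ∑ μ, u α μ * c μ * v β μ
  change fro X ≤ _
  set S := ∑ μ, |c μ| * (√(∑ α, u α μ ^ 2) * √(∑ β, v β μ ^ 2)) with hS
  have hS0 : 0 ≤ S := sum_nonneg fun _ _ => by positivity
  have h1 : fro X = ∑ μ, c μ * ∑ α, ∑ β, u α μ * X α β * v β μ := by
    simp only [mul_sum]
    rw [sum_comm]
    refine sum_congr rfl fun α _ => ?_
    rw [sum_comm]
    refine sum_congr rfl fun β _ => ?_
    rw [sq]
    nth_rewrite 1 [show X α β = ∑ μ, u α μ * c μ * v β μ from rfl]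
    rw [sum_mul]
    exact sum_congr rfl fun μ _ => by ring
  have h2 : fro X ≤ S * √(fro X) := by
    nth_rewrite 1 [h1]
    rw [hS, sum_mul]
    refine sum_le_sum fun μ _ => (le_abs_self _).trans ?_
    rw [abs_mul, mul_assoc]
    refine mul_le_mul_of_nonneg_left (abs_le_of_sq_le_sq' ?_ (by positivity) |> abs_le.2)
      (abs_nonneg _)
    rw [mul_pow, mul_pow, Real.sq_sqrt (fro_nonneg X),
      Real.sq_sqrt (sum_nonneg fun _ _ => sq_nonneg _),
      Real.sq_sqrt (sum_nonneg fun _ _ => sq_nonneg _)]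
    exact (bil_sq_le X _ _).trans_eq (by ring)
  have h3 := Real.sq_sqrt (fro_nonneg X)
  nlinarith [sq_nonneg (S - √(fro X))]
/-- If `Y ⪰ -1` then `tr (Xᵀ Y X) ≥ -‖X‖²`. -/
theorem low_trace {Y : Matrix ι ι ℝ}
    (h : ∀ y : ι → ℝ, -∑ i, y i ^ 2 ≤ ∑ i, ∑ j, y i * Y i j * y j) (X : Matrix ι ι ℝ) :
    -fro X ≤ ip X (Y * X) := by
  rw [fro_eq_sum_col, ← sum_neg_distrib, ip, sum_comm]
  refine sum_le_sum fun k _ => (h fun i => X i k).trans_eq ?_
  simp only [Matrix.mul_apply, mul_sum, mul_assoc]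
theorem E2_sq_eq (X : Matrix ι ι ℝ) : E2 (fun α β => X α β ^ 2) = fro X / mI ι ^ 2 := rfl
theorem E2_ip (X W : Matrix ι ι ℝ) : E2 (fun α β => X α β * W α β) = ip X W / mI ι ^ 2 := rfl
theorem row_mul {Y : Matrix ι ι ℝ} (h : ∀ i, ∑ j, Y i j = 0) (X : Matrix ι ι ℝ) (i : ι) :
    ∑ j, (X * Y) i j = 0 := by
  simp only [Matrix.mul_apply]
  rw [sum_comm]
  simp only [← mul_sum, h, mul_zero, sum_const_zero]
theorem E2_zero_of_row {X : ι → ι → ℝ} (h : ∀ i, ∑ j, X i j = 0) : E2 X = 0 := by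
  simp [E2, h]
theorem ip_comm (X W : Matrix ι ι ℝ) : ip X W = ip W X := by simp only [ip, mul_comm]
theorem ip_self (X : Matrix ι ι ℝ) : ip X X = fro X := by simp only [ip, fro, sq]
theorem ip_eq_trace (X W : Matrix ι ι ℝ) : ip X W = (X.transpose * W).trace := by
  simp only [ip, Matrix.trace, Matrix.diag, Matrix.mul_apply, Matrix.transpose_apply]
  exact sum_comm
theorem ip_transpose (X W : Matrix ι ι ℝ) : ip X.transpose W.transpose = ip X W := by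
  simp only [ip, Matrix.transpose_apply]; exact sum_comm
theorem ip_mul_left (X A W : Matrix ι ι ℝ) : ip X (A * W) = ip (A.transpose * X) W := by
  simp only [ip_eq_trace, Matrix.transpose_mul, Matrix.transpose_transpose, Matrix.mul_assoc]
theorem ip_mul_right (X A W : Matrix ι ι ℝ) : ip X (W * A) = ip (X * A.transpose) W := by
  simp only [ip_eq_trace, Matrix.transpose_mul, Matrix.transpose_transpose]
  rw [← Matrix.mul_assoc, Matrix.trace_mul_comm, Matrix.mul_assoc]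
theorem abs_ip_le (X W : Matrix ι ι ℝ) : |ip X W| ≤ √(fro X) * √(fro W) := by
  rw [← Real.sqrt_mul (fro_nonneg X)]
  exact Real.abs_le_sqrt (ip_sq_le X W)

namespace Gm

variable (G : Gm ι)

theorem rho_eq (α : ι) : G.rho α = ∑ j, G.Y α j ^ 2 := rfl
theorem rho_nonneg (α : ι) : 0 ≤ G.rho α := sum_nonneg fun _ _ => sq_nonneg _
theorem t2_eq_sum : G.t2 = ∑ α, G.rho α := rfl
theorem t2_eq_fro : G.t2 = fro G.Y := rfl
theorem t2_nonneg : 0 ≤ G.t2 := fro_nonneg _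
theorem Z_eq : G.Z = mI ι - G.t2 := rfl
theorem V_eq : G.V = ∑ α, G.f α ^ 2 := rfl
theorem D_eq : G.D = ∑ α, G.Y α α ^ 2 := rfl
theorem t1_eq : G.t1 = ∑ α, G.Y α α := rfl
theorem a_eq (α : ι) : G.a α = G.Y α α + G.sg / mI ι := rfl
theorem s_eq (α β : ι) : G.s α β = G.sg * s0 ι - G.Y α β := rfl
theorem dl_eq (α β : ι) : G.dl α β = G.s α β ^ 2 - G.a α * G.a β := rfl
theorem sq_le_rho (α β : ι) : G.Y α β ^ 2 ≤ G.rho α :=
  single_le_sum (f := fun j => G.Y α j ^ 2) (fun _ _ => sq_nonneg _) (mem_univ β)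
theorem t4_nonneg : 0 ≤ G.t4 := fro_nonneg _
theorem t6_nonneg : 0 ≤ G.t6 := fro_nonneg _
theorem sqrt_t4_le : √G.t4 ≤ G.t2 :=
  Real.sqrt_le_iff.2 ⟨G.t2_nonneg, by rw [sq]; exact fro_mul_le _ _⟩
theorem sum_gg (hs : ∀ i j, G.Y i j = G.Y j i) : ∑ α, G.gg α = ∑ α, G.rho α ^ 2 := by
  simp only [gg]
  rw [sum_comm]
  refine sum_congr rfl fun μ _ => ?_
  rw [← mul_sum, sq]
  congr 1
  exact sum_congr rfl fun α _ => by rw [hs]
theorem gg_nonneg (α : ι) : 0 ≤ G.gg α :=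
  sum_nonneg fun _ _ => mul_nonneg (G.rho_nonneg _) (sq_nonneg _)

variable {G} (hs : ∀ i j, G.Y i j = G.Y j i)
include hs

theorem Y_transpose : G.Y.transpose = G.Y := by ext i j; exact hs j i
theorem p_eq (α β : ι) : G.p α β = ∑ μ, G.Y α μ * G.Y β μ := by
  simp only [p, Matrix.mul_apply]
  exact sum_congr rfl fun μ _ => by rw [hs μ β]
theorem p_symm (α β : ι) : G.p α β = G.p β α := by
  simp only [p_eq hs, mul_comm]
theorem p_transpose : G.p.transpose = G.p := by ext i j; exact p_symm hs j i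
theorem r_transpose : G.r.transpose = G.r := by
  simp only [r, Matrix.transpose_mul, Y_transpose hs, Matrix.mul_assoc]
theorem r_symm (α β : ι) : G.r α β = G.r β α := by
  nth_rewrite 1 [← r_transpose hs]; rfl
theorem p_diag (α : ι) : G.p α α = G.rho α := by simp only [p_eq hs, rho_eq, sq]
theorem p_sq_le (α β : ι) : G.p α β ^ 2 ≤ G.rho α * G.rho β := by
  rw [p_eq hs]; exact sum_mul_sq_le_sq_mul_sq _ _ _
/-- The operator norm bound `‖Y‖² ≤ √τ₄`. -/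
theorem op_le (v : ι → ℝ) : ∑ i, (∑ j, G.Y i j * v j) ^ 2 ≤ √G.t4 * ∑ j, v j ^ 2 := by
  have h1 : ∑ i, (∑ j, G.Y i j * v j) ^ 2 = ∑ j, ∑ k, v j * G.p j k * v k := by
    simp only [sq, sum_mul_sum, p_eq hs, mul_sum, sum_mul]
    rw [sum_comm]
    refine sum_congr rfl fun j _ => ?_
    rw [sum_comm]
    exact sum_congr rfl fun k _ => sum_congr rfl fun i _ => by rw [hs i j, hs i k]; ring
  rw [h1]
  have h0 : 0 ≤ ∑ j, v j ^ 2 := sum_nonneg fun _ _ => sq_nonneg _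
  refine (abs_le_of_sq_le_sq' ((bil_sq_le G.p v v).trans_eq ?_) (by positivity)).2
  rw [mul_pow, Real.sq_sqrt G.t4_nonneg, t4]; ring
theorem fro_Y_mul (X : Matrix ι ι ℝ) : fro (G.Y * X) ≤ √G.t4 * fro X := by
  rw [fro_eq_sum_col, fro_eq_sum_col, mul_sum]
  exact sum_le_sum fun j _ => op_le hs fun i => X i j
theorem fro_mul_Y (X : Matrix ι ι ℝ) : fro (X * G.Y) ≤ √G.t4 * fro X := by
  rw [← fro_transpose, Matrix.transpose_mul, Y_transpose hs, ← fro_transpose X]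
  exact fro_Y_mul hs _
theorem t6_le : G.t6 ≤ √G.t4 * G.t4 := fro_mul_Y hs _
theorem sum_p_sq (α : ι) : ∑ β, G.p α β ^ 2 ≤ √G.t4 * G.rho α := by
  refine le_of_eq_of_le ?_ (op_le hs fun j => G.Y α j)
  exact sum_congr rfl fun β _ => by rw [p_symm hs, p_eq hs]
theorem r_eq (α β : ι) : G.r α β = ∑ μ, G.p α μ * G.Y β μ := by
  simp only [r, Matrix.mul_apply (M := G.Y * G.Y)]
  exact sum_congr rfl fun μ _ => by rw [hs μ β]; rfl
theorem r_sq_le (α β : ι) : G.r α β ^ 2 ≤ √G.t4 * (G.rho α * G.rho β) := by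
  rw [r_eq hs, ← mul_assoc]
  exact (sum_mul_sq_le_sq_mul_sq _ _ _).trans
    (mul_le_mul_of_nonneg_right (sum_p_sq hs α) (G.rho_nonneg β))
theorem sum_r_sq (α : ι) : ∑ β, G.r α β ^ 2 ≤ G.t4 * G.rho α := by
  have h1 : ∑ β, G.r α β ^ 2 ≤ √G.t4 * ∑ j, G.p α j ^ 2 := by
    refine le_of_eq_of_le ?_ (op_le hs fun j => G.p α j)
    exact sum_congr rfl fun β _ => by simp only [r_eq hs, mul_comm]
  refine h1.trans ((mul_le_mul_of_nonneg_left (sum_p_sq hs α) (Real.sqrt_nonneg _)).trans_eq ?_)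
  rw [← mul_assoc, Real.mul_self_sqrt G.t4_nonneg]
theorem r_diag_sq (α : ι) : G.r α α ^ 2 ≤ G.rho α * ∑ β, G.p α β ^ 2 := by
  rw [r_eq hs, mul_comm]; exact sum_mul_sq_le_sq_mul_sq _ _ _
theorem ip_Y_r : ip G.Y G.r = G.t4 := by
  rw [r, ip_mul_right, Y_transpose hs, ip_self]; rfl
theorem ip_Y_p : ip G.Y G.p = ∑ α, G.r α α := by
  simp only [ip, r_eq hs, mul_comm]
theorem tr_r_sq : (∑ α, G.r α α) ^ 2 ≤ G.t2 * G.t4 := by
  rw [← ip_Y_p hs]; exact ip_sq_le _ _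
theorem s_symm (α β : ι) : G.s α β = G.s β α := by rw [s_eq, s_eq, hs]
theorem dl_symm (α β : ι) : G.dl α β = G.dl β α := by rw [dl_eq, dl_eq, s_symm hs, mul_comm]
theorem g1_swap (α β μ : ι) : G.g1 β α μ = G.g2 α β μ := by
  rw [g1, g2, s_symm hs β α, dl_symm hs β α, add_comm]
theorem g2_swap (α β μ : ι) : G.g2 β α μ = G.g1 α β μ := (g1_swap hs β α μ).symm

end Gm

theorem NN_eq (G G' : Gm ι) : NN G G' = fro (P0 G G') := rfl
theorem P0_swap {G G' : Gm ι} (hs : ∀ i j, G.Y i j = G.Y j i) (hs' : ∀ i j, G'.Y i j = G'.Y j i) :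
    P0 G' G = (P0 G G').transpose := by
  simp only [P0, Matrix.transpose_mul, Gm.Y_transpose hs, Gm.Y_transpose hs']
theorem NN_swap {G G' : Gm ι} (hs : ∀ i j, G.Y i j = G.Y j i) (hs' : ∀ i j, G'.Y i j = G'.Y j i) :
    NN G' G = NN G G' := by rw [NN_eq, NN_eq, P0_swap hs hs', fro_transpose]
theorem P0_sq_le {G G' : Gm ι} (hs' : ∀ i j, G'.Y i j = G'.Y j i) (α β : ι) :
    P0 G G' α β ^ 2 ≤ G.rho α * G'.rho β := by
  simp only [P0, Matrix.mul_apply, hs' _ β]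
  exact sum_mul_sq_le_sq_mul_sq _ _ _

end Vale.Agent.P049
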