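import Vale.Agent.P049.FactA
import Vale.Agent.P049.Lin

set_option maxRecDepth 100000

namespace Vale.Agent.P049

open Finset

variable {ι : Type} [Fintype ι] [DecidableEq ι]

theorem low_of_game {c : ℝ} (hc0 : 0 ≤ c) (hc : c ^ 2 ≤ 1 / 2) {Y : Matrix ι ι ℝ}
    (h : Game c univ Y) (y : ι → ℝ) : -∑ i, y i ^ 2 ≤ ∑ i, ∑ j, y i * Y i j * y j := by
  have h1 := h.psd y
  have h2 : pd univ y y ≤ ∑ i, y i ^ 2 := by
    simp only [pd, sq]
    exact sub_le_self _ (div_nonneg (mul_self_nonneg _) (Nat.cast_nonneg _))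
  have h3 : 0 ≤ ∑ i, y i ^ 2 := sum_nonneg fun _ _ => sq_nonneg _
  have h4 : c ≤ 1 := by nlinarith
  unfold qf at h1
  nlinarith [mul_le_mul_of_nonneg_left h2 hc0]

theorem entry_of_game {c : ℝ} (hc0 : 0 ≤ c) (hc : c ^ 2 ≤ 1 / 2) {Y : Matrix ι ι ℝ}
    (h : Game c univ Y) (i j : ι) : |Y i j| ≤ √((c + |Y i i|) * (c + |Y j j|)) + 1 / mI ι := by
  have m0 : 0 ≤ 1 / mI ι := div_nonneg zero_le_one mI_nonneg
  by_cases hij : i = j
  · subst hij
    rw [Real.sqrt_mul_self (by positivity)]; linarith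
  have h4 : c ≤ 1 := by nlinarith
  have key : ∀ s : ℝ, 0 ≤ (c + |Y i i|) * (s * s) + 2 * (Y i j - c * (1 / mI ι)) * s +
      (c + |Y j j|) := by
    intro s
    have h1 := h.psd fun k => (if k = i then s else 0) + if k = j then 1 else 0
    simp only [qf, pd, add_mul, mul_add, ite_mul, mul_ite, sum_add_distrib, zero_mul, mul_zero,
      sum_ite_eq', mem_univ, if_true, if_neg hij, if_neg (Ne.symm hij), sum_ite_irrel,
      sum_const_zero, h.symm j (mem_univ _) i (mem_univ _)] at h1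
    rw [div_eq_mul_one_div, show ((univ : Finset ι).card : ℝ) = mI ι from rfl] at h1
    nlinarith [mul_le_mul_of_nonneg_right (le_abs_self (Y i i)) (mul_self_nonneg s),
      le_abs_self (Y j j), mul_nonneg (mul_nonneg hc0 m0) (mul_self_nonneg s), mul_nonneg hc0 m0]
  have h2 := discrim_le_zero key
  rw [discrim] at h2
  have h3 : |Y i j - c * (1 / mI ι)| ≤ √((c + |Y i i|) * (c + |Y j j|)) :=
    Real.abs_le_sqrt (by linarith)
  have h5 := abs_add_le (Y i j - c * (1 / mI ι)) (c * (1 / mI ι))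
  rw [sub_add_cancel, abs_of_nonneg (mul_nonneg hc0 m0)] at h5
  nlinarith

namespace FactB

theorem sq_entry {g c m a b y : ℝ} (hg : 0 < g) (hc0 : 0 ≤ c)
    (h : |y| ≤ √((c + |a|) * (c + |b|)) + 1 / m) :
    y ^ 2 ≤ (1 + 1 / g) ^ 2 * c ^ 2 + (1 + g) * (1 / m) ^ 2 +
      (1 + 1 / g) * (1 + g) / 2 * (a ^ 2 + b ^ 2) := by
  have g1 : 0 < 1 / g := by positivity
  have h1 := add_sq_le_t √((c + |a|) * (c + |b|)) (1 / m) g1
  have h2 := add_sq_le_t c |a| g1
  have h3 := add_sq_le_t c |b| g1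
  rw [one_div_one_div] at h1 h2 h3
  rw [Real.sq_sqrt (by positivity)] at h1
  rw [sq_abs] at h2 h3
  have h4 := pow_le_pow_left₀ (abs_nonneg _) h 2
  rw [sq_abs] at h4
  have h5 : (c + |a|) * (c + |b|) ≤ (1 + 1 / g) * c ^ 2 + (1 + g) / 2 * (a ^ 2 + b ^ 2) := by
    nlinarith [sq_nonneg (|a| - |b|)]
  nlinarith [mul_le_mul_of_nonneg_left h5 (show 0 ≤ 1 + 1 / g by positivity)]

theorem q4s {g m c t w : ℝ} (hn : Num g m) (hc : c ^ 2 ≤ 1 / 2) (t0 : 0 ≤ t) (ht : t ≤ m)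
    (hw : w ≤ g ^ 290 * (g ^ 11 * √m)) :
    ((1 + 1 / g) ^ 2 * c ^ 2 + (1 + g) * (1 / m) ^ 2) * t + (1 + 1 / g) * (1 + g) * w ≤
      t / 2 + 3 * m / g := by
  have g0 := hn.g_pos
  have g1 := hn.one_le_g
  have m0 := hn.m_pos
  have e1 : 1 / g ≤ 1 := div_le_one_of_le₀ g1 g0.le
  have e0 : 0 < 1 / g := by positivity
  have a1 : (1 + 1 / g) ^ 2 * c ^ 2 * t ≤ t / 2 + 3 / 2 * (m / g) := by
    have : (1 + 1 / g) ^ 2 * c ^ 2 ≤ 1 / 2 + 3 / 2 * (1 / g) := by
      nlinarith [mul_le_mul_of_nonneg_left hc (sq_nonneg (1 + 1 / g))]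
    have h2 := mul_le_mul_of_nonneg_right this t0
    have h3 := mul_le_mul_of_nonneg_left ht e0.le
    rw [div_eq_mul_one_div m]
    linarith
  have a2 : (1 + g) * (1 / m) ^ 2 * t ≤ 1 / 2 * (m / g) := by
    have h1 := hn.const_pow (c := 4) (by norm_num) (show 2 < 3 by norm_num)
    have h2 := hn.pow_le_m (show 3 ≤ 3995 by norm_num)
    have h3 := hn.pow_le_m (show 0 ≤ 3995 by norm_num)
    calc _ ≤ (2 * g) * (1 / m) ^ 2 * m := by gcongr; linarith
      _ = 4 * g ^ 2 / m / (2 * g) := by field_simp; norm_num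
      _ ≤ m / (2 * g) := by gcongr; rw [div_le_iff₀ m0]; nlinarith
      _ = _ := by ring
  have a3 : (1 + 1 / g) * (1 + g) * w ≤ m / g := by
    have h1 : g ^ 304 ≤ √m := Real.le_sqrt_of_sq_le (by
      rw [← pow_mul]; exact hn.pow_le_m (by norm_num))
    have h2 := hn.const_pow (c := 4) (by norm_num) (show 303 < 304 by norm_num)
    calc _ ≤ (1 + 1 / g) * (1 + g) * (g ^ 290 * (g ^ 11 * √m)) := by gcongr
      _ ≤ 2 * (2 * g) * (g ^ 290 * (g ^ 11 * √m)) := by gcongr <;> linarith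
      _ = 4 * g ^ 303 * √m / g := by field_simp; norm_num
      _ ≤ √m * √m / g := by gcongr; linarith
      _ = _ := by rw [Real.mul_self_sqrt m0.le]
  rw [mul_div_assoc]
  linarith

theorem ggs {g m x : ℝ} (hn : Num g m) (h : x ^ 2 ≤ m * g ^ 21 * (g ^ 292 * (g ^ 11 * √m))) :
    g ^ 750 * x ≤ m * √(ze g m) := by
  have g0 := hn.g_pos
  have m0 := hn.m_pos
  have z0 := hn.ze_pos
  have h1 : g ^ 1824 ≤ √m * ze g m := by
    refine (abs_le_of_sq_le_sq' ?_ (by positivity)).2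
    rw [mul_pow, Real.sq_sqrt m0.le, ← pow_mul]
    exact (hn.pow_mono (by norm_num)).trans hn.F2
  refine (abs_le_of_sq_le_sq' ?_ (by positivity)).2
  calc _ = (g ^ 750) ^ 2 * x ^ 2 := mul_pow _ _ _
    _ ≤ (g ^ 750) ^ 2 * (m * g ^ 21 * (g ^ 292 * (g ^ 11 * √m))) := by gcongr
    _ = g ^ 1824 * (m * √m) := by ring
    _ ≤ √m * ze g m * (m * √m) := by gcongr
    _ = m * (√m * √m) * ze g m := by ring
    _ = _ := by rw [mul_pow, Real.sq_sqrt z0.le, Real.mul_self_sqrt m0.le, sq]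

end FactB

open FactB in
theorem one_of_base {g c : ℝ} (hn : Num g (mI ι)) (hc0 : 0 ≤ c) (hc : c ^ 2 ≤ 1 / 2) (G : Gm ι)
    (hσ : G.sg = 1 ∨ G.sg = -1) (h : Game c univ G.Y) (hb : Base g univ G.Y) : One g G := by
  have g0 := hn.g_pos
  have g1 := hn.one_le_g
  have m0 := hn.m_pos
  have m1 : 1 ≤ mI ι := by simpa using hn.pow_le_m (show 0 ≤ 3995 by norm_num)
  have hs : ∀ i j, G.Y i j = G.Y j i := fun i j => h.symm i (mem_univ _) j (mem_univ _)
  have t2h : G.t2 ≤ mI ι * hI g ι := hb.t2h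
  have tm : G.t2 ≤ mI ι := t2h.trans (mul_le_of_le_one_right m0.le hn.h_le_one)
  have hV : G.V ≤ g ^ 20 * mI ι := hb.Vb.trans (mul_le_mul_of_nonneg_left
    (Real.sqrt_le_iff.2 ⟨m0.le, by
      rw [sq]; exact mul_le_mul_of_nonneg_left (sub_le_self _ G.t2_nonneg) m0.le⟩) (by positivity))
  have hD : G.D ≤ g ^ 290 := hb.Db.trans (mul_le_of_le_one_right (by positivity) hn.h2_le_one)
  have rmax : ∀ α, G.rho α ≤ g ^ 11 * √(mI ι) := fun α => by
    have h1 : G.f α ≤ g ^ 10 * √(mI ι) := by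
      refine (abs_le_of_sq_le_sq' ?_ (by positivity)).2
      rw [mul_pow, Real.sq_sqrt m0.le, ← pow_mul]
      exact (single_le_sum (f := fun α => G.f α ^ 2) (fun _ _ => sq_nonneg _) (mem_univ α)).trans hV
    have h2 := hn.const_pow (c := 2) (by norm_num) (show 10 < 11 by norm_num)
    have h3 : 1 ≤ √(mI ι) := Real.one_le_sqrt.2 m1
    have h4 := one_le_mul_of_one_le_of_one_le (one_le_pow₀ (n := 10) g1) h3
    unfold Gm.f at h1
    nlinarith
  have r4a : G.r4 ≤ g ^ 21 := by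
    have h1 : ∑ α, G.rho α ^ 2 ≤ ∑ α, (2 + 2 * G.f α ^ 2) :=
      sum_le_sum fun α _ => by unfold Gm.f; nlinarith [sq_nonneg (G.rho α - 2)]
    rw [sum_add_distrib, sum_const_mI, ← mul_sum, ← G.V_eq] at h1
    have h2 := hn.const_pow (c := 4) (by norm_num) (show 20 < 21 by norm_num)
    have h3 := one_le_pow₀ (n := 20) g1
    rw [Gm.r4, div_le_iff₀ m0]
    nlinarith
  have r4h : G.r4 ≤ mI ι * hI g ι ^ 2 := by
    rw [Gm.r4, div_le_iff₀ m0]
    calc _ ≤ G.t2 ^ 2 := sum_sq_le_sq_sum_of_nonneg fun α _ => G.rho_nonneg α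
      _ ≤ (mI ι * hI g ι) ^ 2 := pow_le_pow_left₀ G.t2_nonneg t2h 2
      _ = _ := by ring
  have D0 : 0 ≤ G.D := sum_nonneg fun _ _ => sq_nonneg _
  have F4 := hn.F4 (x := G.Dh) (by unfold Gm.Dh; positivity)
    (add_le_add_left (mul_le_mul_of_nonneg_left hb.Db zero_le_two) _)
  have ymax : ∀ i j, G.Y i j ^ 2 ≤ g ^ 292 := fun i j => by
    have d : ∀ i, c + |G.Y i i| ≤ 1 + g ^ 145 := fun i => add_le_add (by nlinarith)
      (abs_le_of_sq_le_sq (by
        rw [← pow_mul]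
        exact (single_le_sum (f := fun α => G.Y α α ^ 2) (fun _ _ => sq_nonneg _)
          (mem_univ i)).trans hD) (by positivity))
    have h1 : √((c + |G.Y i i|) * (c + |G.Y j j|)) ≤ 1 + g ^ 145 :=
      Real.sqrt_le_iff.2 ⟨by positivity, by
        rw [sq]; exact mul_le_mul (d i) (d j) (by positivity) (by positivity)⟩
    have h2 := entry_of_game hc0 hc h i j
    have h3 : 1 / mI ι ≤ 1 := div_le_one_of_le₀ m1 m0.le
    have h4 := hn.const_pow (c := 3) (by norm_num) (show 145 < 146 by norm_num)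
    have h5 := one_le_pow₀ (n := 145) g1
    calc _ = |G.Y i j| ^ 2 := (sq_abs _).symm
      _ ≤ (g ^ 146) ^ 2 := pow_le_pow_left₀ (abs_nonneg _) (by linarith) 2
      _ = _ := by rw [← pow_mul]
  refine ⟨hn, hσ, hs, fun i => h.row i (mem_univ _), low_of_game hc0 hc h, ?_, hb.Zlo, t2h, hb.tp,
    hb.tm, hb.Vb, hb.Db, rmax, r4a, (hn.F1 r4a r4h).1, (hn.F1 r4a r4h).2, F4.1, F4.2.1, F4.2.2, ymax,
    fun α => ggs hn ?_⟩
  · refine le_trans ?_ (q4s hn hc G.t2_nonneg tm (w := ∑ i, G.Y i i ^ 2 * G.rho i) ?_)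
    · calc _ ≤ ∑ i, ∑ j, (((1 + 1 / g) ^ 2 * c ^ 2 + (1 + g) * (1 / mI ι) ^ 2) * G.Y i j ^ 2 +
            (1 + 1 / g) * (1 + g) / 2 * (G.Y i i ^ 2 * G.Y i j ^ 2 + G.Y j j ^ 2 * G.Y j i ^ 2)) :=
            sum_le_sum fun i _ => sum_le_sum fun j _ => by
              have := mul_le_mul_of_nonneg_right (sq_entry g0 hc0 (entry_of_game hc0 hc h i j))
                (sq_nonneg (G.Y i j))
              rw [hs j i]; linarith
        _ = _ := by
          simp only [sum_add_distrib, ← mul_sum]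
          rw [sum_comm (f := fun i j => G.Y j j ^ 2 * G.Y j i ^ 2)]
          simp only [← mul_sum, ← G.rho_eq, ← G.t2_eq_sum]
          ring
    · calc _ ≤ ∑ i, G.Y i i ^ 2 * (g ^ 11 * √(mI ι)) :=
            sum_le_sum fun i _ => mul_le_mul_of_nonneg_left (rmax i) (sq_nonneg _)
        _ ≤ _ := by rw [← sum_mul]; exact mul_le_mul_of_nonneg_right hD (by positivity)
  · refine (sum_mul_sq_le_sq_mul_sq _ _ _).trans (mul_le_mul ((div_le_iff₀' m0).1 r4a) ?_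
      (sum_nonneg fun _ _ => sq_nonneg _) (by positivity))
    calc _ ≤ ∑ μ, g ^ 292 * G.Y α μ ^ 2 := sum_le_sum fun μ _ => by
          rw [sq (G.Y α μ ^ 2)]; exact mul_le_mul_of_nonneg_right (ymax _ _) (sq_nonneg _)
      _ ≤ _ := by rw [← mul_sum]; exact mul_le_mul_of_nonneg_left (rmax α) (by positivity)

end Vale.Agent.P049
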