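import Vale.Agent.P049.Num

set_option maxRecDepth 100000

namespace Vale.Agent.P049

open Finset

/-- The factors of one game as a function of scalars. -/
noncomputable def ph (g m Z τ V D : ℝ) : ℝ :=
  (1 + g ^ 8000 * (m - Z) / (m * Z)) * (1 + max τ 0 ^ 2 / (g ^ 4 * Z * hh g m)) *
    (1 + max (-τ) 0 ^ 2 / (g ^ 125 * Z * hh g m)) * (1 + V / (g ^ 10 * √(m * Z))) *
    (1 + D / (g ^ 280 * h2 g m))

theorem phi1_eq {κ : Type} [DecidableEq κ] (g : ℝ) (F : Finset κ) (Y : κ → κ → ℝ) :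
    phi1 g F Y √(F.card * zz F Y) = ph g F.card (zz F Y) (tau1 F Y) (vS F Y) (dS F Y) := by
  have e : (F.card : ℝ) - zz F Y = tau2 F Y := by unfold zz; exact sub_sub_cancel _ _
  unfold phi1 ph
  rw [e]

namespace LogA

theorem sub_le {u v : ℝ} (hu : 0 < u) (hv : 0 < v) : Real.log u - Real.log v ≤ (u - v) / v := by
  rw [← Real.log_div hu.ne' hv.ne', sub_div, div_self hv.ne']
  exact Real.log_le_sub_one_of_pos (div_pos hu hv)

theorem neg_log {u : ℝ} (hu : |u| ≤ 1 / 2) : -Real.log (1 + u) ≤ -u + 2 * u ^ 2 := by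
  obtain ⟨h1, h2⟩ := abs_le.1 hu
  have h := sub_le (u := 1) (v := 1 + u) one_pos (by linarith)
  rw [Real.log_one, zero_sub] at h
  refine h.trans ?_
  rw [div_le_iff₀ (by linarith)]
  nlinarith [sq_nonneg u]

theorem gen {a a' t t' u : ℝ} (ha : 0 < a) (ht : 0 ≤ t) (ht' : 0 ≤ t') (hu : |u| ≤ 1 / 2)
    (e : a' = a * (1 + u)) :
    Real.log (1 + t' / a') - Real.log (1 + t / a) ≤
      (t' - t) / (a + t) - t / (a + t) * u + 2 * u ^ 2 := by
  have u1 : 0 < 1 + u := by linarith [(abs_le.1 hu).1]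
  have a1 : 0 < a' := by rw [e]; positivity
  have e1 : 1 + t' / a' = (a' + t') / (a * (1 + u)) := by rw [← e]; field_simp
  have e2 : 1 + t / a = (a + t) / a := by field_simp
  rw [e1, e2, Real.log_div (by positivity) (by positivity), Real.log_div (by positivity) ha.ne',
    Real.log_mul ha.ne' u1.ne']
  have h1 := sub_le (u := a' + t') (v := a + t) (by positivity) (by positivity)
  have h2 := neg_log hu
  have e3 : (a' + t' - (a + t)) / (a + t) = (t' - t) / (a + t) - t / (a + t) * u + u := by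
    rw [e]; field_simp; ring
  linarith

theorem T_sq {Z x : ℝ} (hZ : 0 < Z) : ((x + 2) / Z) ^ 2 ≤ 5 * ((x ^ 2 + 1) / Z ^ 2) := by
  rw [div_pow, ← mul_div_assoc]
  gcongr
  nlinarith [sq_nonneg (2 * x - 1)]

theorem T_abs {Z x : ℝ} (hZ : 100 ≤ Z) (hx : |x| ≤ Z / 10) : |(x + 2) / Z| ≤ 1 / 5 := by
  rw [abs_div, abs_of_pos (by linarith : 0 < Z), div_le_iff₀ (by linarith)]
  have := abs_add_le x 2
  rw [abs_two] at this
  linarith

theorem core {Z x δ : ℝ} (hZ : 100 ≤ Z) (hx : |x| ≤ Z / 10) (h0 : 0 ≤ δ) (h1 : δ ≤ 3 / Z) :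
    |(1 - (x + 2) / Z) * (1 - δ) - 1| ≤ 1 / 2 ∧
      ((1 - (x + 2) / Z) * (1 - δ) - 1) ^ 2 ≤ 28 * ((x ^ 2 + 1) / Z ^ 2) ∧
      |(x + 2) / Z * δ| ≤ 7 * ((x ^ 2 + 1) / Z ^ 2) := by
  have Z0 : 0 < Z := by linarith
  have a1 := T_sq (x := x) Z0
  obtain ⟨a2, a3⟩ := abs_le.1 (T_abs hZ hx)
  have a4 : δ ≤ 3 / 100 := h1.trans (by gcongr)
  have a5 : δ ^ 2 ≤ 9 * ((x ^ 2 + 1) / Z ^ 2) := by
    calc δ ^ 2 ≤ (3 / Z) ^ 2 := by gcongr
      _ = 9 * (1 / Z ^ 2) := by ring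
      _ ≤ _ := by gcongr; linarith [sq_nonneg x]
  generalize (x + 2) / Z = T at *
  generalize (x ^ 2 + 1) / Z ^ 2 = E at *
  refine ⟨abs_le.2 ⟨by nlinarith, by nlinarith⟩, ?_, abs_le.2 ⟨?_, ?_⟩⟩
  · have b1 : (T * (1 - δ)) ^ 2 ≤ T ^ 2 := by
      rw [mul_pow]
      exact mul_le_of_le_one_right (sq_nonneg _) (by nlinarith)
    nlinarith [sq_nonneg (T * (1 - δ) - δ)]
  · nlinarith [sq_nonneg (T + δ)]
  · nlinarith [sq_nonneg (T - δ)]

theorem del {m c : ℝ} (hm : 100 ≤ m) (hc : 2 ≤ c) : ∃ δ : ℝ, 0 ≤ δ ∧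
    δ ≤ 2 * (c / (m + c)) / m + 4 / m ^ 2 ∧ δ ≤ 3 / m ∧
    (m - 2) / (m - 2 + c) = m / (m + c) * (1 - δ) := by
  have m0 : 0 < m := by linarith
  have p1 : 0 < m - 2 + c := by linarith
  have p2 : 0 < m + c := by linarith
  refine ⟨2 * c / (m * (m - 2 + c)), by positivity, ?_, ?_, by field_simp; ring⟩
  · have e : 2 * (c / (m + c)) / m + 4 / m ^ 2 - 2 * c / (m * (m - 2 + c)) =
        4 * ((m + c) * (m - 2 + c) - c * m) / (m ^ 2 * (m + c) * (m - 2 + c)) := by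
      field_simp; ring
    rw [← sub_nonneg, e]
    refine div_nonneg ?_ (by positivity)
    nlinarith
  · rw [div_le_div_iff₀ (by positivity) m0]
    nlinarith

theorem C0 {P m Z x : ℝ} (hP : 0 < P) (hZ : 100 ≤ Z) (hZm : Z ≤ m) (hx : |x| ≤ Z / 10)
    (hx0 : 0 ≤ m - Z + x) :
    Real.log (1 + P * (m - 2 - (Z - 2 - x)) / ((m - 2) * (Z - 2 - x))) -
      Real.log (1 + P * (m - Z) / (m * Z)) ≤
      P / ((Z - 2) ^ 2 * (1 + P * (m - Z) / (m * Z))) *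
        (x + 2 * (1 - (Z / m) ^ 2) + 4 * x ^ 2 / Z) := by
  obtain ⟨x1, x2⟩ := abs_le.1 hx
  have Z0 : 0 < Z := by linarith
  have m0 : 0 < m := by linarith
  have p1 : 0 < m - 2 := by linarith
  have p2 : 0 < Z - 2 := by linarith
  have p3 : 0 < Z - 2 - x := by linarith
  have p4 : 0 ≤ m - Z := by linarith
  have p5 : 0 ≤ m - 2 - (Z - 2 - x) := by linarith
  refine (sub_le (by positivity) (by positivity)).trans ?_
  have q1 : 1 / (Z - 2 - x) - 1 / (Z - 2) ≤ (x + 4 * x ^ 2 / Z) / (Z - 2) ^ 2 := by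
    have e : 1 / (Z - 2 - x) - 1 / (Z - 2) = (x + x ^ 2 / (Z - 2 - x)) / (Z - 2) ^ 2 := by
      field_simp; ring
    rw [e]
    gcongr ?_ / _
    have : x ^ 2 / (Z - 2 - x) ≤ 4 * x ^ 2 / Z := by
      rw [div_le_div_iff₀ p3 Z0]; nlinarith [sq_nonneg x]
    linarith
  have q2 : 1 / (Z - 2) - 1 / Z - 1 / (m - 2) + 1 / m ≤ 2 * (1 - (Z / m) ^ 2) / (Z - 2) ^ 2 := by
    have e : 2 * (1 - (Z / m) ^ 2) / (Z - 2) ^ 2 - (1 / (Z - 2) - 1 / Z - 1 / (m - 2) + 1 / m) =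
        2 * (m - Z) * (Z * (m - 2) * (m + Z) - (Z - 2) * m * (m + Z - 2)) /
          (m ^ 2 * (Z - 2) ^ 2 * Z * (m - 2)) := by
      field_simp; ring
    rw [← sub_nonneg, e]
    refine div_nonneg (mul_nonneg (by positivity) (sub_nonneg.2 ?_)) (by positivity)
    exact mul_le_mul (by linarith) (by linarith) (by linarith) (by positivity)
  have e1 : 1 + P * (m - 2 - (Z - 2 - x)) / ((m - 2) * (Z - 2 - x)) - (1 + P * (m - Z) / (m * Z)) =
      P * ((1 / (Z - 2 - x) - 1 / (Z - 2)) + (1 / (Z - 2) - 1 / Z - 1 / (m - 2) + 1 / m)) := by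
    field_simp; ring
  have hW : 0 < 1 + P * (m - Z) / (m * Z) := by positivity
  rw [e1]
  generalize 1 + P * (m - Z) / (m * Z) = W at *
  calc _ ≤ P * ((x + 4 * x ^ 2 / Z) / (Z - 2) ^ 2 + 2 * (1 - (Z / m) ^ 2) / (Z - 2) ^ 2) / W := by
        gcongr
    _ = _ := by field_simp; ring

theorem T_eq {m Z x : ℝ} (hZ : 0 < Z) (hm : 0 < m) :
    (x + 2) / Z = (x + 2 * (1 - (Z / m) ^ 2)) / Z + 2 * (Z / m) / m := by
  field_simp; ring

theorem tau0 {c m Z M τ x y : ℝ} (hc : 2 ≤ c) (hZ : 100 ≤ Z) (hz : m * (c / (m + c)) ≤ Z)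
    (hZm : Z ≤ m) (hM : 0 < M) (hx : |x| ≤ Z / 10) :
    Real.log (1 + max (τ + y) 0 ^ 2 / (M * (Z - 2 - x) * ((m - 2) / (m - 2 + c)))) -
      Real.log (1 + max τ 0 ^ 2 / (M * Z * (m / (m + c)))) ≤
      (2 * max τ 0 * (y + 2 * (τ / m) * (Z / m)) + y ^ 2) / (M * Z * (m / (m + c)) + max τ 0 ^ 2) +
        max τ 0 ^ 2 / (M * Z * (m / (m + c)) + max τ 0 ^ 2) * ((x + 2 * (1 - (Z / m) ^ 2)) / Z) +
        100 * (x ^ 2 + 1) / Z ^ 2 := by
  have Z0 : 0 < Z := by linarith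
  have m0 : 0 < m := by linarith
  have c0 : 0 < c := by linarith
  obtain ⟨δ, d0, d1, d2, d3⟩ := del (hZ.trans hZm) hc
  obtain ⟨k1, k2, k3⟩ := core hZ hx d0 (d2.trans (by gcongr))
  have a0 : 0 < M * Z * (m / (m + c)) := by positivity
  refine (gen a0 (sq_nonneg _) (sq_nonneg _) k1 (by rw [d3]; field_simp; ring)).trans ?_
  have b1 : max (τ + y) 0 ^ 2 - max τ 0 ^ 2 ≤ 2 * max τ 0 * y + y ^ 2 := by
    have : max (τ + y) 0 ^ 2 ≤ (max τ 0 + y) ^ 2 := by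
      rcases le_total (τ + y) 0 with h | h
      · rw [max_eq_right h]; nlinarith [sq_nonneg (max τ 0 + y)]
      · rw [max_eq_left h]; gcongr; exact le_max_left _ _
    linarith
  have b2 : max τ 0 * τ = max τ 0 ^ 2 := by
    rcases le_total τ 0 with h | h
    · rw [max_eq_right h]; ring
    · rw [max_eq_left h]; ring
  have b3 : δ ≤ 2 * (Z / m) / m + 4 * ((x ^ 2 + 1) / Z ^ 2) := by
    refine d1.trans (add_le_add ?_ ?_)
    · gcongr ?_ / _
      have : c / (m + c) ≤ Z / m := by rw [le_div_iff₀ m0]; linarith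
      linarith
    · rw [div_eq_mul_one_div]
      gcongr
      linarith [sq_nonneg x]
  have e1 : 2 * max τ 0 * (y + 2 * (τ / m) * (Z / m)) + y ^ 2 =
      (2 * max τ 0 * y + y ^ 2) + max τ 0 ^ 2 * (4 * (Z / m) / m) := by
    rw [← b2]; ring
  have W0 : 0 < M * Z * (m / (m + c)) + max τ 0 ^ 2 := by positivity
  have w0 : 0 ≤ max τ 0 ^ 2 / (M * Z * (m / (m + c)) + max τ 0 ^ 2) := by positivity
  have w1 : max τ 0 ^ 2 / (M * Z * (m / (m + c)) + max τ 0 ^ 2) ≤ 1 := by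
    rw [div_le_one W0]; linarith
  have b4 := div_le_div_of_nonneg_right b1 W0.le
  have E0 : 0 ≤ (x ^ 2 + 1) / Z ^ 2 := by positivity
  have e2 := T_eq (x := x) Z0 m0
  rw [e1, add_div _ (max τ 0 ^ 2 * _), mul_div_right_comm (max τ 0 ^ 2), mul_div_assoc (100 : ℝ)]
  have k4 := (abs_le.1 k3).1
  generalize max τ 0 ^ 2 / (M * Z * (m / (m + c)) + max τ 0 ^ 2) = ω at *
  generalize (x ^ 2 + 1) / Z ^ 2 = E at *
  generalize (x + 2 * (1 - (Z / m) ^ 2)) / Z = X at *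
  generalize (x + 2) / Z = T at *
  have e3 : 4 * (Z / m) / m = 2 * (2 * (Z / m) / m) := by ring
  rw [e3]
  generalize 2 * (Z / m) / m = s at *
  have b5 : ω * (T + δ - T * δ) ≤ ω * (X + 2 * s + 11 * E) := by gcongr; linarith
  have b6 : ω * E ≤ E := mul_le_of_le_one_left E0 w1
  nlinarith

theorem V0 {A m Z V V' x : ℝ} (hA : 0 < A) (hZ : 100 ≤ Z) (hZm : Z ≤ m) (hV : 0 ≤ V) (hV' : 0 ≤ V')
    (hx : |x| ≤ Z / 10) :
    Real.log (1 + V' / (A * √((m - 2) * (Z - 2 - x)))) - Real.log (1 + V / (A * √(m * Z))) ≤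
      (V' - V + (1 + Z / m) * V / m) / (V + A * √(m * Z)) +
        V / (V + A * √(m * Z)) / 2 * ((x + 2 * (1 - (Z / m) ^ 2)) / Z) +
        100 * (x ^ 2 + 1) / Z ^ 2 := by
  have Z0 : 0 < Z := by linarith
  have m0 : 0 < m := by linarith
  have d2 : 2 / m ≤ 3 / Z := by gcongr; norm_num
  obtain ⟨k1, k2, k3⟩ := core hZ hx (δ := 2 / m) (by positivity) d2
  have e0 : (m - 2) * (Z - 2 - x) = m * Z * ((1 - (x + 2) / Z) * (1 - 2 / m)) := by
    field_simp; ring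
  obtain ⟨r, hr⟩ : ∃ r, r = (1 - (x + 2) / Z) * (1 - 2 / m) := ⟨_, rfl⟩
  rw [← hr] at k1 k2 e0
  have r0 : 0 ≤ r := by linarith [(abs_le.1 k1).1]
  have s0 := Real.sqrt_nonneg r
  have s1 := Real.sq_sqrt r0
  have s2 : (√r - 1) ^ 2 ≤ (r - 1) ^ 2 := by
    have : (r - 1) ^ 2 = (√r - 1) ^ 2 * (√r + 1) ^ 2 := by rw [← mul_pow]; congr 1; linarith
    rw [this]
    exact le_mul_of_one_le_right (sq_nonneg _) (by nlinarith)
  have s3 : |√r - 1| ≤ 1 / 2 := (sq_le_sq.1 s2).trans k1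
  have a0 : 0 < A * √(m * Z) := by positivity
  refine (gen a0 hV hV' s3 (by rw [e0, Real.sqrt_mul (by positivity)]; ring)).trans ?_
  have W0 : 0 < V + A * √(m * Z) := by positivity
  have w0 : 0 ≤ V / (V + A * √(m * Z)) := by positivity
  have w1 : V / (V + A * √(m * Z)) ≤ 1 := by rw [div_le_one W0]; linarith
  have E0 : 0 ≤ (x ^ 2 + 1) / Z ^ 2 := by positivity
  have e2 := T_eq (x := x) Z0 m0
  have e1 : (V' - V + (1 + Z / m) * V / m) / (V + A * √(m * Z)) = (V' - V) / (V + A * √(m * Z)) +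
      V / (V + A * √(m * Z)) * ((2 / m + 2 * (Z / m) / m) / 2) := by ring
  rw [e1, add_comm (A * √(m * Z)) V, mul_div_assoc (100 : ℝ)]
  have k4 := (abs_le.1 k3).1
  generalize V / (V + A * √(m * Z)) = ω at *
  generalize (x ^ 2 + 1) / Z ^ 2 = E at *
  generalize (x + 2 * (1 - (Z / m) ^ 2)) / Z = X at *
  generalize (x + 2) / Z = T at *
  generalize 2 * (Z / m) / m = s at *
  generalize 2 / m = δ at *
  have b5 : ω * (-(√r - 1)) ≤ ω * (X / 2 + (δ + s) / 2 + 18 * E) := by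
    gcongr
    nlinarith
  have b6 : ω * E ≤ E := mul_le_of_le_one_left E0 w1
  nlinarith

theorem D0 {B c m D D' : ℝ} (hB : 0 < B) (hc : 2 ≤ c) (hm : 100 ≤ m) (hD : 0 ≤ D) (hD' : 0 ≤ D') :
    Real.log (1 + D' / (B * ((m - 2) / (m - 2 + c)))) - Real.log (1 + D / (B * (m / (m + c)))) ≤
      (D' - D + 2 * (1 - m / (m + c)) * D / m) / (D + B * (m / (m + c))) + 100 / m ^ 2 := by
  have m0 : 0 < m := by linarith
  have c0 : 0 < c := by linarith
  obtain ⟨δ, d0, d1, d2, d3⟩ := del hm hc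
  have d4 : δ ≤ 3 / 100 := d2.trans (by gcongr)
  have a0 : 0 < B * (m / (m + c)) := by positivity
  refine (gen (u := -δ) a0 hD hD' (by rw [abs_neg, abs_of_nonneg d0]; linarith)
    (by rw [d3]; ring)).trans ?_
  have W0 : 0 < D + B * (m / (m + c)) := by positivity
  have w0 : 0 ≤ D / (D + B * (m / (m + c))) := by positivity
  have w1 : D / (D + B * (m / (m + c))) ≤ 1 := by rw [div_le_one W0]; linarith
  have e0 : 1 - m / (m + c) = c / (m + c) := by field_simp; ring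
  have e1 : (D' - D + 2 * (c / (m + c)) * D / m) / (D + B * (m / (m + c))) =
      (D' - D) / (D + B * (m / (m + c))) + D / (D + B * (m / (m + c))) * (2 * (c / (m + c)) / m) := by
    ring
  have d5 : δ ^ 2 ≤ 9 * (1 / m ^ 2) := by
    calc δ ^ 2 ≤ (3 / m) ^ 2 := by gcongr
      _ = _ := by ring
  have E0 : 0 ≤ 1 / m ^ 2 := by positivity
  rw [e0, e1, add_comm (B * (m / (m + c))) D, div_eq_mul_one_div (100 : ℝ)]
  rw [div_eq_mul_one_div (4 : ℝ)] at d1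
  generalize D / (D + B * (m / (m + c))) = ω at *
  generalize 1 / m ^ 2 = E at *
  generalize 2 * (c / (m + c)) / m = s at *
  have b5 : ω * δ ≤ ω * (s + 4 * E) := by gcongr
  have b6 : ω * E ≤ E := mul_le_of_le_one_left E0 w1
  nlinarith

theorem big {g m : ℝ} (hn : Num g m) {k : ℕ} (hk : 1 ≤ k) : 100 ≤ g ^ k := by
  have := hn.pow_mono hk
  rw [pow_one] at this
  exact le_trans (le_trans (by norm_num) hn.hg) this

end LogA

section

variable {g m Z : ℝ} (hn : Num g m) (hZ : m * ze g m ≤ Z) (hZm : Z ≤ m)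
include hn hZ hZm

omit hZm in
theorem LogA.Z_big : 100 ≤ Z := ((LogA.big hn (by norm_num)).trans hn.F2').trans hZ

theorem log_C {x : ℝ} (hx : |x| ≤ Z / 10) (hx0 : 0 ≤ m - Z + x) :
    Real.log (1 + g ^ 8000 * (m - 2 - (Z - 2 - x)) / ((m - 2) * (Z - 2 - x))) -
      Real.log (1 + g ^ 8000 * (m - Z) / (m * Z)) ≤
      g ^ 8000 / ((Z - 2) ^ 2 * (1 + g ^ 8000 * (m - Z) / (m * Z))) *
        (x + 2 * (1 - (Z / m) ^ 2) + 4 * x ^ 2 / Z) :=
  LogA.C0 (pow_pos hn.g_pos _) (LogA.Z_big hn hZ) hZm hx hx0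

theorem log_Z {x : ℝ} (hx : |x| ≤ Z / 10) :
    Real.log ((m - 2) / (Z - 2 - x)) - Real.log (m / Z) ≤
      (x + 2 * (1 - (Z / m) ^ 2)) / Z + 10 * (x ^ 2 + 1) / Z ^ 2 := by
  have Z1 := LogA.Z_big hn hZ
  clear hn hZ
  have Z0 : 0 < Z := by linarith
  have m0 : 0 < m := by linarith
  obtain ⟨x1, x2⟩ := abs_le.1 hx
  have p1 : 0 < m - 2 := by linarith
  have p3 : 0 < Z - 2 - x := by linarith
  have a1 := LogA.T_abs Z1 hx
  have a2 := LogA.T_sq (x := x) Z0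
  have a3 := LogA.neg_log (u := -((x + 2) / Z)) (by rw [abs_neg]; linarith)
  have a4 := LogA.sub_le p1 m0
  have e1 : 1 + -((x + 2) / Z) = (Z - 2 - x) / Z := by field_simp; ring
  have e2 := LogA.T_eq (x := x) Z0 m0
  have a5 : 2 * (Z / m) / m ≤ 2 / m := by
    gcongr
    have : Z / m ≤ 1 := by rwa [div_le_one m0]
    linarith
  have e3 : (m - 2 - m) / m = -(2 / m) := by ring
  rw [e1, Real.log_div p3.ne' Z0.ne', neg_sq] at a3
  rw [Real.log_div p1.ne' p3.ne', Real.log_div m0.ne' Z0.ne', mul_div_assoc (10 : ℝ)]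
  linarith

theorem log_tau {M τ x y : ℝ} (hM : 0 < M) (hx : |x| ≤ Z / 10) :
    Real.log (1 + max (τ + y) 0 ^ 2 / (M * (Z - 2 - x) * hh g (m - 2))) -
      Real.log (1 + max τ 0 ^ 2 / (M * Z * hh g m)) ≤
      (2 * max τ 0 * (y + 2 * (τ / m) * (Z / m)) + y ^ 2) / (M * Z * hh g m + max τ 0 ^ 2) +
        max τ 0 ^ 2 / (M * Z * hh g m + max τ 0 ^ 2) * ((x + 2 * (1 - (Z / m) ^ 2)) / Z) +
        100 * (x ^ 2 + 1) / Z ^ 2 :=
  LogA.tau0 (c := g ^ 7990) (le_trans (by norm_num) (LogA.big hn (by norm_num)))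
    (LogA.Z_big hn hZ) hZ hZm hM hx

theorem log_V {V V' x : ℝ} (hV : 0 ≤ V) (hV' : 0 ≤ V') (hx : |x| ≤ Z / 10) :
    Real.log (1 + V' / (g ^ 10 * √((m - 2) * (Z - 2 - x)))) -
      Real.log (1 + V / (g ^ 10 * √(m * Z))) ≤
      (V' - V + (1 + Z / m) * V / m) / (V + g ^ 10 * √(m * Z)) +
        V / (V + g ^ 10 * √(m * Z)) / 2 * ((x + 2 * (1 - (Z / m) ^ 2)) / Z) +
        100 * (x ^ 2 + 1) / Z ^ 2 :=
  LogA.V0 (pow_pos hn.g_pos _) (LogA.Z_big hn hZ) hZm hV hV' hx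

end

theorem log_D {g m D D' : ℝ} (hn : Num g m) (hD : 0 ≤ D) (hD' : 0 ≤ D') :
    Real.log (1 + D' / (g ^ 280 * h2 g (m - 2))) - Real.log (1 + D / (g ^ 280 * h2 g m)) ≤
      (D' - D + 2 * (1 - h2 g m) * D / m) / (D + g ^ 280 * h2 g m) + 100 / m ^ 2 :=
  LogA.D0 (c := g ^ 5200) (pow_pos hn.g_pos _) (le_trans (by norm_num) (LogA.big hn (by norm_num)))
    ((LogA.big hn (by norm_num)).trans hn.lo) hD hD'

theorem log_N {c N N' : ℝ} (hc : 0 < c) (hN : 0 ≤ N) (hN' : 0 ≤ N') :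
    Real.log (1 + N' / c) - Real.log (1 + N / c) ≤ (N' - N) / (N + c) := by
  have := LogA.gen (u := 0) (a' := c) hc hN hN' (by simp) (by simp)
  rw [add_comm N c]
  simpa using this

theorem log_B {m b b' : ℝ} (hm : 10 ≤ m) (hb : 0 ≤ b) (hb' : 0 ≤ b') :
    Real.log (1 + b' / (m - 2) ^ 2) - Real.log (1 + b / m ^ 2) ≤
      (b' - b + 4 * b / m) / (b + m ^ 2) + 100 / m ^ 2 := by
  have m0 : 0 < m := by linarith
  have t0 : 0 < 1 / m := by positivity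
  have t1 : 1 / m ≤ 1 / 10 := by gcongr
  refine (LogA.gen (u := -(4 * (1 / m)) + 4 * (1 / m) ^ 2) (a := m ^ 2) (by positivity) hb hb'
    (abs_le.2 ⟨by nlinarith, by nlinarith⟩) (by field_simp; ring)).trans ?_
  have W0 : 0 < b + m ^ 2 := by positivity
  have w0 : 0 ≤ b / (b + m ^ 2) := by positivity
  have e1 : (b' - b + 4 * b / m) / (b + m ^ 2) =
      (b' - b) / (b + m ^ 2) + b / (b + m ^ 2) * (4 * (1 / m)) := by ring
  have e2 : 100 / m ^ 2 = 100 * (1 / m) ^ 2 := by ring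
  rw [e1, e2, add_comm (m ^ 2) b]
  generalize b / (b + m ^ 2) = ω at *
  generalize 1 / m = t at *
  have a1 : (-(4 * t) + 4 * t ^ 2) ^ 2 ≤ 16 * t ^ 2 := by
    have : (-(4 * t) + 4 * t ^ 2) ^ 2 = 16 * t ^ 2 * (1 - t) ^ 2 := by ring
    rw [this]
    exact mul_le_of_le_one_right (by positivity) (by nlinarith)
  nlinarith [mul_nonneg w0 (sq_nonneg t), sq_nonneg t]

end Vale.Agent.P049
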