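import Vale.Agent.P049.LogA

set_option maxRecDepth 100000

namespace Vale.Agent.P049

open Finset

namespace LogB

theorem k_eq {P m Z : ℝ} (hP : 0 < P) (hZ : 0 < Z) (hm : 0 < m) :
    Z ^ 2 * (1 + P * (m - Z) / (m * Z)) = P * (Z * (Z / P + (1 - Z / m))) := by
  field_simp

theorem k_low {P m Z h : ℝ} (hP : 0 < P) (hZ : 100 ≤ Z) (hZm : Z ≤ m) (h0 : 0 < h)
    (h1 : m ≤ P * h) (h2 : 1 - Z / m ≤ h) :
    1 / (24000 * (Z * h)) ≤ P / ((Z - 2) ^ 2 * (1 + P * (m - Z) / (m * Z))) := by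
  have Z0 : 0 < Z := by linarith
  have m0 : 0 < m := by linarith
  have p2 : 0 < Z - 2 := by linarith
  have p4 : 0 ≤ m - Z := by linarith
  have W0 : 0 < 1 + P * (m - Z) / (m * Z) := by positivity
  rw [div_le_div_iff₀ (by positivity) (by positivity), one_mul]
  have a1 : Z / P ≤ h := by rw [div_le_iff₀ hP]; linarith
  calc _ ≤ Z ^ 2 * (1 + P * (m - Z) / (m * Z)) := by gcongr; linarith
    _ = P * (Z * (Z / P + (1 - Z / m))) := k_eq hP Z0 m0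
    _ ≤ P * (Z * (24000 * h)) := by gcongr; linarith
    _ = _ := by ring

theorem k_up {P A m Z h : ℝ} (hP : 0 < P) (hA : 1 ≤ A) (hZ : 100 ≤ Z) (hZm : Z ≤ m) (h0 : 0 < h)
    (h1 : h ≤ 1) (h2 : h * P ≤ A * m) :
    P / ((Z - 2) ^ 2 * (1 + P * (m - Z) / (m * Z))) ≤ 2 * A / (Z * h) := by
  have Z0 : 0 < Z := by linarith
  have m0 : 0 < m := by linarith
  have p2 : 0 < Z - 2 := by linarith
  have p4 : 0 ≤ m - Z := by linarith
  have W0 : 0 < 1 + P * (m - Z) / (m * Z) := by positivity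
  rw [div_le_div_iff₀ (by positivity) (by positivity)]
  have z1 : Z / m ≤ 1 := by rwa [div_le_one m0]
  have z0 : 0 ≤ Z / m := by positivity
  have a1 : h ≤ A * (m / P) := by rw [← mul_div_assoc, le_div_iff₀ hP]; exact h2
  have a2 : h ≤ A * (Z / P + (1 - Z / m)) := by
    have e : Z / P = Z / m * (m / P) := by field_simp
    rw [e]
    nlinarith [mul_le_mul_of_nonneg_left a1 z0, mul_le_mul_of_nonneg_left (h1.trans hA) (sub_nonneg.2 z1)]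
  calc P * (Z * h) ≤ P * (Z * (A * (Z / P + (1 - Z / m)))) := by gcongr
    _ = A * (Z ^ 2 * (1 + P * (m - Z) / (m * Z))) := by rw [k_eq hP Z0 m0]; ring
    _ ≤ A * ((2 * (Z - 2) ^ 2) * (1 + P * (m - Z) / (m * Z))) := by gcongr; nlinarith
    _ = _ := by ring

theorem frac01 {a t : ℝ} (ha : 0 < a) (ht : 0 ≤ t) : 0 ≤ t / (a + t) ∧ t / (a + t) ≤ 1 :=
  ⟨by positivity, by rw [div_le_one (by positivity)]; linarith⟩

theorem err {g m Z k w X x : ℝ} (hg : 10 ^ 30 ≤ g) (hZ : 0 < Z) (hZm : Z ≤ m) (hk : 0 ≤ k) (hw : 0 ≤ w)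
    (h : 1000 * (g * m) ≤ Z ^ 2) :
    k * (X + 4 * x ^ 2 / Z) + (X / Z + 10 * (x ^ 2 + 1) / Z ^ 2) / 12000 + w * (X / Z) +
      3 * (100 * (x ^ 2 + 1) / Z ^ 2) + 100 / m ^ 2 ≤
      (k + 1 / (12000 * Z) + w / Z) * (X + g * x ^ 2 / Z) + 1 / (g * m) := by
  have m0 : 0 < m := by linarith
  have g0 : 0 < g := by linarith
  have a1 : 100 / m ^ 2 ≤ 100 * (1 / Z ^ 2) := by rw [mul_one_div]; gcongr
  have a2 : 1000 * (1 / Z ^ 2) ≤ 1 / (g * m) := by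
    rw [mul_one_div, div_le_div_iff₀ (by positivity) (by positivity)]; linarith
  have a3 : k * (x ^ 2 / Z) * 4 ≤ k * (x ^ 2 / Z) * g := by gcongr; linarith
  have a4 : x ^ 2 / Z ^ 2 * (12000 * 301) ≤ x ^ 2 / Z ^ 2 * g := by gcongr; linarith
  have a5 : 0 ≤ w * g * (x ^ 2 / Z ^ 2) := by positivity
  have a6 : 0 ≤ x ^ 2 / Z ^ 2 := by positivity
  have a7 : 0 ≤ 1 / Z ^ 2 := by positivity
  have e1 : (k + 1 / (12000 * Z) + w / Z) * (X + g * x ^ 2 / Z) = k * X + k * (x ^ 2 / Z) * g +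
      X / Z / 12000 + x ^ 2 / Z ^ 2 * g / 12000 + w * (X / Z) + w * g * (x ^ 2 / Z ^ 2) := by
    field_simp; ring
  have e2 : k * (X + 4 * x ^ 2 / Z) = k * X + k * (x ^ 2 / Z) * 4 := by ring
  have e3 : 10 * (x ^ 2 + 1) / Z ^ 2 = 10 * (x ^ 2 / Z ^ 2) + 10 * (1 / Z ^ 2) := by ring
  have e4 : 100 * (x ^ 2 + 1) / Z ^ 2 = 100 * (x ^ 2 / Z ^ 2) + 100 * (1 / Z ^ 2) := by ring
  rw [e1, e2, e3, e4]
  linarith

theorem log5 {a b c d e : ℝ} (ha : 0 ≤ a) (hb : 0 ≤ b) (hc : 0 ≤ c) (hd : 0 ≤ d) (he : 0 ≤ e) :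
    Real.log ((1 + a) * (1 + b) * (1 + c) * (1 + d) * (1 + e)) = Real.log (1 + a) +
      Real.log (1 + b) + Real.log (1 + c) + Real.log (1 + d) + Real.log (1 + e) := by
  rw [Real.log_mul (by positivity) (by positivity), Real.log_mul (by positivity) (by positivity),
    Real.log_mul (by positivity) (by positivity), Real.log_mul (by positivity) (by positivity)]

theorem up {A Z h k w : ℝ} (hA : 1 ≤ A) (hZ : 0 < Z) (h0 : 0 < h) (h1 : h ≤ 1)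
    (hk : k ≤ 2 * A / (Z * h)) (hw : w ≤ 3) : k + 1 / (12000 * Z) + w / Z ≤ 8 * A / (Z * h) := by
  have a1 : 1 / Z ≤ A / (Z * h) := by
    rw [div_le_div_iff₀ hZ (by positivity)]; nlinarith
  have a2 : w / Z ≤ 3 * (1 / Z) := by rw [mul_one_div]; gcongr
  have a3 : 1 / (12000 * Z) ≤ 1 / Z := by gcongr; linarith
  have a4 : 0 ≤ A / (Z * h) := by positivity
  rw [mul_div_assoc] at hk ⊢
  linarith

theorem sq_big {g m Z ζ G : ℝ} (hm : 0 < m) (hζ : 0 < ζ) (hZ : m * ζ ≤ Z) (h1 : G ≤ m * ζ ^ 2)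
    (h2 : 1000 * g ≤ G) : 1000 * (g * m) ≤ Z ^ 2 := by
  calc 1000 * (g * m) = m * (1000 * g) := by ring
    _ ≤ m * (m * ζ ^ 2) := mul_le_mul_of_nonneg_left (h2.trans h1) hm.le
    _ = (m * ζ) ^ 2 := by ring
    _ ≤ _ := by gcongr

theorem fin {A B a1 a2 a3 a4 a5 b1 b2 b3 b4 b5 L LZ C T3 T4 T5 T6 w3 w4 w5 X E F R e : ℝ}
    (l1 : A = a1 + a2 + a3 + a4 + a5) (l2 : B = b1 + b2 + b3 + b4 + b5)
    (h1 : a1 - b1 ≤ C) (h2 : L ≤ LZ) (h3 : a2 - b2 ≤ T3 + w3 * X + E)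
    (h4 : a3 - b3 ≤ T4 + w4 * X + E) (h5 : a4 - b4 ≤ T5 + w5 * X + E) (h6 : a5 - b5 ≤ T6 + F)
    (h7 : C + LZ / 12000 + (w3 + w4 + w5) * X + 3 * E + F ≤ R + e) :
    A - B + L / 12000 ≤ R + T3 + T4 + T5 + T6 + e := by
  linarith

end LogB

theorem log_one {g m Z τ V D : ℝ} (hn : Num g m) (hZ : m * ze g m ≤ Z) (hZm : Z ≤ m) (hV : 0 ≤ V)
    (hD : 0 ≤ D) :
    ∃ κ : ℝ, 1 / (24000 * (Z * hh g m)) ≤ κ ∧ κ ≤ 8 * g ^ 10 / (Z * hh g m) ∧
      ∀ x y V' D' : ℝ, |x| ≤ Z / 10 → 0 ≤ m - Z + x → 0 ≤ V' → 0 ≤ D' →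
        Real.log (ph g (m - 2) (Z - 2 - x) (τ + y) V' D') - Real.log (ph g m Z τ V D) +
          (Real.log ((m - 2) / (Z - 2 - x)) - Real.log (m / Z)) / 12000 ≤
        κ * (x + 2 * (1 - (Z / m) ^ 2) + g * x ^ 2 / Z) +
          (2 * max τ 0 * (y + 2 * (τ / m) * (Z / m)) + y ^ 2) / (g ^ 4 * Z * hh g m + max τ 0 ^ 2) +
          (2 * max (-τ) 0 * -(y + 2 * (τ / m) * (Z / m)) + y ^ 2) /
            (g ^ 125 * Z * hh g m + max (-τ) 0 ^ 2) +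
          (V' - V + (1 + Z / m) * V / m) / (V + g ^ 10 * √(m * Z)) +
          (D' - D + 2 * (1 - h2 g m) * D / m) / (D + g ^ 280 * h2 g m) + 1 / (g * m) := by
  have Z1 := LogA.Z_big hn hZ
  have Z0 : 0 < Z := lt_of_lt_of_le (by norm_num) Z1
  have m0 := hn.m_pos
  have g0 := hn.g_pos
  have h0 := hn.h_pos
  have h20 := hn.h2_pos
  have P0 : 0 < g ^ 8000 := pow_pos g0 _
  have p4 : 0 ≤ m - Z := sub_nonneg.2 hZm
  obtain ⟨w3, w3'⟩ := LogB.frac01 (a := g ^ 4 * Z * hh g m) (by positivity) (sq_nonneg (max τ 0))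
  obtain ⟨w4, w4'⟩ := LogB.frac01 (a := g ^ 125 * Z * hh g m) (by positivity)
    (sq_nonneg (max (-τ) 0))
  obtain ⟨w5, w5'⟩ := LogB.frac01 (a := g ^ 10 * √(m * Z)) (by positivity) hV
  rw [add_comm _ V] at w5 w5'
  have k0 : 0 ≤ g ^ 8000 / ((Z - 2) ^ 2 * (1 + g ^ 8000 * (m - Z) / (m * Z))) := by positivity
  have e8 : g ^ 8000 = g ^ 10 * g ^ 7990 := by rw [← pow_add]
  refine ⟨g ^ 8000 / ((Z - 2) ^ 2 * (1 + g ^ 8000 * (m - Z) / (m * Z))) + 1 / (12000 * Z) +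
    (max τ 0 ^ 2 / (g ^ 4 * Z * hh g m + max τ 0 ^ 2) +
      max (-τ) 0 ^ 2 / (g ^ 125 * Z * hh g m + max (-τ) 0 ^ 2) +
      V / (V + g ^ 10 * √(m * Z)) / 2) / Z, ?_, ?_, fun x y V' D' hx hx0 hV' hD' => ?_⟩
  · rw [add_assoc]
    rcases le_total (g ^ 7990) m with k | k
    · have := (hn.big k).1
      refine le_add_of_nonneg_of_le k0 (le_add_of_le_of_nonneg ?_ (by positivity))
      refine one_div_le_one_div_of_le (by positivity) ?_
      clear e8 k k0 P0 w3 w3' w4 w4' w5 w5'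
      nlinarith
    · refine le_add_of_le_of_nonneg (LogB.k_low P0 Z1 hZm h0 ((hn.small k).2.trans ?_) ?_)
        (by positivity)
      · exact mul_le_mul_of_nonneg_right (hn.const_pow (by norm_num) (by norm_num)) h0.le
      · have : ze g m ≤ Z / m := by rw [le_div_iff₀ m0, mul_comm]; exact hZ
        have := hn.h_add_ze
        linarith
  · refine LogB.up (one_le_pow₀ hn.one_le_g) Z0 h0 hn.h_le_one (LogB.k_up P0
      (one_le_pow₀ hn.one_le_g) Z1 hZm h0 hn.h_le_one ?_) (by linarith)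
    rw [e8, mul_left_comm]
    exact mul_le_mul_of_nonneg_left hn.h_mul (by positivity)
  have p1 : 0 < m - 2 := by linarith
  have p3 : 0 < Z - 2 - x := by linarith [(abs_le.1 hx).2]
  have p5 : 0 ≤ m - 2 - (Z - 2 - x) := by linarith
  have q1 : 0 < hh g (m - 2) := by unfold hh; positivity
  have q2 : 0 < h2 g (m - 2) := by unfold h2; positivity
  have a1 := log_C hn hZ hZm hx hx0
  have a2 := log_Z hn hZ hZm hx
  have a3 := log_tau hn hZ hZm (τ := τ) (y := y) (pow_pos g0 4) hx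
  have a4 := log_tau hn hZ hZm (τ := -τ) (y := -y) (pow_pos g0 125) hx
  have a5 := log_V hn hZ hZm hV hV' hx
  have a6 := log_D hn hD hD'
  have a7 := LogB.err (X := x + 2 * (1 - (Z / m) ^ 2)) (x := x) hn.hg Z0 hZm k0
    (add_nonneg (add_nonneg w3 w4) (div_nonneg w5 zero_le_two))
    (LogB.sq_big m0 hn.ze_pos hZ hn.F2 (by
      have := hn.const_pow (c := 1000) (j := 1) (k := 3970) (by norm_num) (by norm_num)
      rwa [pow_one] at this))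
  rw [← neg_add, show -y + 2 * (-τ / m) * (Z / m) = -(y + 2 * (τ / m) * (Z / m)) by ring,
    neg_sq] at a4
  have l1 := LogB.log5 (a := g ^ 8000 * (m - 2 - (Z - 2 - x)) / ((m - 2) * (Z - 2 - x)))
    (b := max (τ + y) 0 ^ 2 / (g ^ 4 * (Z - 2 - x) * hh g (m - 2)))
    (c := max (-(τ + y)) 0 ^ 2 / (g ^ 125 * (Z - 2 - x) * hh g (m - 2)))
    (d := V' / (g ^ 10 * √((m - 2) * (Z - 2 - x)))) (e := D' / (g ^ 280 * h2 g (m - 2)))
    (div_nonneg (mul_nonneg P0.le p5) (mul_pos p1 p3).le)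
    (div_nonneg (sq_nonneg _) (mul_pos (mul_pos (pow_pos g0 _) p3) q1).le)
    (div_nonneg (sq_nonneg _) (mul_pos (mul_pos (pow_pos g0 _) p3) q1).le)
    (div_nonneg hV' (mul_nonneg (pow_pos g0 _).le (Real.sqrt_nonneg _)))
    (div_nonneg hD' (mul_pos (pow_pos g0 _) q2).le)
  have l2 := LogB.log5 (a := g ^ 8000 * (m - Z) / (m * Z))
    (b := max τ 0 ^ 2 / (g ^ 4 * Z * hh g m)) (c := max (-τ) 0 ^ 2 / (g ^ 125 * Z * hh g m))
    (d := V / (g ^ 10 * √(m * Z))) (e := D / (g ^ 280 * h2 g m))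
    (div_nonneg (mul_nonneg P0.le p4) (mul_pos m0 Z0).le)
    (div_nonneg (sq_nonneg _) (mul_pos (mul_pos (pow_pos g0 _) Z0) h0).le)
    (div_nonneg (sq_nonneg _) (mul_pos (mul_pos (pow_pos g0 _) Z0) h0).le)
    (div_nonneg hV (mul_nonneg (pow_pos g0 _).le (Real.sqrt_nonneg _)))
    (div_nonneg hD (mul_pos (pow_pos g0 _) h20).le)
  unfold ph
  exact LogB.fin l1 l2 a1 a2 a3 a4 a5 a6 a7

end Vale.Agent.P049
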