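import Vale.Agent.P049.ToolG

namespace Vale.Agent.P049

open Finset

variable {ι : Type} [Fintype ι] [DecidableEq ι] {g : ℝ} {G G' : Gm ι} {bad : ι → ι → Bool}

namespace Na

noncomputable def RR (G G' : Gm ι) : Matrix ι ι ℝ := (P0 G G').transpose * P0 G G' * G'.Y

theorem RR_eq (h : One g G') (α β : ι) :
    RR G G' α β = ∑ i, ∑ j, P0 G G' i α * P0 G G' i j * G'.Y β j := by
  simp only [RR, Matrix.mul_apply (M := (P0 G G').transpose * P0 G G'),
    Matrix.mul_apply (M := (P0 G G').transpose), Matrix.transpose_apply, sum_mul]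
  rw [sum_comm]
  exact sum_congr rfl fun i _ => sum_congr rfl fun j _ => by rw [h.symm j β]

theorem ip_T1 (h : One g G') (α β : ι) : ip (P0 G G') (T1 G G' α β) =
    (1 / G'.dl α β * (G'.a β * RR G G' α α) +
      G'.sg * G'.s α β / G'.dl α β * (G'.sg * RR G G' α β)) +
    (1 / G'.dl β α * (G'.a α * RR G G' β β) +
      G'.sg * G'.s β α / G'.dl β α * (G'.sg * RR G G' β α)) := by
  have e : ∀ x y z : ℝ, G'.sg * x / y * (G'.sg * z) = x / y * z := fun x y z => by
    rw [show G'.sg * x / y * (G'.sg * z) = G'.sg ^ 2 * (x / y * z) by ring, h.sg_sq, one_mul]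
  rw [e, e, Gm.s_symm h.symm β α, Gm.dl_symm h.symm β α]
  simp only [RR_eq h, ip, T1, Gm.g1, Gm.g2, mul_sum, ← sum_add_distrib]
  exact sum_congr rfl fun i _ => sum_congr rfl fun j _ => by ring

theorem RR_sq (h : One g G') (α β : ι) :
    RR G G' α β ^ 2 ≤ col (P0 G G') α * NN G G' * (g ^ 11 * √(mI ι)) := by
  rw [RR_eq h, NN_eq]
  refine (bil_sq_le _ _ _).trans ?_
  rw [← Gm.rho_eq]
  exact mul_le_mul_of_nonneg_left (h.rmax β) (mul_nonneg (col_nonneg _ _) (fro_nonneg _))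

theorem sqrt_big (h : One g G) : g ^ 1000 ≤ √(mI ι) :=
  Real.le_sqrt_of_sq_le (by rw [← pow_mul]; exact h.num.pow_le_m (by norm_num))

theorem sum_RR (α : ι → ℝ) (c : ℝ) (hα : ∀ i, α i = col (P0 G G') i * NN G G' * c) :
    ∑ i, α i = NN G G' ^ 2 * c := by
  rw [sum_congr rfl fun i _ => hα i, ← sum_mul, ← sum_mul, ← fro_eq_sum_col, ← NN_eq, sq]

theorem side {H : Gm ι} (hH : One g H) (h : One g G') :
    2 * g ^ 242 * E2 (fun α β => H.Y α β ^ 2 * |RR G G' α β|) ≤ 1 / (g * mI ι) * NN G G' := by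
  have m0 := h.m_pos
  have g0 := h.g_pos
  have N0 : 0 ≤ NN G G' := NN_eq G G' ▸ fro_nonneg _
  have s0 : 0 < √(mI ι) := Real.sqrt_pos.2 m0
  have sm : √(mI ι) * √(mI ι) = mI ι := Real.mul_self_sqrt m0.le
  set κ : ι → ℝ := fun α => √(col (P0 G G') α * NN G G' * (g ^ 11 * √(mI ι))) with hκ
  have k1 : ∑ α, κ α ^ 2 = NN G G' ^ 2 * (g ^ 11 * √(mI ι)) := sum_RR _ _ fun i =>
    Real.sq_sqrt (mul_nonneg (mul_nonneg (col_nonneg _ _) N0) (by positivity))
  have k2 : ∑ α, ∑ β, H.Y α β ^ 2 * |RR G G' α β| ≤ ∑ α, H.rho α * κ α := by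
    refine sum_le_sum fun α _ => ?_
    rw [Gm.rho_eq, sum_mul]
    exact sum_le_sum fun β _ => mul_le_mul_of_nonneg_left (Real.abs_le_sqrt (RR_sq h α β))
      (sq_nonneg _)
  have k3 : ∑ α, H.rho α * κ α ≤ NN G G' * mI ι / g ^ 244 := by
    refine (abs_le_of_sq_le_sq' ((sum_mul_sq_le_sq_mul_sq _ _ _).trans ?_) (by positivity)).2
    rw [k1, hH.sum_rho_sq, div_pow, le_div_iff₀ (by positivity)]
    have a1 : H.r4 * g ^ 499 ≤ √(mI ι) := by
      calc H.r4 * g ^ 499 ≤ g ^ 21 * g ^ 499 := by gcongr; exact hH.r4a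
        _ = g ^ 520 := by ring
        _ ≤ _ := (h.num.pow_mono (by norm_num)).trans (sqrt_big h)
    calc _ = NN G G' ^ 2 * mI ι * √(mI ι) * (H.r4 * g ^ 499) := by ring
      _ ≤ NN G G' ^ 2 * mI ι * √(mI ι) * √(mI ι) := by gcongr
      _ = _ := by rw [mul_assoc, sm]; ring
  have g2 : 2 ≤ g := le_trans (by norm_num) h.num.hg
  calc _ ≤ 2 * g ^ 242 * (NN G G' * mI ι / g ^ 244 / mI ι ^ 2) := by
        unfold E2; gcongr; exact k2.trans k3
    _ = 2 / g * (1 / (g * mI ι) * NN G G') := by field_simp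
    _ ≤ _ := mul_le_of_le_one_left (by positivity) ((div_le_one g0).2 g2)

theorem fro_W : fro ((P0 G G').transpose * P0 G G') ≤ NN G G' ^ 2 := by
  refine (fro_mul_le _ _).trans_eq ?_
  rw [fro_transpose, NN_eq, sq]

theorem partA (h : Two g G G' bad) : E2 (fun α β => ww g G G' bad α β *
    (G'.sg * G'.s α β / G'.dl α β * (G'.sg * RR G G' α β))) ≤ 5 * bb g G G' * NN G G' := by
  have m0 := h.one.m_pos
  have g0 := h.one.g_pos
  have g1 := h.one.num.one_le_g
  have N0 : 0 ≤ NN G G' := NN_eq G G' ▸ fro_nonneg _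
  have l0 := h.two.l2_nonneg
  have s0 : 0 < √(mI ι) := Real.sqrt_pos.2 m0
  have sm : √(mI ι) ^ 2 = mI ι := Real.sq_sqrt m0.le
  have sl : √G'.l2 ^ 2 = G'.l2 := Real.sq_sqrt l0
  have hs := h.steer (R := fun α β => G'.sg * RR G G' α β)
    (q := fun α β => G'.sg * G'.s α β / G'.dl α β) (ρ := NN G G' * √G'.l2 / √(mI ι))
    (by positivity) (E2_zero_of_row fun i => by
      rw [← mul_sum, RR, row_mul h.two.row, mul_zero])
    (fun α β k => by linarith [h.two.ok_q k.2.2, h.one.e_nonneg α β, h.two.e_nonneg α β]) (by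
      simp only [mul_pow, h.two.sg_sq, one_mul]
      rw [E2_sq_eq, div_pow, mul_pow, sm, sl, div_le_div_iff₀ (by positivity) m0]
      have := (Gm.fro_mul_Y h.two.symm _).trans
        (mul_le_mul_of_nonneg_left (fro_W (G := G) (G' := G')) (Real.sqrt_nonneg _))
      rw [h.two.sqrt_t4] at this
      calc _ ≤ mI ι * G'.l2 * NN G G' ^ 2 * mI ι := mul_le_mul_of_nonneg_right this m0.le
        _ = _ := by ring)
  have e1 : E2 (fun α β => (G.x1 g α β + G'.x1 g α β) * (G'.sg * RR G G' α β)) =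
      g ^ 120 * (ip G'.Y (RR G G') / mI ι ^ 2) - g ^ 120 * (ip G.Y (RR G G') / mI ι ^ 2) := by
    rw [← E2_ip, ← E2_ip, ← E2_const_mul, ← E2_const_mul, ← E2_sub]
    refine E2_congr fun α β => ?_
    have : G.sg = -G'.sg := by rw [h.sg, neg_neg]
    rw [Gm.x1, Gm.x1, this]
    linear_combination (g ^ 120 * (G'.Y α β - G.Y α β) * RR G G' α β) * h.two.sg_sq
  have e2 : 0 ≤ ip G'.Y (RR G G') := by
    rw [RR, Matrix.mul_assoc, ip_mul_left, Matrix.transpose_transpose, ip_self]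
    exact fro_nonneg _
  have e3 : g ^ 120 * (ip G.Y (RR G G') / mI ι ^ 2) ≤ 1 / (g * mI ι) * NN G G' := by
    have a1 : ip G.Y (RR G G') ≤ mI ι / g ^ 150 * NN G G' := by
      rw [RR, ip_mul_right, Gm.Y_transpose h.two.symm]
      refine (abs_le_of_sq_le_sq' ((ip_sq_le _ _).trans ?_) (by positivity)).2
      rw [mul_pow]
      refine mul_le_mul ?_ fro_W (fro_nonneg _) (sq_nonneg _)
      rw [div_pow, le_div_iff₀ (by positivity), ← pow_mul, mul_comm]
      refine (show g ^ 300 * NN G G' ≤ _ from h.Nb).trans ?_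
      have : zeI g ι ≤ 1 := h.one.num.ze_le_one
      have := h.one.ze_pos
      have := h.one.h_pos
      have := h.one.h_le_one
      calc _ ≤ mI ι ^ 2 * 1 ^ 2 * 1 := by gcongr
        _ = _ := by ring
    calc _ ≤ g ^ 120 * (mI ι / g ^ 150 * NN G G' / mI ι ^ 2) := by gcongr
      _ = 1 / g ^ 29 * (1 / (g * mI ι) * NN G G') := by field_simp
      _ ≤ _ := mul_le_of_le_one_left (by positivity)
          ((div_le_one (by positivity)).2 (one_le_pow₀ g1))
  have e4 : E2 (fun α β => (G.Y α β ^ 2 + G'.Y α β ^ 2) * |G'.sg * RR G G' α β|) =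
      E2 (fun α β => G.Y α β ^ 2 * |RR G G' α β|) +
        E2 (fun α β => G'.Y α β ^ 2 * |RR G G' α β|) := by
    rw [← E2_add]
    exact E2_congr fun α β => by rw [abs_mul, h.two.abs_sg]; ring
  have zl : ∀ {c : ℝ} {j k : ℕ}, c ≤ 10 ^ 30 → j < k → 0 ≤ c →
      c * g ^ j * G'.l2 ^ 2 * G'.z ≤ g ^ k * G'.l2 ^ 2 := fun hc hk c0 =>
    (mul_le_of_le_one_right (by positivity) h.two.z_le_one).trans
      (mul_le_mul_of_nonneg_right (h.one.num.const_pow hc hk) (sq_nonneg _))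
  have y1 : g ^ 2 * √G'.l2 ≤ mI ι * bb g G G' := by
    rw [← bb_swap]
    refine h.swap.young4 (le_of_eq_of_le ?_ (zl (c := 1) (j := 8) (by norm_num) (by norm_num)
      zero_le_one))
    rw [mul_pow, show √G'.l2 ^ 4 = (√G'.l2 ^ 2) ^ 2 by ring, sl]; ring
  have y2 : g ^ 27 * G'.l2 ≤ mI ι * bb g G G' := by
    rw [← bb_swap]
    exact h.swap.young2 (le_of_eq_of_le (by ring) (zl (c := 1) (j := 54) (by norm_num)
      (by norm_num) zero_le_one))
  have A0 : 0 ≤ G.A g + G'.A g := add_nonneg h.one.A_nonneg h.two.A_nonneg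
  have y3 : (√(G.A g + G'.A g) * √(mI ι)) ^ 2 / g ≤ mI ι * bb g G G' := by
    rw [mul_pow, Real.sq_sqrt A0, sm, h.m_bb]
    gcongr; linarith
  have y4 : g ^ 13 * (√(G.A g + G'.A g) * √(mI ι)) * √G'.l2 ≤ mI ι * bb g G G' := by
    generalize √(G.A g + G'.A g) * √(mI ι) = u at y3 ⊢
    rw [← sl] at y2
    generalize √G'.l2 = v at y2 ⊢
    have : 0 ≤ (u - g ^ 14 * v) ^ 2 / g := by positivity
    have e : (u - g ^ 14 * v) ^ 2 / g = u ^ 2 / g - 2 * (g ^ 13 * u * v) + g ^ 27 * v ^ 2 := by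
      field_simp; ring
    linarith
  have e5 : (g ^ 2 / √(mI ι) + g ^ 13 * √(G.A g + G'.A g)) * (NN G G' * √G'.l2 / √(mI ι)) ≤
      2 * bb g G G' * NN G G' := by
    calc _ = (g ^ 2 * √G'.l2 + g ^ 13 * (√(G.A g + G'.A g) * √(mI ι)) * √G'.l2) *
          (NN G G' / √(mI ι) ^ 2) := by field_simp
      _ ≤ (mI ι * bb g G G' + mI ι * bb g G G') * (NN G G' / √(mI ι) ^ 2) := by gcongr
      _ = _ := by rw [sm]; field_simp; ring
  have b1 := mul_le_mul_of_nonneg_right h.le_bb N0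
  have b2 := side (G := G) h.one h.two
  have b3 := side (G := G) h.two h.two
  have b4 : 0 ≤ g ^ 120 * (ip G'.Y (RR G G') / mI ι ^ 2) := by positivity
  rw [e1, e4, mul_add] at hs
  linarith [(abs_le.1 hs).2]

theorem partB (h : Two g G G' bad) : E2 (fun α β => ww g G G' bad α β *
    (1 / G'.dl α β * (G'.a β * RR G G' α α))) ≤ 131 * bb g G G' * NN G G' := by
  have m0 := h.one.m_pos
  have g0 := h.one.g_pos
  have g1 := h.one.num.one_le_g
  have N0 : 0 ≤ NN G G' := NN_eq G G' ▸ fro_nonneg _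
  have l0 := h.two.l2_nonneg
  have s0 : 0 < √(mI ι) := Real.sqrt_pos.2 m0
  have sm : √(mI ι) * √(mI ι) = mI ι := Real.mul_self_sqrt m0.le
  have sl : √G'.l2 ^ 2 = G'.l2 := Real.sq_sqrt l0
  have hw := h.genW (H := fun α β => G'.a β * RR G G' α α) (q := fun α β => 1 / G'.dl α β) N0
    (fun α β k => by linarith [h.two.ok_inv k.2.2, h.one.e_nonneg α β, h.two.e_nonneg α β]) (by
      simp only [mul_pow, mul_comm (G'.a _ ^ 2)]
      rw [E2_prod (fun α => RR G G' α α ^ 2) fun β => G'.a β ^ 2]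
      have a1 : ∑ α, RR G G' α α ^ 2 ≤ NN G G' ^ 2 * (g ^ 11 * √(mI ι)) :=
        (sum_le_sum fun α _ => RR_sq h.two α α).trans_eq (sum_RR _ _ fun _ => rfl)
      have a2 := h.two.sum_a_sq.trans h.two.Dha
      have a3 : g ^ 552 ≤ √(mI ι) := (h.one.num.pow_mono (by norm_num)).trans (sqrt_big h.one)
      calc _ ≤ g ^ 250 * mI ι * (NN G G' ^ 2 * (g ^ 11 * √(mI ι)) / mI ι * (g ^ 291 / mI ι)) := by
            gcongr
        _ = NN G G' ^ 2 * (g ^ 552 * √(mI ι)) / mI ι := by field_simp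
        _ ≤ NN G G' ^ 2 * (√(mI ι) * √(mI ι)) / mI ι := by gcongr
        _ = _ := by rw [sm]; field_simp)
  have e1 : E2 (fun α β => G'.a β * RR G G' α α) =
      (G'.t1 + G'.sg) * ip (P0 G G').transpose (G'.Y * (P0 G G').transpose) / mI ι ^ 2 := by
    simp only [mul_comm (G'.a _)]
    rw [E2_prod (fun α => RR G G' α α) fun β => G'.a β, h.two.sum_a, ip_eq_trace,
      Matrix.transpose_transpose, ← Matrix.mul_assoc, Matrix.trace_mul_comm, ← Matrix.mul_assoc]
    have : ∑ α, RR G G' α α = ((P0 G G').transpose * P0 G G' * G'.Y).trace := rfl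
    rw [this]
    field_simp
  have e2 := low_trace h.two.low (P0 G G').transpose
  have e3 := (ip_sq_le (P0 G G').transpose (G'.Y * (P0 G G').transpose)).trans
    (mul_le_mul_of_nonneg_left (Gm.fro_Y_mul h.two.symm _) (fro_nonneg _))
  rw [fro_transpose, ← NN_eq] at e2 e3
  rw [h.two.sqrt_t4] at e3
  generalize ip (P0 G G').transpose (G'.Y * (P0 G G').transpose) = t at e1 e2 e3
  have Zh : G'.Z * hI g ι ≤ mI ι :=
    (mul_le_of_le_one_right h.two.Z_pos.le h.two.h_le_one).trans h.two.Z_le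
  have m1 : 1 ≤ mI ι := (one_le_pow₀ g1).trans (h.one.num.pow_le_m (k := 1) (by norm_num))
  have sg1 := abs_le.1 h.two.abs_sg.le
  have e4 : (G'.t1 + G'.sg) * t ≤ mI ι * bb g G G' * (mI ι * NN G G') := by
    rcases le_total 0 (G'.t1 + G'.sg) with k | k
    · have y1 : 2 * g ^ 7 * √G'.l2 ≤ mI ι * bb g G G' := by
        rw [← bb_swap]
        refine h.swap.young4 ?_
        rw [mul_pow, show √G'.l2 ^ 4 = (√G'.l2 ^ 2) ^ 2 by ring, sl]
        refine (mul_le_of_le_one_right (by positivity) h.two.z_le_one).trans ?_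
        refine mul_le_mul_of_nonneg_right (le_of_eq_of_le (by ring)
          (h.one.num.const_pow (c := 16) (j := 28) (by norm_num) (by norm_num))) (sq_nonneg _)
      have a1 : (G'.t1 + G'.sg) ^ 2 ≤ 4 * g ^ 14 * mI ι := by
        have b1 := h.two.tp
        have b2 : g ^ 14 * G'.Z * hI g ι ≤ g ^ 14 * mI ι := by rw [mul_assoc]; gcongr
        have b3 : 1 ≤ g ^ 14 * mI ι := one_le_mul_of_one_le_of_one_le (one_le_pow₀ g1) m1
        have b4 : (G'.t1 + G'.sg) ^ 2 ≤ (max G'.t1 0 + 1) ^ 2 :=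
          pow_le_pow_left₀ k (by linarith [le_max_left G'.t1 0]) 2
        nlinarith [sq_nonneg (max G'.t1 0 - 1)]
      refine le_trans ?_ (mul_le_mul_of_nonneg_right y1 (by positivity))
      refine (abs_le_of_sq_le_sq' ?_ (by positivity)).2
      calc _ = (G'.t1 + G'.sg) ^ 2 * t ^ 2 := by ring
        _ ≤ 4 * g ^ 14 * mI ι * (NN G G' * (mI ι * G'.l2 * NN G G')) := by gcongr
        _ = (2 * g ^ 7) ^ 2 * √G'.l2 ^ 2 * (mI ι * NN G G') ^ 2 := by rw [sl]; ring
        _ = _ := by ring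
    · have a1 : -(G'.t1 + G'.sg) ≤ mI ι / g := by
        refine (abs_le_of_sq_le_sq' ?_ (by positivity)).2
        have b1 := h.two.t1_sq
        have b2 : g ^ 135 * G'.Z * hI g ι ≤ g ^ 135 * mI ι := by rw [mul_assoc]; gcongr
        have b3 : 1 ≤ g ^ 135 * mI ι := one_le_mul_of_one_le_of_one_le (one_le_pow₀ g1) m1
        have b4 : 4 * g ^ 137 ≤ mI ι := (h.one.num.const_pow (k := 138) (by norm_num)
          (by norm_num)).trans (h.one.num.pow_le_m (by norm_num))
        rw [div_pow, le_div_iff₀ (by positivity)]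
        calc _ ≤ 4 * (g ^ 135 * mI ι) * g ^ 2 := by
              gcongr; nlinarith [h.two.sg_sq, sq_nonneg (G'.t1 - G'.sg)]
          _ = 4 * g ^ 137 * mI ι := by ring
          _ ≤ mI ι * mI ι := by gcongr
          _ = _ := by ring
      calc _ ≤ -(G'.t1 + G'.sg) * NN G G' := by nlinarith
        _ ≤ mI ι / g * NN G G' := by gcongr
        _ = mI ι * (1 / (g * mI ι)) * (mI ι * NN G G') := by field_simp
        _ ≤ _ := by gcongr; exact h.le_bb
  have e5 : (G'.t1 + G'.sg) * t / mI ι ^ 2 ≤ bb g G G' * NN G G' := by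
    rw [div_le_iff₀ (by positivity)]; linarith
  linarith [(abs_le.1 hw).2]

end Na

theorem Two.Na (h : Two g G G' bad) :
    E2 (fun α β => ww g G G' bad α β * ip (P0 G G') (T1 G G' α β)) ≤ 1000 * bb g G G' * Qn g G G' := by
  have e : ∀ K : ι → ι → ℝ, E2 (fun α β => ww g G G' bad α β * (K α β + K β α)) =
      2 * E2 fun α β => ww g G G' bad α β * K α β := fun K => by
    simp only [mul_add]
    rw [E2_add, ← E2_swap fun α β => ww g G G' bad α β * K β α]
    simp only [h.ww_symm, two_mul]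
  simp only [Na.ip_T1 h.two]
  rw [e fun α β => 1 / G'.dl α β * (G'.a β * Na.RR G G' α α) +
      G'.sg * G'.s α β / G'.dl α β * (G'.sg * Na.RR G G' α β)]
  simp only [mul_add (ww g G G' bad _ _)]
  rw [E2_add]
  have N0 : 0 ≤ NN G G' := NN_eq G G' ▸ fro_nonneg _
  have b0 := h.bb_pos
  have : 0 ≤ bb g G G' * g ^ 14000 := mul_nonneg b0.le (pow_nonneg h.one.g_pos.le _)
  have := mul_nonneg b0.le N0
  unfold Qn
  linarith [Na.partA h, Na.partB h]

end Vale.Agent.P049
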