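import Vale.Agent.P049.A

set_option maxRecDepth 100000

namespace Vale.Agent.P049

open Finset

namespace Num

variable {g m : ℝ} (h : Num g m)
include h

theorem g_pos : 0 < g := lt_of_lt_of_le (by norm_num) h.hg
theorem one_le_g : 1 ≤ g := le_trans (by norm_num) h.hg
theorem m_pos : 0 < m := lt_of_lt_of_le (pow_pos h.g_pos _) h.lo
theorem pow_mono {j k : ℕ} (hk : j ≤ k) : g ^ j ≤ g ^ k := pow_le_pow_right₀ h.one_le_g hk
theorem pow_le_m {k : ℕ} (hk : k ≤ 3995) : g ^ k ≤ m := (h.pow_mono hk).trans h.lo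
/-- Absorb a constant into one power of `g`. -/
theorem const_pow {c : ℝ} (hc : c ≤ 10 ^ 30) {j k : ℕ} (hk : j < k) : c * g ^ j ≤ g ^ k := by
  have := h.g_pos
  calc c * g ^ j ≤ g * g ^ j := by gcongr; exact hc.trans h.hg
    _ = g ^ (j + 1) := by ring
    _ ≤ _ := h.pow_mono hk
theorem h_pos : 0 < hh g m := by have := h.g_pos; have := h.m_pos; unfold hh; positivity
theorem h_le_one : hh g m ≤ 1 := by
  have := h.g_pos; have := h.m_pos
  unfold hh; rw [div_le_one (by positivity)]; exact le_add_of_nonneg_right (by positivity)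
theorem h_le_h2 : hh g m ≤ h2 g m := by
  have := h.g_pos; have := h.m_pos
  unfold hh h2
  exact div_le_div_of_nonneg_left (by positivity) (by positivity)
    (add_le_add_right (h.pow_mono (by norm_num)) _)
theorem h2_pos : 0 < h2 g m := by have := h.g_pos; have := h.m_pos; unfold h2; positivity
theorem h2_le_one : h2 g m ≤ 1 := by
  have := h.g_pos; have := h.m_pos
  unfold h2; rw [div_le_one (by positivity)]; exact le_add_of_nonneg_right (by positivity)
theorem ze_pos : 0 < ze g m := by have := h.g_pos; have := h.m_pos; unfold ze; positivity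
theorem h_add_ze : hh g m + ze g m = 1 := by
  have := h.g_pos; have := h.m_pos
  unfold hh ze; field_simp
theorem ze_le_one : ze g m ≤ 1 := by have := h.h_pos; have := h.h_add_ze; linarith

omit h in
theorem frac {m c : ℝ} (hm : 0 < m) (hc : 0 < c) :
    m / (m + c) * c ≤ m ∧ (c ≤ m → 1 / 2 ≤ m / (m + c) ∧ c ≤ 2 * m * (c / (m + c))) ∧
      (m ≤ c → 1 / 2 ≤ c / (m + c) ∧ m ≤ 2 * c * (m / (m + c))) := by
  have hs : 0 < m + c := by positivity
  refine ⟨?_, fun k => ⟨?_, ?_⟩, fun k => ⟨?_, ?_⟩⟩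
  · rw [div_mul_eq_mul_div, div_le_iff₀ hs]; nlinarith
  · rw [le_div_iff₀ hs]; linarith
  · rw [← mul_div_assoc, le_div_iff₀ hs]; nlinarith
  · rw [le_div_iff₀ hs]; linarith
  · rw [← mul_div_assoc, le_div_iff₀ hs]; nlinarith

theorem h_mul : hh g m * g ^ 7990 ≤ m := (frac h.m_pos (pow_pos h.g_pos _)).1
theorem h2_mul : h2 g m * g ^ 5200 ≤ m := (frac h.m_pos (pow_pos h.g_pos _)).1
theorem big (k : g ^ 7990 ≤ m) : 1 / 2 ≤ hh g m ∧ g ^ 7990 ≤ 2 * m * ze g m :=
  (frac h.m_pos (pow_pos h.g_pos _)).2.1 k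
theorem small (k : m ≤ g ^ 7990) : 1 / 2 ≤ ze g m ∧ m ≤ 2 * g ^ 7990 * hh g m :=
  (frac h.m_pos (pow_pos h.g_pos _)).2.2 k
theorem big2 (k : g ^ 5200 ≤ m) : 1 / 2 ≤ h2 g m := ((frac h.m_pos (pow_pos h.g_pos _)).2.1 k).1
theorem small2 (k : m ≤ g ^ 5200) : m ≤ 2 * g ^ 5200 * h2 g m :=
  ((frac h.m_pos (pow_pos h.g_pos _)).2.2 k).2

theorem big_sq (k : g ^ 7990 ≤ m) : g ^ 3978 ≤ 4 * (m * ze g m ^ 2) := by
  have := h.g_pos; have hm := h.m_pos; have := h.ze_pos
  have h1 : (g ^ 7990) ^ 2 ≤ (2 * m * ze g m) ^ 2 := by gcongr; exact (h.big k).2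
  have h3 : g ^ 3978 * m ≤ (g ^ 7990) ^ 2 := by
    calc g ^ 3978 * m ≤ g ^ 3978 * g ^ 12002 := by gcongr; exact h.hi
      _ = _ := by ring
  refine le_of_mul_le_mul_right (a := m) ?_ hm
  calc _ ≤ (2 * m * ze g m) ^ 2 := h3.trans h1
    _ = _ := by ring

theorem small_sq (k : m ≤ g ^ 7990) : m ≤ 4 * (m * ze g m ^ 2) := by
  have hm := h.m_pos
  have h1 := (h.small k).1
  have : 1 / 4 ≤ ze g m ^ 2 := by nlinarith
  nlinarith

theorem F2 : g ^ 3970 ≤ m * ze g m ^ 2 := by
  have h1 := h.const_pow (c := 4) (by norm_num) (show 3970 < 3978 by norm_num)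
  rcases le_total (g ^ 7990) m with k | k
  · have := h.big_sq k; linarith
  · have := h.small_sq k; have := h.pow_le_m (show 3978 ≤ 3995 by norm_num); linarith
theorem F2' : g ^ 3994 ≤ m * ze g m := by
  have h1 := h.const_pow (c := 2) (by norm_num) (show 3994 < 3995 by norm_num)
  have hm := h.m_pos
  rcases le_total (g ^ 7990) m with k | k
  · have := (h.big k).2; have := h.pow_mono (show 3995 ≤ 7990 by norm_num); linarith
  · have := (h.small k).1; have := h.lo; nlinarith

theorem big_W (k : g ^ 7990 ≤ m) : g ^ 3978 ≤ 8 * (m * ze g m ^ 2 * hh g m) := by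
  have h1 := h.big_sq k
  have h2 := (h.big k).1
  have : 0 ≤ m * ze g m ^ 2 := by have := h.m_pos; positivity
  nlinarith

theorem small_W (k : m ≤ g ^ 7990) : m ^ 2 ≤ 8 * g ^ 7990 * (m * ze g m ^ 2 * hh g m) := by
  have hm := h.m_pos
  have h1 := h.small_sq k
  have h2 := (h.small k).2
  calc m ^ 2 = m * m := sq m
    _ ≤ (4 * (m * ze g m ^ 2)) * (2 * g ^ 7990 * hh g m) := mul_le_mul h1 h2 hm.le (by positivity)
    _ = _ := by ring

theorem small_W' {j i : ℕ} (k : m ≤ g ^ 7990) (k' : g ^ j ≤ m) (e : i + 7990 = 2 * j) :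
    g ^ i ≤ 8 * (m * ze g m ^ 2 * hh g m) := by
  have hg := h.g_pos
  refine le_of_mul_le_mul_right (a := g ^ 7990) ?_ (by positivity)
  calc g ^ i * g ^ 7990 = (g ^ j) ^ 2 := by rw [← pow_add, e, ← pow_mul, mul_comm]
    _ ≤ m ^ 2 := by gcongr
    _ ≤ _ := (h.small_W k).trans_eq (by ring)

theorem F3 : 1 / 8 ≤ m * ze g m ^ 2 * hh g m := by
  rcases le_total (g ^ 7990) m with k | k
  · have := h.big_W k; have := one_le_pow₀ (n := 3978) h.one_le_g; linarith
  · have := h.small_W' (i := 0) k h.lo (by norm_num); rw [pow_zero] at this; linarith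
theorem F6 : 1 ≤ g ^ 36 * (m * ze g m ^ 3) := by
  have hg := h.g_pos; have hm := h.m_pos; have hz := h.ze_pos
  rcases le_total (g ^ 7990) m with k | k
  · have h1 : (g ^ 7990) ^ 3 ≤ (2 * m * ze g m) ^ 3 := by gcongr; exact (h.big k).2
    have h2 : m ^ 2 ≤ (g ^ 12002) ^ 2 := by gcongr; exact h.hi
    have h3 := h.const_pow (c := 8) (by norm_num) (show 24004 < 24006 by norm_num)
    refine le_of_mul_le_mul_right (a := g ^ 23970) ?_ (by positivity)
    have h4 : 8 * m ^ 2 ≤ g ^ 24006 := by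
      calc 8 * m ^ 2 ≤ 8 * (g ^ 12002) ^ 2 := by gcongr
        _ = 8 * g ^ 24004 := by ring
        _ ≤ _ := h3
    calc 1 * g ^ 23970 = (g ^ 7990) ^ 3 := by ring
      _ ≤ _ := h1
      _ = 8 * m ^ 2 * (m * ze g m ^ 3) := by ring
      _ ≤ g ^ 24006 * (m * ze g m ^ 3) := by gcongr
      _ = _ := by ring
  · have h1 : (1 / 2) ^ 3 ≤ ze g m ^ 3 := by gcongr; exact (h.small k).1
    have h2 := h.const_pow (c := 8) (by norm_num) (show 0 < 3995 by norm_num)
    have h3 := h.lo
    have h4 : 1 ≤ m * ze g m ^ 3 := by nlinarith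
    have := one_le_pow₀ (n := 36) h.one_le_g
    nlinarith
theorem Fh2 : g ^ 2000 ≤ m * h2 g m := by
  have hg := h.g_pos; have hm := h.m_pos
  rcases le_total (g ^ 5200) m with k | k
  · have h1 := h.big2 k
    have h2 := h.const_pow (c := 2) (by norm_num) (show 2000 < 3995 by norm_num)
    have := h.lo
    nlinarith
  · refine le_of_mul_le_mul_right (a := 2 * g ^ 5200) ?_ (by positivity)
    have h2 := h.const_pow (c := 2) (by norm_num) (show 7200 < 7990 by norm_num)
    calc g ^ 2000 * (2 * g ^ 5200) = 2 * g ^ 7200 := by ring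
      _ ≤ g ^ 3995 * g ^ 3995 := h2.trans_eq (by ring)
      _ ≤ m * m := by gcongr <;> exact h.lo
      _ ≤ m * (2 * g ^ 5200 * P049.h2 g m) := by gcongr; exact h.small2 k
      _ = _ := by ring
theorem mh_half : 1 / 2 ≤ m * hh g m := by
  have hg := h.g_pos; have hm := h.m_pos
  rcases le_total (g ^ 7990) m with k | k
  · have h1 := (h.big k).1
    have := h.pow_le_m (k := 0) (by norm_num)
    rw [pow_zero] at this
    nlinarith
  · refine le_of_mul_le_mul_right (a := 2 * g ^ 7990) ?_ (by positivity)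
    calc 1 / 2 * (2 * g ^ 7990) = g ^ 3995 * g ^ 3995 := by ring
      _ ≤ m * m := by gcongr <;> exact h.lo
      _ ≤ m * (2 * g ^ 7990 * hh g m) := by gcongr; exact (h.small k).2
      _ = _ := by ring

/-- For small `m` the factor `h` is small. -/
theorem h_small {j i : ℕ} (k : m ≤ g ^ j) (e : i + j < 7990) : 4 * (g ^ i * hh g m) ≤ 1 := by
  have hg := h.g_pos
  refine le_of_mul_le_mul_right (a := g ^ 7990) ?_ (by positivity)
  calc 4 * (g ^ i * hh g m) * g ^ 7990 = 4 * g ^ i * (hh g m * g ^ 7990) := by ring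
    _ ≤ 4 * g ^ i * g ^ j := by gcongr; exact h.h_mul.trans k
    _ = 4 * g ^ (i + j) := by ring
    _ ≤ _ := by rw [one_mul]; exact h.const_pow (by norm_num) e

theorem F1 {x : ℝ} (h1 : x ≤ g ^ 21) (h2' : x ≤ m * hh g m ^ 2) :
    g ^ 600 * x ≤ m * ze g m ^ 2 * hh g m ∧ x ≤ g ^ 22 * h2 g m := by
  have hg := h.g_pos; have hm := h.m_pos; have hh0 := h.h_pos
  have a1 : g ^ 600 * x ≤ g ^ 621 := by
    calc g ^ 600 * x ≤ g ^ 600 * g ^ 21 := by gcongr
      _ = _ := by ring
  have a2 := h.const_pow (c := 8) (by norm_num) (show 621 < 810 by norm_num)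
  constructor
  · rcases le_total (g ^ 7990) m with k | k
    · have := h.big_W k; have := h.pow_mono (show 810 ≤ 3978 by norm_num); linarith
    · rcases le_total (g ^ 4400) m with k' | k'
      · have := h.small_W' (i := 810) k k' (by norm_num); linarith
      · have b1 := h.h_small (i := 600) k' (by norm_num)
        have b2 := h.small_sq k
        calc g ^ 600 * x ≤ g ^ 600 * (m * hh g m ^ 2) := by gcongr
          _ = 4 * (g ^ 600 * hh g m) * (m / 4 * hh g m) := by ring
          _ ≤ 1 * (m * ze g m ^ 2 * hh g m) := by gcongr; linarith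
          _ = _ := one_mul _
  · rcases le_total (g ^ 5200) m with k | k
    · have b1 := h.big2 k
      have b2 := h.const_pow (c := 2) (by norm_num) (show 21 < 22 by norm_num)
      have : 0 < g ^ 22 := by positivity
      nlinarith
    · have b1 := h.h_small (i := 2600) k (by norm_num)
      have b2 := h.small2 k
      have b3 := h.h2_pos
      have b4 : (g ^ 2600 * hh g m) ^ 2 ≤ (1 / 4) ^ 2 := by gcongr; linarith
      have b5 := one_le_pow₀ (n := 22) h.one_le_g
      calc x ≤ m * hh g m ^ 2 := h2'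
        _ ≤ 2 * g ^ 5200 * h2 g m * hh g m ^ 2 := by gcongr
        _ = 2 * (g ^ 2600 * hh g m) ^ 2 * h2 g m := by ring
        _ ≤ g ^ 22 * h2 g m := by gcongr; linarith

theorem F4 {x : ℝ} (h0 : 0 ≤ x) (h1 : x ≤ 2 * (g ^ 290 * h2 g m) + 2 / m) :
    x ≤ g ^ 291 ∧ g ^ 400 * x ≤ m * ze g m ^ 2 * hh g m ∧ g ^ 10 * x ^ 2 ≤ m * hh g m := by
  have hg := h.g_pos; have hm := h.m_pos; have hh0 := h.h_pos; have h20 := h.h2_pos
  have a0 : 2 / m ≤ g ^ 290 * h2 g m := by
    rw [div_le_iff₀ hm]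
    have := h.Fh2
    have b := h.const_pow (c := 2) (by norm_num) (show 0 < 2000 by norm_num)
    have c := one_le_pow₀ (n := 290) h.one_le_g
    have : 0 ≤ m * h2 g m := by positivity
    nlinarith
  have a1 : x ≤ 3 * (g ^ 290 * h2 g m) := by linarith
  have a2 : x ≤ g ^ 291 * h2 g m := by
    have b := h.const_pow (c := 3) (by norm_num) (show 290 < 291 by norm_num)
    calc x ≤ 3 * g ^ 290 * h2 g m := by linarith
      _ ≤ _ := by gcongr
  have a3 : x ≤ g ^ 291 := a2.trans (mul_le_of_le_one_right (by positivity) h.h2_le_one)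
  have a4 : x * g ^ 5200 ≤ g ^ 291 * m := by
    calc x * g ^ 5200 ≤ g ^ 291 * h2 g m * g ^ 5200 := by gcongr
      _ = g ^ 291 * (h2 g m * g ^ 5200) := by ring
      _ ≤ _ := by gcongr; exact h.h2_mul
  have a5 : g ^ 400 * x ≤ g ^ 691 := by
    calc g ^ 400 * x ≤ g ^ 400 * g ^ 291 := by gcongr
      _ = _ := by ring
  have a6 := h.const_pow (c := 8) (by norm_num) (show 691 < 2410 by norm_num)
  have a7 : g ^ 10 * x ^ 2 ≤ g ^ 592 := by
    calc g ^ 10 * x ^ 2 ≤ g ^ 10 * (g ^ 291) ^ 2 := by gcongr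
      _ = _ := by ring
  have a8 : m * ze g m ^ 2 * hh g m ≤ m * hh g m := by
    have := h.ze_le_one; have := h.ze_pos
    have : ze g m ^ 2 ≤ 1 := by nlinarith
    calc m * ze g m ^ 2 * hh g m ≤ m * 1 * hh g m := by gcongr
      _ = _ := by ring
  have a9 := h.pow_mono (show 592 ≤ 691 by norm_num)
  refine ⟨a3, ?_⟩
  rcases le_total (g ^ 7990) m with k | k
  · have := h.big_W k; have := h.pow_mono (show 2410 ≤ 3978 by norm_num)
    constructor <;> linarith
  · rcases le_total (g ^ 5200) m with k' | k'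
    · have := h.small_W' (i := 2410) k k' (by norm_num)
      constructor <;> linarith
    · have b1 := h.small_W k
      constructor
      · refine le_of_mul_le_mul_right (a := 8 * g ^ 7990) ?_ (by positivity)
        calc g ^ 400 * x * (8 * g ^ 7990) = 8 * g ^ 3190 * (x * g ^ 5200) := by ring
          _ ≤ 8 * g ^ 3190 * (g ^ 291 * m) := by gcongr
          _ = 8 * g ^ 3481 * m := by ring
          _ ≤ m * m := by
            gcongr; exact (h.const_pow (by norm_num) (show 3481 < 3995 by norm_num)).trans h.lo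
          _ ≤ _ := by rw [← sq]; exact b1.trans_eq (by ring)
      · refine le_trans ?_ a8
        refine le_of_mul_le_mul_right (a := g ^ 10400) ?_ (by positivity)
        calc g ^ 10 * x ^ 2 * g ^ 10400 = g ^ 10 * (x * g ^ 5200) ^ 2 := by ring
          _ ≤ g ^ 10 * (g ^ 291 * m) ^ 2 := by gcongr
          _ = g ^ 592 * m ^ 2 := by ring
          _ ≤ g ^ 592 * (8 * g ^ 7990 * (m * ze g m ^ 2 * hh g m)) := by gcongr
          _ = (m * ze g m ^ 2 * hh g m) * (8 * g ^ 8582) := by ring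
          _ ≤ _ := by
            have := h.ze_pos
            gcongr; exact h.const_pow (by norm_num) (by norm_num)

theorem F7 {x : ℝ} (h1 : x ≤ g ^ 14010) (h2' : x ≤ m ^ 2 * hh g m ^ 2) :
    g ^ 300 * x ≤ m ^ 2 * ze g m ^ 2 * hh g m := by
  have hg := h.g_pos; have hm := h.m_pos; have hh0 := h.h_pos; have hz := h.ze_pos
  have a1 : g ^ 300 * x ≤ g ^ 14310 := by
    calc g ^ 300 * x ≤ g ^ 300 * g ^ 14010 := by gcongr
      _ = _ := by ring
  have a2 := h.const_pow (c := 8) (by norm_num) (show 14310 < 14510 by norm_num)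
  rcases le_total (g ^ 7990) m with k | k
  · have b1 : (g ^ 7990) ^ 2 ≤ (2 * m * ze g m) ^ 2 := by gcongr; exact (h.big k).2
    have b2 := (h.big k).1
    have b3 := h.pow_mono (show 14510 ≤ 7990 * 2 by norm_num)
    rw [← pow_mul] at b1
    have : 0 ≤ m ^ 2 * ze g m ^ 2 := by positivity
    nlinarith
  · rcases le_total (g ^ 7500) m with k' | k'
    · have b1 := h.small_W' (i := 7010) k k' (by norm_num)
      have : g ^ 14510 ≤ m * (8 * (m * ze g m ^ 2 * hh g m)) := by
        calc g ^ 14510 = g ^ 7500 * g ^ 7010 := by ring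
          _ ≤ _ := by gcongr
      nlinarith
    · have b1 := h.h_small (i := 300) k' (by norm_num)
      have b2 := h.small_sq k
      calc g ^ 300 * x ≤ g ^ 300 * (m ^ 2 * hh g m ^ 2) := by gcongr
        _ = 4 * (g ^ 300 * hh g m) * (m * (m / 4) * hh g m) := by ring
        _ ≤ 1 * (m * (m * ze g m ^ 2) * hh g m) := by gcongr; linarith
        _ = _ := by ring

end Num

end Vale.Agent.P049
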