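import Vale.Agent.P049.ToolG

set_option maxRecDepth 100000
set_option linter.unusedSectionVars false

namespace Vale.Agent.P049

open Finset

variable {ι : Type} [Fintype ι] [DecidableEq ι] {g : ℝ} {G G' : Gm ι} {bad : ι → ι → Bool}

theorem T2_eq (hs : ∀ i j, G.Y i j = G.Y j i) (hs' : ∀ i j, G'.Y i j = G'.Y j i) (α β : ι) :
    T2 G G' α β = (T1 G' G α β).transpose := by
  ext i j
  simp only [T2, T1, Matrix.transpose_apply, P0_swap hs hs']
  ring

namespace Nx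

noncomputable def u (G G' : Gm ι) (α : ι) : ℝ := 1 + G.rho α + G'.rho α
noncomputable def v (G G' : Gm ι) (α : ι) : ℝ := G.a α ^ 2 + G'.a α ^ 2

theorem one_le_u (α : ι) : 1 ≤ u G G' α := by
  have := G.rho_nonneg α; have := G'.rho_nonneg α; unfold u; linarith
theorem u_nonneg (α : ι) : 0 ≤ u G G' α := zero_le_one.trans (one_le_u α)
theorem rho_le_u (α : ι) : G.rho α ≤ u G G' α := by
  have := G'.rho_nonneg α; unfold u; linarith
theorem rho_le_u' (α : ι) : G'.rho α ≤ u G G' α := by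
  have := G.rho_nonneg α; unfold u; linarith
theorem v_nonneg (α : ι) : 0 ≤ v G G' α := by unfold v; positivity
theorem a_le_v (α : ι) : G.a α ^ 2 ≤ v G G' α := le_add_of_nonneg_right (sq_nonneg _)
theorem a_le_v' (α : ι) : G'.a α ^ 2 ≤ v G G' α := le_add_of_nonneg_left (sq_nonneg _)

theorem rho_sq_le (h : One g G) (α : ι) : G.rho α ^ 2 ≤ g ^ 22 * mI ι := by
  have h1 := h.rmax α
  have h0 := G.rho_nonneg α
  calc G.rho α ^ 2 ≤ (g ^ 11 * √(mI ι)) ^ 2 := by gcongr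
    _ = g ^ 22 * mI ι := by rw [mul_pow, Real.sq_sqrt mI_nonneg]; ring

theorem u_sq_le (h : Two g G G' bad) (α : ι) : u G G' α ^ 2 ≤ 9 * (g ^ 22 * mI ι) := by
  have h1 := rho_sq_le h.one α
  have h2 := rho_sq_le h.two α
  have h3 : 1 ≤ g ^ 22 * mI ι := by
    have a := one_le_pow₀ (n := 22) h.one.num.one_le_g
    have b := h.one.num.pow_le_m (k := 0) (by norm_num)
    rw [pow_zero] at b
    nlinarith
  unfold u
  nlinarith [sq_nonneg (1 - G.rho α), sq_nonneg (1 - G'.rho α), sq_nonneg (G.rho α - G'.rho α)]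

theorem E_u2 (h : Two g G G' bad) : (∑ α, u G G' α ^ 2) / mI ι ≤ 4 * g ^ 22 := by
  have h1 := h.one.E_one_rho_sq
  have h2 := h.two.E_one_rho_sq
  have : ∑ α, u G G' α ^ 2 ≤ 2 * ∑ α, (1 + G.rho α) ^ 2 + 2 * ∑ α, (1 + G'.rho α) ^ 2 := by
    rw [mul_sum, mul_sum, ← sum_add_distrib]
    refine sum_le_sum fun α _ => ?_
    have := G.rho_nonneg α; have := G'.rho_nonneg α
    unfold u
    nlinarith [sq_nonneg (G.rho α - G'.rho α)]
  have hm := h.one.m_pos
  rw [div_le_iff₀ hm] at h1 h2 ⊢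
  linarith

theorem E_u4 (h : Two g G G' bad) : (∑ α, u G G' α ^ 4) / mI ι ≤ 36 * g ^ 44 * mI ι := by
  have hm := h.one.m_pos
  have hg := h.one.g_pos
  have h1 := E_u2 h
  have : ∑ α, u G G' α ^ 4 ≤ 9 * (g ^ 22 * mI ι) * ∑ α, u G G' α ^ 2 := by
    rw [mul_sum]
    refine sum_le_sum fun α _ => ?_
    calc u G G' α ^ 4 = u G G' α ^ 2 * u G G' α ^ 2 := by ring
      _ ≤ _ := mul_le_mul_of_nonneg_right (u_sq_le h α) (sq_nonneg _)
  calc (∑ α, u G G' α ^ 4) / mI ι ≤ 9 * (g ^ 22 * mI ι) * ((∑ α, u G G' α ^ 2) / mI ι) := by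
        rw [← mul_div_assoc]; gcongr
    _ ≤ 9 * (g ^ 22 * mI ι) * (4 * g ^ 22) := by gcongr
    _ = _ := by ring

theorem v_le (h : Two g G G' bad) (α : ι) : v G G' α ≤ 2 * g ^ 291 := by
  have := h.one.a_sq_le α; have := h.two.a_sq_le α; unfold v; linarith

theorem sum_v (h : Two g G G' bad) : ∑ α, v G G' α ≤ 2 * g ^ 291 := by
  have := h.one.sum_a_sq; have := h.two.sum_a_sq; have := h.one.Dha; have := h.two.Dha
  simp only [v, sum_add_distrib]; linarith

theorem sum_v2 (h : Two g G G' bad) : ∑ α, v G G' α ^ 2 ≤ 4 * g ^ 582 := by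
  have hg := h.one.g_pos
  calc ∑ α, v G G' α ^ 2 ≤ ∑ α, 2 * g ^ 291 * v G G' α :=
        sum_le_sum fun α _ => by
          rw [sq]; exact mul_le_mul_of_nonneg_right (v_le h α) (v_nonneg α)
    _ = 2 * g ^ 291 * ∑ α, v G G' α := by rw [mul_sum]
    _ ≤ 2 * g ^ 291 * (2 * g ^ 291) := by gcongr; exact sum_v h
    _ = _ := by ring

theorem sum_g1 (h : One g G) {α β : ι} (k : G.ok g α β) :
    ∑ i, G.g1 α β i ^ 2 ≤ 5 * (G.a β ^ 2 * G.rho α + G.rho β) := by
  rw [G.rho_eq, G.rho_eq, mul_sum, ← sum_add_distrib, mul_sum]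
  exact sum_le_sum fun i _ => h.ok_g1_sq k i

theorem sum_g2 (h : One g G) {α β : ι} (k : G.ok g α β) :
    ∑ i, G.g2 α β i ^ 2 ≤ 5 * (G.rho α + G.a α ^ 2 * G.rho β) := by
  rw [G.rho_eq, G.rho_eq, mul_sum, ← sum_add_distrib, mul_sum]
  exact sum_le_sum fun i _ => h.ok_g2_sq k i

theorem P0_sq (h : Two g G G' bad) (α β : ι) : P0 G G' α β ^ 2 ≤ u G G' α * u G G' β :=
  (P0_sq_le h.two.symm α β).trans
    (mul_le_mul (rho_le_u α) (rho_le_u' β) (G'.rho_nonneg β) (u_nonneg α))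

theorem nu_sq (h : Two g G G' bad) (α β : ι) : nu G G' α β ^ 2 ≤ 2 * (u G G' α * u G G' β) := by
  have h1 := P0_sq_le (G := G) h.two.symm α β
  have hm := h.one.m_pos
  have h2 : 1 / mI ι ≤ 1 := by
    have b := h.one.num.pow_le_m (k := 0) (by norm_num)
    rw [pow_zero] at b
    rw [div_le_one hm]; exact b
  have h3 : 0 < 1 / mI ι := by positivity
  have h4 : ((if α = β then (1 : ℝ) else 0) - 1 / mI ι) ^ 2 ≤ 1 := by
    split_ifs <;> nlinarith
  have h5 : 1 + G.rho α * G'.rho β ≤ u G G' α * u G G' β := by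
    have := G.rho_nonneg α; have := G'.rho_nonneg α
    have := G.rho_nonneg β; have := G'.rho_nonneg β
    have a : 1 + G.rho α ≤ u G G' α := by unfold u; linarith
    have b : 1 + G'.rho β ≤ u G G' β := by unfold u; linarith
    calc 1 + G.rho α * G'.rho β ≤ (1 + G.rho α) * (1 + G'.rho β) := by nlinarith
      _ ≤ _ := mul_le_mul a b (by linarith) (u_nonneg α)
  have e : nu G G' α β = P0 G G' α β + ((if α = β then (1 : ℝ) else 0) - 1 / mI ι) := by
    unfold nu; ring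
  rw [e]
  nlinarith [sq_nonneg (P0 G G' α β - ((if α = β then (1 : ℝ) else 0) - 1 / mI ι))]

theorem four_sq (a b c d : ℝ) : (a + b + (c + d)) ^ 2 ≤ 4 * (a ^ 2 + b ^ 2 + c ^ 2 + d ^ 2) := by
  nlinarith [sq_nonneg (a - b), sq_nonneg (a - c), sq_nonneg (a - d), sq_nonneg (b - c),
    sq_nonneg (b - d), sq_nonneg (c - d)]

theorem fro_T3 (α β : ι) : fro (T3 G G' α β) ≤
    4 * (nu G G' α α ^ 2 * ((∑ i, G.g1 α β i ^ 2) * ∑ j, G'.g1 α β j ^ 2) +
      nu G G' α β ^ 2 * ((∑ i, G.g1 α β i ^ 2) * ∑ j, G'.g2 α β j ^ 2) +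
      nu G G' β α ^ 2 * ((∑ i, G.g2 α β i ^ 2) * ∑ j, G'.g1 α β j ^ 2) +
      nu G G' β β ^ 2 * ((∑ i, G.g2 α β i ^ 2) * ∑ j, G'.g2 α β j ^ 2)) := by
  simp only [sum_mul_sum]
  simp only [mul_sum, ← sum_add_distrib, fro]
  refine sum_le_sum fun i _ => sum_le_sum fun j _ => ?_
  have := four_sq (G.g1 α β i * (nu G G' α α * G'.g1 α β j))
    (G.g1 α β i * (nu G G' α β * G'.g2 α β j)) (G.g2 α β i * (nu G G' β α * G'.g1 α β j))
    (G.g2 α β i * (nu G G' β β * G'.g2 α β j))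
  simp only [T3, mul_add]
  refine this.trans_eq ?_
  ring

theorem scal3 {x y p q : ℝ} : 4 * (2 * (x * x) * (5 * (q * x + y) * (5 * (q * x + y))) +
      2 * (x * y) * (5 * (q * x + y) * (5 * (x + p * y))) +
      2 * (y * x) * (5 * (x + p * y) * (5 * (q * x + y))) +
      2 * (y * y) * (5 * (x + p * y) * (5 * (x + p * y)))) ≤
    600 * (x ^ 4 * q ^ 2 + 4 * (x ^ 2 * y ^ 2) + p ^ 2 * y ^ 4) := by
  nlinarith [sq_nonneg (q * x ^ 2 - 2 * (x * y)), sq_nonneg (q * x ^ 2 - p * y ^ 2),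
    sq_nonneg (2 * (x * y) - p * y ^ 2)]

theorem g_bounds (h : Two g G G' bad) {α β : ι} (k : adm g G G' bad α β) :
    ∑ i, G.g1 α β i ^ 2 ≤ 5 * (v G G' β * u G G' α + u G G' β) ∧
    ∑ i, G.g2 α β i ^ 2 ≤ 5 * (u G G' α + v G G' α * u G G' β) ∧
    ∑ i, G'.g1 α β i ^ 2 ≤ 5 * (v G G' β * u G G' α + u G G' β) ∧
    ∑ i, G'.g2 α β i ^ 2 ≤ 5 * (u G G' α + v G G' α * u G G' β) := by
  have a1 := G.rho_nonneg α; have a2 := G'.rho_nonneg α
  have a3 := G.rho_nonneg β; have a4 := G'.rho_nonneg β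
  have b1 := v_nonneg (G := G) (G' := G') α
  have b2 := v_nonneg (G := G) (G' := G') β
  refine ⟨(sum_g1 h.one k.2.1).trans ?_, (sum_g2 h.one k.2.1).trans ?_,
    (sum_g1 h.two k.2.2).trans ?_, (sum_g2 h.two k.2.2).trans ?_⟩
  · gcongr
    exacts [a_le_v β, rho_le_u α, rho_le_u β]
  · gcongr
    exacts [rho_le_u α, a_le_v α, rho_le_u β]
  · gcongr
    exacts [a_le_v' β, rho_le_u' α, rho_le_u' β]
  · gcongr
    exacts [rho_le_u' α, a_le_v' α, rho_le_u' β]

theorem fro_T3_le (h : Two g G G' bad) {α β : ι} (k : adm g G G' bad α β) :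
    fro (T3 G G' α β) ≤ 600 * (u G G' α ^ 4 * v G G' β ^ 2 + 4 * (u G G' α ^ 2 * u G G' β ^ 2) +
      v G G' α ^ 2 * u G G' β ^ 4) := by
  obtain ⟨k1, k2, k3, k4⟩ := g_bounds h k
  refine (fro_T3 α β).trans (le_trans ?_ scal3)
  have b1 := v_nonneg (G := G) (G' := G') α
  have b2 := v_nonneg (G := G) (G' := G') β
  have b3 := u_nonneg (G := G) (G' := G') α
  have b4 := u_nonneg (G := G) (G' := G') β
  gcongr
  exacts [nu_sq h α α, nu_sq h α β, nu_sq h β α, nu_sq h β β]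

theorem E_u4v2 (h : Two g G G' bad) :
    E2 (fun α β => u G G' α ^ 4 * v G G' β ^ 2) ≤ 144 * g ^ 626 := by
  have hm := h.one.m_pos
  have hg := h.one.g_pos
  rw [E2_prod (fun α => u G G' α ^ 4) (fun β => v G G' β ^ 2)]
  calc (∑ α, u G G' α ^ 4) / mI ι * ((∑ β, v G G' β ^ 2) / mI ι)
      ≤ 36 * g ^ 44 * mI ι * (4 * g ^ 582 / mI ι) := by
        gcongr
        exacts [E_u4 h, sum_v2 h]
    _ = _ := by field_simp; ring

theorem E_u4v (h : Two g G G' bad) :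
    E2 (fun α β => u G G' α ^ 4 * v G G' β) ≤ 72 * g ^ 335 := by
  have hm := h.one.m_pos
  have hg := h.one.g_pos
  rw [E2_prod (fun α => u G G' α ^ 4) (fun β => v G G' β)]
  have : 0 ≤ ∑ β, v G G' β := sum_nonneg fun _ _ => v_nonneg _
  calc (∑ α, u G G' α ^ 4) / mI ι * ((∑ β, v G G' β) / mI ι)
      ≤ 36 * g ^ 44 * mI ι * (2 * g ^ 291 / mI ι) := by
        gcongr
        exacts [E_u4 h, sum_v h]
    _ = _ := by field_simp; ring

theorem E_u2u2 (h : Two g G G' bad) :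
    E2 (fun α β => u G G' α ^ 2 * u G G' β ^ 2) ≤ 16 * g ^ 44 := by
  have hm := h.one.m_pos
  have hg := h.one.g_pos
  rw [E2_prod (fun α => u G G' α ^ 2) (fun β => u G G' β ^ 2)]
  calc (∑ α, u G G' α ^ 2) / mI ι * ((∑ β, u G G' β ^ 2) / mI ι)
      ≤ 4 * g ^ 22 * (4 * g ^ 22) := by
        gcongr
        exacts [E_u2 h, E_u2 h]
    _ = _ := by ring

end Nx

open Nx

theorem Two.Nx3 (h : Two g G G' bad) :
    E2 (fun α β => ind (adm g G G' bad α β) * fro (T3 G G' α β)) ≤ g ^ 1000 := by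
  have hg := h.one.g_pos
  have h1 : E2 (fun α β => ind (adm g G G' bad α β) * fro (T3 G G' α β)) ≤
      E2 (fun α β => 600 * (u G G' α ^ 4 * v G G' β ^ 2 + 4 * (u G G' α ^ 2 * u G G' β ^ 2) +
        v G G' α ^ 2 * u G G' β ^ 4)) :=
    E2_mono fun α β => ind_mul_le (by positivity) (fro_T3_le h)
  rw [E2_const_mul, E2_add, E2_add, E2_const_mul] at h1
  have h2 := E_u4v2 h
  have h3 := E_u2u2 h
  have h4 : E2 (fun α β => v G G' α ^ 2 * u G G' β ^ 4) ≤ 144 * g ^ 626 := by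
    rw [← E2_swap]; simpa only [mul_comm] using h2
  have h5 := h.one.num.pow_mono (show 44 ≤ 626 by norm_num)
  have h6 := h.one.num.const_pow (c := 600 * 352) (by norm_num) (show 626 < 1000 by norm_num)
  linarith

namespace Nx

theorem col_add3 (X W V : Matrix ι ι ℝ) (j : ι) :
    col (X + W + V) j ≤ 3 * (col X j + col W j + col V j) := by
  simp only [col, Matrix.add_apply, ← sum_add_distrib, mul_sum]
  refine sum_le_sum fun i _ => ?_
  nlinarith [sq_nonneg (X i j - W i j), sq_nonneg (X i j - V i j), sq_nonneg (W i j - V i j)]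

theorem col_le_fro (X : Matrix ι ι ℝ) (j : ι) : col X j ≤ fro X := by
  rw [fro_eq_sum_col]
  exact single_le_sum (f := fun j => col X j) (fun _ _ => col_nonneg _ _) (mem_univ j)

theorem col_T1 (h : Two g G G' bad) {α β : ι} (k : adm g G G' bad α β) :
    col (T1 G G' α β) α ≤ 32 / g ^ 2 * col (P0 G G') α +
      10 * ((G'.Y α α ^ 2 + G'.a α ^ 2) * col (P0 G G') β) := by
  have hg := h.one.g_pos
  have h1 : G'.g1 α β α ^ 2 ≤ 16 / g ^ 2 := by
    have := h.two.ok_g1 k.2.2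
    calc G'.g1 α β α ^ 2 = |G'.g1 α β α| ^ 2 := (sq_abs _).symm
      _ ≤ (4 / g) ^ 2 := by gcongr
      _ = _ := by ring
  have h2 : G'.g2 α β α ^ 2 ≤ 5 * (G'.Y α α ^ 2 + G'.a α ^ 2) := by
    refine (h.two.ok_g2_sq k.2.2 α).trans ?_
    have a := h.two.ok_c k.2.2
    have b := h.two.inv_g_le
    have c : G'.Y β α ^ 2 ≤ 1 := by
      rw [h.two.symm β α, ← sq_abs]
      exact pow_le_one₀ (abs_nonneg _) (a.trans (b.trans (by norm_num)))
    nlinarith [sq_nonneg (G'.a α)]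
  have h3 : col (T1 G G' α β) α ≤ 2 * (G'.g1 α β α ^ 2 * col (P0 G G') α) +
      2 * (G'.g2 α β α ^ 2 * col (P0 G G') β) := by
    simp only [col, T1, mul_sum, ← sum_add_distrib]
    refine sum_le_sum fun i _ => ?_
    nlinarith [sq_nonneg (P0 G G' i α * G'.g1 α β α - P0 G G' i β * G'.g2 α β α)]
  have a := mul_le_mul_of_nonneg_right h1 (col_nonneg (P0 G G') α)
  have b := mul_le_mul_of_nonneg_right h2 (col_nonneg (P0 G G') β)
  calc _ ≤ _ := h3
    _ ≤ 2 * (16 / g ^ 2 * col (P0 G G') α) +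
      2 * (5 * (G'.Y α α ^ 2 + G'.a α ^ 2) * col (P0 G G') β) := by linarith
    _ = _ := by ring

theorem E_col_T1 (h : Two g G G' bad) :
    E2 (fun α β => ind (adm g G G' bad α β) * col (T1 G G' α β) α) ≤
      33 * NN G G' / (g ^ 2 * mI ι) := by
  have hg := h.one.g_pos
  have hm := h.one.m_pos
  have h1 : E2 (fun α β => ind (adm g G G' bad α β) * col (T1 G G' α β) α) ≤
      E2 (fun α β => 32 / g ^ 2 * col (P0 G G') α +
        10 * ((G'.Y α α ^ 2 + G'.a α ^ 2) * col (P0 G G') β)) :=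
    E2_mono fun α β => ind_mul_le (by
      have := col_nonneg (P0 G G') α; have := col_nonneg (P0 G G') β; positivity) (col_T1 h)
  rw [E2_add, E2_const_mul, E2_const_mul, E2_left hm,
    E2_prod (fun α => G'.Y α α ^ 2 + G'.a α ^ 2) (fun β => col (P0 G G') β),
    ← fro_eq_sum_col, ← NN_eq, sum_add_distrib, ← G'.D_eq] at h1
  have hN : 0 ≤ NN G G' := fro_nonneg _
  have h2 : G'.D + ∑ α, G'.a α ^ 2 ≤ 2 * g ^ 291 := by
    have := h.two.sum_a_sq; have := h.two.Dha; have := h.two.D_le_Dh; linarith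
  have h3 : 10 * ((G'.D + ∑ α, G'.a α ^ 2) / mI ι) ≤ 1 / g ^ 2 := by
    rw [← mul_div_assoc, div_le_div_iff₀ hm (by positivity)]
    have a := h.one.num.const_pow (c := 20) (by norm_num) (show 293 < 294 by norm_num)
    have b := h.one.num.pow_le_m (show 294 ≤ 3995 by norm_num)
    calc 10 * (G'.D + ∑ α, G'.a α ^ 2) * g ^ 2 ≤ 10 * (2 * g ^ 291) * g ^ 2 := by gcongr
      _ = 20 * g ^ 293 := by ring
      _ ≤ _ := by linarith
  have h4 := mul_le_mul_of_nonneg_right h3 (div_nonneg hN hm.le)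
  calc _ ≤ _ := h1
    _ ≤ 32 / g ^ 2 * (NN G G' / mI ι) + 1 / g ^ 2 * (NN G G' / mI ι) := by linarith
    _ = _ := by field_simp; ring

theorem scal2 {x y p q c : ℝ} (hx : 1 ≤ x) (hy : 1 ≤ y) (hq : 0 ≤ q) (hp : p ≤ c) (hp0 : 0 ≤ p) :
    2 * (5 * (q * x + y) * (x * x)) + 2 * (5 * (x + p * y) * (y * x)) ≤
      10 * (x ^ 4 * q) + (20 + 10 * c) * (x ^ 2 * y ^ 2) := by
  have h1 : q * x ^ 3 ≤ x ^ 4 * q := by
    have : x ^ 3 ≤ x ^ 4 := pow_le_pow_right₀ hx (by norm_num)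
    nlinarith
  have h2 : x ^ 2 * y ≤ x ^ 2 * y ^ 2 := by
    have : y ≤ y ^ 2 := by nlinarith
    gcongr
  have h3 : p * (x * y ^ 2) ≤ c * (x ^ 2 * y ^ 2) := by
    have : x ≤ x ^ 2 := by nlinarith
    have := hp0.trans hp
    gcongr
  nlinarith

theorem col_T2 (h : Two g G G' bad) {α β : ι} (k : adm g G G' bad α β) :
    col (T2 G G' α β) α ≤ 10 * (u G G' α ^ 4 * v G G' β) +
      (20 + 10 * (2 * g ^ 291)) * (u G G' α ^ 2 * u G G' β ^ 2) := by
  obtain ⟨k1, k2, -, -⟩ := g_bounds h k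
  refine le_trans ?_ (scal2 (one_le_u α) (one_le_u β) (v_nonneg β) (v_le h α) (v_nonneg α))
  have h3 : col (T2 G G' α β) α ≤ 2 * ((∑ i, G.g1 α β i ^ 2) * P0 G G' α α ^ 2) +
      2 * ((∑ i, G.g2 α β i ^ 2) * P0 G G' β α ^ 2) := by
    simp only [col, T2, mul_sum, sum_mul, ← sum_add_distrib]
    refine sum_le_sum fun i _ => ?_
    nlinarith [sq_nonneg (G.g1 α β i * P0 G G' α α - G.g2 α β i * P0 G G' β α)]
  refine h3.trans ?_
  have b1 := v_nonneg (G := G) (G' := G') α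
  have b2 := v_nonneg (G := G) (G' := G') β
  have b3 := u_nonneg (G := G) (G' := G') α
  have b4 := u_nonneg (G := G) (G' := G') β
  gcongr
  exacts [P0_sq h α α, P0_sq h β α]

theorem E_col_T2 (h : Two g G G' bad) :
    E2 (fun α β => ind (adm g G G' bad α β) * col (T2 G G' α β) α) ≤ g ^ 1000 := by
  have hg := h.one.g_pos
  have h1 : E2 (fun α β => ind (adm g G G' bad α β) * col (T2 G G' α β) α) ≤
      E2 (fun α β => 10 * (u G G' α ^ 4 * v G G' β) +
        (20 + 10 * (2 * g ^ 291)) * (u G G' α ^ 2 * u G G' β ^ 2)) :=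
    E2_mono fun α β => ind_mul_le (by
      have := v_nonneg (G := G) (G' := G') β; positivity) (col_T2 h)
  rw [E2_add, E2_const_mul, E2_const_mul] at h1
  have h2 := E_u4v h
  have h3 : (20 + 10 * (2 * g ^ 291)) * E2 (fun α β => u G G' α ^ 2 * u G G' β ^ 2) ≤
      (20 + 10 * (2 * g ^ 291)) * (16 * g ^ 44) := by gcongr; exact E_u2u2 h
  have h5 := h.one.num.pow_mono (show 44 ≤ 335 by norm_num)
  have h6 := h.one.num.const_pow (c := 2000) (by norm_num) (show 335 < 1000 by norm_num)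
  have h7 : (20 + 10 * (2 * g ^ 291)) * (16 * g ^ 44) = 320 * g ^ 44 + 320 * g ^ 335 := by ring
  have h8 : 0 < g ^ 335 := by positivity
  linarith

theorem pow_le_Qn (h : Two g G G' bad) : g ^ 1990 ≤ g ^ 14000 / (g ^ 2 * mI ι) := by
  have hg := h.one.g_pos
  have hm := h.one.m_pos
  rw [le_div_iff₀ (by positivity)]
  calc g ^ 1990 * (g ^ 2 * mI ι) ≤ g ^ 1990 * (g ^ 2 * g ^ 12002) := by gcongr; exact h.one.num.hi
    _ = g ^ 13994 := by ring
    _ ≤ _ := h.one.num.pow_mono (by norm_num)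

end Nx

theorem Two.Nxcol (h : Two g G G' bad) :
    E2 (fun α β => ind (adm g G G' bad α β) *
      col (T1 G G' α β + T2 G G' α β + T3 G G' α β) α) ≤ 1000 * Qn g G G' / (g ^ 2 * mI ι) := by
  have hg := h.one.g_pos
  have hm := h.one.m_pos
  have h1 : E2 (fun α β => ind (adm g G G' bad α β) *
      col (T1 G G' α β + T2 G G' α β + T3 G G' α β) α) ≤
      E2 (fun α β => 3 * (ind (adm g G G' bad α β) * col (T1 G G' α β) α +
        ind (adm g G G' bad α β) * col (T2 G G' α β) α +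
        ind (adm g G G' bad α β) * fro (T3 G G' α β))) := by
    refine E2_mono fun α β => ?_
    have a := col_add3 (T1 G G' α β) (T2 G G' α β) (T3 G G' α β) α
    have b := col_le_fro (T3 G G' α β) α
    have c := ind_nonneg (adm g G G' bad α β)
    calc _ ≤ ind (adm g G G' bad α β) * (3 * (col (T1 G G' α β) α + col (T2 G G' α β) α +
          fro (T3 G G' α β))) := mul_le_mul_of_nonneg_left (by linarith) c
      _ = _ := by ring
  rw [E2_const_mul, E2_add, E2_add] at h1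
  have h2 := E_col_T1 h
  have h3 := E_col_T2 h
  have h4 := h.Nx3
  have h5 := pow_le_Qn h
  have h6 := h.one.num.pow_mono (show 1000 ≤ 1990 by norm_num)
  have hN : 0 ≤ NN G G' / (g ^ 2 * mI ι) := div_nonneg (fro_nonneg _) (by positivity)
  have h7 : 0 < g ^ 1000 := by positivity
  have e1 : 1000 * Qn g G G' / (g ^ 2 * mI ι) =
      1000 * (NN G G' / (g ^ 2 * mI ι)) + 1000 * (g ^ 14000 / (g ^ 2 * mI ι)) := by
    unfold Qn; ring
  rw [mul_div_assoc] at h2
  rw [e1]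
  linarith

end Vale.Agent.P049
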