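import Vale.Agent.P049.FactA

set_option maxRecDepth 100000

namespace Vale.Agent.P049

open Finset

namespace Pert

theorem mul_pert {a a' b b' B η : ℝ} (h1 : |a' - a| ≤ η) (h2 : |b' - b| ≤ η) (ha : |a| ≤ B)
    (hb : |b| ≤ B) (hη : η ≤ 1) (hB : 1 ≤ B) : |a' * b' - a * b| ≤ 3 * B * η := by
  have η0 : 0 ≤ η := (abs_nonneg _).trans h1
  rw [show a' * b' - a * b = (a' - a) * b + a * (b' - b) + (a' - a) * (b' - b) by ring]
  refine (abs_add_three _ _ _).trans ?_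
  simp only [abs_mul]
  nlinarith [mul_le_mul h1 hb (abs_nonneg _) η0, mul_le_mul ha h2 (abs_nonneg _) (by linarith),
    mul_le_mul h1 (h2.trans (hη.trans hB)) (abs_nonneg _) η0]

theorem sq_pert {a a' B η : ℝ} (h1 : |a' - a| ≤ η) (ha : |a| ≤ B) (hη : η ≤ 1) (hB : 1 ≤ B) :
    |a' ^ 2 - a ^ 2| ≤ 3 * B * η := by
  rw [sq, sq]; exact mul_pert h1 h1 ha ha hη hB

theorem sum_bd {κ : Type} {F : Finset κ} {M η : ℝ} (hm : (F.card : ℝ) ≤ M) (η0 : 0 ≤ η)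
    {f : κ → ℝ} (h : ∀ i ∈ F, |f i| ≤ η) : |∑ i ∈ F, f i| ≤ M * η :=
  (abs_sum_le_sum_abs _ _).trans ((sum_le_card_nsmul _ _ _ h).trans (by
    rw [nsmul_eq_mul]; exact mul_le_mul_of_nonneg_right hm η0))

theorem sum_pert {κ : Type} {F : Finset κ} {M η : ℝ} (hm : (F.card : ℝ) ≤ M) (η0 : 0 ≤ η)
    {f f' : κ → ℝ} (h : ∀ i ∈ F, |f' i - f i| ≤ η) :
    |∑ i ∈ F, f' i - ∑ i ∈ F, f i| ≤ M * η := by
  rw [← sum_sub_distrib]; exact sum_bd hm η0 h

theorem fac {x x' y y' η ε : ℝ} (x0 : 0 ≤ x) (y0 : 0 < y) (y1 : 0 < y') (hx : x' ≤ x + η)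
    (hy : y ≤ y' * (1 + ε)) (hη : η ≤ ε * y') : 1 + x' / y' ≤ (1 + x / y) * (1 + ε) := by
  have h1 : x / y' ≤ x / y * (1 + ε) := by
    rw [div_mul_eq_mul_div, div_le_div_iff₀ y1 y0]
    linarith [mul_le_mul_of_nonneg_left hy x0]
  have h2 : η / y' ≤ ε := (div_le_iff₀ y1).2 hη
  have h3 := div_le_div_of_nonneg_right hx y1.le
  rw [add_div] at h3
  linarith

variable {κ : Type} {F : Finset κ} {Y R : κ → κ → ℝ} {M δ : ℝ}

theorem ent (hm : (F.card : ℝ) ≤ M) (hM : 1 ≤ M) (hZ : 1 ≤ zz F Y) {i : κ} (hi : i ∈ F) :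
    rho F Y i ≤ M ∧ ∀ j ∈ F, |Y i j| ≤ M := by
  have h1 : rho F Y i ≤ M := (single_le_sum (f := rho F Y)
    (fun _ _ => sum_nonneg fun _ _ => sq_nonneg _) hi).trans (by
      unfold zz tau2 at hZ; linarith)
  exact ⟨h1, fun j hj => abs_le_of_sq_le_sq ((single_le_sum (f := fun j => Y i j ^ 2)
    (fun _ _ => sq_nonneg _) hj).trans (h1.trans (by nlinarith))) (by linarith)⟩

theorem moves (hm : (F.card : ℝ) ≤ M) (hM : 1 ≤ M) (hZ : 1 ≤ zz F Y) (δ0 : 0 ≤ δ)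
    (hR : ∀ i ∈ F, ∀ j ∈ F, |R i j - Y i j| ≤ δ) (hδ : 9 * M ^ 4 * δ ≤ 1) :
    |tau2 F R - tau2 F Y| ≤ 9 * M ^ 4 * δ ∧
    max (tau1 F R) 0 ^ 2 ≤ max (tau1 F Y) 0 ^ 2 + 9 * M ^ 4 * δ ∧
    max (-tau1 F R) 0 ^ 2 ≤ max (-tau1 F Y) 0 ^ 2 + 9 * M ^ 4 * δ ∧
    vS F R ≤ vS F Y + 9 * M ^ 4 * δ ∧ dS F R ≤ dS F Y + 9 * M ^ 4 * δ := by
  have p : ∀ k ≤ 4, 3 * M ^ k * δ ≤ 9 * M ^ 4 * δ := fun k hk => by
    have := pow_le_pow_right₀ hM hk
    have := pow_nonneg (zero_le_one.trans hM) 4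
    gcongr ?_ * δ; linarith
  have M0 : 0 ≤ M := by linarith
  have d1 : δ ≤ 1 := by linarith [p 0 (by norm_num)]
  have e1 := fun i hi j hj => sq_pert (hR i hi j hj) ((ent hm hM hZ hi).2 j hj) d1 hM
  have e2 : ∀ i ∈ F, |rho F R i - rho F Y i| ≤ M * (3 * M * δ) := fun i hi =>
    sum_pert hm (by positivity) (e1 i hi)
  have e3 : |tau1 F R - tau1 F Y| ≤ M * δ := sum_pert hm δ0 fun i hi => hR i hi i hi
  have e4 : |tau1 F Y| ≤ M * M := sum_bd hm M0 fun i hi => (ent hm hM hZ hi).2 i hi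
  have e5 : ∀ a a' : ℝ, |a' - a| ≤ M * δ → |a| ≤ M * M →
      max a' 0 ^ 2 ≤ max a 0 ^ 2 + 9 * M ^ 4 * δ := fun a a' h1 h2 => by
    have := (abs_le.1 (sq_pert ((abs_max_sub_max_le_abs a' a 0).trans h1) (B := M * M)
      (by rw [abs_of_nonneg (le_max_right _ _)]
          exact max_le ((le_abs_self _).trans h2) (by positivity))
      (by nlinarith [p 1 (by norm_num), mul_nonneg M0 δ0]) (by nlinarith))).2
    linarith [p 3 (by norm_num)]
  refine ⟨(sum_pert hm (by positivity) e2).trans (by linarith [p 3 (by norm_num)]), e5 _ _ e3 e4,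
    e5 _ _ (by rwa [neg_sub_neg, abs_sub_comm]) (by rwa [abs_neg]), ?_, ?_⟩
  · have := (abs_le.1 (sum_pert (f := fun i => (rho F Y i - 1) ^ 2)
      (f' := fun i => (rho F R i - 1) ^ 2) hm (by positivity) fun i hi =>
      sq_pert (by rw [sub_sub_sub_cancel_right]; exact e2 i hi) (B := M) (η := M * (3 * M * δ)) (by
        have : 0 ≤ rho F Y i := sum_nonneg fun _ _ => sq_nonneg _
        have := (ent hm hM hZ hi).1
        rw [abs_le]; constructor <;> linarith) (by linarith [p 2 (by norm_num)]) hM)).2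
    unfold vS; linarith
  · have := (abs_le.1 (sum_pert hm (by positivity) fun i hi => e1 i hi i hi)).2
    unfold dS; linarith [p 2 (by norm_num)]

theorem moveN {Y' R' : κ → κ → ℝ} (hm : (F.card : ℝ) ≤ M) (hM : 1 ≤ M) (hZ : 1 ≤ zz F Y)
    (hZ' : 1 ≤ zz F Y') (δ0 : 0 ≤ δ) (hR : ∀ i ∈ F, ∀ j ∈ F, |R i j - Y i j| ≤ δ)
    (hR' : ∀ i ∈ F, ∀ j ∈ F, |R' i j - Y' i j| ≤ δ) (hδ : 9 * M ^ 4 * δ ≤ 1) :
    nS F R R' ≤ nS F Y Y' + 9 * M ^ 7 * δ := by
  have p : ∀ k ≤ 4, 3 * M ^ k * δ ≤ 1 := fun k hk => le_trans (by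
    have := pow_le_pow_right₀ hM hk
    have := pow_nonneg (zero_le_one.trans hM) 4
    gcongr ?_ * δ; linarith) hδ
  have M0 : 0 ≤ M := by linarith
  have d1 : δ ≤ 1 := by linarith [p 0 (by norm_num)]
  have := (abs_le.1 (sum_pert hm (by positivity) fun i hi => sum_pert hm (by positivity) fun j hj =>
    sq_pert (sum_pert hm (by positivity) fun l hl => mul_pert (hR i hi l hl) (hR' l hl j hj)
      ((ent hm hM hZ hi).2 l hl) ((ent hm hM hZ' hl).2 j hj) d1 hM)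
      (sum_bd hm (mul_nonneg M0 M0) fun l hl => (abs_mul _ _).le.trans (mul_le_mul
        ((ent hm hM hZ hi).2 l hl) ((ent hm hM hZ' hl).2 j hj) (abs_nonneg _) M0))
      (by linarith [p 2 (by norm_num)]) (by nlinarith [mul_nonneg M0 M0]))).2
  unfold nS; linarith

theorem frac_lo {m c L : ℝ} (hm : 1 ≤ m) (hc : 1 ≤ c) (hL : 4 * c ≤ L) :
    1 / L ≤ 1 / 2 * (m / (m + c)) := by
  rw [div_mul_div_comm, div_le_div_iff₀ (by linarith) (by positivity)]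
  nlinarith

theorem one [DecidableEq κ] {g ε : ℝ} (hg : 4 ≤ g) (hm : (F.card : ℝ) ≤ M) (hM : 1 ≤ M)
    (hZ : 1 ≤ zz F Y) (δ0 : 0 ≤ δ) (hR : ∀ i ∈ F, ∀ j ∈ F, |R i j - Y i j| ≤ δ) (ε1 : ε ≤ 1)
    (hδ : g ^ 8000 * (9 * M ^ 4 * δ) ≤ ε * (1 / g ^ 8000)) :
    1 / 2 ≤ zz F R ∧ F.card / zz F R ≤ F.card / zz F Y * (1 + ε) ∧
      phi1 g F R √(F.card * zz F R) ≤ phi1 g F Y √(F.card * zz F Y) * (1 + ε) ^ 5 := by
  have g1 : 1 ≤ g := by linarith
  have L4 : ∀ j < 8000, 4 * g ^ j ≤ g ^ 8000 := fun j hj =>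
    (mul_le_mul_of_nonneg_right hg (pow_nonneg (by linarith) j)).trans
      ((pow_succ' g j).ge.trans (pow_le_pow_right₀ g1 hj))
  have Z0 : 0 < zz F Y := by linarith
  have m1 : (1 : ℝ) ≤ F.card := hZ.trans (sub_le_self _ (FactA.t2_nonneg F Y))
  have a1 : 1 / g ^ 8000 ≤ 1 / 2 * hh g F.card := frac_lo m1 (one_le_pow₀ g1) (L4 _ (by norm_num))
  have a2 : 1 / g ^ 8000 ≤ 1 / 2 * h2 g F.card := frac_lo m1 (one_le_pow₀ g1) (L4 _ (by norm_num))
  have a3 := L4 0 (by norm_num)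
  obtain ⟨b1, b2, b3, b4, b5⟩ := FactA.five g1 Z0 (Real.sqrt_nonneg (F.card * zz F Y))
  have G : ∀ j, 1 ≤ g ^ j := fun j => one_le_pow₀ g1
  have G1 := G 4
  have G2 := G 125
  have G3 := G 10
  have G4 := G 280
  unfold phi1
  generalize g ^ 8000 = L at *
  generalize g ^ 4 = L1 at *
  generalize g ^ 125 = L2 at *
  generalize g ^ 10 = L3 at *
  generalize g ^ 280 = L4 at *
  generalize hh g F.card = H at *
  generalize h2 g F.card = H' at *
  have η0 : 0 ≤ 9 * M ^ 4 * δ := by positivity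
  rw [pow_zero] at a3
  have L' : 0 < L := by linarith
  have L0 : 0 < 1 / L := by positivity
  have a4 : 1 / L ≤ 1 / 4 := one_div_le_one_div_of_le (by norm_num) (by linarith)
  have hη : 9 * M ^ 4 * δ ≤ ε * (1 / L) := (le_mul_of_one_le_left η0 (by linarith)).trans hδ
  have ε0 : 0 ≤ ε := nonneg_of_mul_nonneg_left (η0.trans hη) L0
  have hη' : ε * (1 / L) ≤ ε / 4 := by linarith [mul_le_mul_of_nonneg_left a4 ε0]
  obtain ⟨c1, c2, c3, c4, c5⟩ := moves hm hM hZ δ0 hR (by linarith)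
  generalize 9 * M ^ 4 * δ = η at *
  obtain ⟨c0, c1⟩ := abs_le.1 c1
  have z1 : 1 / 2 ≤ zz F R := by unfold zz at *; linarith
  have z2 : zz F Y ≤ zz F R * (1 + ε) := by
    have := mul_le_mul_of_nonneg_right z1 ε0
    unfold zz at *; linarith
  have t0 := FactA.t2_nonneg F Y
  have V0 : 0 ≤ vS F Y := sum_nonneg fun _ _ => sq_nonneg _
  have D0 : 0 ≤ dS F Y := sum_nonneg fun _ _ => sq_nonneg _
  generalize zz F R = Z' at *
  generalize zz F Y = Z at *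
  generalize (F.card : ℝ) = m at *
  have H0 : 0 < H := by linarith
  have H1 : 0 < H' := by linarith
  have Z1 : 0 < Z' := by linarith
  have s1 : 1 / 2 ≤ m * Z' := z1.trans (le_mul_of_one_le_left Z1.le m1)
  have s2 : 1 / 2 ≤ √(m * Z') := Real.le_sqrt_of_sq_le (by linarith)
  have s3 : √(m * Z) ≤ √(m * Z') * (1 + ε) := Real.sqrt_le_iff.2 ⟨by positivity, by
    rw [mul_pow, Real.sq_sqrt (by linarith), sq, ← mul_assoc]
    exact le_trans (by rw [mul_assoc]; gcongr) (le_mul_of_one_le_right (by positivity) (by linarith))⟩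
  have lo : ∀ y, 1 / L ≤ y → η ≤ ε * y := fun y hy => hη.trans (mul_le_mul_of_nonneg_left hy ε0)
  have q : ∀ c, 1 ≤ c → c * Z * H ≤ c * Z' * H * (1 + ε) ∧ 1 / L ≤ c * Z' * H := fun c hc =>
    ⟨by rw [mul_right_comm _ H, mul_assoc c Z']; gcongr, a1.trans (mul_le_mul_of_nonneg_right
      (z1.trans (le_mul_of_one_le_left Z1.le hc)) H0.le)⟩
  have f1 := fac (x := L * tau2 F Y) (x' := L * tau2 F R) (y := m * Z) (y' := m * Z') (η := L * η)
    (ε := ε) (by positivity) (by positivity) (by positivity)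
    (by rw [← mul_add]; gcongr; linarith) (by rw [mul_assoc]; gcongr)
    (hδ.trans (mul_le_mul_of_nonneg_left (by linarith) ε0))
  have f2 := fac (sq_nonneg _) (by positivity) (by positivity) c2 (q _ G1).1 (lo _ (q _ G1).2)
  have f3 := fac (sq_nonneg _) (by positivity) (by positivity) c3 (q _ G2).1 (lo _ (q _ G2).2)
  have f4 := fac (y := L3 * √(m * Z)) (y' := L3 * √(m * Z')) V0 (by positivity) (by positivity) c4
    (by rw [mul_assoc]; gcongr) (lo _ (le_trans (by linarith) (le_mul_of_one_le_left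
      (Real.sqrt_nonneg _) G3)))
  have f5 := fac (y := L4 * H') (y' := L4 * H') D0 (by positivity) (by positivity) c5
    (le_mul_of_one_le_right (by positivity) (by linarith))
    (lo _ (le_trans (by linarith) (le_mul_of_one_le_left H1.le G4)))
  refine ⟨z1, ?_, ?_⟩
  · rw [div_mul_eq_mul_div, div_le_div_iff₀ Z1 Z0, mul_assoc, mul_comm (1 + ε)]
    gcongr
  have t1 := FactA.t2_nonneg F R
  have V1 : 0 ≤ vS F R := sum_nonneg fun _ _ => sq_nonneg _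
  have D1 : 0 ≤ dS F R := sum_nonneg fun _ _ => sq_nonneg _
  refine (mul_le_mul (mul_le_mul (mul_le_mul (mul_le_mul f1 f2 (by positivity) (by positivity)) f3
    (by positivity) (by positivity)) f4 (by positivity) (by positivity)) f5 (by positivity)
    (by positivity)).trans_eq ?_
  generalize 1 + ε = e
  simp only [pow_succ, pow_zero, one_mul]
  ac_rfl

theorem fin {a a' b b' c c' d r r' s s' e : ℝ} (a0 : 0 ≤ a') (b0 : 0 ≤ b') (c0 : 0 ≤ c')
    (d0 : 0 ≤ d) (r0 : 0 ≤ r') (s0 : 0 ≤ s') (ha : a' ≤ a * e ^ 5) (hb : b' ≤ b * e ^ 5)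
    (hc : c' ≤ c * e) (hr : r' ≤ r * e) (hs : s' ≤ s * e) (k : ℕ) :
    (a' * b' * c' * d) ^ k * r' * s' ≤ (a * b * c * d) ^ k * r * s * e ^ (11 * k + 2) := by
  have a1 := a0.trans ha
  have b1 := b0.trans hb
  have c1 := c0.trans hc
  have r1 := r0.trans hr
  calc _ ≤ (a * e ^ 5 * (b * e ^ 5) * (c * e) * d) ^ k * (r * e) * (s * e) := by gcongr
    _ = _ := by ring

end Pert

open Pert in
theorem phi_pert {κ : Type} [DecidableEq κ] {F : Finset κ} {Y Y' R R' : κ → κ → ℝ} {g b : ℝ}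
    (hg : 10 ^ 30 ≤ g) (hm : (F.card : ℝ) ≤ g ^ 12002) (hZ : 1 ≤ zz F Y) (hZ' : 1 ≤ zz F Y')
    (hR : ∀ i ∈ F, ∀ j ∈ F, |R i j - Y i j| ≤ 1 / g ^ 100000)
    (hR' : ∀ i ∈ F, ∀ j ∈ F, |R' i j - Y' i j| ≤ 1 / g ^ 100000) (hb : 0 ≤ b) :
    1 / 2 ≤ zz F R ∧ 1 / 2 ≤ zz F R' ∧
      Phi g F R R' b ≤ Phi g F Y Y' b * Real.exp (1 / (4 * F.card)) := by
  have g1 : 1 ≤ g := le_trans (by norm_num) hg
  have g9 : 9 ≤ g := le_trans (by norm_num) hg
  have g0 : 0 < g := by linarith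
  have P : ∀ j, 0 < g ^ j := pow_pos g0
  have G : ∀ j, 1 ≤ g ^ j := fun j => one_le_pow₀ g1
  have k : ∀ i j, 12002 * i + j < 100000 → 9 * (g ^ 12002) ^ i * (1 / g ^ 100000) ≤ 1 / g ^ j := by
    intro i j hj
    rw [mul_one_div, div_le_div_iff₀ (P _) (P _), one_mul, ← pow_mul, mul_assoc, ← pow_add]
    exact (mul_le_mul_of_nonneg_right g9 (P _).le).trans
      ((pow_succ' g _).ge.trans (pow_le_pow_right₀ g1 hj))
  have ε1 : 1 / g ^ 12003 ≤ 1 := div_le_one_of_le₀ (G _) (P _).le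
  have k1 : g ^ 8000 * (9 * (g ^ 12002) ^ 4 * (1 / g ^ 100000)) ≤
      1 / g ^ 12003 * (1 / g ^ 8000) := by
    refine (mul_le_mul_of_nonneg_left (k 4 (8000 + (12003 + 8000)) (by norm_num)) (P _).le).trans_eq ?_
    rw [pow_add, pow_add, mul_one_div, div_mul_cancel_left₀ (P _).ne', one_div_mul_one_div, one_div]
  have δ0 : 0 ≤ 1 / g ^ 100000 := (one_div_pos.2 (P _)).le
  obtain ⟨a1, a2, a3⟩ := one (by linarith) hm (G _) hZ δ0 hR ε1 k1
  obtain ⟨b1, b2, b3⟩ := one (by linarith) hm (G _) hZ' δ0 hR' ε1 k1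
  have z1 : 0 < zz F R := lt_of_lt_of_le (by norm_num) a1
  have z2 : 0 < zz F R' := lt_of_lt_of_le (by norm_num) b1
  have ε0 : 0 < 1 / g ^ 12003 := one_div_pos.2 (P _)
  have c := fac (x := nS F Y Y') (ε := 1 / g ^ 12003)
    (sum_nonneg fun _ _ => sum_nonneg fun _ _ => sq_nonneg _) (P 14000)
    (P 14000) (moveN hm (G _) hZ hZ' δ0 hR hR' ((k 4 0 (by norm_num)).trans_eq (by simp)))
    (le_mul_of_one_le_right (P _).le (le_add_of_nonneg_right ε0.le))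
    ((k 7 12003 (by norm_num)).trans (le_mul_of_one_le_right ε0.le (G _)))
  refine ⟨a1, b1, (fin (zero_le_one.trans (one_le_phi1 g1 z1 (Real.sqrt_nonneg _)))
    (zero_le_one.trans (one_le_phi1 g1 z2 (Real.sqrt_nonneg _)))
    (zero_le_one.trans (FactA.nS_fac g1 F R R')) (zero_le_one.trans (FactA.one_le hb (sq_nonneg _)))
    (zero_le_one.trans (FactA.ratio z1)) (zero_le_one.trans (FactA.ratio z2)) a3 b3 c a2 b2
    12000).trans (mul_le_mul_of_nonneg_left ?_ (zero_le_one.trans (one_le_Phi g1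
      (zero_lt_one.trans_le hZ) (zero_lt_one.trans_le hZ') hb)))⟩
  have m0 := FactA.m_pos z1
  refine (pow_le_pow_left₀ (add_nonneg zero_le_one ε0.le)
    ((add_comm _ _).le.trans (Real.add_one_le_exp _)) _).trans ?_
  rw [← Real.exp_nat_mul, Real.exp_le_exp, mul_one_div, div_le_div_iff₀ (P _) (by positivity),
    one_mul, pow_succ' g 12002]
  generalize g ^ 12002 = M at *
  push_cast
  nlinarith

end Vale.Agent.P049
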