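import Vale.Agent.P049.FactA

namespace Vale.Agent.P049

open Finset

variable {κ : Type} [DecidableEq κ] {F : Finset κ} {Y Y' : κ → κ → ℝ} {Q : ℕ} {c g : ℝ}

namespace Round

omit [DecidableEq κ] in
theorem lap {E : κ → κ → ℝ} (h1 : ∀ i ∈ F, ∀ j ∈ F, E i j = E j i) (h2 : ∀ i ∈ F, ∑ j ∈ F, E i j = 0)
    (h3 : ∀ i ∈ F, ∀ j ∈ F, i ≠ j → E i j ≤ 0) (y : κ → ℝ) : 0 ≤ qf F E y := by
  have a1 : ∑ i ∈ F, ∑ j ∈ F, E i j * (y i - y j) ^ 2 ≤ 0 :=
    sum_nonpos fun i hi => sum_nonpos fun j hj => by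
      by_cases e : i = j
      · rw [e, sub_self]; simp
      · exact mul_nonpos_of_nonpos_of_nonneg (h3 i hi j hj e) (sq_nonneg _)
  have a2 : ∑ i ∈ F, ∑ j ∈ F, y i ^ 2 * E i j = 0 :=
    sum_eq_zero fun i hi => by rw [← mul_sum, h2 i hi, mul_zero]
  have a3 : ∑ i ∈ F, ∑ j ∈ F, y j ^ 2 * E i j = 0 := by
    rw [sum_comm, ← a2]
    exact sum_congr rfl fun i hi => sum_congr rfl fun j hj => by rw [h1 i hi j hj]
  have a4 : ∀ i j, E i j * (y i - y j) ^ 2 =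
      y i ^ 2 * E i j + y j ^ 2 * E i j - 2 * (y i * E i j * y j) := fun i j => by ring
  simp only [a4, sum_sub_distrib, sum_add_distrib, a2, a3] at a1
  simp only [← mul_sum] at a1
  unfold qf
  linarith

theorem off {i j : κ} (hi : i ∈ F) (hj : j ∈ F) (h : i ≠ j) :
    rnd Q F Y i j = (⌊Q * Y i j⌋ : ℝ) / Q := by simp only [rnd, hi, hj, and_self, if_true, if_neg h]

theorem row {i : κ} (hi : i ∈ F) : ∑ j ∈ F, rnd Q F Y i j = 0 := by
  rw [← add_sum_erase _ _ hi, sum_congr rfl fun j hj =>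
    off hi (mem_of_mem_erase hj) (ne_of_mem_erase hj).symm]
  simp only [rnd, hi, and_self, if_true]
  rw [← add_sum_erase _ _ hi, if_pos rfl, zero_add,
    sum_congr rfl fun j hj => if_neg (ne_of_mem_erase hj), neg_add_cancel]

theorem symm (h : Game c F Y) {i j : κ} (hi : i ∈ F) (hj : j ∈ F) :
    rnd Q F Y i j = rnd Q F Y j i := by
  by_cases e : i = j
  · rw [e]
  · rw [off hi hj e, off hj hi (Ne.symm e), h.symm i hi j hj]

theorem off_le (hQ : 0 < Q) (x : ℝ) : (⌊Q * x⌋ : ℝ) / Q - x ≤ 0 ∧ -(1 / Q) ≤ (⌊Q * x⌋ : ℝ) / Q - x := by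
  have hQ' : (0 : ℝ) < Q := by exact_mod_cast hQ
  have h1 := Int.floor_le (Q * x)
  have h2 := Int.lt_floor_add_one (Q * x)
  constructor
  · rw [sub_nonpos, div_le_iff₀ hQ']; linarith
  · rw [le_sub_iff_add_le, le_div_iff₀ hQ', add_mul, neg_mul, one_div, inv_mul_cancel₀ hQ'.ne']
    linarith

omit [DecidableEq κ] in
theorem tHat_facts (hQ : 0 < Q) (h1 : 1 ≤ F.card * zz F Y) : 1 ≤ tHat Q F Y ∧
    tHat Q F Y ≤ √(F.card * zz F Y) ∧ √(F.card * zz F Y) ≤ tHat Q F Y + 1 / Q := by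
  have hQ' : (0 : ℝ) < Q := by exact_mod_cast hQ
  rw [tHat]
  set x := F.card * zz F Y
  have h0 : 0 ≤ (Q : ℝ) ^ 2 * x := by positivity
  rw [Int.floor_toNat]
  set N := ⌊(Q : ℝ) ^ 2 * x⌋₊ with hN
  have a1 : Q ^ 2 ≤ N := Nat.le_floor (by push_cast; nlinarith)
  have a2 : Q ≤ Nat.sqrt N := Nat.le_sqrt'.2 a1
  have a3 : ((Nat.sqrt N : ℕ) : ℝ) ^ 2 ≤ N := by exact_mod_cast Nat.sqrt_le' N
  have a4 : (N : ℝ) + 1 ≤ ((Nat.sqrt N : ℕ) + 1 : ℝ) ^ 2 := by exact_mod_cast Nat.lt_succ_sqrt' N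
  have a5 := Nat.floor_le h0
  have a6 := Nat.lt_floor_add_one ((Q : ℝ) ^ 2 * x)
  refine ⟨(one_le_div hQ').2 (by exact_mod_cast a2), Real.le_sqrt_of_sq_le ?_, ?_⟩
  · rw [div_pow, div_le_iff₀ (by positivity)]; linarith
  · rw [← add_div]
    refine Real.sqrt_le_iff.2 ⟨by positivity, ?_⟩
    rw [div_pow, le_div_iff₀ (by positivity)]; linarith

omit [DecidableEq κ] in
theorem zz_pos (h1 : 1 ≤ F.card * zz F Y) : 0 < zz F Y :=
  pos_of_mul_pos_right (a := (F.card : ℝ)) (by linarith) (Nat.cast_nonneg F.card)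

omit [DecidableEq κ] in
theorem phi1_le (hg : 1 ≤ g) (hZ : 0 < zz F Y) {t t' r : ℝ} (ht : 0 < t) (ht' : 0 < t') (hr : 1 ≤ r)
    (h : t ≤ r * t') : phi1 g F Y t' ≤ r * phi1 g F Y t := by
  obtain ⟨a1, a2, a3, -, a5⟩ := FactA.five hg hZ ht.le
  have g0 : 0 < g ^ 10 := by positivity
  have v0 : 0 ≤ vS F Y := sum_nonneg fun _ _ => sq_nonneg _
  have k : 1 + vS F Y / (g ^ 10 * t') ≤ r * (1 + vS F Y / (g ^ 10 * t)) := by
    rw [mul_add, mul_one]
    refine add_le_add hr ?_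
    rw [← mul_div_assoc, div_le_div_iff₀ (by positivity) (by positivity)]
    nlinarith [mul_le_mul_of_nonneg_left h (mul_nonneg v0 g0.le)]
  unfold phi1
  refine le_trans (mul_le_mul_of_nonneg_right (mul_le_mul_of_nonneg_left k
    (mul_nonneg (mul_nonneg (by linarith) (by linarith)) (by linarith))) (by linarith))
    (le_of_eq (by ring))

theorem phiT_le (hg : 1 ≤ g) (hZ : 0 < zz F Y) (hZ' : 0 < zz F Y') {b : ℝ} (hb : 0 ≤ b)
    {t t' s s' r : ℝ} (ht : 0 < t) (ht' : 0 < t') (hs : 0 < s) (hs' : 0 < s') (hr : 1 ≤ r)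
    (h : t ≤ r * t') (h' : s ≤ r * s') :
    phiT g F Y Y' b t' s' ≤ phiT g F Y Y' b t s * r ^ 24000 := by
  have a1 := phi1_le hg hZ ht ht' hr h
  have a2 := phi1_le hg hZ' hs hs' hr h'
  have b1 := one_le_phi1 hg hZ ht'.le
  have b2 := one_le_phi1 hg hZ' hs'.le
  have b3 := FactA.nS_fac hg F Y Y'
  have b4 := FactA.one_le hb (sq_nonneg (F.card : ℝ))
  have b5 := FactA.ratio hZ
  have b6 := FactA.ratio hZ'
  have a3 := mul_le_mul a1 a2 (by linarith) (by linarith)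
  unfold phiT
  generalize 1 + nS F Y Y' / g ^ 14000 = A at *
  generalize 1 + b / (F.card : ℝ) ^ 2 = B at *
  have a4 : phi1 g F Y t' * phi1 g F Y' s' * A * B ≤
      phi1 g F Y t * phi1 g F Y' s * A * B * r ^ 2 :=
    le_trans (mul_le_mul_of_nonneg_right (mul_le_mul_of_nonneg_right a3 (by linarith))
      (by linarith)) (le_of_eq (by ring))
  have a5 := pow_le_pow_left₀ (mul_nonneg (mul_nonneg (mul_nonneg (by linarith) (by linarith))
    (by linarith)) (by linarith)) a4 12000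
  rw [mul_pow _ (r ^ 2), ← pow_mul, show 2 * 12000 = 24000 by norm_num] at a5
  generalize (phi1 g F Y t' * phi1 g F Y' s' * A * B) ^ 12000 = X at *
  generalize (phi1 g F Y t * phi1 g F Y' s * A * B) ^ 12000 = X' at *
  generalize r ^ 24000 = R at *
  exact le_trans (mul_le_mul_of_nonneg_right (mul_le_mul_of_nonneg_right a5 (by linarith))
    (by linarith)) (le_of_eq (by ring))

end Round

open Round

theorem rnd_qf (hQ : 0 < Q) (h : Game c F Y) (y : κ → ℝ) : qf F Y y ≤ qf F (rnd Q F Y) y := by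
  have := lap (F := F) (E := fun i j => rnd Q F Y i j - Y i j)
    (fun i hi j hj => by rw [symm h hi hj, h.symm i hi j hj])
    (fun i hi => by rw [sum_sub_distrib, row hi, h.row i hi, sub_self])
    (fun i hi j hj e => by rw [Round.off hi hj e]; exact (off_le hQ _).1) y
  simp only [qf, mul_sub, sub_mul, sum_sub_distrib] at this ⊢
  linarith

theorem rnd_game (hQ : 0 < Q) (h : Game c F Y) : Game c F (rnd Q F Y) :=
  ⟨fun _ hi _ hj => symm h hi hj, fun _ hi => row hi, fun y => by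
    linarith [h.psd y, rnd_qf hQ h y]⟩

theorem rnd_dom (hQ : 0 < Q) (hc : c ^ 2 < 1) (h : Game c F Y) {x : κ → ℝ} {H : ℝ}
    (hd : Dom c F Y x H) : Dom c F (rnd Q F Y) x H := fun y =>
  (hd y).trans (add_le_add_right (div_le_div_of_nonneg_right (by linarith [rnd_qf hQ h y])
    (by linarith)) _)

theorem rnd_close (hQ : 0 < Q) (h : Game c F Y) {i j : κ} (hi : i ∈ F) (hj : j ∈ F) :
    |rnd Q F Y i j - Y i j| ≤ F.card / Q := by
  have hQ' : (0 : ℝ) < Q := by exact_mod_cast hQ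
  have k : ∀ j ∈ F, i ≠ j → |rnd Q F Y i j - Y i j| ≤ 1 / Q := fun j hj e => by
    rw [Round.off hi hj e]
    exact abs_le.2 ⟨(off_le hQ _).2, (off_le hQ _).1.trans (by positivity)⟩
  by_cases e : i = j
  · subst e
    have a1 := row (Q := Q) (Y := Y) hi
    have a2 := h.row i hi
    rw [← add_sum_erase _ _ hi] at a1 a2
    have a3 : rnd Q F Y i i - Y i i = -∑ j ∈ F.erase i, (rnd Q F Y i j - Y i j) := by
      rw [sum_sub_distrib]; linarith
    rw [a3, abs_neg]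
    refine (abs_sum_le_sum_abs _ _).trans ((sum_le_card_nsmul _ _ _ fun j hj =>
      k j (mem_of_mem_erase hj) (ne_of_mem_erase hj).symm).trans ?_)
    rw [nsmul_eq_mul, mul_one_div]
    exact div_le_div_of_nonneg_right (by exact_mod_cast card_erase_le) hQ'.le
  · exact (k j hj e).trans (div_le_div_of_nonneg_right
      (by exact_mod_cast card_pos.2 ⟨i, hi⟩) hQ'.le)

theorem Phi_le_phiH (hg : 1 ≤ g) (hQ : 0 < Q) (h1 : 1 ≤ F.card * zz F Y) (h2 : 1 ≤ F.card * zz F Y')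
    {b : ℝ} (hb : 0 ≤ b) : Phi g F Y Y' b ≤ phiH Q g F Y Y' b := by
  obtain ⟨a1, a2, -⟩ := tHat_facts hQ h1
  obtain ⟨b1, b2, -⟩ := tHat_facts hQ h2
  have := phiT_le hg (zz_pos h1) (zz_pos h2) hb (t := tHat Q F Y) (s := tHat Q F Y')
    (t' := √(F.card * zz F Y)) (s' := √(F.card * zz F Y')) (r := 1) (by linarith) (by linarith)
    (by linarith) (by linarith) le_rfl (by linarith) (by linarith)
  rwa [one_pow, mul_one] at this

theorem phiH_le_Phi (hg : 1 ≤ g) (hQ : 10 ^ 7 * F.card ≤ Q) (h1 : 1 ≤ F.card * zz F Y)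
    (h2 : 1 ≤ F.card * zz F Y') {b : ℝ} (hb : 0 ≤ b) :
    phiH Q g F Y Y' b ≤ Phi g F Y Y' b * Real.exp (1 / (4 * F.card)) := by
  have m0 := FactA.m_pos (zz_pos h1)
  have hQ1 : (10 : ℝ) ^ 7 * F.card ≤ Q := by exact_mod_cast hQ
  have hQ' : (0 : ℝ) < Q := lt_of_lt_of_le (by positivity) hQ1
  have hQ0 : 0 < Q := by exact_mod_cast hQ'
  obtain ⟨a1, a2, a3⟩ := tHat_facts hQ0 h1
  obtain ⟨b1, b2, b3⟩ := tHat_facts hQ0 h2
  have q0 : 0 < 1 / (Q : ℝ) := by positivity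
  have e1 := Real.add_one_le_exp (1 / (Q : ℝ))
  have k : ∀ t s : ℝ, 1 ≤ t → s ≤ t + 1 / Q → s ≤ Real.exp (1 / Q) * t := fun t s h1 h2 => by
    nlinarith
  have := phiT_le hg (zz_pos h1) (zz_pos h2) hb (t' := tHat Q F Y) (s' := tHat Q F Y')
    (t := √(F.card * zz F Y)) (s := √(F.card * zz F Y')) (r := Real.exp (1 / Q)) (by linarith)
    (by linarith) (by linarith) (by linarith) (by linarith) (k _ _ a1 a3) (k _ _ b1 b3)
  refine this.trans (mul_le_mul_of_nonneg_left ?_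
    (zero_le_one.trans (one_le_Phi hg (zz_pos h1) (zz_pos h2) hb)))
  rw [← Real.exp_nat_mul, Real.exp_le_exp, mul_one_div, div_le_div_iff₀ hQ' (by positivity)]
  push_cast
  nlinarith

end Vale.Agent.P049
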