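import Vale.Agent.P049.ToolG

set_option linter.unusedSectionVars false
set_option maxRecDepth 100000

namespace Vale.Agent.P049

open Finset

variable {ι : Type} [Fintype ι] [DecidableEq ι] {g : ℝ} {G G' : Gm ι} {bad : ι → ι → Bool}

namespace TauP

theorem W_pos (h : One g G) : 0 < G.Z * hI g ι := mul_pos h.Z_pos h.h_pos

theorem W_ge (h : One g G) : mI ι * zeI g ι ^ 2 * hI g ι ≤ G.Z * hI g ι := by
  refine mul_le_mul_of_nonneg_right (le_trans ?_ h.Zlo) h.h_pos.le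
  have := h.num.ze_le_one
  have := mul_pos h.m_pos h.ze_pos
  unfold zeI at *
  nlinarith

/-- `x ≤ √W` gives `x / (g m) ≤ 𝔟 √W`. -/
theorem le_bu (h : Two g G G' bad) {x : ℝ} (hx : x ^ 2 ≤ G.Z * hI g ι) :
    |x / (g * mI ι)| ≤ bb g G G' * √(G.Z * hI g ι) := by
  have := mul_pos h.one.g_pos h.one.m_pos
  rw [abs_div, abs_of_pos this, div_eq_mul_one_div, mul_comm]
  exact mul_le_mul h.le_bb (Real.abs_le_sqrt hx) (abs_nonneg _) h.bb_pos.le

theorem le_bu' (h : Two g G G' bad) {x c : ℝ} (hx : x ^ 2 ≤ bb g G G' ^ 2 * c) :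
    x ≤ bb g G G' * √c := by
  rw [← Real.sqrt_sq h.bb_pos.le, ← Real.sqrt_mul (sq_nonneg _)]
  exact Real.le_sqrt_of_sq_le hx

theorem bW (h : Two g G G' bad) {x : ℝ} (x0 : 0 ≤ x) (hx : x / g ≤ bb g G G') :
    x * (g ^ 118 * G.l2 ^ 2) ≤ bb g G G' ^ 2 * (G.Z * hI g ι) := by
  have g0 := h.one.g_pos
  have h1 := mul_le_mul hx h.A_le_bb (div_nonneg h.one.A_nonneg g0.le) h.bb_pos.le
  have h2 := mul_le_mul_of_nonneg_right h1 (W_pos h.one).le
  have h3 : x / g * (G.A g / g) * (G.Z * hI g ι) = x / g ^ 2 * G.GG g := by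
    rw [← h.one.A_mul]; field_simp
  have h4 := mul_le_mul_of_nonneg_left h.one.l2_le_GG (show 0 ≤ x / g ^ 2 by positivity)
  have h5 : x / g ^ 2 * (g ^ 120 * G.l2 ^ 2) = x * (g ^ 118 * G.l2 ^ 2) := by field_simp
  rw [sq]
  linarith

theorem sqrt_le (h : One g G) (k : ℕ) : √(G.Z * hI g ι) ≤ √(g ^ k * G.Z * hI g ι) := by
  refine Real.sqrt_le_sqrt ?_
  rw [mul_assoc]
  exact le_mul_of_one_le_left (W_pos h).le (one_le_pow₀ h.num.one_le_g)

theorem r4_sq (h : One g G) (h' : One g G') : (g ^ 243 * G'.r4) ^ 2 ≤ G.Z * hI g ι := by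
  refine le_trans ?_ (h'.r4b.trans (W_ge h))
  have g0 := h.g_pos
  calc (g ^ 243 * G'.r4) ^ 2 = g ^ 486 * G'.r4 * G'.r4 := by ring
    _ ≤ g ^ 486 * g ^ 21 * G'.r4 := by
      gcongr
      exacts [h'.r4_nonneg, h'.r4a]
    _ ≤ _ := by
      rw [← pow_add]
      exact mul_le_mul_of_nonneg_right (h.num.pow_mono (by norm_num)) h'.r4_nonneg

theorem E_Yp (h : One g G) (h' : One g G') :
    E2 (fun α β => G'.Y α β ^ 2 * |G.p α β|) ≤ (G.r4 + G'.r4) / 2 / mI ι := by
  have m0 := h.m_pos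
  have h1 : E2 (fun α β => G'.Y α β ^ 2 * G.rho α) ≤ (G.r4 + G'.r4) / 2 / mI ι := by
    rw [E2, div_le_iff₀ (by positivity)]
    calc _ ≤ ∑ α, (G.rho α ^ 2 + G'.rho α ^ 2) / 2 := sum_le_sum fun α _ => by
          rw [← sum_mul, ← G'.rho_eq]
          nlinarith [sq_nonneg (G.rho α - G'.rho α)]
      _ = _ := by
          rw [← sum_div, sum_add_distrib, h.sum_rho_sq, h'.sum_rho_sq]
          field_simp
  have h2 : E2 (fun α β => G'.Y α β ^ 2 * G.rho β) = E2 fun α β => G'.Y α β ^ 2 * G.rho α := by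
    rw [← E2_swap]
    exact E2_congr fun α β => by rw [h'.symm]
  have h3 : E2 (fun α β => G'.Y α β ^ 2 * |G.p α β|) ≤
      E2 fun α β => (G'.Y α β ^ 2 * G.rho α + G'.Y α β ^ 2 * G.rho β) / 2 :=
    E2_mono fun α β => by
      have : |G.p α β| ≤ (G.rho α + G.rho β) / 2 := abs_le_of_sq_le_sq' (by
        rw [sq_abs]
        nlinarith [Gm.p_sq_le h.symm α β, sq_nonneg (G.rho α - G.rho β)])
        (by linarith [G.rho_nonneg α, G.rho_nonneg β]) |>.2
      nlinarith [sq_nonneg (G'.Y α β)]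
  rw [E2_div_const, E2_add, h2] at h3
  linarith

theorem core (h : Two g G G' bad) :
    |E2 (fun α β => ww g G G' bad α β * (G.s α β / G.dl α β * G.p α β)) +
      g ^ 120 * ip G.Y G.p / mI ι ^ 2| ≤ 7 * (bb g G G' * √(G.Z * hI g ι)) := by
  have o := h.one
  have m0 := o.m_pos
  have g0 := o.g_pos
  have a0 := add_nonneg o.A_nonneg h.two.A_nonneg
  have h1 := h.steer (R := fun α β => G.sg * G.p α β) (q := fun α β => G.sg * G.s α β / G.dl α β)
    o.l2_nonneg ((E2_const_mul G.sg fun α β => G.p α β).trans (by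
      rw [E2_zero_of_row (X := fun α β => G.p α β) (row_mul o.row G.Y), mul_zero]))
    (fun α β k => by linarith [o.ok_q k.2.1, o.e_nonneg α β, h.two.e_nonneg α β])
    (by simp only [mul_pow, o.sg_sq, one_mul]; exact o.E_p_sq.le)
  have e1 : (E2 fun α β => ww g G G' bad α β * (G.sg * G.s α β / G.dl α β * (G.sg * G.p α β))) =
      E2 fun α β => ww g G G' bad α β * (G.s α β / G.dl α β * G.p α β) :=
    E2_congr fun α β => by
      linear_combination ww g G G' bad α β * (G.s α β / G.dl α β * G.p α β) * o.sg_sq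
  have e2 : (E2 fun α β => (G.x1 g α β + G'.x1 g α β) * (G.sg * G.p α β)) =
      g ^ 120 * ip G.Y G.p / mI ι ^ 2 - g ^ 120 * ip G'.Y G.p / mI ι ^ 2 := by
    rw [mul_div_assoc, mul_div_assoc, ← E2_ip, ← E2_ip, ← E2_const_mul, ← E2_const_mul, ← E2_sub]
    refine E2_congr fun α β => ?_
    simp only [Gm.x1, h.sg]
    linear_combination g ^ 120 * (G.Y α β - G'.Y α β) * G.p α β * o.sg_sq
  have e3 : (E2 fun α β => (G.Y α β ^ 2 + G'.Y α β ^ 2) * |G.sg * G.p α β|) =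
      E2 (fun α β => G.Y α β ^ 2 * |G.p α β|) + E2 fun α β => G'.Y α β ^ 2 * |G.p α β| := by
    simp only [abs_mul, o.abs_sg, one_mul, add_mul, E2_add]
  rw [e1, e2, e3] at h1
  have b1 : g ^ 2 / √(mI ι) * G.l2 ≤ bb g G G' * √(G.Z * hI g ι) := le_bu' h (by
    refine le_trans ?_ (bW h (x := 1 / mI ι) (by positivity) (by
      rw [div_div, mul_comm]; exact h.le_bb))
    rw [mul_pow, div_pow, Real.sq_sqrt m0.le, ← pow_mul, one_div, div_eq_inv_mul, mul_assoc]
    gcongr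
    exacts [o.num.one_le_g, by norm_num])
  have b2 : g ^ 13 * √(G.A g + G'.A g) * G.l2 ≤ bb g G G' * √(G.Z * hI g ι) := le_bu' h (by
    refine le_trans ?_ (bW h a0 (by
      rw [h.bb_eq, add_div]
      linarith [show 0 < 1 / (g * mI ι) by positivity]))
    rw [mul_pow, mul_pow, Real.sq_sqrt a0, ← pow_mul, mul_comm (g ^ _), mul_assoc]
    gcongr
    exacts [o.num.one_le_g, by norm_num])
  have b3 := (abs_le.1 (le_bu h (r4_sq o o))).2
  have b4 := (abs_le.1 (le_bu h (r4_sq o h.two))).2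
  have b5 := mul_le_mul_of_nonneg_left (add_le_add (E_Yp o o) (E_Yp o h.two))
    (show 0 ≤ 2 * g ^ 242 by positivity)
  have e4 : 2 * g ^ 242 * ((G.r4 + G.r4) / 2 / mI ι + (G.r4 + G'.r4) / 2 / mI ι) =
      3 * (g ^ 243 * G.r4 / (g * mI ι)) + g ^ 243 * G'.r4 / (g * mI ι) := by
    field_simp; ring
  have b6 := le_bu h (x := g ^ 121 * ip G'.Y G.p / mI ι) (by
    have c1 := ip_sq_le (P0 G G') G.Y
    rw [← NN_eq, ← G.t2_eq_fro] at c1
    have c2 : ip G'.Y G.p = ip (P0 G G') G.Y := by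
      rw [Gm.p, ip_mul_left, Gm.Y_transpose o.symm, P0]
    have n0 : 0 ≤ NN G G' := by rw [NN_eq]; exact fro_nonneg _
    rw [c2, div_pow, div_le_iff₀ (by positivity), mul_pow, ← pow_mul]
    calc _ ≤ g ^ 300 * (NN G G' * (mI ι * hI g ι)) := by
          gcongr
          exacts [o.num.one_le_g, by norm_num, c1.trans (mul_le_mul_of_nonneg_left o.t2h n0)]
      _ ≤ mI ι ^ 2 * zeI g ι ^ 2 * hI g ι * (mI ι * hI g ι) := by
          rw [← mul_assoc]
          exact mul_le_mul_of_nonneg_right h.Nb (mul_pos m0 o.h_pos).le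
      _ = mI ι * zeI g ι ^ 2 * hI g ι * hI g ι * mI ι ^ 2 := by ring
      _ ≤ G.Z * hI g ι * 1 * mI ι ^ 2 := by
          exact mul_le_mul_of_nonneg_right
            (mul_le_mul (W_ge o) o.h_le_one o.h_pos.le (W_pos o).le) (sq_nonneg _)
      _ = _ := by ring)
  rw [show g ^ 121 * ip G'.Y G.p / mI ι / (g * mI ι) = g ^ 120 * ip G'.Y G.p / mI ι ^ 2 by
    field_simp] at b6
  rw [abs_le] at h1 b6 ⊢
  constructor <;> linarith [h1.1, h1.2, b6.1, b6.2]

end TauP

open TauP in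
theorem Two.TauP (h : Two g G G' bad) :
    E2 (fun α β => ww g G G' bad α β * (G.s α β / G.dl α β * G.p α β)) ≤
      100 * bb g G G' * √(g ^ 4 * G.Z * hI g ι) ∧
    -E2 (fun α β => ww g G G' bad α β * (G.s α β / G.dl α β * G.p α β)) ≤
      100 * bb g G G' * √(g ^ 125 * G.Z * hI g ι) := by
  have o := h.one
  have m0 := o.m_pos
  have g0 := o.g_pos
  have h0 := o.h_pos
  have h1 := abs_le.1 (core h)
  have p0 : 0 ≤ bb g G G' * √(G.Z * hI g ι) := mul_nonneg h.bb_pos.le (Real.sqrt_nonneg _)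
  constructor
  · have b1 := mul_le_mul_of_nonneg_left (sqrt_le o 4) h.bb_pos.le
    have b2 := (abs_le.1 (le_bu h (x := g ^ 121 * hI g ι) (by
      calc _ = g ^ 242 * hI g ι * hI g ι := by ring
        _ ≤ g ^ 3994 * 1 * hI g ι := by
          gcongr
          exacts [o.num.one_le_g, by norm_num, o.h_le_one]
        _ ≤ _ := by rw [mul_one]; exact mul_le_mul_of_nonneg_right o.Z_big h0.le))).2
    have b3 := low_trace o.low G.Y
    rw [← G.t2_eq_fro] at b3
    have b4 : -(g ^ 120 * ip G.Y G.p / mI ι ^ 2) ≤ g ^ 121 * hI g ι / (g * mI ι) := by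
      rw [show g ^ 121 * hI g ι / (g * mI ι) = g ^ 120 * (mI ι * hI g ι) / mI ι ^ 2 by field_simp,
        ← neg_div, ← mul_neg]
      gcongr
      linarith [o.t2h, show ip G.Y G.p = ip G.Y (G.Y * G.Y) from rfl]
    linarith [h1.2]
  · have b1 := mul_le_mul_of_nonneg_left (sqrt_le o 125) h.bb_pos.le
    have b2 := le_bu' h (x := g ^ 120 * ip G.Y G.p / mI ι ^ 2) (c := g ^ 125 * G.Z * hI g ι) (by
      have c1 := bW h (x := 1 / mI ι) (by positivity) (by rw [div_div, mul_comm]; exact h.le_bb)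
      have c2 := Gm.tr_r_sq o.symm
      rw [← Gm.ip_Y_p o.symm, o.t4_eq] at c2
      calc _ = g ^ 240 * ip G.Y G.p ^ 2 / mI ι ^ 4 := by ring
        _ ≤ g ^ 243 * (mI ι * (mI ι ^ 2 * G.l2 ^ 2)) / mI ι ^ 4 := by
          gcongr
          exacts [o.num.one_le_g, by norm_num,
            c2.trans (mul_le_mul_of_nonneg_right o.t2_le (by positivity))]
        _ = g ^ 125 * (1 / mI ι * (g ^ 118 * G.l2 ^ 2)) := by field_simp
        _ ≤ g ^ 125 * (bb g G G' ^ 2 * (G.Z * hI g ι)) := by gcongr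
        _ = _ := by ring)
    linarith [h1.1]

end Vale.Agent.P049
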