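import Vale.Agent.P049.ToolL

set_option maxRecDepth 100000
set_option linter.unusedSectionVars false

namespace Vale.Agent.P049

open Finset

variable {ι : Type} [Fintype ι] [DecidableEq ι] {g : ℝ} {G G' : Gm ι} {bad : ι → ι → Bool}

theorem sq3_le (a b c : ℝ) : (a + b + c) ^ 2 ≤ 3 * (a ^ 2 + b ^ 2 + c ^ 2) := by
  nlinarith [sq_nonneg (a - b), sq_nonneg (a - c), sq_nonneg (b - c)]
theorem sq2_le (a b : ℝ) : (a + b) ^ 2 ≤ 2 * (a ^ 2 + b ^ 2) := by nlinarith [sq_nonneg (a - b)]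

theorem E2_abs_sq (H : ι → ι → ℝ) : E2 (fun α β => |H α β| ^ 2) = E2 fun α β => H α β ^ 2 := by
  simp only [sq_abs]

theorem Two.E_Ua_sq (h : Two g G G' bad) :
    E2 (fun α β => (2 * g ^ 120 * (|G.Y α β| + |G'.Y α β|) +
      2 * (ind (¬ G.ok1 g α β) + ind (¬ G'.ok1 g α β)) + 2 * Us g G G' bad α β) ^ 2) ≤
      g ^ 244 * (hI g ι / mI ι) := by
  have hg := h.one.g_pos
  have h1 : ∀ α β, (2 * g ^ 120 * (|G.Y α β| + |G'.Y α β|) +
      2 * (ind (¬ G.ok1 g α β) + ind (¬ G'.ok1 g α β)) + 2 * Us g G G' bad α β) ^ 2 ≤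
      24 * g ^ 240 * (G.Y α β ^ 2 + G'.Y α β ^ 2) +
        24 * (ind (¬ G.ok1 g α β) + ind (¬ G'.ok1 g α β)) + 12 * Us g G G' bad α β ^ 2 := by
    intro α β
    refine (sq3_le _ _ _).trans ?_
    have a1 := sq2_le |G.Y α β| |G'.Y α β|
    have a2 := sq2_le (ind (¬ G.ok1 g α β)) (ind (¬ G'.ok1 g α β))
    rw [sq_abs, sq_abs] at a1
    rw [ind_sq, ind_sq] at a2
    have a3 : g ^ 240 * (|G.Y α β| + |G'.Y α β|) ^ 2 ≤ g ^ 240 * (2 * (G.Y α β ^ 2 + G'.Y α β ^ 2)) := by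
      gcongr
    have e : (2 * g ^ 120 * (|G.Y α β| + |G'.Y α β|)) ^ 2 =
      4 * (g ^ 240 * (|G.Y α β| + |G'.Y α β|) ^ 2) := by ring
    rw [e]; nlinarith
  refine (E2_mono h1).trans ?_
  rw [E2_add, E2_add, E2_const_mul, E2_const_mul, E2_const_mul, E2_add, E2_add]
  have a1 := h.one.E_Y_sq; have a2 := h.two.E_Y_sq; have a3 := h.one.E_ok1; have a4 := h.two.E_ok1
  have a5 := h.E_Us_sq
  have h5 : 0 ≤ hI g ι / mI ι := by have := h.one.h_pos; have := h.one.m_pos; positivity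
  rw [mul_div_assoc] at a3 a4 a5
  have b1 := h.one.num.const_pow (c := 144) (by norm_num) (show 240 < 244 by norm_num)
  have b2 := h.one.num.const_pow (c := 144) (by norm_num) (show 242 < 244 by norm_num)
  have b3 := h.one.num.const_pow (c := 10800) (by norm_num) (show 0 < 244 by norm_num)
  rw [pow_zero] at b3
  calc _ ≤ 24 * g ^ 240 * (hI g ι / mI ι + hI g ι / mI ι) +
        24 * (g ^ 242 * (hI g ι / mI ι) + g ^ 242 * (hI g ι / mI ι)) + 12 * (300 * (hI g ι / mI ι)) := by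
        gcongr
    _ = (48 * g ^ 240 + 48 * g ^ 242 + 3600) * (hI g ι / mI ι) := by ring
    _ ≤ _ := by gcongr; linarith

theorem Two.E_U3_sq (h : Two g G G' bad) :
    E2 (fun α β => (|G.x3 g α β| + |G'.x3 g α β| + 2 * I3 g G G' α β) ^ 2) ≤
      g ^ 25 * hI g ι * (G.A g + G'.A g) := by
  have hg := h.one.g_pos
  refine (E2_mono fun α β => sq3_le _ _ _).trans ?_
  simp only [sq_abs, mul_pow]
  rw [E2_const_mul, E2_add, E2_add, E2_const_mul]
  have a1 := h.one.E_x3_sq; have a2 := h.two.E_x3_sq; have a3 := h.E_I3_sq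
  have h5 : 0 ≤ hI g ι * (G.A g + G'.A g) :=
    mul_nonneg h.one.h_pos.le (add_nonneg h.one.A_nonneg h.two.A_nonneg)
  have a4 : 2 * hI g ι * (G.A g + G'.A g) / g ^ 22 ≤ 2 * (hI g ι * (G.A g + G'.A g)) := by
    rw [mul_assoc]; exact div_le_self (by positivity) (one_le_pow₀ h.one.num.one_le_g)
  have b1 := h.one.num.const_pow (c := 27) (by norm_num) (show 24 < 25 by norm_num)
  have b2 := one_le_pow₀ (n := 24) h.one.num.one_le_g
  calc _ ≤ (3 * g ^ 24 + 24) * (hI g ι * (G.A g + G'.A g)) := by nlinarith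
    _ ≤ g ^ 25 * (hI g ι * (G.A g + G'.A g)) := by gcongr; linarith
    _ = _ := by ring

theorem Two.genH (h : Two g G G' bad) {H : ι → ι → ℝ} {Q : ℝ} (hQ : 0 ≤ Q)
    (hH : g ^ 250 * mI ι * hI g ι * E2 (fun α β => H α β ^ 2) ≤ Q ^ 2) :
    E2 (fun α β => UU g G G' bad α β * |H α β|) ≤
      3 * bb g G G' * Q + 2 * E2 fun α β => I6 bad α β * |H α β| := by
  have hg := h.one.g_pos; have hm := h.one.m_pos; have hb := h.bb_pos
  have hA := add_nonneg h.one.A_nonneg h.two.A_nonneg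
  refine (E2_mono fun α β => mul_le_mul_of_nonneg_right (h.UU_le α β) (abs_nonneg _)).trans ?_
  simp only [add_mul _ _ |H _ _|, mul_assoc 2 (I6 _ _ _)]
  simp only [← add_mul _ _ |H _ _|]
  rw [E2_add, E2_const_mul]
  simp only [add_mul (_ + _ + 2 * Us g G G' bad _ _)]
  rw [E2_add]
  have hE := E2_nonneg (H := fun α β => H α β ^ 2) fun _ _ => sq_nonneg _
  have hH' : hI g ι * E2 (fun α β => H α β ^ 2) ≤ Q ^ 2 / (g ^ 250 * mI ι) := by
    rw [le_div_iff₀ (by positivity)]; linarith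
  have k1 := E2_cs' (c := bb g G G' * Q) (by positivity) h.E_Ua_sq (E2_abs_sq H).le (by
    calc _ = g ^ 244 / mI ι * (hI g ι * E2 (fun α β => H α β ^ 2)) := by ring
      _ ≤ g ^ 244 / mI ι * (Q ^ 2 / (g ^ 250 * mI ι)) := by gcongr
      _ = (1 / (g * mI ι)) ^ 2 * Q ^ 2 / g ^ 4 := by field_simp
      _ ≤ (1 / (g * mI ι)) ^ 2 * Q ^ 2 := div_le_self (by positivity) (one_le_pow₀ h.one.num.one_le_g)
      _ ≤ _ := by rw [mul_pow]; gcongr; exact h.le_bb)
  have k2 := E2_cs' (c := bb g G G' * Q) (by positivity) h.E_U3_sq (E2_abs_sq H).le (by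
    calc _ = g ^ 25 * (G.A g + G'.A g) * (hI g ι * E2 (fun α β => H α β ^ 2)) := by ring
      _ ≤ g ^ 25 * (G.A g + G'.A g) * (Q ^ 2 / (g ^ 250 * mI ι)) := by gcongr
      _ = (G.A g + G'.A g) / (g ^ 2 * mI ι) * Q ^ 2 / g ^ 223 := by field_simp
      _ ≤ (G.A g + G'.A g) / (g ^ 2 * mI ι) * Q ^ 2 :=
        div_le_self (by positivity) (one_le_pow₀ h.one.num.one_le_g)
      _ ≤ _ := by rw [mul_pow (bb g G G')]; gcongr; exact h.bb_sq)
  have : 0 ≤ bb g G G' * Q := by positivity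
  linarith

theorem Two.genQ (h : Two g G G' bad) {H : ι → ι → ℝ} {Q : ℝ} (hQ : 0 ≤ Q)
    (hH : g ^ 250 * mI ι * E2 (fun α β => H α β ^ 2) ≤ Q ^ 2) :
    E2 (fun α β => UU g G G' bad α β * |H α β|) ≤ 5 * bb g G G' * Q := by
  have hg := h.one.g_pos; have hm := h.one.m_pos; have hb := h.bb_pos
  have hE := E2_nonneg (H := fun α β => H α β ^ 2) fun _ _ => sq_nonneg _
  have k1 := h.genH (H := H) hQ (le_trans (mul_le_mul_of_nonneg_right
    (mul_le_of_le_one_right (by positivity) h.one.h_le_one) hE) hH)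
  have hH' : E2 (fun α β => H α β ^ 2) ≤ Q ^ 2 / (g ^ 250 * mI ι) := by
    rw [le_div_iff₀ (by positivity)]; linarith
  have k2 := E2_cs' (c := bb g G G' * Q) (by positivity) h.E_I6_sq ((E2_abs_sq H).le.trans hH') (by
    calc _ = (1 / (g * mI ι)) ^ 2 * Q ^ 2 * (2 / g ^ 246) := by field_simp
      _ ≤ (1 / (g * mI ι)) ^ 2 * Q ^ 2 * 1 := by
        gcongr
        rw [div_le_one (by positivity)]
        simpa using h.one.num.const_pow (c := 2) (by norm_num) (show 0 < 246 by norm_num)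
      _ ≤ _ := by rw [mul_pow (bb g G G'), mul_one]; gcongr; exact h.le_bb)
  linarith

/-- Weighted expectation against unweighted expectation. -/
theorem Two.genW (h : Two g G G' bad) {H q : ι → ι → ℝ} {Q : ℝ} (hQ : 0 ≤ Q)
    (hq : ∀ α β, adm g G G' bad α β → |q α β - 1| ≤ 13 * (G.e α β + G'.e α β))
    (hH : g ^ 250 * mI ι * E2 (fun α β => H α β ^ 2) ≤ Q ^ 2) :
    |E2 (fun α β => ww g G G' bad α β * (q α β * H α β)) - E2 H| ≤ 130 * bb g G G' * Q := by
  have k1 := h.genQ hQ hH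
  change |_ - E2 fun α β => H α β| ≤ _
  rw [← E2_sub]
  refine (abs_E2_le _).trans (le_trans (E2_mono (K := fun α β => 26 * (UU g G G' bad α β * |H α β|))
    fun α β => ?_) ?_)
  · have e : ww g G G' bad α β * (q α β * H α β) - H α β = (ww g G G' bad α β * q α β - 1) * H α β := by
      ring
    rw [e, abs_mul, ← mul_assoc]
    exact mul_le_mul_of_nonneg_right (h.P2 (hq α β)) (abs_nonneg _)
  · rw [E2_const_mul]; linarith

theorem Two.steer (h : Two g G G' bad) {R q : ι → ι → ℝ} {ρ : ℝ} (hρ : 0 ≤ ρ) (h0 : E2 R = 0)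
    (hq : ∀ α β, adm g G G' bad α β → |q α β - 1| ≤ 13 * (G.e α β + G'.e α β))
    (hR : E2 (fun α β => R α β ^ 2) ≤ ρ ^ 2) :
    |E2 (fun α β => ww g G G' bad α β * (q α β * R α β)) +
        E2 (fun α β => (G.x1 g α β + G'.x1 g α β) * R α β)| ≤
      (g ^ 2 / √(mI ι) + g ^ 13 * √(G.A g + G'.A g)) * ρ +
        2 * g ^ 242 * E2 fun α β => (G.Y α β ^ 2 + G'.Y α β ^ 2) * |R α β| := by
  have hg := h.one.g_pos; have hm := h.one.m_pos
  have hA := add_nonneg h.one.A_nonneg h.two.A_nonneg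
  have hs := Real.sqrt_pos.2 hm
  have e0 : E2 (fun α β => ww g G G' bad α β * (q α β * R α β)) +
      E2 (fun α β => (G.x1 g α β + G'.x1 g α β) * R α β) =
      E2 (fun α β => (ww g G G' bad α β * q α β - 1 + (G.x1 g α β + G'.x1 g α β)) * R α β) := by
    rw [← E2_add, ← sub_zero (E2 _), ← h0]
    change _ - (E2 fun α β => R α β) = _
    rw [← E2_sub]
    exact E2_congr fun α β => by ring
  rw [e0]
  refine (abs_E2_le _).trans (le_trans (E2_mono (K := fun α β =>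
    (|G.x3 g α β| + |G'.x3 g α β| + 2 * I3 g G G' α β) * |R α β| +
      26 * (Us g G G' bad α β * |R α β|) + 2 * (I6 bad α β * |R α β|) +
      2 * g ^ 242 * ((G.Y α β ^ 2 + G'.Y α β ^ 2) * |R α β|)) fun α β => ?_) ?_)
  · have a1 := h.P3 (hq α β)
    have a2 : |ww g G G' bad α β * q α β - 1 + (G.x1 g α β + G'.x1 g α β)| ≤
        |ww g G G' bad α β * q α β - 1 + (G.x1 g α β + G'.x1 g α β) + (G.x3 g α β + G'.x3 g α β)| +
          |G.x3 g α β + G'.x3 g α β| := by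
      nth_rewrite 1 [← add_sub_cancel_right (_ + (G.x1 g α β + G'.x1 g α β))
        (G.x3 g α β + G'.x3 g α β)]
      exact abs_sub _ _
    have a3 := abs_add_le (G.x3 g α β) (G'.x3 g α β)
    rw [abs_mul]
    calc _ ≤ (|G.x3 g α β| + |G'.x3 g α β| + (2 * I3 g G G' α β + 26 * Us g G G' bad α β +
          2 * I6 bad α β + 2 * g ^ 242 * (G.Y α β ^ 2 + G'.Y α β ^ 2))) * |R α β| := by
          gcongr; linarith
      _ = _ := by ring
  rw [E2_add, E2_add, E2_add, E2_const_mul, E2_const_mul, E2_const_mul]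
  have hR' := (E2_abs_sq R).le.trans hR
  have k1 := E2_cs (a := g ^ 13 * √(G.A g + G'.A g)) (by positivity) hρ (h.E_U3_sq.trans (by
    rw [mul_pow, Real.sq_sqrt hA]
    gcongr
    calc g ^ 25 * hI g ι ≤ g ^ 25 := mul_le_of_le_one_right (by positivity) h.one.h_le_one
      _ ≤ g ^ 26 := h.one.num.pow_mono (by norm_num)
      _ = _ := by ring)) hR'
  have k2 := E2_cs (a := 18 / √(mI ι)) (by positivity) hρ (h.E_Us_sq.trans (by
    rw [div_pow, Real.sq_sqrt hm.le]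
    gcongr
    linarith [h.one.h_le_one])) hR'
  have k3 := E2_cs (a := 2 * g / √(mI ι)) (by positivity) hρ (h.E_I6_sq.trans (by
    rw [div_pow, Real.sq_sqrt hm.le]
    gcongr
    nlinarith [sq_nonneg g])) hR'
  have k4 : 26 * (18 / √(mI ι) * ρ) + 2 * (2 * g / √(mI ι) * ρ) ≤ g ^ 2 / √(mI ι) * ρ := by
    have := h.one.num.hg
    calc _ = (468 + 4 * g) / √(mI ι) * ρ := by ring
      _ ≤ _ := by gcongr; nlinarith
  linarith

end Vale.Agent.P049
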