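import Vale.Agent.P049.ToolP

set_option maxRecDepth 100000
set_option linter.unusedSectionVars false

namespace Vale.Agent.P049

open Finset

variable {ι : Type} [Fintype ι] [DecidableEq ι] {g : ℝ} {G G' : Gm ι} {bad : ι → ι → Bool}

theorem ind_lt_le {a t : ℝ} (ht : 0 < t) : ind (¬ a ≤ t) ≤ a ^ 2 / t ^ 2 :=
  ind_le (by positivity) fun k => by
    rw [not_le] at k
    rw [le_div_iff₀ (by positivity), one_mul]; gcongr

theorem ind_not_and {p q : Prop} : ind (¬ (p ∧ q)) ≤ ind (¬ p) + ind (¬ q) := by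
  have := ind_nonneg (¬ p); have := ind_nonneg (¬ q)
  refine ind_le (by linarith) fun k => ?_
  rcases not_and_or.1 k with k | k <;> have := ind_of k <;> linarith

namespace One

variable (h : One g G)
include h

theorem mh : 1 / 2 ≤ mI ι * hI g ι := h.num.mh_half
theorem W_le : mI ι * (mI ι * zeI g ι ^ 2) ≤ G.Z ^ 2 := by
  have := h.m_pos; have := h.ze_pos
  calc _ = (mI ι * zeI g ι) ^ 2 := by ring
    _ ≤ _ := by gcongr; exact h.Zlo
theorem E_rho : (∑ α, G.rho α) / mI ι ≤ hI g ι := by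
  rw [div_le_iff₀ h.m_pos, mul_comm]; exact h.t2h
theorem E_rho_sq : (∑ α, G.rho α ^ 2) / mI ι = G.r4 := rfl
theorem E_a_sq : (∑ α, G.a α ^ 2) / mI ι ≤ G.Dh / mI ι :=
  div_le_div_of_nonneg_right h.sum_a_sq h.m_pos.le
theorem E_one_rho_sq : (∑ α, (1 + G.rho α) ^ 2) / mI ι ≤ g ^ 22 := by
  have hm := h.m_pos
  have h1 : ∑ α, (1 + G.rho α) ^ 2 ≤ ∑ α, (2 + 2 * G.rho α ^ 2) :=
    sum_le_sum fun α _ => by nlinarith [sq_nonneg (1 - G.rho α)]
  rw [sum_add_distrib, sum_const_mI, ← mul_sum, h.sum_rho_sq] at h1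
  rw [div_le_iff₀ hm]
  have h2 := h.r4a
  have h3 := h.num.const_pow (c := 4) (by norm_num) (show 21 < 22 by norm_num)
  have h4 := one_le_pow₀ (n := 21) h.num.one_le_g
  nlinarith

theorem E_Y_sq : E2 (fun α β => G.Y α β ^ 2) ≤ hI g ι / mI ι := by
  have := h.m_pos
  rw [E2_sq_eq, ← G.t2_eq_fro, div_le_div_iff₀ (by positivity) this]
  nlinarith [h.t2h]
theorem E_p_sq : E2 (fun α β => G.p α β ^ 2) = G.l2 ^ 2 := by
  have := h.m_pos
  rw [E2_sq_eq, ← Gm.t4, h.t4_eq]; field_simp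
theorem E_r_sq : E2 (fun α β => G.r α β ^ 2) ≤ G.GG g * G.Z / g ^ 24 := by
  have := h.m_pos; have := h.g_pos
  rw [E2_sq_eq, ← Gm.t6, div_le_div_iff₀ (by positivity) (by positivity)]
  linarith [h.t6_le_GG]
theorem E_ab_sq : E2 (fun α β => (G.a α * G.a β) ^ 2) ≤ hI g ι / mI ι / g ^ 10 := by
  have hm := h.m_pos; have := h.g_pos
  simp only [mul_pow]
  rw [E2_prod]
  have h0 : 0 ≤ (∑ α, G.a α ^ 2) / mI ι := by positivity
  calc _ ≤ G.Dh / mI ι * (G.Dh / mI ι) := mul_le_mul h.E_a_sq h.E_a_sq h0 (h0.trans h.E_a_sq)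
    _ = g ^ 10 * G.Dh ^ 2 / (mI ι ^ 2 * g ^ 10) := by field_simp
    _ ≤ mI ι * hI g ι / (mI ι ^ 2 * g ^ 10) := div_le_div_of_nonneg_right h.Dhc (by positivity)
    _ = _ := by field_simp
theorem inv_m_sq : 1 / mI ι ^ 2 ≤ 2 * (hI g ι / mI ι) := by
  have hm := h.m_pos
  rw [← mul_div_assoc, div_le_div_iff₀ (by positivity) hm]
  nlinarith [h.mh]
theorem E_e_sq : E2 (fun α β => G.e α β ^ 2) ≤ 30 * hI g ι / mI ι := by
  have hm := h.m_pos
  have h1 : E2 (fun α β => G.e α β ^ 2) ≤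
      E2 (fun α β => 3 * G.Y α β ^ 2 + 3 * (G.a α * G.a β) ^ 2 + 3 * (1 / mI ι ^ 2)) :=
    E2_mono fun α β => by
      rw [Gm.e, ← sq_abs (G.Y α β), ← sq_abs (G.a α * G.a β), ← one_div_pow]
      nlinarith [sq_nonneg (|G.Y α β| - |G.a α * G.a β|), sq_nonneg (|G.Y α β| - 1 / mI ι),
        sq_nonneg (|G.a α * G.a β| - 1 / mI ι)]
  rw [E2_add, E2_add, E2_const_mul, E2_const_mul, E2_const hm] at h1
  have h2 := h.E_Y_sq; have h3 := h.E_ab_sq; have h4 := h.inv_m_sq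
  have h5 : 0 ≤ hI g ι / mI ι := by have := h.h_pos; positivity
  have h6 := div_le_self h5 (one_le_pow₀ (n := 10) h.num.one_le_g)
  rw [mul_div_assoc]; linarith

theorem small_div {x : ℝ} {j : ℕ} (hx : g ^ j * x ≤ mI ι * zeI g ι ^ 2 * hI g ι) {c : ℝ} {i : ℕ}
    (hx0 : 0 ≤ x) (hc : 4 * c ≤ 10 ^ 30) (hi : i < j) :
    c * g ^ i * x / G.Z ^ 2 ≤ hI g ι / mI ι / 4 := by
  have hm := h.m_pos; have := h.Z_pos; have := h.h_pos
  rw [div_div, div_le_div_iff₀ (by positivity) (by positivity)]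
  calc c * g ^ i * x * (mI ι * 4) = 4 * c * g ^ i * x * mI ι := by ring
    _ ≤ g ^ j * x * mI ι := by gcongr; exact h.num.const_pow hc hi
    _ ≤ mI ι * zeI g ι ^ 2 * hI g ι * mI ι := by gcongr
    _ = hI g ι * (mI ι * (mI ι * zeI g ι ^ 2)) := by ring
    _ ≤ _ := by gcongr; exact h.W_le

theorem E_ok0c : E2 (fun α β => ind (¬ |G.a β| * √(mI ι) * (1 + G.rho α) ≤ G.Z / g)) ≤
    hI g ι / mI ι / 4 := by
  have hm := h.m_pos; have hg := h.g_pos; have hZ := h.Z_pos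
  have h1 : E2 (fun α β => ind (¬ |G.a β| * √(mI ι) * (1 + G.rho α) ≤ G.Z / g)) ≤
      E2 (fun α β => g ^ 2 * mI ι / G.Z ^ 2 * ((1 + G.rho α) ^ 2 * G.a β ^ 2)) :=
    E2_mono fun α β => (ind_lt_le (by positivity)).trans_eq (by
      rw [mul_pow, mul_pow, sq_abs, Real.sq_sqrt hm.le]; field_simp)
  rw [E2_const_mul, E2_prod] at h1
  refine h1.trans (le_trans ?_ (h.small_div h.Dhb (c := 1) (i := 24) h.Dh_nonneg (by norm_num)
    (by norm_num)))
  calc _ ≤ g ^ 2 * mI ι / G.Z ^ 2 * (g ^ 22 * (G.Dh / mI ι)) := by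
        gcongr; exacts [h.E_one_rho_sq, h.sum_a_sq]
    _ = _ := by field_simp

theorem E_ok0 : E2 (fun α β => ind (¬ G.ok0 g α β)) ≤ hI g ι / mI ι := by
  have hm := h.m_pos; have hg := h.g_pos; have hZ := h.Z_pos
  have h5 : 0 ≤ hI g ι / mI ι := by have := h.h_pos; positivity
  have h1 : E2 (fun α β => ind (¬ G.ok0 g α β)) ≤
      E2 (fun α β => g ^ 2 * (G.a α * G.a β) ^ 2 +
        (12 * g ^ 2 / G.Z ^ 2 * (G.rho α ^ 2 + G.rho β ^ 2 + G.rho α ^ 2 * G.rho β ^ 2) +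
        (ind (¬ |G.a β| * √(mI ι) * (1 + G.rho α) ≤ G.Z / g) +
        ind (¬ |G.a α| * √(mI ι) * (1 + G.rho β) ≤ G.Z / g)))) := by
    refine E2_mono fun α β => ind_not_and.trans (add_le_add ?_ (ind_not_and.trans
      (add_le_add ?_ ind_not_and)))
    · exact (ind_lt_le (by positivity)).trans_eq (by rw [sq_abs]; field_simp)
    · refine ind_le (by positivity) fun k => ?_
      rw [not_le, div_lt_iff₀ hg] at k
      have b1 : 2 * g ≤ G.Z := by
        simpa using (h.num.const_pow (c := 2) (by norm_num) (show 1 < 3994 by norm_num)).trans h.Z_big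
      rw [div_mul_eq_mul_div, le_div_iff₀ (by positivity), one_mul]
      have b2 : G.Z ≤ 2 * g * (G.rho α + G.rho β + G.rho α * G.rho β) := by nlinarith
      have b3 : G.Z ^ 2 ≤ (2 * g * (G.rho α + G.rho β + G.rho α * G.rho β)) ^ 2 := by gcongr
      have b4 : (G.rho α + G.rho β + G.rho α * G.rho β) ^ 2 ≤
          3 * (G.rho α ^ 2 + G.rho β ^ 2 + G.rho α ^ 2 * G.rho β ^ 2) := by
        nlinarith [sq_nonneg (G.rho α - G.rho β), sq_nonneg (G.rho α - G.rho α * G.rho β),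
          sq_nonneg (G.rho β - G.rho α * G.rho β)]
      calc G.Z ^ 2 ≤ 4 * g ^ 2 * (G.rho α + G.rho β + G.rho α * G.rho β) ^ 2 := b3.trans_eq (by ring)
        _ ≤ 4 * g ^ 2 * (3 * (G.rho α ^ 2 + G.rho β ^ 2 + G.rho α ^ 2 * G.rho β ^ 2)) := by gcongr
        _ = _ := by ring
  rw [E2_add, E2_add, E2_add, E2_const_mul, E2_const_mul, E2_add, E2_add, E2_left hm, E2_right hm,
    E2_prod (fun α => G.rho α ^ 2) (fun α => G.rho α ^ 2), h.E_rho_sq,
    E2_swap (fun α β => ind (¬ |G.a β| * √(mI ι) * (1 + G.rho α) ≤ G.Z / g))] at h1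
  have c1 := h.E_ok0c
  have c2 : g ^ 2 * E2 (fun α β => (G.a α * G.a β) ^ 2) ≤ hI g ι / mI ι / 4 := by
    calc _ ≤ g ^ 2 * (hI g ι / mI ι / g ^ 10) := by gcongr; exact h.E_ab_sq
      _ = hI g ι / mI ι / g ^ 8 := by field_simp
      _ ≤ _ := by
        gcongr; simpa using h.num.const_pow (c := 4) (by norm_num) (show 0 < 8 by norm_num)
  have c3 : 12 * g ^ 2 / G.Z ^ 2 * (G.r4 + G.r4 + G.r4 * G.r4) ≤ hI g ι / mI ι / 4 := by
    refine le_trans ?_ (h.small_div h.r4b (c := 36) (i := 23) h.r4_nonneg (by norm_num) (by norm_num))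
    have d1 := h.r4a; have d2 := h.r4_nonneg; have d3 := one_le_pow₀ (n := 21) h.num.one_le_g
    calc _ ≤ 12 * g ^ 2 / G.Z ^ 2 * (3 * g ^ 21 * G.r4) := by gcongr; nlinarith
      _ = _ := by field_simp; ring
  linarith
theorem ind_ok1_le (α β : ι) : ind (¬ G.ok1 g α β) ≤ g ^ 242 * G.Y α β ^ 2 := by
  have := h.g_pos
  exact (ind_lt_le (by positivity)).trans_eq (by rw [sq_abs]; field_simp)
theorem ind_ok3_le (α β : ι) : ind (¬ G.ok3 g α β) ≤ g ^ 2 / G.Z ^ 2 * G.r α β ^ 2 := by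
  have := h.g_pos; have := h.Z_pos
  exact (ind_lt_le (by positivity)).trans_eq (by rw [sq_abs]; field_simp)
theorem E_ok1 : E2 (fun α β => ind (¬ G.ok1 g α β)) ≤ g ^ 242 * hI g ι / mI ι := by
  have := h.g_pos
  refine (E2_mono h.ind_ok1_le).trans ?_
  rw [E2_const_mul, mul_div_assoc]; gcongr; exact h.E_Y_sq
theorem E_ok3 : E2 (fun α β => ind (¬ G.ok3 g α β)) ≤ hI g ι * G.A g / g ^ 22 := by
  have := h.g_pos; have := h.Z_pos
  refine (E2_mono h.ind_ok3_le).trans ?_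
  rw [E2_const_mul]
  calc _ ≤ g ^ 2 / G.Z ^ 2 * (G.GG g * G.Z / g ^ 24) := by gcongr; exact h.E_r_sq
    _ = _ := by rw [← h.A_mul]; field_simp
theorem t6_le_m : G.t6 ≤ mI ι ^ 3 := by
  have := h.m_pos
  have h1 := h.sqrt_t4_le_m
  have h2 : G.t4 ≤ mI ι ^ 2 := by rw [← Real.sq_sqrt G.t4_nonneg]; gcongr
  calc G.t6 ≤ √G.t4 * G.t4 := Gm.t6_le h.symm
    _ ≤ mI ι * mI ι ^ 2 := by have := G.t4_nonneg; gcongr
    _ = _ := by ring
theorem E_ok3' : E2 (fun α β => ind (¬ G.ok3 g α β)) ≤ 1 / g := by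
  have hg := h.g_pos; have := h.Z_pos; have := h.m_pos
  refine (E2_mono h.ind_ok3_le).trans ?_
  rw [E2_const_mul, E2_sq_eq, ← Gm.t6]
  calc _ ≤ g ^ 2 / G.Z ^ 2 * (mI ι ^ 3 / mI ι ^ 2) := by gcongr; exact h.t6_le_m
    _ = mI ι * g ^ 3 / G.Z ^ 2 / g := by field_simp
    _ ≤ _ := by
      gcongr
      rw [div_le_one (by positivity)]
      refine le_trans ?_ h.W_le
      gcongr
      exact (h.num.pow_mono (by norm_num)).trans h.num.F2
theorem E_x3_sq : E2 (fun α β => G.x3 g α β ^ 2) ≤ g ^ 24 * hI g ι * G.A g := by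
  have hg := h.g_pos; have := h.Z_pos
  have h1 : E2 (fun α β => G.x3 g α β ^ 2) ≤ E2 (fun α β => (g ^ 24 / G.Z) ^ 2 * G.r α β ^ 2) :=
    E2_mono fun α β => by
      rw [Gm.x3, mul_pow, ind_sq, mul_pow, mul_pow, h.sg_sq, mul_one]
      exact ind_mul_le (by positivity) fun _ => le_rfl
  rw [E2_const_mul] at h1
  calc _ ≤ _ := h1
    _ ≤ (g ^ 24 / G.Z) ^ 2 * (G.GG g * G.Z / g ^ 24) := by gcongr; exact h.E_r_sq
    _ = _ := by rw [← h.A_mul]; field_simp

end One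

theorem Two.E_Us_sq (h : Two g G G' bad) :
    E2 (fun α β => Us g G G' bad α β ^ 2) ≤ 300 * hI g ι / mI ι := by
  have h1 : E2 (fun α β => Us g G G' bad α β ^ 2) ≤ E2 (fun α β => 4 * (ind (¬ G.ok0 g α β) +
      ind (¬ G'.ok0 g α β) + G.e α β ^ 2 + G'.e α β ^ 2)) := E2_mono fun α β => by
    have a1 := h.Us_nonneg α β
    have a2 : Us g G G' bad α β ≤ ind (¬ G.ok0 g α β) + ind (¬ G'.ok0 g α β) + G.e α β + G'.e α β := by
      have := ind_mul_le (p := adm g G G' bad α β)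
        (add_nonneg (h.one.e_nonneg α β) (h.two.e_nonneg α β)) fun _ => le_rfl
      unfold Us; linarith
    have a3 : Us g G G' bad α β ^ 2 ≤ _ := pow_le_pow_left₀ a1 a2 2
    nth_rewrite 1 [← ind_sq (¬ G.ok0 g α β), ← ind_sq (¬ G'.ok0 g α β)]
    generalize ind (¬ G.ok0 g α β) = u at *
    generalize ind (¬ G'.ok0 g α β) = v at *
    nlinarith [sq_nonneg (u - v), sq_nonneg (u - G.e α β), sq_nonneg (u - G'.e α β),
      sq_nonneg (v - G.e α β), sq_nonneg (v - G'.e α β), sq_nonneg (G.e α β - G'.e α β)]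
  rw [E2_const_mul, E2_add, E2_add, E2_add] at h1
  have := h.one.E_ok0; have := h.two.E_ok0; have a := h.one.E_e_sq; have b := h.two.E_e_sq
  have h5 : 0 ≤ hI g ι / mI ι := by have := h.one.h_pos; have := h.one.m_pos; positivity
  rw [mul_div_assoc] at *; linarith
theorem Two.E_I3_sq (h : Two g G G' bad) :
    E2 (fun α β => I3 g G G' α β ^ 2) ≤ 2 * hI g ι * (G.A g + G'.A g) / g ^ 22 := by
  have h1 : E2 (fun α β => I3 g G G' α β ^ 2) ≤
      E2 (fun α β => 2 * (ind (¬ G.ok3 g α β) + ind (¬ G'.ok3 g α β))) := E2_mono fun α β => by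
    nth_rewrite 1 [← ind_sq (¬ G.ok3 g α β), ← ind_sq (¬ G'.ok3 g α β)]
    unfold I3
    nlinarith [sq_nonneg (ind (¬ G.ok3 g α β) - ind (¬ G'.ok3 g α β))]
  rw [E2_const_mul, E2_add] at h1
  have := h.one.E_ok3; have := h.two.E_ok3
  have e : 2 * hI g ι * (G.A g + G'.A g) / g ^ 22 =
      2 * (hI g ι * G.A g / g ^ 22 + hI g ι * G'.A g / g ^ 22) := by ring
  linarith
theorem Two.sum_I6 (h : Two g G G' bad) (α : ι) : ∑ β, I6 bad α β ≤ 2 * g ^ 2 := by
  refine le_of_eq_of_le ?_ (h.bad.few α (mem_univ _))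
  rw [card_filter]
  push_cast
  refine sum_congr rfl fun β _ => ?_
  unfold I6 ind; congr
theorem Two.E_I6_left (h : Two g G G' bad) {u : ι → ℝ} (hu : ∀ α, 0 ≤ u α) :
    E2 (fun α β => I6 bad α β * u α) ≤ 2 * g ^ 2 / mI ι * ((∑ α, u α) / mI ι) := by
  have := h.one.m_pos
  simp only [mul_comm (I6 bad _ _)]
  rw [mul_comm]
  exact E2_cond this hu fun α => (h.sum_I6 α).trans_eq (by field_simp)
theorem Two.I6_symm (h : Two g G G' bad) (α β : ι) : I6 bad β α = I6 bad α β := by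
  unfold I6; rw [h.bad.symm]
theorem Two.E_I6_right (h : Two g G G' bad) {u : ι → ℝ} (hu : ∀ α, 0 ≤ u α) :
    E2 (fun α β => I6 bad α β * u β) ≤ 2 * g ^ 2 / mI ι * ((∑ α, u α) / mI ι) := by
  rw [← E2_swap]
  exact (E2_congr fun α β => by rw [h.I6_symm]).trans_le (h.E_I6_left hu)
theorem Two.E_I6 (h : Two g G G' bad) : E2 (I6 bad) ≤ 2 * g ^ 2 / mI ι := by
  have := h.E_I6_left (u := fun _ => 1) fun _ => zero_le_one
  simp only [mul_one, sum_const_mI, div_self h.one.m_pos.ne'] at this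
  exact this
theorem Two.E_I6_sq (h : Two g G G' bad) : E2 (fun α β => I6 bad α β ^ 2) ≤ 2 * g ^ 2 / mI ι :=
  (E2_congr fun _ _ => ind_sq _).trans_le h.E_I6
theorem Two.one_sub_ww (h : Two g G G' bad) (α β : ι) : |1 - ww g G G' bad α β| ≤
    4 / g + (I6 bad α β + (ind (¬ G.ok0 g α β) + ind (¬ G'.ok0 g α β)) +
      (ind (¬ G.ok1 g α β) + ind (¬ G'.ok1 g α β)) + (ind (¬ G.ok3 g α β) + ind (¬ G'.ok3 g α β))) := by
  by_cases k : adm g G G' bad α β
  · refine (h.ww_adm k).trans (le_add_of_nonneg_right ?_)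
    have := @ind_nonneg
    unfold I6
    exact add_nonneg (add_nonneg (add_nonneg (this _) (add_nonneg (this _) (this _)))
      (add_nonneg (this _) (this _))) (add_nonneg (this _) (this _))
  · have := not_adm_ind k
    rw [ww_of_not k, sub_zero, abs_one]
    unfold I3 at this
    linarith [h.four_div.1]
theorem Two.E_ww (h : Two g G G' bad) : 1 / 2 ≤ E2 (ww g G G' bad) := by
  have hm := h.one.m_pos; have hg := h.one.g_pos
  have h1 : E2 (fun α β => 1 - ww g G G' bad α β) ≤ _ :=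
    E2_mono fun α β => (le_abs_self _).trans (h.one_sub_ww α β)
  rw [E2_sub, E2_add, E2_add, E2_add, E2_add, E2_add, E2_add, E2_add, E2_const hm, E2_const hm] at h1
  have a1 := h.E_I6; have a2 := h.one.E_ok0; have a3 := h.two.E_ok0
  have a4 := h.one.E_ok1; have a5 := h.two.E_ok1; have a6 := h.one.E_ok3'; have a7 := h.two.E_ok3'
  have b0 := h.one.inv_g_le; have b1 := h.four_div.2
  have key : ∀ k < 3995, g ^ k / mI ι ≤ 1 / 100 := fun k hk => by
    rw [div_le_div_iff₀ hm (by norm_num), one_mul, mul_comm]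
    exact (h.one.num.const_pow (by norm_num) hk).trans h.one.num.lo
  have b2 := key 2 (by norm_num)
  have b3 : g ^ 242 * hI g ι / mI ι ≤ 1 / 100 := le_trans (by
    gcongr; exact mul_le_of_le_one_right (by positivity) h.one.h_le_one) (key 242 (by norm_num))
  have b4 : hI g ι / mI ι ≤ 1 / 100 := le_trans (by
    gcongr; rw [pow_zero]; exact h.one.h_le_one) (key 0 (by norm_num))
  rw [mul_div_assoc] at a1
  change E2 (fun α β => I6 bad α β) ≤ _ at a1
  change _ ≤ E2 (fun α β => ww g G G' bad α β)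
  linarith

end Vale.Agent.P049
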