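import Vale.Agent.P049.Lin
import Vale.Agent.P049.Num

set_option maxRecDepth 100000
set_option linter.unusedSectionVars false

namespace Vale.Agent.P049

open Finset

variable {ι : Type} [Fintype ι] [DecidableEq ι] {g : ℝ} {G G' : Gm ι} {bad : ι → ι → Bool}

namespace One

variable (h : One g G)
include h

theorem m_pos : 0 < mI ι := h.num.m_pos
theorem g_pos : 0 < g := h.num.g_pos
theorem sg_sq : G.sg ^ 2 = 1 := by rcases h.sg with k | k <;> rw [k] <;> norm_num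
theorem abs_sg : |G.sg| = 1 := by rcases h.sg with k | k <;> rw [k] <;> norm_num
theorem Z_big : g ^ 3994 ≤ G.Z := h.num.F2'.trans h.Zlo
theorem Z_pos : 0 < G.Z := (pow_pos h.g_pos _).trans_le h.Z_big
theorem Z_le : G.Z ≤ mI ι := by have := G.t2_nonneg; rw [G.Z_eq]; linarith
theorem z_pos : 0 < G.z := div_pos h.Z_pos h.m_pos
theorem z_le_one : G.z ≤ 1 := (div_le_one h.m_pos).2 h.Z_le
theorem ze_le_z : zeI g ι ≤ G.z := by rw [Gm.z, le_div_iff₀ h.m_pos, mul_comm]; exact h.Zlo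
theorem Z_eq_z : G.Z = mI ι * G.z := by rw [Gm.z, mul_div_cancel₀ _ h.m_pos.ne']
theorem t2_eq_z : G.t2 = mI ι * (1 - G.z) := by rw [mul_sub, ← h.Z_eq_z, G.Z_eq]; ring
theorem t2_le : G.t2 ≤ mI ι := by have := h.Z_pos; rw [G.Z_eq] at this; linarith
theorem sqrt_mZ : √(mI ι * G.Z) = mI ι * √G.z := by
  rw [h.Z_eq_z, ← mul_assoc, Real.sqrt_mul (mul_self_nonneg _), Real.sqrt_mul_self h.m_pos.le]
theorem l2_nonneg : 0 ≤ G.l2 := div_nonneg (Real.sqrt_nonneg _) h.m_pos.le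
theorem l2_le : G.l2 ≤ hI g ι := by
  rw [Gm.l2, div_le_iff₀ h.m_pos, mul_comm]; exact G.sqrt_t4_le.trans h.t2h
theorem sqrt_t4 : √G.t4 = mI ι * G.l2 := by rw [Gm.l2, mul_div_cancel₀ _ h.m_pos.ne']
theorem t4_eq : G.t4 = mI ι ^ 2 * G.l2 ^ 2 := by
  rw [← mul_pow, ← h.sqrt_t4, Real.sq_sqrt G.t4_nonneg]
theorem r4_nonneg : 0 ≤ G.r4 := div_nonneg (sum_nonneg fun _ _ => sq_nonneg _) h.m_pos.le
theorem sum_rho_sq : ∑ α, G.rho α ^ 2 = mI ι * G.r4 := by rw [Gm.r4, mul_div_cancel₀ _ h.m_pos.ne']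
theorem h_pos : 0 < hI g ι := h.num.h_pos
theorem h_le_one : hI g ι ≤ 1 := h.num.h_le_one
theorem ze_pos : 0 < zeI g ι := h.num.ze_pos
theorem h2_pos : 0 < h2I g ι := h.num.h2_pos
theorem l2_le_one : G.l2 ≤ 1 := h.l2_le.trans h.h_le_one
theorem sqrt_t4_le_m : √G.t4 ≤ mI ι := G.sqrt_t4_le.trans h.t2_le
theorem GG_eq : G.GG g = g ^ 120 * G.l2 ^ 2 + g ^ 24 * G.t6 / (mI ι ^ 2 * G.Z) := by
  have := h.m_pos
  rw [Gm.GG, h.t4_eq]; congr 1; field_simp
theorem t6_part : 0 ≤ g ^ 24 * G.t6 / (mI ι ^ 2 * G.Z) := by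
  have := h.g_pos; have := h.Z_pos; have := G.t6_nonneg; positivity
theorem l2_le_GG : g ^ 120 * G.l2 ^ 2 ≤ G.GG g := by rw [h.GG_eq]; linarith [h.t6_part]
theorem GG_nonneg : 0 ≤ G.GG g := le_trans (by have := h.g_pos; positivity) h.l2_le_GG
theorem A_nonneg : 0 ≤ G.A g := div_nonneg h.GG_nonneg (mul_pos h.Z_pos h.h_pos).le
theorem A_mul : G.A g * (G.Z * hI g ι) = G.GG g := div_mul_cancel₀ _ (mul_pos h.Z_pos h.h_pos).ne'
theorem t6_le_GG : g ^ 24 * G.t6 ≤ G.GG g * (mI ι ^ 2 * G.Z) := by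
  have := h.g_pos; have := h.Z_pos; have := h.m_pos
  rw [← div_le_iff₀ (by positivity), h.GG_eq]
  exact le_add_of_nonneg_left (by positivity)
theorem l2_le_A : g ^ 120 * G.l2 ^ 2 ≤ mI ι * G.A g * G.z := by
  refine h.l2_le_GG.trans ?_
  rw [← h.A_mul]
  calc G.A g * (G.Z * hI g ι) ≤ G.A g * (G.Z * 1) := by
        have := h.A_nonneg; have := h.Z_pos; gcongr; exact h.h_le_one
    _ = _ := by rw [h.Z_eq_z]; ring
theorem sum_a_sq : ∑ α, G.a α ^ 2 ≤ G.Dh := by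
  have hm := h.m_pos
  calc ∑ α, G.a α ^ 2 ≤ ∑ α, (2 * G.Y α α ^ 2 + 2 / mI ι ^ 2) := sum_le_sum fun α _ => by
        have : (G.sg / mI ι) ^ 2 = 1 / mI ι ^ 2 := by rw [div_pow, h.sg_sq]
        have e : 2 / mI ι ^ 2 = 2 * (1 / mI ι ^ 2) := by ring
        rw [G.a_eq, e, ← this]; nlinarith [sq_nonneg (G.Y α α - G.sg / mI ι)]
    _ = _ := by rw [sum_add_distrib, ← mul_sum, sum_const_mI, Gm.Dh, G.D_eq]; field_simp
theorem D_nonneg : 0 ≤ G.D := sum_nonneg fun _ _ => sq_nonneg _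
theorem D_le_Dh : G.D ≤ G.Dh := by
  have := h.D_nonneg; have : 0 ≤ 2 / mI ι := by have := h.m_pos; positivity
  rw [Gm.Dh]; linarith
theorem Dh_nonneg : 0 ≤ G.Dh := h.D_nonneg.trans h.D_le_Dh
theorem a_sq_le (α : ι) : G.a α ^ 2 ≤ g ^ 291 :=
  ((single_le_sum (f := fun α => G.a α ^ 2) (fun _ _ => sq_nonneg _) (mem_univ α)).trans
    h.sum_a_sq).trans h.Dha
theorem sum_a : ∑ α, G.a α = G.t1 + G.sg := by
  have := h.m_pos
  simp only [G.a_eq, sum_add_distrib, sum_const_mI, G.t1_eq]; field_simp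
theorem t1_sq : G.t1 ^ 2 ≤ g ^ 135 * G.Z * hI g ι := by
  rcases le_total 0 G.t1 with k | k
  · have h1 := h.tp
    rw [max_eq_left k] at h1
    refine h1.trans ?_
    have := h.Z_pos; have := h.h_pos
    gcongr; exacts [h.num.one_le_g, by norm_num]
  · have h1 := h.tm
    rwa [max_eq_left (by linarith), neg_sq] at h1
theorem sum_f : ∑ α, G.f α = -G.Z := by
  simp only [Gm.f, sum_sub_distrib, sum_const_mI, G.Z_eq, G.t2_eq_sum]; ring
theorem V_nonneg : 0 ≤ G.V := sum_nonneg fun _ _ => sq_nonneg _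
theorem sqrt_z_le : √G.z ≤ 1 := Real.sqrt_le_one.2 h.z_le_one
theorem z_le_sqrt : G.z ≤ √G.z := by
  have := Real.sq_sqrt h.z_pos.le; have := h.sqrt_z_le; have := Real.sqrt_nonneg G.z; nlinarith
theorem V_le : G.V ≤ g ^ 20 * mI ι := by
  refine h.Vb.trans ?_
  have := h.g_pos
  rw [h.sqrt_mZ]
  gcongr
  exact mul_le_of_le_one_right h.m_pos.le h.sqrt_z_le
theorem sum_abs_f_rho : (∑ α, |G.f α| * G.rho α) ^ 2 ≤ G.V * (mI ι * G.r4) := by
  rw [← h.sum_rho_sq, G.V_eq]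
  simpa only [sq_abs] using sum_mul_sq_le_sq_mul_sq univ (fun α => |G.f α|) G.rho
theorem Qv_eq : G.Qv g = G.V + g ^ 10 * (mI ι * √G.z) := by rw [Gm.Qv, h.sqrt_mZ]
theorem Qv_part : 0 ≤ g ^ 10 * (mI ι * √G.z) := by have := h.g_pos; have := h.m_pos; positivity
theorem Qv_sq : g ^ 10 * (G.V * (mI ι * √G.z)) ≤ G.Qv g ^ 2 := by
  have := h.V_nonneg; have := h.Qv_part
  rw [h.Qv_eq]; nlinarith [mul_nonneg h.V_nonneg h.Qv_part]
theorem V_le_Qv : G.V ≤ G.Qv g := by rw [h.Qv_eq]; linarith [h.Qv_part]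
theorem le_Qv : g ^ 10 * (mI ι * √G.z) ≤ G.Qv g := by rw [h.Qv_eq]; linarith [h.V_nonneg]
theorem Qv_nonneg : 0 ≤ G.Qv g := h.V_nonneg.trans h.V_le_Qv
theorem e_nonneg (α β : ι) : 0 ≤ G.e α β := by have := h.m_pos; unfold Gm.e; positivity
theorem abs_x3_le (α β : ι) : |G.x3 g α β| ≤ 1 / g := by
  have hg := h.g_pos; have hm := h.m_pos; have hZ := h.Z_pos
  rw [Gm.x3, abs_mul, abs_of_nonneg (ind_nonneg _)]
  refine ind_mul_le (by positivity) fun k => ?_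
  have hK : 0 ≤ G.Kg g := by unfold Gm.Kg; positivity
  have h1 : G.r α β ^ 2 ≤ (√(mI ι) * G.Kg g) ^ 2 := by
    refine (Gm.r_sq_le h.symm α β).trans ?_
    rw [mul_pow, Real.sq_sqrt hm.le, sq]
    have := G.rho_nonneg α; have := G.rho_nonneg β
    gcongr
    exacts [h.sqrt_t4_le_m, k.1, k.2]
  have h2 : |G.r α β| ≤ √(mI ι) * G.Kg g := abs_le_of_sq_le_sq' h1 (by positivity) |> abs_le.2
  have h3 : 0 < √(mI ι) := Real.sqrt_pos.2 hm
  rw [abs_mul, abs_mul, h.abs_sg, abs_of_pos (by positivity)]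
  calc g ^ 24 / G.Z * 1 * |G.r α β| ≤ g ^ 24 / G.Z * 1 * (√(mI ι) * G.Kg g) := by gcongr
    _ = 1 / g := by unfold Gm.Kg; field_simp
theorem ok_symm {α β : ι} (k : G.ok g α β) : G.ok g β α := by
  obtain ⟨⟨k1, k2, k3, k4⟩, k5, k6⟩ := k
  refine ⟨⟨by rwa [mul_comm], by rwa [mul_comm], k4, k3⟩, ?_, ?_⟩
  · unfold Gm.ok1 at *; rwa [h.symm]
  · unfold Gm.ok3 at *; rwa [Gm.r_symm h.symm]
theorem inv_m_le : 1 / mI ι ≤ 1 / g :=
  one_div_le_one_div_of_le h.g_pos (by simpa using h.num.pow_le_m (k := 1) (by norm_num))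
theorem inv_g_le : 1 / g ≤ 1 / 10 ^ 30 := one_div_le_one_div_of_le (by norm_num) h.num.hg
theorem ok_c {α β : ι} (k : G.ok g α β) : |G.Y α β| ≤ 1 / g :=
  k.2.1.trans (one_div_le_one_div_of_le h.g_pos
    (by simpa using h.num.pow_mono (j := 1) (k := 121) (by norm_num)))
theorem ok_e {α β : ι} (k : G.ok g α β) : G.e α β ≤ 3 / g := by
  have := h.ok_c k; have := k.1.1; have := h.inv_m_le
  have e : 3 / g = 1 / g + 1 / g + 1 / g := by ring
  rw [Gm.e, e]; linarith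
theorem sg_s (α β : ι) : G.sg * G.s α β = 1 - (1 / mI ι + G.sg * G.Y α β) := by
  rw [G.s_eq, s0, mul_sub, ← mul_assoc, ← sq, h.sg_sq]; ring
theorem abs_sg_s (α β : ι) : |G.sg * G.s α β - 1| ≤ |G.Y α β| + 1 / mI ι := by
  have := h.m_pos
  rw [h.sg_s, sub_sub_cancel_left, abs_neg, add_comm]
  refine (abs_add_le _ _).trans_eq ?_
  rw [abs_mul, h.abs_sg, one_mul, abs_of_pos (a := 1 / mI ι) (by positivity)]
theorem s_sq (α β : ι) : G.s α β ^ 2 = (G.sg * G.s α β) ^ 2 := by rw [mul_pow, h.sg_sq, one_mul]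
theorem ok_dl' {α β : ι} (k : G.ok g α β) : |G.dl α β - 1| ≤ 3 * G.e α β := by
  have h1 := h.abs_sg_s α β
  have h2 := h.ok_c k; have h3 := h.inv_m_le; have h4 := h.inv_g_le
  have h5 := abs_nonneg (G.Y α β)
  have h6 : 0 < 1 / mI ι := by have := h.m_pos; positivity
  have h7 := abs_nonneg (G.a α * G.a β)
  rw [G.dl_eq, h.s_sq, Gm.e]
  rw [abs_le] at h1 ⊢
  have := le_abs_self (G.a α * G.a β); have := neg_abs_le (G.a α * G.a β)
  constructor <;> nlinarith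
theorem ok_e' {α β : ι} (k : G.ok g α β) : G.e α β ≤ 1 / 1000 := by
  have := h.ok_e k; have := h.inv_g_le
  have e : 3 / g = 3 * (1 / g) := by ring
  linarith
theorem ok_dl {α β : ι} (k : G.ok g α β) : 3 / 4 ≤ G.dl α β ∧ G.dl α β ≤ 5 / 4 := by
  have h1 := abs_le.1 (h.ok_dl' k); have := h.ok_e' k
  constructor <;> linarith [h1.1, h1.2]
theorem ok_dl_pos {α β : ι} (k : G.ok g α β) : 0 < G.dl α β := by linarith [(h.ok_dl k).1]
theorem abs_sg_s' (α β : ι) : |G.sg * G.s α β - 1| ≤ G.e α β := by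
  have := h.abs_sg_s α β; have := abs_nonneg (G.a α * G.a β)
  rw [Gm.e]; linarith
theorem ok_s {α β : ι} (k : G.ok g α β) : |G.s α β| ≤ 11 / 10 := by
  have h1 := abs_le.1 (h.abs_sg_s' α β); have := h.ok_e' k
  have : |G.s α β| = |G.sg * G.s α β| := by rw [abs_mul, h.abs_sg, one_mul]
  rw [this, abs_le]; constructor <;> linarith [h1.1, h1.2]
theorem ok_inv {α β : ι} (k : G.ok g α β) : |1 / G.dl α β - 1| ≤ 4 * G.e α β := by
  have h1 := h.ok_dl' k; have h2 := (h.ok_dl k).1; have h3 := h.ok_dl_pos k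
  have : 1 / G.dl α β - 1 = -(G.dl α β - 1) / G.dl α β := by field_simp; ring
  rw [this, abs_div, abs_neg, abs_of_pos h3, div_le_iff₀ h3]
  nlinarith [h.e_nonneg α β]
theorem ok_q {α β : ι} (k : G.ok g α β) : |G.sg * G.s α β / G.dl α β - 1| ≤ 6 * G.e α β := by
  have h1 := abs_le.1 (h.ok_dl' k); have h2 := (h.ok_dl k).1; have h3 := h.ok_dl_pos k
  have h4 := abs_le.1 (h.abs_sg_s' α β)
  have : G.sg * G.s α β / G.dl α β - 1 = (G.sg * G.s α β - G.dl α β) / G.dl α β := by field_simp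
  rw [this, abs_div, abs_of_pos h3, div_le_iff₀ h3, abs_le]
  have := h.e_nonneg α β
  constructor <;> nlinarith [h1.1, h1.2, h4.1, h4.2]
theorem ok_q2 {α β : ι} (k : G.ok g α β) : |(G.s α β / G.dl α β) ^ 2 - 1| ≤ 13 * G.e α β := by
  have h1 := abs_le.1 (h.ok_q k); have h2 := h.ok_e' k; have := h.e_nonneg α β
  have : (G.s α β / G.dl α β) ^ 2 = (G.sg * G.s α β / G.dl α β) ^ 2 := by
    rw [div_pow, div_pow, h.s_sq]
  rw [this, abs_le]
  constructor <;> nlinarith [h1.1, h1.2]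
theorem ok_inv_sq {α β : ι} (k : G.ok g α β) : 1 / G.dl α β ^ 2 ≤ 16 / 9 := by
  have h2 := (h.ok_dl k).1
  rw [div_le_div_iff₀ (by positivity) (by norm_num)]; nlinarith
theorem ok_b {α β : ι} (k : G.ok g α β) : |G.a β| / mI ι ≤ 1 / g := by
  have hm := h.m_pos; have hg := h.g_pos
  have h1 : 1 ≤ √(mI ι) := Real.one_le_sqrt.2 (by simpa using h.num.pow_le_m (k := 0) (by norm_num))
  have h2 := k.1.2.2.1
  have h3 : |G.a β| ≤ |G.a β| * √(mI ι) * (1 + G.rho α) := by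
    have := G.rho_nonneg α; have := abs_nonneg (G.a β)
    calc |G.a β| = |G.a β| * 1 * 1 := by ring
      _ ≤ _ := by gcongr; linarith
  rw [div_le_iff₀ hm]
  calc |G.a β| ≤ G.Z / g := h3.trans h2
    _ ≤ mI ι / g := by gcongr; exact h.Z_le
    _ = _ := by ring
theorem ok_bY {α β : ι} (k : G.ok g α β) : |G.a β * G.Y α α| ≤ 2 / g := by
  have hm := h.m_pos
  have e : G.a β * G.Y α α = G.a α * G.a β - G.sg * (G.a β / mI ι) := by rw [G.a_eq α]; ring
  rw [e]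
  refine (abs_sub _ _).trans ?_
  rw [abs_mul G.sg, h.abs_sg, abs_div, abs_of_pos hm]
  have := h.ok_b k; have := k.1.1
  have e : 2 / g = 1 / g + 1 / g := by ring
  linarith
theorem ok_g1 {α β : ι} (k : G.ok g α β) : |G.g1 α β α| ≤ 4 / g := by
  have h2 := (h.ok_dl k).1; have h3 := h.ok_dl_pos k; have hg := h.g_pos
  rw [Gm.g1, abs_div, abs_of_pos h3, div_le_iff₀ h3]
  refine (abs_add_le _ _).trans ?_
  have h4 := h.ok_bY k
  have h5 : |G.s α β * G.Y β α| ≤ 11 / 10 * (1 / g) := by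
    rw [abs_mul, h.symm β α]; gcongr; exacts [h.ok_s k, h.ok_c k]
  have h6 : |G.Y α β| ≤ 1 / g ^ 121 := k.2.1
  have h7 : |G.s α β * G.Y β α| ≤ 11 / 10 * (1 / g ^ 121) := by
    rw [abs_mul, h.symm β α]; gcongr; exact h.ok_s k
  have h8 : 11 / 10 * (1 / g ^ 121) ≤ 1 / g := by
    rw [mul_one_div, div_le_div_iff₀ (by positivity) hg, one_mul]
    simpa using h.num.const_pow (c := 11 / 10) (by norm_num) (show 1 < 121 by norm_num)
  have e : 4 / g = 4 * (1 / g) := by ring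
  have e2 : 2 / g = 2 * (1 / g) := by ring
  have : 0 < 1 / g := by positivity
  nlinarith
theorem ok_s_sq {α β : ι} (k : G.ok g α β) : G.s α β ^ 2 ≤ 121 / 100 := by
  have := h.ok_s k; rw [← sq_abs]; nlinarith [abs_nonneg (G.s α β)]
omit h in
theorem quot_sq {u v d s : ℝ} (hd : 3 / 4 ≤ d) (hs : s ^ 2 ≤ 121 / 100) :
    ((u + s * v) / d) ^ 2 ≤ 5 * (u ^ 2 + v ^ 2) := by
  rw [div_pow, div_le_iff₀ (by positivity)]
  have h1 : (u + s * v) ^ 2 ≤ 2 * u ^ 2 + 2 * (s ^ 2 * v ^ 2) := by nlinarith [sq_nonneg (u - s * v)]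
  have h2 : s ^ 2 * v ^ 2 ≤ 121 / 100 * v ^ 2 := by gcongr
  have h3 : 9 / 16 ≤ d ^ 2 := by nlinarith
  nlinarith [sq_nonneg u, sq_nonneg v]
theorem ok_g1_sq {α β : ι} (k : G.ok g α β) (μ : ι) :
    G.g1 α β μ ^ 2 ≤ 5 * (G.a β ^ 2 * G.Y α μ ^ 2 + G.Y β μ ^ 2) := by
  rw [← mul_pow]; exact quot_sq (h.ok_dl k).1 (h.ok_s_sq k)
theorem ok_g2_sq {α β : ι} (k : G.ok g α β) (μ : ι) :
    G.g2 α β μ ^ 2 ≤ 5 * (G.Y α μ ^ 2 + G.a α ^ 2 * G.Y β μ ^ 2) := by
  rw [← mul_pow, Gm.g2, add_comm, add_comm (G.Y α μ ^ 2)]; exact quot_sq (h.ok_dl k).1 (h.ok_s_sq k)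

end One

theorem adm_swap {α β : ι} : adm g G' G bad α β ↔ adm g G G' bad α β := by unfold adm; tauto
theorem ww_swap (α β : ι) : ww g G' G bad α β = ww g G G' bad α β := by
  unfold ww; rw [ind_congr adm_swap]; ring
theorem bb_swap : bb g G' G = bb g G G' := by unfold bb; ring
theorem UU_swap (α β : ι) : UU g G' G bad α β = UU g G G' bad α β := by
  unfold UU; rw [ind_congr adm_swap, ww_swap]; ring
theorem ww_of_not {α β : ι} (k : ¬ adm g G G' bad α β) : ww g G G' bad α β = 0 := by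
  unfold ww; rw [ind_of_not k, zero_mul]
theorem ww_of {α β : ι} (k : adm g G G' bad α β) : ww g G G' bad α β =
    1 - (G.x1 g α β + G'.x1 g α β) - (G.x3 g α β + G'.x3 g α β) := by
  unfold ww; rw [ind_of k, one_mul]

theorem One.abs_x1 (h : One g G) (α β : ι) : |G.x1 g α β| = g ^ 120 * |G.Y α β| := by
  rw [Gm.x1, abs_mul, abs_mul, h.abs_sg, mul_one, abs_of_pos (pow_pos h.g_pos _)]
theorem One.ok1_x1 (h : One g G) {α β : ι} (k : G.ok1 g α β) : |G.x1 g α β| ≤ 1 / g := by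
  have := h.g_pos
  rw [h.abs_x1]
  calc g ^ 120 * |G.Y α β| ≤ g ^ 120 * (1 / g ^ 121) := by gcongr; exact k
    _ = _ := by field_simp
theorem One.x_symm (h : One g G) (α β : ι) :
    G.x1 g β α = G.x1 g α β ∧ G.x3 g β α = G.x3 g α β ∧ G.e β α = G.e α β := by
  refine ⟨by rw [Gm.x1, Gm.x1, h.symm], ?_, by rw [Gm.e, Gm.e, h.symm, mul_comm]⟩
  rw [Gm.x3, Gm.x3, Gm.r_symm h.symm, ind_congr and_comm]

theorem not_adm_ind {α β : ι} (k : ¬ adm g G G' bad α β) :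
    1 ≤ I6 bad α β + (ind (¬ G.ok0 g α β) + ind (¬ G'.ok0 g α β)) +
      (ind (¬ G.ok1 g α β) + ind (¬ G'.ok1 g α β)) + I3 g G G' α β := by
  have a1 := ind_nonneg (bad α β = true)
  have a2 := ind_nonneg (¬ G.ok0 g α β); have a3 := ind_nonneg (¬ G'.ok0 g α β)
  have a4 := ind_nonneg (¬ G.ok1 g α β); have a5 := ind_nonneg (¬ G'.ok1 g α β)
  have a6 := ind_nonneg (¬ G.ok3 g α β); have a7 := ind_nonneg (¬ G'.ok3 g α β)
  unfold I6 I3
  unfold adm Gm.ok at k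
  simp only [not_and_or, Bool.not_eq_false] at k
  rcases k with k | (k | k | k) | k | k | k <;> have := ind_of k <;> linarith

namespace Two

variable (h : Two g G G' bad)
include h

theorem swap : Two g G' G bad where
  one := h.two
  two := h.one
  sg := by rw [h.sg, neg_neg]
  bad := h.bad
  Nb := by rw [NN_swap h.one.symm h.two.symm]; exact h.Nb
  cross := by rw [P0_swap h.one.symm h.two.symm]; exact h.cross
theorem bb_eq : bb g G G' = 1 / (g * mI ι) + G.A g / g + G'.A g / g := by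
  have := h.one.g_pos; have := h.one.m_pos
  unfold bb; field_simp
theorem le_bb : 1 / (g * mI ι) ≤ bb g G G' := by
  have := div_nonneg h.one.A_nonneg h.one.g_pos.le; have := div_nonneg h.two.A_nonneg h.one.g_pos.le
  rw [h.bb_eq]; linarith
theorem bb_pos : 0 < bb g G G' :=
  lt_of_lt_of_le (by have := h.one.g_pos; have := h.one.m_pos; positivity) h.le_bb
theorem A_le_bb : G.A g / g ≤ bb g G G' := by
  have := div_nonneg h.two.A_nonneg h.one.g_pos.le
  have : 0 < 1 / (g * mI ι) := by have := h.one.g_pos; have := h.one.m_pos; positivity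
  rw [h.bb_eq]; linarith
theorem m_bb : mI ι * bb g G G' = (1 + mI ι * (G.A g + G'.A g)) / g := by
  have := h.one.g_pos; have := h.one.m_pos
  unfold bb; field_simp; ring
theorem bb_sq : (G.A g + G'.A g) / (g ^ 2 * mI ι) ≤ bb g G G' ^ 2 := by
  have := h.one.g_pos; have := h.one.m_pos
  have h1 := add_nonneg h.one.A_nonneg h.two.A_nonneg
  have e : bb g G G' ^ 2 = (1 / mI ι + (G.A g + G'.A g)) ^ 2 / g ^ 2 := by unfold bb; ring
  have e2 : (G.A g + G'.A g) / (g ^ 2 * mI ι) = (1 / mI ι * (G.A g + G'.A g)) / g ^ 2 := by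
    field_simp
  rw [e, e2]
  gcongr
  have : 0 < 1 / mI ι := by positivity
  nlinarith [mul_nonneg this.le h1]
theorem Bz_eq : Bz g G G' = (G.z * hI g ι + G.GG g + G'.A g * (G.Z * hI g ι)) / g ^ 11 := by
  have := h.one.g_pos; have := h.one.m_pos
  rw [← h.one.A_mul]; unfold Bz bb Gm.z; field_simp
theorem young_aux {x : ℝ} {k j : ℕ} (hx : x ^ k * G.z ≤ g ^ j * G.l2 ^ 2) (e : j + k = 120) :
    (g * x) ^ k ≤ mI ι * (G.A g + G'.A g) := by
  have hg := h.one.g_pos; have hm := h.one.m_pos; have hz := h.one.z_pos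
  have h1 := h.one.l2_le_A
  have h2 : (g * x) ^ k * G.z ≤ mI ι * G.A g * G.z := by
    calc (g * x) ^ k * G.z = g ^ k * (x ^ k * G.z) := by ring
      _ ≤ g ^ k * (g ^ j * G.l2 ^ 2) := by gcongr
      _ = g ^ 120 * G.l2 ^ 2 := by rw [← e]; ring
      _ ≤ _ := h1
  have h3 := le_of_mul_le_mul_right h2 hz
  have := mul_nonneg hm.le h.two.A_nonneg
  linarith
theorem young4 {x : ℝ} (hx : x ^ 4 * G.z ≤ g ^ 116 * G.l2 ^ 2) : x ≤ mI ι * bb g G G' := by
  have h1 := h.young_aux hx (by norm_num)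
  rw [h.m_bb, le_div_iff₀ h.one.g_pos, mul_comm x]
  nlinarith [sq_nonneg ((g * x) ^ 2 - 1 / 2), sq_nonneg (g * x - 1 / 2)]
theorem young2 {x : ℝ} (hx : x ^ 2 * G.z ≤ g ^ 118 * G.l2 ^ 2) : x ≤ mI ι * bb g G G' := by
  have h1 := h.young_aux hx (by norm_num)
  rw [h.m_bb, le_div_iff₀ h.one.g_pos, mul_comm x]
  nlinarith [sq_nonneg (g * x - 1 / 2)]
theorem adm_ne {α β : ι} (k : adm g G G' bad α β) : α ≠ β := by
  rintro rfl
  have := k.1
  rw [h.bad.refl] at this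
  exact absurd this (by decide)
theorem adm_symm {α β : ι} (k : adm g G G' bad α β) : adm g G G' bad β α :=
  ⟨by rw [h.bad.symm]; exact k.1, h.one.ok_symm k.2.1, h.two.ok_symm k.2.2⟩
theorem ind_adm_symm (α β : ι) : ind (adm g G G' bad β α) = ind (adm g G G' bad α β) :=
  ind_congr ⟨h.adm_symm, h.adm_symm⟩
theorem ww_symm (α β : ι) : ww g G G' bad β α = ww g G G' bad α β := by
  unfold ww
  rw [h.ind_adm_symm, (h.one.x_symm α β).1, (h.one.x_symm α β).2.1, (h.two.x_symm α β).1,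
    (h.two.x_symm α β).2.1]
theorem UU_symm (α β : ι) : UU g G G' bad β α = UU g G G' bad α β := by
  unfold UU
  rw [h.ind_adm_symm, h.ww_symm, (h.one.x_symm α β).2.2, (h.two.x_symm α β).2.2]
theorem ww_adm {α β : ι} (k : adm g G G' bad α β) : |1 - ww g G G' bad α β| ≤ 4 / g := by
  have h1 := abs_le.1 (h.one.ok1_x1 k.2.1.2.1); have h2 := abs_le.1 (h.two.ok1_x1 k.2.2.2.1)
  have h3 := abs_le.1 (h.one.abs_x3_le α β); have h4 := abs_le.1 (h.two.abs_x3_le α β)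
  have e : 4 / g = 4 * (1 / g) := by ring
  rw [ww_of k, abs_le, e]
  constructor <;> linarith [h1.1, h1.2, h2.1, h2.2, h3.1, h3.2, h4.1, h4.2]
theorem four_div : 0 < 4 / g ∧ 4 / g ≤ 1 / 1000 := by
  have := h.one.inv_g_le; have := h.one.g_pos
  have e : 4 / g = 4 * (1 / g) := by ring
  exact ⟨by positivity, by linarith⟩
theorem ww_nonneg (α β : ι) : 0 ≤ ww g G G' bad α β := by
  by_cases k : adm g G G' bad α β
  · have := abs_le.1 (h.ww_adm k); linarith [h.four_div.2, this.2]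
  · rw [ww_of_not k]
theorem ww_le (α β : ι) : ww g G G' bad α β ≤ 1 + 4 / g := by
  by_cases k : adm g G G' bad α β
  · have := abs_le.1 (h.ww_adm k); linarith [this.1]
  · rw [ww_of_not k]; linarith [h.four_div.1]
theorem ww_le_two (α β : ι) : ww g G G' bad α β ≤ 2 := by linarith [h.ww_le α β, h.four_div.2]
theorem ww_mul_le {α β : ι} {s t : ℝ} (k : adm g G G' bad α β → s ≤ t) :
    ww g G G' bad α β * s ≤ ww g G G' bad α β * t := by
  by_cases k' : adm g G G' bad α β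
  · exact mul_le_mul_of_nonneg_left (k k') (h.ww_nonneg α β)
  · simp [ww_of_not k']
theorem ww_mul_le_ind {α β : ι} {s : ℝ} (hs : 0 ≤ s) :
    ww g G G' bad α β * s ≤ 2 * (ind (adm g G G' bad α β) * s) := by
  by_cases k' : adm g G G' bad α β
  · rw [ind_of k', one_mul]; exact mul_le_mul_of_nonneg_right (h.ww_le_two α β) hs
  · simp [ww_of_not k', ind_of_not k']
theorem ee_nonneg (α β : ι) : 0 ≤ ind (adm g G G' bad α β) * (G.e α β + G'.e α β) :=
  mul_nonneg (ind_nonneg _) (add_nonneg (h.one.e_nonneg α β) (h.two.e_nonneg α β))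
theorem UU_nonneg (α β : ι) : 0 ≤ UU g G G' bad α β := add_nonneg (abs_nonneg _) (h.ee_nonneg α β)
theorem Us_nonneg (α β : ι) : 0 ≤ Us g G G' bad α β :=
  add_nonneg (add_nonneg (ind_nonneg _) (ind_nonneg _)) (h.ee_nonneg α β)
theorem wq {α β : ι} {q : ℝ} (k' : adm g G G' bad α β)
    (k : |q - 1| ≤ 13 * (G.e α β + G'.e α β)) :
    |ww g G G' bad α β * (q - 1)| ≤ 26 * (ind (adm g G G' bad α β) * (G.e α β + G'.e α β)) := by
  rw [abs_mul, abs_of_nonneg (h.ww_nonneg α β), ind_of k']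
  calc _ ≤ 2 * (13 * (G.e α β + G'.e α β)) :=
        mul_le_mul (h.ww_le_two α β) k (abs_nonneg _) (by norm_num)
    _ = _ := by ring
theorem P2 {α β : ι} {q : ℝ} (k : adm g G G' bad α β → |q - 1| ≤ 13 * (G.e α β + G'.e α β)) :
    |ww g G G' bad α β * q - 1| ≤ 26 * UU g G G' bad α β := by
  have h0 := abs_nonneg (1 - ww g G G' bad α β)
  by_cases k' : adm g G G' bad α β
  · have h1 := h.wq k' (k k')
    have e : ww g G G' bad α β * q - 1 = ww g G G' bad α β * (q - 1) - (1 - ww g G G' bad α β) := by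
      ring
    rw [e]
    refine (abs_sub _ _).trans ?_
    unfold UU; linarith
  · have := h.ee_nonneg α β
    unfold UU; rw [ww_of_not k']; norm_num; linarith
theorem P3 {α β : ι} {q : ℝ} (k : adm g G G' bad α β → |q - 1| ≤ 13 * (G.e α β + G'.e α β)) :
    |ww g G G' bad α β * q - 1 + (G.x1 g α β + G'.x1 g α β) + (G.x3 g α β + G'.x3 g α β)| ≤
      2 * I3 g G G' α β + 26 * Us g G G' bad α β + 2 * I6 bad α β +
        2 * g ^ 242 * (G.Y α β ^ 2 + G'.Y α β ^ 2) := by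
  have hg := h.one.g_pos
  have a1 : 0 ≤ I6 bad α β := ind_nonneg _
  have a2 := ind_nonneg (¬ G.ok0 g α β); have a3 := ind_nonneg (¬ G'.ok0 g α β)
  have a6 : 0 ≤ I3 g G G' α β := add_nonneg (ind_nonneg _) (ind_nonneg _)
  have a7 : 0 ≤ 2 * g ^ 242 * (G.Y α β ^ 2 + G'.Y α β ^ 2) := by positivity
  have a8 := h.ee_nonneg α β
  by_cases k' : adm g G G' bad α β
  · have h1 := h.wq k' (k k')
    have e : ww g G G' bad α β * q - 1 + (G.x1 g α β + G'.x1 g α β) + (G.x3 g α β + G'.x3 g α β) =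
        ww g G G' bad α β * (q - 1) := by rw [mul_sub, mul_one, ww_of k']; ring
    rw [e]; unfold Us; linarith
  · have b1 := not_adm_ind k'
    have h3 := abs_le.1 (h.one.abs_x3_le α β); have h4 := abs_le.1 (h.two.abs_x3_le α β)
    have hi := h.one.inv_g_le
    have key : ∀ {H : Gm ι}, One g H → |H.x1 g α β| ≤ 1 / g * (1 + g ^ 242 * H.Y α β ^ 2) ∧
        ind (¬ H.ok1 g α β) ≤ g ^ 242 * H.Y α β ^ 2 := by
      intro H hH
      have e : g ^ 242 * H.Y α β ^ 2 = (g ^ 121 * |H.Y α β|) ^ 2 := by rw [mul_pow, sq_abs]; ring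
      constructor
      · have e2 : g ^ 120 * |H.Y α β| = 1 / g * (g ^ 121 * |H.Y α β|) := by field_simp
        rw [hH.abs_x1, e, e2]
        gcongr
        nlinarith [sq_nonneg (g ^ 121 * |H.Y α β| - 1)]
      · refine ind_le (by positivity) fun k => ?_
        rw [Gm.ok1, not_le, div_lt_iff₀ (by positivity), mul_comm] at k
        rw [e]; nlinarith
    obtain ⟨c1, c2⟩ := key h.one
    obtain ⟨c3, c4⟩ := key h.two
    have d1 : 0 ≤ g ^ 242 * G.Y α β ^ 2 := by positivity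
    have d2 : 0 ≤ g ^ 242 * G'.Y α β ^ 2 := by positivity
    have d3 : 1 / g * (g ^ 242 * G.Y α β ^ 2) ≤ 1 / 10 ^ 30 * (g ^ 242 * G.Y α β ^ 2) := by gcongr
    have d4 : 1 / g * (g ^ 242 * G'.Y α β ^ 2) ≤ 1 / 10 ^ 30 * (g ^ 242 * G'.Y α β ^ 2) := by gcongr
    rw [abs_le] at c1 c3
    rw [ww_of_not k', abs_le]; unfold Us
    constructor <;> nlinarith [c1.1, c1.2, c3.1, c3.2, h3.1, h3.2, h4.1, h4.2]
theorem UU_le (α β : ι) : UU g G G' bad α β ≤
    (2 * g ^ 120 * (|G.Y α β| + |G'.Y α β|) + 2 * (ind (¬ G.ok1 g α β) + ind (¬ G'.ok1 g α β)) +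
      2 * Us g G G' bad α β) + (|G.x3 g α β| + |G'.x3 g α β| + 2 * I3 g G G' α β) +
      2 * I6 bad α β := by
  have hg := h.one.g_pos
  have a1 : 0 ≤ I6 bad α β := ind_nonneg _
  have a2 := ind_nonneg (¬ G.ok0 g α β); have a3 := ind_nonneg (¬ G'.ok0 g α β)
  have a4 := ind_nonneg (¬ G.ok1 g α β); have a5 := ind_nonneg (¬ G'.ok1 g α β)
  have a6 : 0 ≤ I3 g G G' α β := add_nonneg (ind_nonneg _) (ind_nonneg _)
  have a8 := h.ee_nonneg α β
  have b1 := h.one.abs_x1 α β; have b2 := h.two.abs_x1 α β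
  have c1 := abs_nonneg (G.x1 g α β); have c2 := abs_nonneg (G'.x1 g α β)
  have c3 := abs_nonneg (G.x3 g α β); have c4 := abs_nonneg (G'.x3 g α β)
  unfold UU Us
  by_cases k' : adm g G G' bad α β
  · have : |1 - ww g G G' bad α β| ≤ |G.x1 g α β| + |G'.x1 g α β| + (|G.x3 g α β| + |G'.x3 g α β|) := by
      rw [ww_of k', sub_sub, sub_sub_cancel]
      exact (abs_add_le _ _).trans (add_le_add (abs_add_le _ _) (abs_add_le _ _))
    linarith
  · have := not_adm_ind k'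
    rw [ww_of_not k', sub_zero, abs_one]; linarith

end Two

end Vale.Agent.P049
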