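import Vale.Agent.P049.Lin

set_option linter.unusedSectionVars false

namespace Vale.Agent.P049

open Finset

variable {ι : Type} [Fintype ι] [DecidableEq ι]

/-- Hypotheses of the update identities. -/
structure UH (G : Gm ι) (α β : ι) : Prop where
  sg : G.sg = 1 ∨ G.sg = -1
  symm : ∀ i j, G.Y i j = G.Y j i
  row : ∀ i, ∑ j, G.Y i j = 0
  ne : α ≠ β
  dl : G.dl α β ≠ 0
  big : 2 < mI ι

/-- The matrix `M` before centering. -/
noncomputable def Gm.M (G : Gm ι) (α β : ι) : Matrix ι ι ℝ := mM univ G.sg G.Y α β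

theorem sum_rem {α β : ι} (h : α ≠ β) (u : ι → ℝ) :
    ∑ i ∈ rem univ α β, u i = ∑ i, u i - u α - u β := by
  rw [rem, sum_erase_eq_sub (mem_erase.2 ⟨h.symm, mem_univ _⟩), sum_erase_eq_sub (mem_univ _)]
theorem card_rem {α β : ι} (h : α ≠ β) : ((rem univ α β).card : ℝ) = mI ι - 2 := by
  have := sum_rem h fun _ => (1 : ℝ)
  simp only [sum_const, nsmul_eq_mul, mul_one] at this
  rw [this, mI]; ring

namespace UH

variable {G : Gm ι} {α β : ι} (h : UH G α β)
include h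

theorem m_ne : mI ι ≠ 0 := by linarith [h.big]
theorem m2_ne : mI ι - 2 ≠ 0 := by linarith [h.big]
theorem sg_sq : G.sg ^ 2 = 1 := by rcases h.sg with k | k <;> rw [k] <;> norm_num
theorem M_def (i j : ι) : G.M α β i j = G.Y i j + (G.a β * G.Y α i * G.Y α j +
    G.s α β * (G.Y α i * G.Y β j + G.Y β i * G.Y α j) + G.a α * G.Y β i * G.Y β j) / G.dl α β := rfl
theorem M_eq (i j : ι) :
    G.M α β i j = G.Y i j + (G.Y α i * G.g1 α β j + G.Y β i * G.g2 α β j) := by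
  rw [h.M_def, Gm.g1, Gm.g2]; ring
theorem M_symm (i j : ι) : G.M α β i j = G.M α β j i := by
  rw [h.M_def, h.M_def, h.symm i j]; ring
theorem sum_g1 : ∑ j, G.g1 α β j = 0 := by
  simp only [Gm.g1, ← sum_div, sum_add_distrib, ← mul_sum, h.row]; simp
theorem sum_g2 : ∑ j, G.g2 α β j = 0 := by
  simp only [Gm.g2, ← sum_div, sum_add_distrib, ← mul_sum, h.row]; simp
theorem M_row (i : ι) : ∑ j, G.M α β i j = 0 := by
  simp only [h.M_eq, sum_add_distrib, ← mul_sum, h.row, h.sum_g1, h.sum_g2]; simp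
theorem Yaa : G.Y α α = G.a α - G.sg / mI ι := by rw [G.a_eq]; ring
theorem Ybb : G.Y β β = G.a β - G.sg / mI ι := by rw [G.a_eq]; ring
theorem Yab : G.Y α β = G.sg * s0 ι - G.s α β := by rw [G.s_eq]; ring
theorem Yba : G.Y β α = G.sg * s0 ι - G.s α β := by rw [h.symm, h.Yab]
theorem M_fst (i : ι) : G.M α β i α = G.sg * (s0 ι * G.g2 α β i - G.g1 α β i / mI ι) := by
  have h1 := h.dl; have h2 := h.m_ne
  rw [h.M_def, Gm.g1, Gm.g2, h.Yba, h.symm i α]
  nth_rewrite 1 [h.Yaa]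
  nth_rewrite 1 [h.Yaa]
  field_simp
  rw [G.dl_eq]; ring
theorem M_snd (i : ι) : G.M α β i β = G.sg * (s0 ι * G.g1 α β i - G.g2 α β i / mI ι) := by
  have h1 := h.dl; have h2 := h.m_ne
  rw [h.M_def, Gm.g1, Gm.g2, h.Yab, h.symm i β]
  nth_rewrite 1 [h.Ybb]
  nth_rewrite 1 [h.Ybb]
  field_simp
  rw [G.dl_eq]; ring
theorem M_rem (i : ι) : (∑ l ∈ rem univ α β, G.M α β i l) / (mI ι - 2) = G.rr α β i := by
  have h2 := h.m_ne; have h3 := h.m2_ne
  rw [sum_rem h.ne, h.M_row, h.M_fst, h.M_snd, Gm.rr, s0]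
  field_simp; ring
theorem sum_rr : ∑ i ∈ rem univ α β, G.rr α β i = (mI ι - 2) * G.rb α β := by
  have h2 := h.m_ne; have h3 := h.m2_ne
  simp only [Gm.rr, ← sum_div, ← mul_sum, sum_add_distrib, sum_rem h.ne, h.sum_g1, h.sum_g2, Gm.rb]
  field_simp; ring
theorem up_eq (i j : ι) : G.up α β i j = G.M α β i j - G.rr α β i - G.rr α β j + G.rb α β := by
  have h3 := h.m2_ne
  have e1 : ∀ l, ∑ l' ∈ rem univ α β, G.M α β l l' = (mI ι - 2) * G.rr α β l := fun l => by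
    rw [← h.M_rem]; field_simp
  have e2 : G.up α β i j = G.M α β i j - (∑ l ∈ rem univ α β, G.M α β i l) / (rem univ α β).card -
      (∑ l ∈ rem univ α β, G.M α β l j) / (rem univ α β).card +
      (∑ l ∈ rem univ α β, ∑ l' ∈ rem univ α β, G.M α β l l') / ((rem univ α β).card : ℝ) ^ 2 := rfl
  rw [e2, card_rem h.ne, h.M_rem]
  simp only [h.M_symm _ j, h.M_rem, e1, ← mul_sum, h.sum_rr]
  field_simp
theorem up_diag (μ : ι) :
    G.up α β μ μ = G.Y μ μ + G.dd α β μ - 2 * G.rr α β μ + G.rb α β := by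
  rw [h.up_eq, h.M_eq, Gm.dd]; ring
theorem sum_Y_g1 (γ : ι) :
    ∑ μ, G.Y γ μ * G.g1 α β μ = (G.a β * G.p γ α + G.s α β * G.p γ β) / G.dl α β := by
  simp only [Gm.g1, Gm.p_eq h.symm, mul_sum, ← sum_add_distrib, sum_div]
  exact sum_congr rfl fun μ _ => by ring
theorem sum_Y_g2 (γ : ι) :
    ∑ μ, G.Y γ μ * G.g2 α β μ = (G.s α β * G.p γ α + G.a α * G.p γ β) / G.dl α β := by
  simp only [Gm.g2, Gm.p_eq h.symm, mul_sum, ← sum_add_distrib, sum_div]
  exact sum_congr rfl fun μ _ => by ring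
theorem tau1_up : tau1 (rem univ α β) (G.up α β) = G.t1 + G.yy α β := by
  have h1 := h.dl; have h2 := h.m_ne; have h3 := h.m2_ne
  have e1 : ∑ i, G.M α β i i = G.t1 + (G.a β * G.rho α + 2 * G.s α β * G.p α β + G.a α * G.rho β) /
      G.dl α β := by
    simp only [h.M_eq, sum_add_distrib, h.sum_Y_g1, h.sum_Y_g2, G.t1_eq, Gm.p_diag h.symm,
      Gm.p_symm h.symm β α]
    ring
  have e2 : tau1 (rem univ α β) (G.up α β) =
      ∑ i ∈ rem univ α β, G.M α β i i - (mI ι - 2) * G.rb α β := by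
    simp only [tau1, h.up_eq, sum_add_distrib, sum_sub_distrib, h.sum_rr, sum_const, nsmul_eq_mul,
      card_rem h.ne]
    ring
  rw [e2, sum_rem h.ne, e1, h.M_fst, h.M_snd, Gm.rb, Gm.yy]
  simp only [Gm.g1, Gm.g2, h.Yba]
  have e3 := h.Yaa; have e4 := h.Ybb; have e5 := h.Yab
  have e6 := h.sg
  rw [e3, e4, e5, s0]
  generalize G.a α = a; generalize G.a β = b; generalize G.s α β = s
  generalize G.dl α β = D at *
  rcases e6 with k | k <;> rw [k] <;> field_simp <;> ring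

end UH

end Vale.Agent.P049
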