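import Vale.Agent.P049.Va0

namespace Vale.Agent.P049

open Finset Va0

variable {ι : Type} [Fintype ι] [DecidableEq ι] {g : ℝ} {G G' : Gm ι} {bad : ι → ι → Bool}

namespace Va2

theorem sum_BB (h : One g G) : ∑ α, G.BB α α = ∑ μ, G.f μ * G.r μ μ := by
  simp only [Gm.BB, Gm.r_eq h.symm, mul_sum]
  rw [sum_comm]
  exact sum_congr rfl fun μ _ => sum_congr rfl fun α _ => by
    rw [Gm.p_symm h.symm α μ, h.symm α μ]; ring

theorem r_low (h : One g G) (μ : ι) : -G.rho μ ≤ G.r μ μ := by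
  refine (h.low (G.Y μ)).trans (le_of_eq ?_)
  simp only [Gm.r_eq h.symm, Gm.p_eq h.symm, sum_mul]
  rw [sum_comm]
  exact sum_congr rfl fun i _ => sum_congr rfl fun j _ => by rw [h.symm j i]

theorem sum_abs_r (h : One g G) : (∑ μ, |G.r μ μ|) ^ 2 ≤ mI ι * (mI ι ^ 2 * G.l2 ^ 2) := by
  have a1 := sum_sq_le_sum_mul_sum_of_sq_le_mul univ (r := fun μ => |G.r μ μ|) (f := G.rho)
    (g := fun μ => ∑ β, G.p μ β ^ 2) (fun μ _ => G.rho_nonneg μ)
    (fun μ _ => sum_nonneg fun _ _ => sq_nonneg _) fun μ _ => by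
      rw [sq_abs]; exact Gm.r_diag_sq h.symm μ
  rw [← G.t2_eq_sum] at a1
  rw [← h.t4_eq]
  exact a1.trans (mul_le_mul_of_nonneg_right h.t2_le G.t4_nonneg)

theorem one_le_Z (h : One g G) : 1 ≤ G.Z := (one_le_pow₀ h.num.one_le_g).trans h.Z_big

theorem t_sq (h : One g G) {t : ℝ} {k : ℕ} (ht : t ^ 2 ≤ g ^ k * G.Z * hI g ι) :
    (t + G.sg) ^ 2 ≤ g ^ (k + 1) * (mI ι * G.z) := by
  have hg := h.g_pos
  have hZ := h.Z_pos
  have a1 := sq2_le t G.sg
  have a2 : g ^ k * G.Z * hI g ι ≤ g ^ k * G.Z := mul_le_of_le_one_right (by positivity) h.h_le_one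
  have a3 : 1 ≤ g ^ k * G.Z :=
    one_le_mul_of_one_le_of_one_le (one_le_pow₀ h.num.one_le_g) (one_le_Z h)
  have a4 := mul_le_mul_of_nonneg_right (h.num.const_pow (c := 4) (by norm_num) (k.lt_add_one)) hZ.le
  rw [h.sg_sq] at a1
  rw [← h.Z_eq_z]
  linarith

theorem t_pos (h : One g G) (ht : 0 ≤ G.t1 + G.sg) :
    (G.t1 + G.sg) ^ 2 ≤ g ^ 15 * (mI ι * G.z) := by
  refine le_trans (pow_le_pow_left₀ ht (add_le_add (le_max_left _ 0) le_rfl) 2) (t_sq h h.tp)

theorem EH1 (h : Two g G G' bad) (ht : 0 ≤ G.t1 + G.sg) :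
    (G.t1 + G.sg) * (∑ μ, G.f μ * G.r μ μ) / mI ι ^ 2 ≤ bb g G G' * G.Qv g := by
  have hm := h.one.m_pos
  have hg := h.one.g_pos
  have hV := h.one.V_nonneg
  have hl := h.one.l2_nonneg
  have hz := h.one.z_pos
  have a1 : |∑ μ, G.f μ * G.r μ μ| ≤ √(mI ι * G.l2) * ∑ μ, |G.f μ| * G.rho μ := by
    rw [mul_sum]
    refine (abs_sum_le_sum_abs _ _).trans (sum_le_sum fun μ _ => ?_)
    rw [abs_mul, mul_left_comm]
    refine mul_le_mul_of_nonneg_left (abs_le_of_sq_le_sq ((Gm.r_sq_le h.one.symm μ μ).trans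
      (le_of_eq ?_)) (mul_nonneg (Real.sqrt_nonneg _) (G.rho_nonneg _))) (abs_nonneg _)
    rw [mul_pow, Real.sq_sqrt (by positivity), h.one.sqrt_t4, sq]
  have a2 := pow_le_pow_left₀ (abs_nonneg _) a1 2
  rw [sq_abs, mul_pow, Real.sq_sqrt (by positivity)] at a2
  have a3 := a2.trans (mul_le_mul_of_nonneg_left (h.one.sum_abs_f_rho.trans
    (mul_le_mul_of_nonneg_left (mul_le_mul_of_nonneg_left h.one.r4a hm.le) hV)) (by positivity))
  refine le_bQ h (le_trans ?_ (L1 h))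
  rw [div_pow, mul_pow]
  calc _ ≤ g ^ 15 * (mI ι * G.z) * (mI ι * G.l2 * (G.V * (mI ι * g ^ 21))) / (mI ι ^ 2) ^ 2 :=
        div_le_div_of_nonneg_right (mul_le_mul (t_pos h.one ht) a3 (sq_nonneg _) (by positivity))
          (by positivity)
    _ = g ^ 26 * G.l2 * G.z * (g ^ 10 * G.V / mI ι) := by field_simp
    _ ≤ (mI ι * bb g G G') ^ 2 * √G.z * 1 * (g ^ 10 * G.V / mI ι) :=
        mul_le_mul_of_nonneg_right (mul_le_mul ((mul_le_mul_of_nonneg_right
          (h.one.num.pow_mono (by norm_num)) hl).trans (Y4 h)) h.one.z_le_one hz.le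
          (by positivity)) (by positivity)
    _ = _ := by field_simp

theorem EH2 (h : Two g G G' bad) :
    |G.t1 + G.sg| * (∑ μ, |G.f μ| * G.rho μ) / mI ι ^ 2 ≤ bb g G G' * G.Qv g := by
  have hm := h.one.m_pos
  have hg := h.one.g_pos
  have hV := h.one.V_nonneg
  have hz := h.one.z_pos
  refine le_bQ h (le_trans ?_ (L0 h))
  rw [div_pow, mul_pow, sq_abs]
  calc _ ≤ g ^ 136 * (mI ι * G.z) * (G.V * (mI ι * g ^ 21)) / (mI ι ^ 2) ^ 2 :=
        div_le_div_of_nonneg_right (mul_le_mul (t_sq h.one h.one.t1_sq) (h.one.sum_abs_f_rho.trans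
          (mul_le_mul_of_nonneg_left (mul_le_mul_of_nonneg_left h.one.r4a hm.le) hV))
          (sq_nonneg _) (by positivity)) (by positivity)
    _ = g ^ 8 * (G.V * (g ^ 149 / mI ι * G.z)) / mI ι := by field_simp
    _ ≤ _ := by
        gcongr
        exact (mul_le_of_le_one_left hz.le ((div_le_one hm).2
          (h.one.num.pow_le_m (by norm_num)))).trans h.one.z_le_sqrt

theorem EH3 (h : Two g G G' bad) :
    |G.t1 + G.sg| * (∑ μ, |G.r μ μ|) / mI ι ^ 2 ≤ bb g G G' * G.Qv g := by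
  have hm := h.one.m_pos
  have hg := h.one.g_pos
  have hz := h.one.z_pos
  have hb := h.bb_pos
  refine le_bQ h ?_
  rw [div_pow, mul_pow, sq_abs]
  calc _ ≤ g ^ 136 * (mI ι * G.z) * (mI ι * (mI ι ^ 2 * G.l2 ^ 2)) / (mI ι ^ 2) ^ 2 :=
        div_le_div_of_nonneg_right (mul_le_mul (t_sq h.one h.one.t1_sq) (sum_abs_r h.one)
          (sq_nonneg _) (by positivity)) (by positivity)
    _ = g ^ 116 * G.l2 ^ 2 * (g ^ 20 * G.z) := by field_simp
    _ ≤ (mI ι * bb g G G') ^ 2 * 1 * (g ^ 20 * G.z) :=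
        mul_le_mul_of_nonneg_right (((mul_le_mul_of_nonneg_right
          (h.one.num.pow_mono (by norm_num)) (sq_nonneg _)).trans (Y2' h)).trans
          (mul_le_mul_of_nonneg_left h.one.z_le_one (sq_nonneg _))) (by positivity)
    _ = (bb g G G' * (g ^ 10 * (mI ι * √G.z))) ^ 2 := by
        simp only [mul_pow, Real.sq_sqrt hz.le]; ring
    _ ≤ _ := by gcongr; exact h.one.le_Qv

theorem EH (h : Two g G G' bad) :
    (G.t1 + G.sg) * (∑ μ, G.f μ * G.r μ μ) / mI ι ^ 2 ≤ 2 * (bb g G G' * G.Qv g) := by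
  rcases le_total 0 (G.t1 + G.sg) with ht | ht
  · linarith [EH1 h ht, bQ_nonneg h]
  have a1 : ∑ μ, -(G.f μ * G.r μ μ) ≤ ∑ μ, (|G.f μ| * G.rho μ + |G.r μ μ|) := by
    refine sum_le_sum fun μ _ => ?_
    have b1 := G.rho_nonneg μ
    rcases le_total 0 (G.f μ) with c | c
    · rw [abs_of_nonneg c]
      linarith [mul_le_mul_of_nonneg_left (r_low h.one μ) c, abs_nonneg (G.r μ μ)]
    · have b2 : -G.f μ ≤ 1 := by rw [Gm.f]; linarith
      have b3 := mul_le_mul b2 (le_abs_self (G.r μ μ))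
      nlinarith [mul_nonneg (abs_nonneg (G.f μ)) b1, le_abs_self (G.r μ μ), abs_nonneg (G.r μ μ)]
  rw [sum_neg_distrib, sum_add_distrib] at a1
  have a2 := div_le_div_of_nonneg_right (mul_le_mul_of_nonneg_left a1 (abs_nonneg (G.t1 + G.sg)))
    (sq_nonneg (mI ι))
  rw [mul_add, add_div] at a2
  have a3 := EH2 h
  have a4 := EH3 h
  rw [abs_of_nonpos ht] at a2 a3 a4
  rw [neg_mul_neg] at a2
  linarith

theorem H2 (h : One g G) :
    g ^ 250 * mI ι * E2 (fun α β => (G.a β * G.BB α α) ^ 2) ≤ G.Qv g ^ 2 := by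
  have hm := h.m_pos
  have hg := h.g_pos
  have hV := h.V_nonneg
  have a1 : ∑ α, G.BB α α ^ 2 ≤ G.V * (g ^ 11 * √(mI ι) * (mI ι * g ^ 21)) := by
    refine (sum_le_sum fun α _ => (BB_sq h α α).trans (mul_le_mul_of_nonneg_left
      (mul_le_mul_of_nonneg_right (h.rmax α) (G.gg_nonneg α)) hV)).trans ?_
    rw [← mul_sum, ← mul_sum, G.sum_gg h.symm, h.sum_rho_sq]
    gcongr
    exact h.r4a
  simp only [mul_pow, mul_comm (G.a _ ^ 2)]
  rw [E2_prod (fun α => G.BB α α ^ 2) fun β => G.a β ^ 2]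
  refine le_trans ?_ h.Qv_sq
  calc _ ≤ g ^ 250 * mI ι * (G.V * (g ^ 11 * √(mI ι) * (mI ι * g ^ 21)) / mI ι *
        (g ^ 291 / mI ι)) := mul_le_mul_of_nonneg_left (mul_le_mul
          (div_le_div_of_nonneg_right a1 hm.le) (E_a h) (by positivity) (by positivity))
          (by positivity)
    _ = g ^ 10 * (G.V * (g ^ 563 * √(mI ι))) := by field_simp
    _ ≤ _ := mul_le_mul_of_nonneg_left (mul_le_mul_of_nonneg_left ((mul_le_mul_of_nonneg_right
        (h.num.pow_mono (by norm_num)) (Real.sqrt_nonneg _)).trans (big h)) hV) (by positivity)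

theorem H3 (h : One g G) :
    g ^ 250 * mI ι * E2 (fun α β => ((G.rho α - s0 ι) * G.CC β β) ^ 2) ≤ G.Qv g ^ 2 := by
  have hm := h.m_pos
  have hg := h.g_pos
  have hV := h.V_nonneg
  have a1 : (∑ β, G.CC β β ^ 2) / mI ι ≤ G.V / g ^ 750 := by
    rw [div_le_div_iff₀ hm (by positivity)]
    linarith [sum_CC h, mul_le_mul_of_nonneg_left (mul_le_of_le_one_right hm.le h.sqrt_z_le) hV]
  have a2 : G.V ^ 2 ≤ G.Qv g ^ 2 := pow_le_pow_left₀ hV h.V_le_Qv 2
  have a3 : 1 / mI ι * G.V ≤ G.Qv g ^ 2 := by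
    refine le_trans ?_ h.Qv_sq
    refine (mul_le_of_le_one_left hV ((div_le_one hm).2 (one_le_m h))).trans ?_
    exact (le_mul_of_one_le_right hV ((one_le_pow₀ h.num.one_le_g).trans (big' h))).trans
      (le_mul_of_one_le_left (by positivity) (one_le_pow₀ h.num.one_le_g))
  have a4 : 4 ≤ g ^ 500 := by
    simpa using h.num.const_pow (c := 4) (j := 0) (k := 500) (by norm_num) (by norm_num)
  simp only [mul_pow]
  rw [E2_prod (fun α => (G.rho α - s0 ι) ^ 2) fun β => G.CC β β ^ 2]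
  calc _ ≤ g ^ 250 * mI ι * ((2 * G.V + 2 / mI ι) / mI ι * (G.V / g ^ 750)) :=
        mul_le_mul_of_nonneg_left (mul_le_mul (div_le_div_of_nonneg_right (sum_F h) hm.le) a1
          (by positivity) (by positivity)) (by positivity)
    _ = (2 * G.V ^ 2 + 2 * (1 / mI ι * G.V)) / g ^ 500 := by field_simp
    _ ≤ (2 * G.Qv g ^ 2 + 2 * G.Qv g ^ 2) / 4 := by gcongr
    _ = _ := by ring

theorem EH4 (h : Two g G G' bad) :
    E2 (fun α β => (G.rho α - s0 ι) * G.CC β β) ≤ 2 * (bb g G G' * G.Qv g) := by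
  have hm := h.one.m_pos
  have hg := h.one.g_pos
  have hV := h.one.V_nonneg
  have hz := h.one.z_pos
  have a1 : ∑ α, (G.rho α - s0 ι) = 1 - G.Z := by
    rw [sum_sub_distrib, sum_const_mI, ← G.t2_eq_sum, G.Z_eq, s0]
    field_simp
    ring
  have a2 : ∑ β, G.CC β β = G.V - G.Z := by
    rw [sub_eq_add_neg, ← h.one.sum_f, G.V_eq, ← sum_add_distrib]
    simp only [Gm.CC]
    rw [sum_comm]
    refine sum_congr rfl fun μ _ => ?_
    rw [show G.f μ ^ 2 + G.f μ = G.f μ * G.rho μ by rw [Gm.f]; ring, ← col_rho h.one, mul_sum]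
    exact sum_congr rfl fun _ _ => by ring
  have a3 : G.V / mI ι ^ 2 ≤ bb g G G' * G.Qv g := by
    calc _ = 1 / (mI ι * mI ι) * G.V := by ring
      _ ≤ 1 / (g * mI ι) * G.V := by
          gcongr
          simpa using h.one.num.pow_le_m (k := 1) (by norm_num)
      _ ≤ _ := mul_le_mul h.le_bb h.one.V_le_Qv hV h.bb_pos.le
  have a4 : G.z ^ 2 ≤ bb g G G' * G.Qv g := by
    calc _ ≤ G.z := pow_le_of_le_one hz.le h.one.z_le_one two_ne_zero
      _ ≤ g ^ 9 * √G.z := h.one.z_le_sqrt.trans (le_mul_of_one_le_left (Real.sqrt_nonneg _)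
          (one_le_pow₀ h.one.num.one_le_g))
      _ = 1 / (g * mI ι) * (g ^ 10 * (mI ι * √G.z)) := by field_simp
      _ ≤ _ := mul_le_mul h.le_bb h.one.le_Qv (by positivity) h.bb_pos.le
  rw [E2_prod (fun α => G.rho α - s0 ι) fun β => G.CC β β, a1, a2, h.one.Z_eq_z]
  have a5 : (1 - mI ι * G.z) / mI ι * ((G.V - mI ι * G.z) / mI ι) =
      G.V / mI ι ^ 2 + G.z ^ 2 - (G.z + G.z * G.V) / mI ι := by field_simp; ring
  have a6 : 0 ≤ (G.z + G.z * G.V) / mI ι := by positivity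
  linarith

end Va2

theorem Two.Va2 (h : Two g G G' bad) :
    E2 (fun α β => ww g G G' bad α β * (G.a β * G.BB α α / G.dl α β)) ≤
      200 * bb g G G' * G.Qv g := by
  have a1 := h.genW (q := fun α β => 1 / G.dl α β) h.one.Qv_nonneg
    (fun α β k => (h.one.ok_inv k.2.1).trans (by
      linarith [h.one.e_nonneg α β, h.two.e_nonneg α β])) (Va2.H2 h.one)
  have a2 : E2 (fun α β => G.a β * G.BB α α) =
      (G.t1 + G.sg) * (∑ μ, G.f μ * G.r μ μ) / mI ι ^ 2 := by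
    simp only [mul_comm (G.a _)]
    rw [E2_prod (fun α => G.BB α α) G.a, Va2.sum_BB h.one, h.one.sum_a]
    ring
  simp only [one_div_mul_eq_div] at a1
  linarith [(abs_le.1 a1).2, Va2.EH h, bQ_nonneg h]

theorem Two.Va3 (h : Two g G G' bad) :
    E2 (fun α β => ww g G G' bad α β *
      ((G.s α β / G.dl α β) ^ 2 * ((G.rho α - s0 ι) * G.CC β β))) ≤ 200 * bb g G G' * G.Qv g := by
  have a1 := h.genW (q := fun α β => (G.s α β / G.dl α β) ^ 2) h.one.Qv_nonneg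
    (fun α β k => (h.one.ok_q2 k.2.1).trans (by linarith [h.two.e_nonneg α β])) (Va2.H3 h.one)
  linarith [(abs_le.1 a1).2, Va2.EH4 h, bQ_nonneg h]

end Vale.Agent.P049
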