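import Vale.Agent.P049.Va0

namespace Vale.Agent.P049

open Finset Va0

variable {ι : Type} [Fintype ι] [DecidableEq ι] {g : ℝ} {G G' : Gm ι} {bad : ι → ι → Bool}

namespace Va4

theorem E_CCd (h : One g G) :
    (∑ α, G.CC α α ^ 2) / mI ι ≤ G.V * √G.z / g ^ 750 := by
  have := h.g_pos
  rw [div_le_div_iff₀ h.m_pos (by positivity)]
  linarith [sum_CC h]

theorem E_pt (h : One g G) : E2 (fun α β => |G.p α β + 1 / mI ι| ^ 2) ≤
    2 * G.l2 ^ 2 + 2 / mI ι ^ 2 := by
  simp only [sq_abs]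
  refine (E2_mono fun α β => sq2_le _ _).trans (le_of_eq ?_)
  rw [E2_const_mul, E2_add, h.E_p_sq, E2_const h.m_pos]
  ring

theorem T1 (h : Two g G G' bad) :
    E2 (fun α β => G.a β ^ 2 * |G.rho α - s0 ι| * |G.CC α α|) ≤ bb g G G' * G.Qv g := by
  have hm := h.one.m_pos
  have hg := h.one.g_pos
  have hV := h.one.V_nonneg
  have a1 : E2 (fun α β => G.a β ^ 2 * |G.rho α - s0 ι| * |G.CC α α|) =
      E2 (fun α _ => |G.rho α - s0 ι| * |G.CC α α|) * ((∑ β, G.a β ^ 2) / mI ι) := by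
    rw [E2_left hm, ← E2_prod]
    exact E2_congr fun _ _ => by ring
  have a2 := E2_cs_sq (fun α _ => |G.rho α - s0 ι|) (fun α _ => |G.CC α α|)
  simp only [sq_abs, E2_left hm] at a2
  refine le_bQ h (le_trans ?_ (L0 h))
  rw [a1, E2_left hm, mul_pow]
  calc _ ≤ g ^ 21 * (G.V * √G.z / g ^ 750) * (g ^ 291 / mI ι) ^ 2 := by
        refine mul_le_mul (a2.trans ?_) ?_ (sq_nonneg _) (by positivity)
        · exact mul_le_mul (E_F h.one) (E_CCd h.one) (by positivity) (by positivity)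
        · exact pow_le_pow_left₀ (by positivity) (E_a h.one) 2
    _ = 1 / (g ^ 147 * mI ι) * (G.V * √G.z) / mI ι := by field_simp
    _ ≤ _ := by
        gcongr
        refine le_trans ?_ (one_le_pow₀ h.one.num.one_le_g)
        rw [div_le_one (by positivity)]
        exact one_le_mul_of_one_le_of_one_le (one_le_pow₀ h.one.num.one_le_g) (one_le_m h.one)

theorem T2 (h : Two g G G' bad) :
    E2 (fun α β => |G.a β| * |G.rho α - s0 ι| * |G.CC α β|) ≤ bb g G G' * G.Qv g := by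
  have hm := h.one.m_pos
  have hg := h.one.g_pos
  have hV := h.one.V_nonneg
  refine E2_cs' (a := g ^ 21 * (g ^ 291 / mI ι)) (bQ_nonneg h) ?_
    (by simpa only [sq_abs] using E_CC h.one) (le_trans ?_ (L0 h))
  · simp only [mul_pow, sq_abs, mul_comm (G.a _ ^ 2)]
    rw [E2_prod (fun α => (G.rho α - s0 ι) ^ 2) fun β => G.a β ^ 2]
    exact mul_le_mul (E_F h.one) (E_a h.one) (by positivity) (by positivity)
  · calc _ = g ^ 8 * (G.V * (g ^ 325 / mI ι)) / mI ι := by field_simp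
      _ ≤ _ := by
        gcongr
        rw [div_le_iff₀' hm]
        exact (h.one.num.pow_mono (by norm_num)).trans (big' h.one)

theorem T3 (h : Two g G G' bad) :
    E2 (fun α β => |G.p α β + 1 / mI ι| * |G.a β| * |G.CC α α|) ≤ bb g G G' * G.Qv g := by
  have hm := h.one.m_pos
  have hg := h.one.g_pos
  have hV := h.one.V_nonneg
  simp only [mul_assoc]
  refine E2_cs' (a := 4) (b := G.V * √G.z / g ^ 750 * (g ^ 291 / mI ι)) (bQ_nonneg h)
    ((E_pt h.one).trans ?_) ?_ (le_trans ?_ (L0 h))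
  · have a1 := pow_le_one₀ (n := 2) h.one.l2_nonneg h.one.l2_le_one
    have a2 : 2 / mI ι ^ 2 ≤ 2 := div_le_self zero_le_two (one_le_pow₀ (one_le_m h.one))
    linarith
  · simp only [mul_pow, sq_abs, mul_comm (G.a _ ^ 2)]
    rw [E2_prod (fun α => G.CC α α ^ 2) fun β => G.a β ^ 2]
    exact mul_le_mul (E_CCd h.one) (E_a h.one) (by positivity) (by positivity)
  · calc _ = 4 / g ^ 459 * (G.V * √G.z) / mI ι := by field_simp
      _ ≤ _ := by
        gcongr
        rw [div_le_iff₀ (by positivity), ← pow_add]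
        simpa using h.one.num.const_pow (c := 4) (j := 0) (k := 8 + 459) (by norm_num) (by norm_num)

theorem T4 (h : Two g G G' bad) :
    E2 (fun α β => |G.p α β + 1 / mI ι| * |G.CC α β|) ≤ 2 * (bb g G G' * G.Qv g) := by
  have hm := h.one.m_pos
  have hg := h.one.g_pos
  have hV := h.one.V_nonneg
  refine E2_cs' (mul_nonneg zero_le_two (bQ_nonneg h)) (E_pt h.one)
    (by simpa only [sq_abs] using E_CC h.one) ?_
  have a1 : G.l2 ^ 2 * (G.V * g ^ 21 / mI ι) ≤ (bb g G G' * G.Qv g) ^ 2 := by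
    refine le_trans ?_ (L1 h)
    calc _ = g ^ 11 * G.l2 ^ 2 * (g ^ 10 * G.V / mI ι) := by ring
      _ ≤ (mI ι * bb g G G') ^ 2 * √G.z * (g ^ 10 * G.V / mI ι) := by
        refine mul_le_mul_of_nonneg_right ?_ (by positivity)
        refine le_trans ?_ ((Y2' h).trans (mul_le_mul_of_nonneg_left h.one.z_le_sqrt (sq_nonneg _)))
        gcongr
        exacts [h.one.num.one_le_g, by norm_num]
      _ = _ := by field_simp
  have a2 : 1 / mI ι ^ 2 * (G.V * g ^ 21 / mI ι) ≤ (bb g G G' * G.Qv g) ^ 2 := by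
    refine le_trans ?_ (L0 h)
    calc _ = g ^ 8 * (G.V * (g ^ 13 / mI ι / mI ι)) / mI ι := by field_simp
      _ ≤ _ := by
        gcongr
        rw [div_le_iff₀' hm]
        refine (div_le_self (by positivity) (one_le_m h.one)).trans ?_
        exact (h.one.num.pow_mono (by norm_num)).trans (big' h.one)
  calc _ = 2 * (G.l2 ^ 2 * (G.V * g ^ 21 / mI ι)) + 2 * (1 / mI ι ^ 2 * (G.V * g ^ 21 / mI ι)) := by
        ring
    _ ≤ _ := by linarith

end Va4

theorem Two.Va4 (h : Two g G G' bad) :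
    E2 (fun α β => G.a β ^ 2 * |G.rho α - s0 ι| * |G.CC α α| +
      |G.a β| * |G.rho α - s0 ι| * |G.CC α β| + |G.p α β + 1 / mI ι| * |G.a β| * |G.CC α α| +
      |G.p α β + 1 / mI ι| * |G.CC α β|) ≤ 10 * bb g G G' * G.Qv g := by
  rw [E2_add, E2_add, E2_add]
  linarith [Va4.T1 h, Va4.T2 h, Va4.T3 h, Va4.T4 h, bQ_nonneg h]

end Vale.Agent.P049
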