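import Vale.Agent.P049.Va1
import Vale.Agent.P049.Va2
import Vale.Agent.P049.Va4

namespace Vale.Agent.P049

open Finset

variable {ι : Type} [Fintype ι] [DecidableEq ι] {g : ℝ} {G G' : Gm ι} {bad : ι → ι → Bool}

namespace Va

theorem key {k c : ℝ} (x y z : ℝ) (h : |k| ≤ c) : k * (x * y * z) ≤ c * (|x| * |y| * |z|) :=
  calc k * (x * y * z) ≤ |k * (x * y * z)| := le_abs_self _
    _ = |k| * (|x| * |y| * |z|) := by simp only [abs_mul]
    _ ≤ _ := mul_le_mul_of_nonneg_right h (by positivity)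

theorem rest {a b s d F H p C1 C2 C3 : ℝ} (hd : 3 / 4 ≤ d) (hs : |s| ≤ 11 / 10)
    (hab : |a * b| ≤ 1 / 2) :
    (F * (b ^ 2 * C1 + 2 * b * s * C2) + H * (2 * s * a * C2 + a ^ 2 * C3) +
      2 * p * (b * s * C1 + (a * b + s ^ 2) * C2 + a * s * C3)) / d ^ 2 ≤
      4 * ((b ^ 2 * |F| * |C1| + |b| * |F| * |C2| + |p| * |b| * |C1| + |p| * |C2|) +
        (a ^ 2 * |H| * |C3| + |a| * |H| * |C2| + |p| * |a| * |C3| + |p| * |C2|)) := by
  have h1 := key (b ^ 2) F C1 (k := 1) (c := 1) (by simp)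
  have h2 := key b F C2 hs
  have h3 := key a H C2 hs
  have h4 := key (a ^ 2) H C3 (k := 1) (c := 1) (by simp)
  have h5 := key p b C1 hs
  have h6 := key p a C3 hs
  have hs2 : s ^ 2 ≤ 121 / 100 := by
    rw [← sq_abs]; nlinarith [abs_nonneg s]
  have h7 := key p C2 1 (k := a * b + s ^ 2) (c := 2)
    ((abs_add_le _ _).trans (by rw [abs_of_nonneg (sq_nonneg s)]; linarith))
  rw [abs_of_nonneg (sq_nonneg b)] at h1
  rw [abs_of_nonneg (sq_nonneg a)] at h4
  rw [abs_one] at h7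
  have p1 : 0 ≤ b ^ 2 * |F| * |C1| := by positivity
  have p2 : 0 ≤ |b| * |F| * |C2| := by positivity
  have p3 : 0 ≤ |p| * |b| * |C1| := by positivity
  have p4 : 0 ≤ |p| * |C2| := by positivity
  have p5 : 0 ≤ a ^ 2 * |H| * |C3| := by positivity
  have p6 : 0 ≤ |a| * |H| * |C2| := by positivity
  have p7 : 0 ≤ |p| * |a| * |C3| := by positivity
  have hd2 : 9 / 16 ≤ d ^ 2 := by nlinarith
  rw [div_le_iff₀ (by linarith)]
  refine le_trans ?_ (mul_le_mul_of_nonneg_left hd2 (by positivity))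
  linarith

theorem CC_symm (G : Gm ι) (α β : ι) : G.CC β α = G.CC α β :=
  sum_congr rfl fun _ _ => by ring

theorem expand (G : Gm ι) (α β : ι) :
    ∑ μ, G.f μ * G.De α β μ =
      2 * (G.a β * G.BB α α / G.dl α β) + 2 * (G.s α β / G.dl α β * G.BB α β) +
      2 * (G.s α β / G.dl α β * G.BB β α) + 2 * (G.a α * G.BB β β / G.dl α β) +
      (G.s α β / G.dl α β) ^ 2 * ((G.rho α - s0 ι) * G.CC β β) +
      (G.s α β / G.dl α β) ^ 2 * ((G.rho β - s0 ι) * G.CC α α) +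
      ((G.rho α - s0 ι) * (G.a β ^ 2 * G.CC α α + 2 * G.a β * G.s α β * G.CC α β) +
        (G.rho β - s0 ι) * (2 * G.s α β * G.a α * G.CC α β + G.a α ^ 2 * G.CC β β) +
        2 * (G.p α β + 1 / mI ι) * (G.a β * G.s α β * G.CC α α +
          (G.a α * G.a β + G.s α β ^ 2) * G.CC α β + G.a α * G.s α β * G.CC β β)) /
        G.dl α β ^ 2 := by
  simp only [Gm.BB, Gm.CC, mul_sum, sum_div, ← sum_add_distrib]
  refine sum_congr rfl fun μ _ => ?_
  simp only [Gm.De, Gm.g1, Gm.g2]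
  ring

end Va

theorem Two.Va (h : Two g G G' bad) :
    E2 (fun α β => ww g G G' bad α β * ∑ μ, G.f μ * G.De α β μ) ≤ 10 ^ 4 * bb g G G' * G.Qv g := by
  have hs := h.one.symm
  set w := ww g G G' bad with hw
  set T1 : ι → ι → ℝ := fun α β => w α β * (G.s α β / G.dl α β * G.BB α β) with hT1
  set T2 : ι → ι → ℝ := fun α β => w α β * (G.a β * G.BB α α / G.dl α β) with hT2
  set T3 : ι → ι → ℝ := fun α β => w α β *
    ((G.s α β / G.dl α β) ^ 2 * ((G.rho α - s0 ι) * G.CC β β)) with hT3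
  set R : ι → ι → ℝ := fun α β => G.a β ^ 2 * |G.rho α - s0 ι| * |G.CC α α| +
      |G.a β| * |G.rho α - s0 ι| * |G.CC α β| + |G.p α β + 1 / mI ι| * |G.a β| * |G.CC α α| +
      |G.p α β + 1 / mI ι| * |G.CC α β| with hR
  have h1 : E2 T1 ≤ _ := h.Va1
  have h2 : E2 T2 ≤ _ := h.Va2
  have h3 : E2 T3 ≤ _ := h.Va3
  have h4 : E2 R ≤ _ := h.Va4
  have pt : ∀ α β, w α β * ∑ μ, G.f μ * G.De α β μ ≤
      2 * T2 α β + 2 * T1 α β + 2 * T1 β α + 2 * T2 β α + T3 α β + T3 β α +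
        8 * R α β + 8 * R β α := by
    intro α β
    have r1 : 0 ≤ R α β := by simp only [hR]; positivity
    have r2 : 0 ≤ R β α := by simp only [hR]; positivity
    have e1 : w β α = w α β := h.ww_symm α β
    by_cases k : adm g G G' bad α β
    · have ok := k.2.1
      have hab : |G.a α * G.a β| ≤ 1 / 2 := ok.1.1.trans (h.one.inv_g_le.trans (by norm_num))
      have hr := Va.rest (F := G.rho α - s0 ι) (H := G.rho β - s0 ι) (p := G.p α β + 1 / mI ι)
        (C1 := G.CC α α) (C2 := G.CC α β) (C3 := G.CC β β) (h.one.ok_dl ok).1 (h.one.ok_s ok) hab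
      have e2 : R β α = G.a α ^ 2 * |G.rho β - s0 ι| * |G.CC β β| +
          |G.a α| * |G.rho β - s0 ι| * |G.CC α β| + |G.p α β + 1 / mI ι| * |G.a α| * |G.CC β β| +
          |G.p α β + 1 / mI ι| * |G.CC α β| := by
        simp only [hR, Va.CC_symm G α β, Gm.p_symm hs β α]
      rw [← e2] at hr
      change _ ≤ 4 * (R α β + R β α) at hr
      have hw0 : 0 ≤ w α β := h.ww_nonneg α β
      have hw2 : w α β ≤ 2 := h.ww_le_two α β
      have h5 := (mul_le_mul_of_nonneg_left hr hw0).trans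
        (mul_le_mul_of_nonneg_right hw2 (by positivity))
      rw [Va.expand]
      simp only [hT1, hT2, hT3, e1, Gm.s_symm hs β α, Gm.dl_symm hs β α]
      linarith
    · have e0 : w α β = 0 := ww_of_not k
      simp only [hT1, hT2, hT3, e1, e0]
      linarith
  refine (E2_mono pt).trans ?_
  simp only [E2_add, E2_const_mul]
  rw [E2_swap T1, E2_swap T2, E2_swap T3, E2_swap R]
  have : 0 ≤ bb g G G' * G.Qv g := mul_nonneg h.bb_pos.le h.one.Qv_nonneg
  change 2 * E2 T2 + 2 * E2 T1 + 2 * E2 T1 + 2 * E2 T2 + E2 T3 + E2 T3 + 8 * E2 R + 8 * E2 R ≤ _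
  linarith

end Vale.Agent.P049
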