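import Vale.Agent.P049.ToolG

namespace Vale.Agent.P049

open Finset

variable {ι : Type} [Fintype ι] [DecidableEq ι] {g : ℝ} {G G' : Gm ι} {bad : ι → ι → Bool}

namespace Va0

theorem col_rho (h : One g G) (μ : ι) : ∑ β, G.Y β μ ^ 2 = G.rho μ :=
  sum_congr rfl fun β _ => by rw [h.symm]

theorem big (h : One g G) : g ^ 1997 * √(mI ι) ≤ mI ι * √G.z := by
  have := h.g_pos
  rw [← h.sqrt_mZ, Real.sqrt_mul h.m_pos.le, mul_comm]
  refine mul_le_mul_of_nonneg_left (Real.le_sqrt_of_sq_le ?_) (Real.sqrt_nonneg _)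
  rw [← pow_mul]; exact h.Z_big

theorem big' (h : One g G) : g ^ 1997 ≤ mI ι * √G.z :=
  (le_mul_of_one_le_right (pow_nonneg h.g_pos.le _) (Real.one_le_sqrt.2
    (by simpa using h.num.pow_le_m (k := 0) (by norm_num)))).trans (big h)

theorem one_le_m (h : One g G) : 1 ≤ mI ι := by simpa using h.num.pow_le_m (k := 0) (by norm_num)

theorem BB_sq (h : One g G) (α β : ι) : G.BB α β ^ 2 ≤ G.V * (G.rho α * G.gg β) := by
  have := sum_mul_sq_le_sq_mul_sq univ G.f fun μ => G.p α μ * G.Y β μ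
  rw [← G.V_eq] at this
  refine le_trans (le_of_eq ?_) (this.trans (mul_le_mul_of_nonneg_left ?_ h.V_nonneg))
  · rw [Gm.BB]; congr 1; exact sum_congr rfl fun _ _ => by ring
  · rw [Gm.gg, mul_sum]
    refine sum_le_sum fun μ _ => ?_
    rw [mul_pow, ← mul_assoc]
    exact mul_le_mul_of_nonneg_right (Gm.p_sq_le h.symm α μ) (sq_nonneg _)

theorem sum_CC (h : One g G) : g ^ 750 * ∑ β, G.CC β β ^ 2 ≤ G.V * (mI ι * √G.z) := by
  have a1 : ∀ β, G.CC β β ^ 2 ≤ ∑ μ, G.f μ ^ 2 * (G.rho β * G.Y μ β ^ 2) := fun β => by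
    have := sum_mul_sq_le_sq_mul_sq univ (G.Y β) fun μ => G.f μ * G.Y β μ
    rw [← G.rho_eq, mul_sum] at this
    refine le_trans (le_of_eq ?_) (this.trans (le_of_eq ?_))
    · rw [Gm.CC]; congr 1; exact sum_congr rfl fun _ _ => by ring
    · exact sum_congr rfl fun μ _ => by rw [h.symm μ β]; ring
  refine (mul_le_mul_of_nonneg_left (sum_le_sum fun β _ => a1 β) (pow_nonneg h.g_pos.le _)).trans ?_
  rw [sum_comm, mul_sum, G.V_eq, sum_mul]
  refine sum_le_sum fun μ _ => ?_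
  rw [← mul_sum, mul_left_comm]
  refine mul_le_mul_of_nonneg_left ((h.ggb μ).trans ?_) (sq_nonneg _)
  exact mul_le_mul_of_nonneg_left (Real.sqrt_le_sqrt h.ze_le_z) h.m_pos.le

theorem sum_F (h : One g G) : ∑ α, (G.rho α - s0 ι) ^ 2 ≤ 2 * G.V + 2 / mI ι := by
  have hm := h.m_pos
  calc _ ≤ ∑ α, (2 * G.f α ^ 2 + 2 / mI ι ^ 2) := sum_le_sum fun α _ => by
        have := sq2_le (G.f α) (1 / mI ι)
        rw [Gm.f, s0] at *
        calc _ = (G.rho α - 1 + 1 / mI ι) ^ 2 := by ring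
          _ ≤ _ := this
          _ = _ := by ring
    _ = _ := by rw [sum_add_distrib, ← mul_sum, ← G.V_eq, sum_const_mI]; field_simp

theorem E_F (h : One g G) : (∑ α, (G.rho α - s0 ι) ^ 2) / mI ι ≤ g ^ 21 := by
  have hm := h.m_pos
  have a1 := one_le_m h
  have a2 : 2 / mI ι ≤ 2 := div_le_self zero_le_two a1
  have a3 := h.num.const_pow (c := 4) (by norm_num) (show 20 < 21 by norm_num)
  have a4 := one_le_pow₀ (n := 20) h.num.one_le_g
  rw [div_le_iff₀ hm]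
  nlinarith [sum_F h, h.V_le]

theorem E_a (h : One g G) : (∑ α, G.a α ^ 2) / mI ι ≤ g ^ 291 / mI ι :=
  h.E_a_sq.trans (div_le_div_of_nonneg_right h.Dha h.m_pos.le)

theorem E_CC (h : One g G) : E2 (fun α β => G.CC α β ^ 2) ≤ G.V * g ^ 21 / mI ι := by
  have hm := h.m_pos
  have a1 := fro_rank_le G.Y G.Y G.f
  simp only [col_rho h, Real.mul_self_sqrt (G.rho_nonneg _)] at a1
  rw [E2, div_le_div_iff₀ (by positivity) hm]
  have a2 := (a1.trans h.sum_abs_f_rho).trans (mul_le_mul_of_nonneg_left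
    (mul_le_mul_of_nonneg_left h.r4a hm.le) h.V_nonneg)
  exact (mul_le_mul_of_nonneg_right a2 hm.le).trans (le_of_eq (by ring))

theorem L1 (h : Two g G G' bad) : bb g G G' ^ 2 * (g ^ 10 * (G.V * (mI ι * √G.z))) ≤
    (bb g G G' * G.Qv g) ^ 2 := by
  rw [mul_pow]
  exact mul_le_mul_of_nonneg_left h.one.Qv_sq (sq_nonneg _)

theorem L0 (h : Two g G G' bad) : g ^ 8 * (G.V * √G.z) / mI ι ≤ (bb g G G' * G.Qv g) ^ 2 := by
  have hm := h.one.m_pos
  have hg := h.one.g_pos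
  have hV := h.one.V_nonneg
  refine le_trans ?_ (L1 h)
  calc _ = (1 / (g * mI ι)) ^ 2 * (g ^ 10 * (G.V * (mI ι * √G.z))) := by field_simp
    _ ≤ _ := by gcongr; exact h.le_bb

theorem bQ_nonneg (h : Two g G G' bad) : 0 ≤ bb g G G' * G.Qv g :=
  mul_nonneg h.bb_pos.le h.one.Qv_nonneg

theorem le_bQ (h : Two g G G' bad) {x : ℝ} (hx : x ^ 2 ≤ (bb g G G' * G.Qv g) ^ 2) :
    x ≤ bb g G G' * G.Qv g := (abs_le_of_sq_le_sq' hx (bQ_nonneg h)).2

theorem Y2 (h : Two g G G' bad) : g ^ 59 * G.l2 ≤ mI ι * bb g G G' * √G.z := by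
  have hz := h.one.z_pos
  rw [← div_le_iff₀ (Real.sqrt_pos.2 hz)]
  refine h.young2 (le_of_eq ?_)
  rw [div_pow, Real.sq_sqrt hz.le]
  field_simp

theorem Y2' (h : Two g G G' bad) : g ^ 118 * G.l2 ^ 2 ≤ (mI ι * bb g G G') ^ 2 * G.z := by
  have := pow_le_pow_left₀ (mul_nonneg (pow_nonneg h.one.g_pos.le _) h.one.l2_nonneg) (Y2 h) 2
  rwa [mul_pow, ← pow_mul, mul_pow _ √G.z, Real.sq_sqrt h.one.z_pos.le] at this

theorem Y4 (h : Two g G G' bad) : g ^ 58 * G.l2 ≤ (mI ι * bb g G G') ^ 2 * √G.z := by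
  have hz := h.one.z_pos
  have hg := h.one.g_pos
  have hl := h.one.l2_nonneg
  rw [← div_le_iff₀ (Real.sqrt_pos.2 hz)]
  refine Real.sqrt_le_left (mul_pos h.one.m_pos h.bb_pos).le |>.1 (h.young4 (le_of_eq ?_))
  rw [show 4 = 2 * 2 from rfl, pow_mul, Real.sq_sqrt (by positivity), div_pow, Real.sq_sqrt hz.le]
  field_simp

end Va0

end Vale.Agent.P049
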