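import Vale.Agent.P049.Va0

namespace Vale.Agent.P049

open Finset Va0

variable {ι : Type} [Fintype ι] [DecidableEq ι] {g : ℝ} {G G' : Gm ι} {bad : ι → ι → Bool}

namespace Va1

theorem E_BB (h : One g G) : E2 (fun α β => G.BB α β ^ 2) ≤ G.l2 * G.V * g ^ 21 := by
  have hm := h.m_pos
  have hl := h.l2_nonneg
  have a1 := fro_rank_le G.p G.Y G.f
  have a2 : ∑ μ, |G.f μ| * (√(∑ α, G.p α μ ^ 2) * √(∑ β, G.Y β μ ^ 2)) ≤
      √(mI ι * G.l2) * ∑ μ, |G.f μ| * G.rho μ := by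
    rw [mul_sum]
    refine sum_le_sum fun μ _ => ?_
    have b1 : ∑ α, G.p α μ ^ 2 ≤ mI ι * G.l2 * G.rho μ := by
      rw [← h.sqrt_t4]
      simpa only [Gm.p_symm h.symm μ] using Gm.sum_p_sq h.symm μ
    rw [col_rho h, mul_left_comm √(mI ι * G.l2)]
    refine mul_le_mul_of_nonneg_left ?_ (abs_nonneg (G.f μ))
    refine (mul_le_mul_of_nonneg_right (Real.sqrt_le_sqrt b1) (Real.sqrt_nonneg _)).trans
      (le_of_eq ?_)
    rw [Real.sqrt_mul (by positivity), mul_assoc, Real.mul_self_sqrt (G.rho_nonneg _)]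
  have a3 := a1.trans (pow_le_pow_left₀ (by positivity) a2 2)
  rw [mul_pow, Real.sq_sqrt (by positivity)] at a3
  rw [E2, div_le_iff₀ (by positivity)]
  refine a3.trans ((mul_le_mul_of_nonneg_left (h.sum_abs_f_rho.trans (mul_le_mul_of_nonneg_left
    (mul_le_mul_of_nonneg_left h.r4a hm.le) h.V_nonneg)) (by positivity)).trans (le_of_eq (by ring)))

theorem ip1 (h : One g G) : -G.t4 ≤ ∑ α, ∑ β, G.Y α β * G.BB α β := by
  have a1 : ∑ α, ∑ β, G.Y α β * G.BB α β = ∑ α, ∑ μ, G.f μ * G.p α μ ^ 2 := by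
    refine sum_congr rfl fun α _ => ?_
    simp only [Gm.BB, mul_sum]
    rw [sum_comm]
    refine sum_congr rfl fun μ _ => ?_
    rw [sq, ← mul_assoc]
    conv_rhs => rw [Gm.p_eq h.symm α μ, mul_sum]
    exact sum_congr rfl fun β _ => by rw [← Gm.p_eq h.symm, h.symm μ β]; ring
  rw [a1, Gm.t4, fro, ← sum_neg_distrib]
  refine sum_le_sum fun α _ => ?_
  rw [← sum_neg_distrib]
  refine sum_le_sum fun μ _ => ?_
  rw [Gm.f]
  nlinarith [mul_nonneg (G.rho_nonneg μ) (sq_nonneg (G.p α μ))]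

theorem ip2 (h : One g G) : ∑ α, ∑ β, G'.Y α β * G.BB α β ≤
    √(NN G G') * ∑ μ, |G.f μ| * G.rho μ := by
  have a1 : ∑ α, ∑ β, G'.Y α β * G.BB α β =
      ∑ μ, G.f μ * ∑ i, ∑ β, G.Y μ i * P0 G G' i β * G.Y μ β := by
    simp only [Gm.BB, mul_sum]
    rw [sum_congr rfl fun α _ => sum_comm, sum_comm]
    refine sum_congr rfl fun μ _ => ?_
    simp only [Gm.p_eq h.symm, P0, Matrix.mul_apply, mul_sum, sum_mul]
    rw [sum_congr rfl fun α _ => sum_comm, sum_comm]
    refine sum_congr rfl fun i _ => ?_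
    rw [sum_comm]
    refine sum_congr rfl fun β _ => sum_congr rfl fun α _ => ?_
    rw [h.symm α i, h.symm β μ]; ring
  rw [a1, mul_sum]
  refine sum_le_sum fun μ _ => (le_abs_self _).trans ?_
  rw [abs_mul, mul_left_comm]
  refine mul_le_mul_of_nonneg_left (abs_le_of_sq_le_sq ((bil_sq_le _ _ _).trans (le_of_eq ?_))
    (mul_nonneg (Real.sqrt_nonneg _) (G.rho_nonneg _))) (abs_nonneg _)
  rw [← G.rho_eq, NN_eq, mul_pow, Real.sq_sqrt (fro_nonneg _)]
  ring

theorem Ta (h : Two g G G' bad) : g ^ 120 * G.l2 ^ 2 ≤ bb g G G' * G.Qv g := by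
  have hm := h.one.m_pos
  have hg := h.one.g_pos
  have hA := h.one.A_nonneg
  calc _ ≤ mI ι * G.A g * G.z := h.one.l2_le_A
    _ ≤ mI ι * G.A g * √G.z * g ^ 9 := (mul_le_mul_of_nonneg_left h.one.z_le_sqrt
        (by positivity)).trans (le_mul_of_one_le_right (by positivity)
          (one_le_pow₀ h.one.num.one_le_g))
    _ = G.A g / g * (g ^ 10 * (mI ι * √G.z)) := by field_simp
    _ ≤ _ := mul_le_mul h.A_le_bb h.one.le_Qv (by positivity) h.bb_pos.le

theorem Tb (h : Two g G G' bad) :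
    g ^ 120 * (√(NN G G') * ∑ μ, |G.f μ| * G.rho μ) / mI ι ^ 2 ≤ bb g G G' * G.Qv g := by
  have hm := h.one.m_pos
  have hg := h.one.g_pos
  have hV := h.one.V_nonneg
  have hz := h.one.ze_pos
  have hN : 0 ≤ NN G G' := NN_eq G G' ▸ fro_nonneg _
  refine le_bQ h (le_trans ?_ (L0 h))
  have a1 : g ^ 300 * NN G G' ≤ mI ι ^ 2 * √G.z := by
    refine h.Nb.trans ?_
    have hh := h.one.h_pos
    calc _ ≤ mI ι ^ 2 * (zeI g ι * 1) * 1 := by
          rw [sq (zeI g ι)]
          gcongr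
          exacts [h.one.num.ze_le_one, h.one.h_le_one]
      _ = mI ι ^ 2 * zeI g ι := by ring
      _ ≤ _ := mul_le_mul_of_nonneg_left (h.one.ze_le_z.trans h.one.z_le_sqrt) (by positivity)
  rw [div_pow, mul_pow, mul_pow, Real.sq_sqrt hN]
  calc _ ≤ (g ^ 120) ^ 2 * (NN G G' * (G.V * (mI ι * g ^ 21))) / (mI ι ^ 2) ^ 2 := by
        gcongr
        exact h.one.sum_abs_f_rho.trans (mul_le_mul_of_nonneg_left
          (mul_le_mul_of_nonneg_left h.one.r4a hm.le) hV)
    _ = g ^ 8 * (G.V * (g ^ 253 * NN G G' / mI ι ^ 2)) / mI ι := by field_simp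
    _ ≤ _ := by
        gcongr
        rw [div_le_iff₀' (by positivity)]
        exact (mul_le_mul_of_nonneg_right (h.one.num.pow_mono (by norm_num)) hN).trans a1

theorem Tc (h : Two g G G' bad) :
    g ^ 2 / √(mI ι) * √(G.l2 * G.V * g ^ 21) ≤ bb g G G' * G.Qv g := by
  have hm := h.one.m_pos
  have hg := h.one.g_pos
  have hV := h.one.V_nonneg
  have hl := h.one.l2_nonneg
  refine le_bQ h (le_trans ?_ (L1 h))
  rw [mul_pow, div_pow, Real.sq_sqrt hm.le, Real.sq_sqrt (by positivity)]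
  calc _ = g ^ 15 * G.l2 * (g ^ 10 * G.V / mI ι) := by ring
    _ ≤ (mI ι * bb g G G') ^ 2 * √G.z * (g ^ 10 * G.V / mI ι) :=
        mul_le_mul_of_nonneg_right ((mul_le_mul_of_nonneg_right
          (h.one.num.pow_mono (by norm_num)) hl).trans (Y4 h)) (by positivity)
    _ = _ := by field_simp

theorem Td (h : Two g G G' bad) :
    g ^ 13 * √(G.A g + G'.A g) * √(G.l2 * G.V * g ^ 21) ≤ bb g G G' * G.Qv g := by
  have hm := h.one.m_pos
  have hg := h.one.g_pos
  have hV := h.one.V_nonneg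
  have hl := h.one.l2_nonneg
  have hb := h.bb_pos
  have hA := add_nonneg h.one.A_nonneg h.two.A_nonneg
  have a1 : G.A g + G'.A g ≤ g * bb g G G' := by
    rw [bb, mul_div_cancel₀ _ hg.ne', add_assoc]
    exact le_add_of_nonneg_left (by positivity)
  refine le_bQ h (le_trans ?_ (L1 h))
  rw [mul_pow, mul_pow, Real.sq_sqrt hA, Real.sq_sqrt (by positivity)]
  calc _ ≤ (g ^ 13) ^ 2 * (g * bb g G G') * (G.l2 * G.V * g ^ 21) := by gcongr
    _ = g ^ 38 * G.l2 * (g ^ 10 * G.V * bb g G G') := by ring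
    _ ≤ mI ι * bb g G G' * √G.z * (g ^ 10 * G.V * bb g G G') :=
        mul_le_mul_of_nonneg_right ((mul_le_mul_of_nonneg_right
          (h.one.num.pow_mono (by norm_num)) hl).trans (Y2 h)) (by positivity)
    _ = _ := by ring

theorem Te0 {G'' : Gm ι} (h : One g G) (h' : One g G'') :
    E2 (fun α β => G''.Y α β ^ 2 * |G.BB α β|) ≤
      √(G.V * (g ^ 11 * √(mI ι))) * (g ^ 21 / mI ι) := by
  have hm := h.m_pos
  have hg := h.g_pos
  have hV := h.V_nonneg
  have a1 : ∀ α β, |G.BB α β| ≤ √(G.V * (g ^ 11 * √(mI ι))) * √(G.gg β) := fun α β => by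
    rw [← Real.sqrt_mul (by positivity)]
    refine Real.abs_le_sqrt ((BB_sq h α β).trans ?_)
    rw [mul_assoc]
    exact mul_le_mul_of_nonneg_left (mul_le_mul_of_nonneg_right (h.rmax α) (G.gg_nonneg β)) hV
  refine (E2_mono fun α β => mul_le_mul_of_nonneg_left (a1 α β) (sq_nonneg _)).trans ?_
  simp only [mul_left_comm _ √(G.V * (g ^ 11 * √(mI ι))), E2_const_mul]
  refine mul_le_mul_of_nonneg_left ?_ (Real.sqrt_nonneg _)
  rw [E2, sum_comm, div_le_div_iff₀ (by positivity) hm]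
  simp only [← sum_mul, col_rho h']
  have a2 : ∑ β, G''.rho β * √(G.gg β) ≤ ∑ β, (G''.rho β ^ 2 + G.gg β) / 2 :=
    sum_le_sum fun β _ => by
      nlinarith [sq_nonneg (G''.rho β - √(G.gg β)), Real.sq_sqrt (G.gg_nonneg β)]
  rw [← sum_div, sum_add_distrib, G.sum_gg h.symm, h.sum_rho_sq, h'.sum_rho_sq] at a2
  have a3 := mul_le_mul_of_nonneg_left h.r4a hm.le
  have a4 := mul_le_mul_of_nonneg_left h'.r4a hm.le
  calc _ ≤ mI ι * g ^ 21 * mI ι := mul_le_mul_of_nonneg_right (by linarith) hm.le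
    _ = _ := by ring

theorem Te (h : Two g G G' bad) :
    4 * g ^ 242 * (√(G.V * (g ^ 11 * √(mI ι))) * (g ^ 21 / mI ι)) ≤ bb g G G' * G.Qv g := by
  have hm := h.one.m_pos
  have hg := h.one.g_pos
  have hV := h.one.V_nonneg
  refine le_bQ h (le_trans ?_ (L0 h))
  rw [mul_pow, mul_pow, mul_pow, Real.sq_sqrt (by positivity)]
  calc _ = g ^ 8 * (G.V * (16 * g ^ 529 * √(mI ι) / mI ι)) / mI ι := by field_simp; ring
    _ ≤ _ := by
        gcongr
        rw [div_le_iff₀' hm]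
        exact (mul_le_mul_of_nonneg_right (h.one.num.const_pow (by norm_num) (by norm_num))
          (Real.sqrt_nonneg _)).trans (big h.one)

end Va1

theorem Two.Va1 (h : Two g G G' bad) :
    E2 (fun α β => ww g G G' bad α β * (G.s α β / G.dl α β * G.BB α β)) ≤
      100 * bb g G G' * G.Qv g := by
  have hm := h.one.m_pos
  have hg := h.one.g_pos
  have hs := h.one.sg_sq
  have a1 := h.steer (R := fun α β => G.sg * G.BB α β) (q := fun α β => G.sg * G.s α β / G.dl α β)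
    (Real.sqrt_nonneg (G.l2 * G.V * g ^ 21))
    (E2_zero_of_row fun α => by
      simp only [Gm.BB, ← mul_sum]
      rw [sum_comm]
      simp only [← mul_sum, h.one.symm _ _, h.one.row, mul_zero, sum_const_zero])
    (fun α β k => (h.one.ok_q k.2.1).trans (by
      linarith [h.one.e_nonneg α β, h.two.e_nonneg α β]))
    (by
      simp only [mul_pow, hs, one_mul]
      exact (Va1.E_BB h.one).trans (Real.sq_sqrt (by
        have := h.one.l2_nonneg; have := h.one.V_nonneg; positivity)).ge)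
  have a2 : E2 (fun α β => ww g G G' bad α β * (G.sg * G.s α β / G.dl α β * (G.sg * G.BB α β))) =
      E2 (fun α β => ww g G G' bad α β * (G.s α β / G.dl α β * G.BB α β)) :=
    E2_congr fun α β => by
      linear_combination (ww g G G' bad α β * (G.s α β / G.dl α β * G.BB α β)) * hs
  have a3 : E2 (fun α β => (G.x1 g α β + G'.x1 g α β) * (G.sg * G.BB α β)) = g ^ 120 *
      ((∑ α, ∑ β, G.Y α β * G.BB α β) / mI ι ^ 2 - (∑ α, ∑ β, G'.Y α β * G.BB α β) / mI ι ^ 2) := by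
    rw [← E2, ← E2, ← E2_sub, ← E2_const_mul]
    refine E2_congr fun α β => ?_
    rw [Gm.x1, Gm.x1, h.sg]
    linear_combination (g ^ 120 * (G.Y α β * G.BB α β - G'.Y α β * G.BB α β)) * hs
  have a4 : E2 (fun α β => (G.Y α β ^ 2 + G'.Y α β ^ 2) * |G.sg * G.BB α β|) ≤
      2 * (√(G.V * (g ^ 11 * √(mI ι))) * (g ^ 21 / mI ι)) := by
    simp only [abs_mul, h.one.abs_sg, one_mul, add_mul, E2_add]
    linarith [Va1.Te0 h.one h.one, Va1.Te0 h.one h.two]
  have a5 := mul_le_mul_of_nonneg_left a4 (show 0 ≤ 2 * g ^ 242 by positivity)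
  have a6 := mul_le_mul_of_nonneg_left (div_le_div_of_nonneg_right (Va1.ip1 h.one)
    (sq_nonneg (mI ι))) (show 0 ≤ g ^ 120 by positivity)
  have a7 := mul_le_mul_of_nonneg_left (div_le_div_of_nonneg_right (Va1.ip2 (G' := G') h.one)
    (sq_nonneg (mI ι))) (show 0 ≤ g ^ 120 by positivity)
  rw [h.one.t4_eq, neg_div, mul_div_cancel_left₀ _ (by positivity)] at a6
  have a8 := Va1.Tb h
  rw [mul_div_assoc] at a8
  rw [a2, a3] at a1
  linarith [(abs_le.1 a1).2, Va1.Ta h, Va1.Tc h, Va1.Td h, Va1.Te h, bQ_nonneg h]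

end Vale.Agent.P049
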