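import Vale.Agent.P049.ToolG

set_option maxRecDepth 100000
set_option linter.unusedSectionVars false

namespace Vale.Agent.P049

open Finset

variable {ι : Type} [Fintype ι] [DecidableEq ι] {g : ℝ} {G G' : Gm ι} {bad : ι → ι → Bool}

namespace Vb2

theorem six_sq (a b c d e f : ℝ) :
    (a + b + c + d + e + f) ^ 2 ≤ 6 * (a ^ 2 + b ^ 2 + c ^ 2 + d ^ 2 + e ^ 2 + f ^ 2) := by
  nlinarith [sq_nonneg (a - b), sq_nonneg (a - c), sq_nonneg (a - d), sq_nonneg (a - e),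
    sq_nonneg (a - f), sq_nonneg (b - c), sq_nonneg (b - d), sq_nonneg (b - e), sq_nonneg (b - f),
    sq_nonneg (c - d), sq_nonneg (c - e), sq_nonneg (c - f), sq_nonneg (d - e), sq_nonneg (d - f),
    sq_nonneg (e - f)]

theorem inv_d4 {d : ℝ} (hd : 3 / 4 ≤ d) : (1 / d) ^ 2 ≤ 16 / 9 := by
  have h0 : 0 < d := by linarith
  have : 1 / d ≤ 4 / 3 := by rw [div_le_div_iff₀ h0 (by norm_num)]; linarith
  calc (1 / d) ^ 2 ≤ (4 / 3) ^ 2 := by gcongr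
    _ = _ := by norm_num

theorem t3_le {X y s d : ℝ} (hd : 3 / 4 ≤ d) (hs : s ^ 2 ≤ 121 / 100) :
    (((X + s * y) / d) ^ 2 - (s / d) ^ 2 * y ^ 2) ^ 2 ≤ 32 * (X ^ 2 * (X ^ 2 + y ^ 2)) := by
  have h1 := inv_d4 hd
  have e : (((X + s * y) / d) ^ 2 - (s / d) ^ 2 * y ^ 2) ^ 2 =
      ((1 / d) ^ 2) ^ 2 * (X ^ 2 * (X + 2 * s * y) ^ 2) := by ring
  have h2 : (X + 2 * s * y) ^ 2 ≤ 10 * (X ^ 2 + y ^ 2) := by
    have := mul_le_mul_of_nonneg_right hs (sq_nonneg y)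
    nlinarith [sq_nonneg (X - 2 * s * y), sq_nonneg X, sq_nonneg y]
  rw [e]
  calc _ ≤ (16 / 9) ^ 2 * (X ^ 2 * (10 * (X ^ 2 + y ^ 2))) := by gcongr
    _ ≤ _ := by nlinarith [mul_nonneg (sq_nonneg X) (add_nonneg (sq_nonneg X) (sq_nonneg y))]

theorem t3_le' {b x y s d F c c' : ℝ} (hd : 3 / 4 ≤ d) (hs : s ^ 2 ≤ 121 / 100) (hc : 1 ≤ c)
    (hb : b ^ 2 ≤ c) (hx : x ^ 2 ≤ c') (hy : y ^ 2 ≤ c') :
    ((((b * x + s * y) / d) ^ 2 - (s / d) ^ 2 * y ^ 2) * F) ^ 2 ≤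
      64 * (c * c') * (F ^ 2 * x ^ 2 * b ^ 2) := by
  have h1 := t3_le (X := b * x) (y := y) hd hs
  have h0 : 0 ≤ c' := (sq_nonneg _).trans hx
  have h2 : (b * x) ^ 2 + y ^ 2 ≤ 2 * (c * c') := by
    have a : b ^ 2 * x ^ 2 ≤ c * c' := by gcongr
    have b : 1 * c' ≤ c * c' := by gcongr
    rw [mul_pow]; linarith
  calc _ = (((b * x + s * y) / d) ^ 2 - (s / d) ^ 2 * y ^ 2) ^ 2 * F ^ 2 := mul_pow _ _ _
    _ ≤ 32 * ((b * x) ^ 2 * (2 * (c * c'))) * F ^ 2 := by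
        gcongr
        exact h1.trans (by gcongr)
    _ = _ := by ring

theorem t5_le {x y s d m c' : ℝ} (hd : 3 / 4 ≤ d) (hs : s ^ 2 ≤ 121 / 100)
    (hx : x ^ 2 ≤ c') (hy : y ^ 2 ≤ c') :
    ((s / d) ^ 2 * (x ^ 2 + y ^ 2) / m) ^ 2 ≤ 10 * c' / m ^ 2 * (x ^ 2 + y ^ 2) := by
  have h1 := inv_d4 hd
  have h2 : (s / d) ^ 2 ≤ 11 / 5 := by
    calc (s / d) ^ 2 = s ^ 2 * (1 / d) ^ 2 := by ring
      _ ≤ 121 / 100 * (16 / 9) := by gcongr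
      _ ≤ _ := by norm_num
  have h0 : 0 ≤ c' := (sq_nonneg _).trans hx
  calc _ = ((s / d) ^ 2) ^ 2 * (x ^ 2 + y ^ 2) * ((x ^ 2 + y ^ 2) / m ^ 2) := by ring
    _ ≤ (11 / 5) ^ 2 * (c' + c') * ((x ^ 2 + y ^ 2) / m ^ 2) := by gcongr
    _ ≤ 10 * c' * ((x ^ 2 + y ^ 2) / m ^ 2) :=
        mul_le_mul_of_nonneg_right (by linarith) (by positivity)
    _ = _ := by ring

theorem t6_le {g1 g2 a b x y q r m c c' : ℝ} (h1 : g1 ^ 2 ≤ 5 * (b ^ 2 * x ^ 2 + y ^ 2))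
    (h2 : g2 ^ 2 ≤ 5 * (x ^ 2 + a ^ 2 * y ^ 2)) (hab : (a * b) ^ 2 ≤ 1) (hc : 1 ≤ c)
    (ha : a ^ 2 ≤ c) (hb : b ^ 2 ≤ c) (hx : x ^ 2 ≤ c') (hy : y ^ 2 ≤ c') (hr : 0 ≤ r)
    (hq : q ^ 2 ≤ 2 * r + 2 / m ^ 2) :
    (2 * g1 * g2 * q) ^ 2 ≤ 200 * (c' * (b ^ 2 * x ^ 2 + a ^ 2 * y ^ 2) + 2 * (x ^ 2 * y ^ 2)) * r +
      400 * (c * c') / m ^ 2 * (x ^ 2 + y ^ 2) := by
  have h0 : 0 ≤ c' := (sq_nonneg _).trans hx
  have k1 : (b ^ 2 * x ^ 2 + y ^ 2) * (x ^ 2 + a ^ 2 * y ^ 2) ≤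
      c' * (b ^ 2 * x ^ 2 + a ^ 2 * y ^ 2) + 2 * (x ^ 2 * y ^ 2) := by
    have a1 : b ^ 2 * x ^ 2 * x ^ 2 ≤ b ^ 2 * x ^ 2 * c' := by gcongr
    have a2 : a ^ 2 * y ^ 2 * y ^ 2 ≤ a ^ 2 * y ^ 2 * c' := by gcongr
    have a3 : (a * b) ^ 2 * (x ^ 2 * y ^ 2) ≤ 1 * (x ^ 2 * y ^ 2) := by gcongr
    nlinarith
  have k2 : c' * (b ^ 2 * x ^ 2 + a ^ 2 * y ^ 2) + 2 * (x ^ 2 * y ^ 2) ≤
      2 * (c * c') * (x ^ 2 + y ^ 2) := by
    have a1 : c' * (b ^ 2 * x ^ 2 + a ^ 2 * y ^ 2) ≤ c' * (c * x ^ 2 + c * y ^ 2) := by gcongr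
    have a2 : x ^ 2 * y ^ 2 ≤ x ^ 2 * (c * c') := by
      gcongr; exact hy.trans (le_mul_of_one_le_left h0 hc)
    have a3 : x ^ 2 * y ^ 2 ≤ (c * c') * y ^ 2 := by
      gcongr; exact hx.trans (le_mul_of_one_le_left h0 hc)
    nlinarith
  have k3 : 0 ≤ 2 / m ^ 2 := by positivity
  have k4 := mul_le_mul_of_nonneg_right k2 k3
  calc _ = 4 * (g1 ^ 2 * g2 ^ 2) * q ^ 2 := by ring
    _ ≤ 4 * (5 * (b ^ 2 * x ^ 2 + y ^ 2) * (5 * (x ^ 2 + a ^ 2 * y ^ 2))) * (2 * r + 2 / m ^ 2) := by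
        gcongr
    _ = 100 * ((b ^ 2 * x ^ 2 + y ^ 2) * (x ^ 2 + a ^ 2 * y ^ 2)) * (2 * r + 2 / m ^ 2) := by ring
    _ ≤ 100 * (c' * (b ^ 2 * x ^ 2 + a ^ 2 * y ^ 2) + 2 * (x ^ 2 * y ^ 2)) * (2 * r + 2 / m ^ 2) := by
        gcongr
    _ ≤ _ := by
        have e : 400 * (c * c') / m ^ 2 * (x ^ 2 + y ^ 2) =
            100 * (2 * (c * c') * (x ^ 2 + y ^ 2) * (2 / m ^ 2)) := by ring
        rw [e]
        nlinarith

noncomputable def HH (g : ℝ) (G : Gm ι) (α β μ : ι) : ℝ :=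
  20 * (G.p α μ ^ 2 * G.Y β μ ^ 2) + 20 * (G.p α μ ^ 2 * G.Y α μ ^ 2 * G.a β ^ 2) +
    64 * (g ^ 291 * g ^ 292) * ((G.rho α - s0 ι) ^ 2 * G.Y α μ ^ 2 * G.a β ^ 2) +
    (10 * g ^ 292 + 400 * (g ^ 291 * g ^ 292)) / mI ι ^ 2 * G.Y α μ ^ 2 +
    200 * g ^ 292 * (G.rho α * G.Y α μ ^ 2 * (G.a β ^ 2 * G.rho β)) +
    200 * (G.rho α * G.Y α μ ^ 2 * (G.rho β * G.Y β μ ^ 2))

theorem HH_nonneg (h : One g G) (α β μ : ι) : 0 ≤ HH g G α β μ := by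
  have := h.g_pos; have := G.rho_nonneg α; have := G.rho_nonneg β
  unfold HH; positivity

theorem point (h : One g G) {α β : ι} (k : G.ok g α β) (μ : ι) :
    (G.De α β μ - (G.s α β / G.dl α β) ^ 2 * (G.Y β μ ^ 2 * G.f α + G.Y α μ ^ 2 * G.f β)) ^ 2 ≤
      6 * (HH g G α β μ + HH g G β α μ) := by
  have hd := (h.ok_dl k).1
  have hs := h.ok_s_sq k
  have hc : 1 ≤ g ^ 291 := one_le_pow₀ h.num.one_le_g
  have e : G.De α β μ - (G.s α β / G.dl α β) ^ 2 * (G.Y β μ ^ 2 * G.f α + G.Y α μ ^ 2 * G.f β) =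
      2 * G.g1 α β μ * G.p α μ + 2 * G.g2 α β μ * G.p β μ +
      (((G.a β * G.Y α μ + G.s α β * G.Y β μ) / G.dl α β) ^ 2 -
        (G.s α β / G.dl α β) ^ 2 * G.Y β μ ^ 2) * (G.rho α - s0 ι) +
      (((G.a α * G.Y β μ + G.s α β * G.Y α μ) / G.dl α β) ^ 2 -
        (G.s α β / G.dl α β) ^ 2 * G.Y α μ ^ 2) * (G.rho β - s0 ι) +
      (G.s α β / G.dl α β) ^ 2 * (G.Y α μ ^ 2 + G.Y β μ ^ 2) / mI ι +
      2 * G.g1 α β μ * G.g2 α β μ * (G.p α β + 1 / mI ι) := by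
    simp only [Gm.De, Gm.f, s0, Gm.g1, Gm.g2]; ring
  rw [e]
  refine (six_sq _ _ _ _ _ _).trans (mul_le_mul_of_nonneg_left ?_ (by norm_num))
  have g1 := h.ok_g1_sq k μ
  have g2 := h.ok_g2_sq k μ
  have a1 : (2 * G.g1 α β μ * G.p α μ) ^ 2 ≤
      4 * (5 * (G.a β ^ 2 * G.Y α μ ^ 2 + G.Y β μ ^ 2)) * G.p α μ ^ 2 := by
    calc _ = 4 * G.g1 α β μ ^ 2 * G.p α μ ^ 2 := by ring
      _ ≤ _ := by gcongr
  have a2 : (2 * G.g2 α β μ * G.p β μ) ^ 2 ≤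
      4 * (5 * (G.Y α μ ^ 2 + G.a α ^ 2 * G.Y β μ ^ 2)) * G.p β μ ^ 2 := by
    calc _ = 4 * G.g2 α β μ ^ 2 * G.p β μ ^ 2 := by ring
      _ ≤ _ := by gcongr
  have a3 := t3_le' (F := G.rho α - s0 ι) hd hs hc (h.a_sq_le β) (h.ymax α μ) (h.ymax β μ)
  have a4 := t3_le' (F := G.rho β - s0 ι) hd hs hc (h.a_sq_le α) (h.ymax β μ) (h.ymax α μ)
  have a5 := t5_le (m := mI ι) hd hs (h.ymax α μ) (h.ymax β μ)
  have hab : (G.a α * G.a β) ^ 2 ≤ 1 := by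
    rw [← sq_abs]
    exact pow_le_one₀ (abs_nonneg _) (k.1.1.trans (h.inv_g_le.trans (by norm_num)))
  have hq : (G.p α β + 1 / mI ι) ^ 2 ≤ 2 * (G.rho α * G.rho β) + 2 / mI ι ^ 2 := by
    have := Gm.p_sq_le h.symm α β
    have e2 : 2 / mI ι ^ 2 = 2 * (1 / mI ι) ^ 2 := by ring
    rw [e2]
    nlinarith [sq_nonneg (G.p α β - 1 / mI ι)]
  have a6 := t6_le g1 g2 hab hc (h.a_sq_le α) (h.a_sq_le β) (h.ymax α μ) (h.ymax β μ)
    (mul_nonneg (G.rho_nonneg α) (G.rho_nonneg β)) hq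
  refine (add_le_add (add_le_add (add_le_add (add_le_add (add_le_add a1 a2) a3) a4) a5) a6).trans_eq ?_
  unfold HH
  ring

theorem rho_Z (h : One g G) (α : ι) : g ^ 1900 * G.rho α ≤ G.Z := by
  have hg := h.g_pos
  have hm := h.m_pos
  have h0 := G.rho_nonneg α
  have h1 := h.rmax α
  refine abs_le_of_sq_le_sq' ?_ h.Z_pos.le |>.2
  calc (g ^ 1900 * G.rho α) ^ 2 ≤ (g ^ 1900 * (g ^ 11 * √(mI ι))) ^ 2 := by gcongr
    _ = mI ι * g ^ 3822 := by rw [mul_pow, mul_pow, Real.sq_sqrt hm.le]; ring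
    _ ≤ mI ι * (mI ι * zeI g ι ^ 2) := by
        gcongr; exact (h.num.pow_mono (by norm_num)).trans h.num.F2
    _ ≤ _ := h.W_le

theorem rho_le (h : One g G) (α : ι) : G.rho α ≤ G.Z / g ^ 1900 :=
  (le_div_iff₀' (by have := h.g_pos; positivity)).2 (rho_Z h α)

theorem gg_le (h : One g G) (α : ι) : G.gg α ≤ mI ι * √G.z / g ^ 750 := by
  have hg := h.g_pos
  have hm := h.m_pos
  rw [le_div_iff₀' (by positivity)]
  exact (h.ggb α).trans (by gcongr; exact h.ze_le_z)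

theorem col_Y (h : One g G) (μ : ι) : ∑ β, G.Y β μ ^ 2 = G.rho μ :=
  sum_congr rfl fun β _ => by rw [h.symm]

structure Tg (g : ℝ) (G : Gm ι) (τ : ℝ) : Prop where
  t1 : g ^ 8 * √G.z ≤ τ
  t2 : G.V / mI ι ≤ g ^ 2 * τ
  t3 : g * G.l2 ^ 2 ≤ τ
  t4 : g ^ 23 * (G.l2 ^ 2 * (G.V / mI ι)) ≤ τ ^ 2

variable {τ : ℝ}

theorem Tg.sz (h : One g G) (t : Tg g G τ) : √G.z ≤ τ :=
  (le_mul_of_one_le_left (Real.sqrt_nonneg _) (one_le_pow₀ h.num.one_le_g)).trans t.t1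
theorem Tg.nonneg (h : One g G) (t : Tg g G τ) : 0 ≤ τ := (Real.sqrt_nonneg _).trans (t.sz h)
theorem Tg.z_le (h : One g G) (t : Tg g G τ) : G.z ≤ τ := h.z_le_sqrt.trans (t.sz h)
theorem Tg.inv_m (h : One g G) (t : Tg g G τ) : 1 / mI ι ≤ τ := by
  refine le_trans ?_ (t.z_le h)
  have := h.m_pos
  unfold Gm.z
  gcongr
  exact (one_le_pow₀ h.num.one_le_g).trans h.Z_big

theorem E1 (h : One g G) (t : Tg g G τ) :
    g * E2 (fun α β => ∑ μ, G.p α μ ^ 2 * G.Y β μ ^ 2) ≤ 2 * τ := by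
  have hg := h.g_pos
  have hm := h.m_pos
  have hl := h.l2_nonneg
  rw [E2_sum univ (fun μ α β => G.p α μ ^ 2 * G.Y β μ ^ 2)]
  simp only [E2_prod (fun α => G.p α _ ^ 2) (fun β => G.Y β _ ^ 2), col_Y h]
  have h1 : ∑ μ, (∑ α, G.p α μ ^ 2) / mI ι * (G.rho μ / mI ι) ≤
      ∑ μ, ((∑ α, G.p α μ ^ 2) / mI ι ^ 2 + G.l2 / mI ι * (|G.f μ| * G.rho μ)) := by
    refine sum_le_sum fun μ _ => ?_
    have a : ∑ α, G.p α μ ^ 2 ≤ mI ι * G.l2 * G.rho μ := by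
      rw [← h.sqrt_t4]
      refine le_of_eq_of_le ?_ (Gm.sum_p_sq h.symm μ)
      exact sum_congr rfl fun α _ => by rw [Gm.p_symm h.symm]
    have b : G.rho μ ≤ 1 + |G.f μ| := by have := le_abs_self (G.f μ); unfold Gm.f at *; linarith
    have c : 0 ≤ ∑ α, G.p α μ ^ 2 := by positivity
    calc _ ≤ (∑ α, G.p α μ ^ 2) / mI ι * ((1 + |G.f μ|) / mI ι) := by gcongr
      _ = (∑ α, G.p α μ ^ 2) / mI ι ^ 2 + (∑ α, G.p α μ ^ 2) * |G.f μ| / mI ι ^ 2 := by ring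
      _ ≤ (∑ α, G.p α μ ^ 2) / mI ι ^ 2 + mI ι * G.l2 * G.rho μ * |G.f μ| / mI ι ^ 2 := by gcongr
      _ = _ := by field_simp
  rw [sum_add_distrib, ← sum_div, ← mul_sum] at h1
  have h2 : (∑ μ, ∑ α, G.p α μ ^ 2) / mI ι ^ 2 = G.l2 ^ 2 := by
    rw [sum_comm, ← h.E_p_sq]; rfl
  have h3 : g * (G.l2 / mI ι * ∑ μ, |G.f μ| * G.rho μ) ≤ τ := by
    refine abs_le_of_sq_le_sq' ?_ (t.nonneg h) |>.2
    have := h.V_nonneg
    calc _ = g ^ 2 * (G.l2 / mI ι) ^ 2 * (∑ μ, |G.f μ| * G.rho μ) ^ 2 := by ring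
      _ ≤ g ^ 2 * (G.l2 / mI ι) ^ 2 * (G.V * (mI ι * g ^ 21)) := by
          gcongr
          exact h.sum_abs_f_rho.trans (by gcongr; exact h.r4a)
      _ = g ^ 23 * (G.l2 ^ 2 * (G.V / mI ι)) := by field_simp
      _ ≤ _ := t.t4
  rw [h2] at h1
  have h4 := mul_le_mul_of_nonneg_left h1 hg.le
  have := t.t3
  linarith

theorem E2' (h : One g G) (t : Tg g G τ) :
    g * E2 (fun α β => ∑ μ, G.p α μ ^ 2 * G.Y α μ ^ 2 * G.a β ^ 2) ≤ τ := by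
  have hg := h.g_pos
  have hm := h.m_pos
  simp only [← sum_mul]
  rw [E2_prod (fun α => ∑ μ, G.p α μ ^ 2 * G.Y α μ ^ 2) (fun β => G.a β ^ 2)]
  have h1 : ∑ α, ∑ μ, G.p α μ ^ 2 * G.Y α μ ^ 2 ≤ mI ι * (mI ι * √G.z / g ^ 750) := by
    calc _ ≤ ∑ α, G.rho α * (mI ι * √G.z / g ^ 750) := by
          refine sum_le_sum fun α _ => le_trans ?_
            (mul_le_mul_of_nonneg_left (gg_le h α) (G.rho_nonneg α))
          rw [Gm.gg, mul_sum]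
          refine sum_le_sum fun μ _ => ?_
          rw [← mul_assoc]
          exact mul_le_mul_of_nonneg_right (Gm.p_sq_le h.symm α μ) (sq_nonneg _)
      _ = G.t2 * (mI ι * √G.z / g ^ 750) := by rw [← sum_mul]; rfl
      _ ≤ _ := by gcongr; exact h.t2_le
  have h2 := h.sum_a_sq.trans h.Dha
  calc _ ≤ g * (mI ι * (mI ι * √G.z / g ^ 750) / mI ι * (g ^ 291 / mI ι)) := by gcongr
    _ = √G.z / g ^ 458 := by field_simp
    _ ≤ √G.z := div_le_self (Real.sqrt_nonneg _) (one_le_pow₀ h.num.one_le_g)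
    _ ≤ _ := t.sz h

theorem sum_F (h : One g G) (t : Tg g G τ) :
    (∑ α, (G.rho α - s0 ι) ^ 2) / mI ι ≤ 4 * (g ^ 2 * τ) := by
  have hg := h.g_pos
  have hm := h.m_pos
  have h1 : ∑ α, (G.rho α - s0 ι) ^ 2 ≤ 2 * G.V + mI ι * (2 * (1 / mI ι) ^ 2) := by
    rw [G.V_eq, mul_sum, ← sum_const_mI, ← sum_add_distrib]
    refine sum_le_sum fun α _ => ?_
    unfold s0 Gm.f
    nlinarith [sq_nonneg (G.rho α - 1 - 1 / mI ι)]
  have h2 : (1 / mI ι) ^ 2 ≤ g ^ 2 * τ := by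
    have a := t.inv_m h
    have b : 1 / mI ι ≤ g ^ 2 :=
      (h.inv_m_le.trans (h.inv_g_le.trans (by norm_num))).trans (one_le_pow₀ h.num.one_le_g)
    rw [sq]
    gcongr
  have h3 := t.t2
  calc _ ≤ (2 * G.V + mI ι * (2 * (1 / mI ι) ^ 2)) / mI ι := by gcongr
    _ = 2 * (G.V / mI ι) + 2 * (1 / mI ι) ^ 2 := by field_simp
    _ ≤ _ := by linarith

theorem E3 (h : One g G) (t : Tg g G τ) : g * (g ^ 291 * g ^ 292 *
    E2 (fun α β => ∑ μ, (G.rho α - s0 ι) ^ 2 * G.Y α μ ^ 2 * G.a β ^ 2)) ≤ 4 * τ := by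
  have hg := h.g_pos
  have hm := h.m_pos
  have ht := t.nonneg h
  simp only [← sum_mul, ← mul_sum, ← G.rho_eq]
  rw [E2_prod (fun α => (G.rho α - s0 ι) ^ 2 * G.rho α) (fun β => G.a β ^ 2)]
  have h1 : (∑ α, (G.rho α - s0 ι) ^ 2 * G.rho α) / mI ι ≤ 4 * (g ^ 2 * τ) * (mI ι / g ^ 1900) := by
    calc _ ≤ (∑ α, (G.rho α - s0 ι) ^ 2 * (mI ι / g ^ 1900)) / mI ι := by
          gcongr with α
          exact (rho_le h α).trans (by gcongr; exact h.Z_le)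
      _ = (∑ α, (G.rho α - s0 ι) ^ 2) / mI ι * (mI ι / g ^ 1900) := by rw [← sum_mul]; ring
      _ ≤ _ := by gcongr; exact sum_F h t
  have h2 := h.sum_a_sq.trans h.Dha
  calc _ ≤ g * (g ^ 291 * g ^ 292 * (4 * (g ^ 2 * τ) * (mI ι / g ^ 1900) * (g ^ 291 / mI ι))) := by
        gcongr
    _ = 4 * τ / g ^ 1023 := by field_simp
    _ ≤ _ := div_le_self (by positivity) (one_le_pow₀ h.num.one_le_g)

theorem E5 (h : One g G) (t : Tg g G τ) :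
    g * ((10 * g ^ 292 + 400 * (g ^ 291 * g ^ 292)) / mI ι ^ 2 *
      E2 (fun α _ => ∑ μ, G.Y α μ ^ 2)) ≤ τ := by
  have hg := h.g_pos
  have hm := h.m_pos
  simp only [← G.rho_eq]
  rw [E2_left hm]
  have h1 := h.E_rho.trans h.h_le_one
  have h2 : g * (10 * g ^ 292 + 400 * (g ^ 291 * g ^ 292)) ≤ mI ι := by
    have a := h.num.pow_mono (show 293 ≤ 584 by norm_num)
    have b := h.num.const_pow (c := 410) (by norm_num) (show 584 < 585 by norm_num)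
    have c := h.num.pow_le_m (show 585 ≤ 3995 by norm_num)
    calc _ = 10 * g ^ 293 + 400 * g ^ 584 := by ring
      _ ≤ _ := by linarith
  calc _ ≤ g * ((10 * g ^ 292 + 400 * (g ^ 291 * g ^ 292)) / mI ι ^ 2 * 1) := by gcongr
    _ = g * (10 * g ^ 292 + 400 * (g ^ 291 * g ^ 292)) / mI ι ^ 2 := by ring
    _ ≤ mI ι / mI ι ^ 2 := by gcongr
    _ = 1 / mI ι := by field_simp
    _ ≤ _ := t.inv_m h

theorem E6 (h : One g G) (t : Tg g G τ) : g * (g ^ 292 *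
    E2 (fun α β => ∑ μ, G.rho α * G.Y α μ ^ 2 * (G.a β ^ 2 * G.rho β))) ≤ τ := by
  have hg := h.g_pos
  have hm := h.m_pos
  have hZ := h.Z_pos
  simp only [← sum_mul, ← mul_sum, ← G.rho_eq]
  rw [E2_prod (fun α => G.rho α * G.rho α) (fun β => G.a β ^ 2 * G.rho β)]
  have h1 : (∑ α, G.rho α * G.rho α) / mI ι ≤ g ^ 21 := by
    simp only [← sq]; exact h.r4a
  have h2 : ∑ β, G.a β ^ 2 * G.rho β ≤ g ^ 291 * (G.Z / g ^ 1900) := by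
    calc _ ≤ ∑ β, G.a β ^ 2 * (G.Z / g ^ 1900) := by gcongr with β; exact rho_le h β
      _ = (∑ β, G.a β ^ 2) * (G.Z / g ^ 1900) := by rw [sum_mul]
      _ ≤ _ := by gcongr; exact h.sum_a_sq.trans h.Dha
  have h3 : 0 ≤ ∑ β, G.a β ^ 2 * G.rho β :=
    sum_nonneg fun β _ => mul_nonneg (sq_nonneg _) (G.rho_nonneg β)
  calc _ ≤ g * (g ^ 292 * (g ^ 21 * (g ^ 291 * (G.Z / g ^ 1900) / mI ι))) := by gcongr
    _ = G.z / g ^ 1295 := by unfold Gm.z; field_simp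
    _ ≤ G.z := div_le_self h.z_pos.le (one_le_pow₀ h.num.one_le_g)
    _ ≤ _ := t.z_le h

theorem E7 (h : One g G) (t : Tg g G τ) :
    g * E2 (fun α β => ∑ μ, G.rho α * G.Y α μ ^ 2 * (G.rho β * G.Y β μ ^ 2)) ≤ τ := by
  have hg := h.g_pos
  have hm := h.m_pos
  rw [E2_sum univ (fun μ α β => G.rho α * G.Y α μ ^ 2 * (G.rho β * G.Y β μ ^ 2))]
  have e : ∀ μ, ∑ α, G.rho α * G.Y α μ ^ 2 = G.gg μ := fun μ =>
    sum_congr rfl fun α _ => by rw [h.symm]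
  simp only [E2_prod (fun α => G.rho α * G.Y α _ ^ 2) (fun β => G.rho β * G.Y β _ ^ 2), e]
  have h1 : ∑ μ, G.gg μ / mI ι * (G.gg μ / mI ι) ≤ g ^ 21 * (√G.z / g ^ 750) := by
    calc _ ≤ ∑ μ, G.gg μ / mI ι * (mI ι * √G.z / g ^ 750 / mI ι) := by
          refine sum_le_sum fun μ _ => ?_
          have := G.gg_nonneg μ
          gcongr
          exact gg_le h μ
      _ = (∑ μ, G.gg μ) / mI ι * (√G.z / g ^ 750) := by
          rw [← sum_mul, ← sum_div]; field_simp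
      _ ≤ _ := by rw [G.sum_gg h.symm]; gcongr; exact h.r4a
  calc _ ≤ g * (g ^ 21 * (√G.z / g ^ 750)) := by gcongr
    _ = √G.z / g ^ 728 := by field_simp
    _ ≤ √G.z := div_le_self (Real.sqrt_nonneg _) (one_le_pow₀ h.num.one_le_g)
    _ ≤ _ := t.sz h

theorem E_HH (h : One g G) (t : Tg g G τ) :
    g * E2 (fun α β => ∑ μ, HH g G α β μ) ≤ 1000 * τ := by
  have a1 := E1 h t
  have a2 := E2' h t
  have a3 := E3 h t
  have a5 := E5 h t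
  have a6 := E6 h t
  have a7 := E7 h t
  have ht := t.nonneg h
  have e : E2 (fun α β => ∑ μ, HH g G α β μ) =
      20 * E2 (fun α β => ∑ μ, G.p α μ ^ 2 * G.Y β μ ^ 2) +
      20 * E2 (fun α β => ∑ μ, G.p α μ ^ 2 * G.Y α μ ^ 2 * G.a β ^ 2) +
      64 * (g ^ 291 * g ^ 292) *
        E2 (fun α β => ∑ μ, (G.rho α - s0 ι) ^ 2 * G.Y α μ ^ 2 * G.a β ^ 2) +
      (10 * g ^ 292 + 400 * (g ^ 291 * g ^ 292)) / mI ι ^ 2 * E2 (fun α _ => ∑ μ, G.Y α μ ^ 2) +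
      200 * g ^ 292 * E2 (fun α β => ∑ μ, G.rho α * G.Y α μ ^ 2 * (G.a β ^ 2 * G.rho β)) +
      200 * E2 (fun α β => ∑ μ, G.rho α * G.Y α μ ^ 2 * (G.rho β * G.Y β μ ^ 2)) := by
    simp only [← E2_const_mul, ← E2_add]
    refine E2_congr fun α β => ?_
    simp only [HH, mul_sum, ← sum_add_distrib]
  rw [e]
  linarith

theorem tg (h : Two g G G' bad) : Tg g G (bb g G G' * G.Qv g / g) := by
  have hg := h.one.g_pos
  have hm := h.one.m_pos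
  have hb := h.bb_pos
  have hz := h.one.z_pos
  have hV := h.one.V_nonneg
  have hQ := h.one.Qv_nonneg
  have hA := h.one.A_nonneg
  have hA' := h.two.A_nonneg
  have k1 : g ^ 119 * G.l2 ^ 2 ≤ mI ι * bb g G G' * G.z := by
    have a := h.one.l2_le_A
    have b := h.A_le_bb
    rw [div_le_iff₀ hg] at b
    refine le_of_mul_le_mul_left ?_ hg
    calc g * (g ^ 119 * G.l2 ^ 2) = g ^ 120 * G.l2 ^ 2 := by ring
      _ ≤ mI ι * (bb g G G' * g) * G.z := a.trans (by gcongr)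
      _ = _ := by ring
  refine ⟨?_, ?_, ?_, ?_⟩
  · calc g ^ 8 * √G.z = 1 / (g * mI ι) * (g ^ 10 * (mI ι * √G.z)) / g := by field_simp
      _ ≤ _ := by gcongr; exacts [h.le_bb, h.one.le_Qv]
  · calc G.V / mI ι = g ^ 2 * (1 / (g * mI ι) * G.V / g) := by field_simp
      _ ≤ _ := by gcongr; exacts [h.le_bb, h.one.V_le_Qv]
  · calc g * G.l2 ^ 2 = g ^ 1 * G.l2 ^ 2 := by ring
      _ ≤ g ^ 119 * G.l2 ^ 2 := by gcongr; exacts [h.one.num.one_le_g, by norm_num]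
      _ ≤ mI ι * bb g G G' * G.z := k1
      _ ≤ mI ι * bb g G G' * (g ^ 9 * √G.z) := by
          gcongr
          exact h.one.z_le_sqrt.trans
            (le_mul_of_one_le_left (Real.sqrt_nonneg _) (one_le_pow₀ h.one.num.one_le_g))
      _ = bb g G G' * (g ^ 10 * (mI ι * √G.z)) / g := by field_simp
      _ ≤ _ := by gcongr; exact h.one.le_Qv
  · calc g ^ 23 * (G.l2 ^ 2 * (G.V / mI ι)) ≤ g ^ 126 * (G.l2 ^ 2 * (G.V / mI ι)) := by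
          gcongr; exacts [h.one.num.one_le_g, by norm_num]
      _ = g ^ 119 * G.l2 ^ 2 * (1 / (g * mI ι)) * (g ^ 8 * G.V) := by field_simp
      _ ≤ mI ι * bb g G G' * √G.z * bb g G G' * (g ^ 8 * G.V) := by
          refine mul_le_mul_of_nonneg_right (mul_le_mul ?_ h.le_bb (by positivity)
            (by positivity)) (by positivity)
          exact k1.trans (by gcongr; exact h.one.z_le_sqrt)
      _ = bb g G G' ^ 2 * (g ^ 10 * (G.V * (mI ι * √G.z))) / g ^ 2 := by field_simp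
      _ ≤ bb g G G' ^ 2 * G.Qv g ^ 2 / g ^ 2 := by gcongr; exact h.one.Qv_sq
      _ = _ := by ring

end Vb2

open Vb2

theorem Two.Vb2 (h : Two g G G' bad) :
    E2 (fun α β => ind (adm g G G' bad α β) * ∑ μ, (G.De α β μ -
      (G.s α β / G.dl α β) ^ 2 * (G.Y β μ ^ 2 * G.f α + G.Y α μ ^ 2 * G.f β)) ^ 2) ≤
      bb g G G' * G.Qv g / g := by
  have hg := h.one.g_pos
  have t := tg h
  have h1 : E2 (fun α β => ind (adm g G G' bad α β) * ∑ μ, (G.De α β μ -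
      (G.s α β / G.dl α β) ^ 2 * (G.Y β μ ^ 2 * G.f α + G.Y α μ ^ 2 * G.f β)) ^ 2) ≤
      E2 (fun α β => 6 * (∑ μ, HH g G α β μ + ∑ μ, HH g G β α μ)) := by
    refine E2_mono fun α β => ind_mul_le ?_ fun k => ?_
    · have a := sum_nonneg (s := univ) fun μ _ => HH_nonneg h.one α β μ
      have b := sum_nonneg (s := univ) fun μ _ => HH_nonneg h.one β α μ
      positivity
    · rw [← sum_add_distrib, mul_sum]
      exact sum_le_sum fun μ _ => point h.one k.2.1 μ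
  rw [E2_const_mul, E2_add, E2_swap (fun α β => ∑ μ, HH g G α β μ)] at h1
  have h2 := E_HH h.one t
  have h3 := t.nonneg h.one
  have h4 := h.one.num.hg
  refine h1.trans (le_of_mul_le_mul_left ?_ hg)
  nlinarith

end Vale.Agent.P049
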