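import Vale.Agent.P049.ZW

set_option maxRecDepth 100000
set_option linter.unusedSectionVars false

namespace Vale.Agent.P049

open Finset

variable {ι : Type} [Fintype ι] [DecidableEq ι] {g : ℝ} {G G' : Gm ι} {bad : ι → ι → Bool}

namespace ZB

theorem Z_ge (h : One g G) : g ^ 1985 * √(mI ι) ≤ G.Z := by
  have := h.g_pos
  have m0 := h.m_pos
  refine (abs_le_of_sq_le_sq' ?_ h.Z_pos.le).2
  have F : g ^ 3970 ≤ mI ι * zeI g ι ^ 2 := h.num.F2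
  rw [mul_pow, Real.sq_sqrt m0.le, ← pow_mul, mul_comm]
  exact (mul_le_mul_of_nonneg_left F m0.le).trans h.W_le

theorem two_le_K (h : One g G) : 2 ≤ G.Kg g := by
  have := h.g_pos
  have := Real.sqrt_pos.2 h.m_pos
  rw [Gm.Kg, le_div_iff₀ (by positivity), ← mul_assoc]
  refine le_trans ?_ (Z_ge h)
  gcongr
  exact h.num.const_pow (by norm_num) (by norm_num)

theorem ind_rho (h : One g G) (α : ι) :
    ind (¬ G.rho α ≤ G.Kg g) * G.rho α ≤ 4 / G.Kg g * G.f α ^ 2 := by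
  have k := two_le_K h
  refine ind_mul_le (by positivity) fun a => ?_
  rw [not_le] at a
  rw [div_mul_eq_mul_div, le_div_iff₀ (by linarith), Gm.f]
  nlinarith

theorem m_le (h : One g G) : mI ι * √G.Z ≤ g ^ 18 * G.Z ^ 2 := by
  have := h.g_pos
  have m0 := h.m_pos
  have z0 := h.Z_pos
  have := h.ze_pos
  have F : 1 ≤ g ^ 36 * (mI ι * zeI g ι ^ 3) := h.num.F6
  refine (abs_le_of_sq_le_sq' ?_ (by positivity)).2
  rw [mul_pow, Real.sq_sqrt z0.le]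
  calc _ = mI ι ^ 2 * 1 * G.Z := by ring
    _ ≤ mI ι ^ 2 * (g ^ 36 * (mI ι * zeI g ι ^ 3)) * G.Z := by gcongr
    _ = g ^ 36 * (mI ι * zeI g ι) ^ 3 * G.Z := by ring
    _ ≤ g ^ 36 * G.Z ^ 3 * G.Z := by gcongr; exact h.Zlo
    _ = _ := by ring

theorem V_K (h : One g G) : G.V / G.Kg g ≤ g ^ 63 * G.Z := by
  have := h.g_pos
  have m0 := h.m_pos
  have z0 := h.Z_pos
  have s0 := Real.sqrt_pos.2 m0
  rw [Gm.Kg, div_div_eq_mul_div, div_le_iff₀ z0]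
  calc _ ≤ g ^ 20 * √(mI ι * G.Z) * (g ^ 25 * √(mI ι)) := by gcongr; exact h.Vb
    _ = g ^ 45 * (√(mI ι) * √(mI ι) * √G.Z) := by rw [Real.sqrt_mul m0.le]; ring
    _ ≤ g ^ 45 * (g ^ 18 * G.Z ^ 2) := by
        rw [Real.mul_self_sqrt m0.le]; exact mul_le_mul_of_nonneg_left (m_le h) (by positivity)
    _ = _ := by ring

theorem half (h : One g G) :
    E2 (fun α β => ind (¬ G.rho α ≤ G.Kg g) * G.r α β ^ 2) ≤ 4 * g ^ 63 * G.l2 ^ 2 * G.Z := by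
  have m0 := h.m_pos
  have t0 := G.t4_nonneg
  have h1 : ∑ α, ∑ β, ind (¬ G.rho α ≤ G.Kg g) * G.r α β ^ 2 ≤
      ∑ α, G.t4 * (4 / G.Kg g * G.f α ^ 2) := by
    refine sum_le_sum fun α _ => ?_
    rw [← mul_sum]
    calc _ ≤ ind (¬ G.rho α ≤ G.Kg g) * (G.t4 * G.rho α) :=
          mul_le_mul_of_nonneg_left (Gm.sum_r_sq h.symm α) (ind_nonneg _)
      _ = G.t4 * (ind (¬ G.rho α ≤ G.Kg g) * G.rho α) := by ring
      _ ≤ _ := mul_le_mul_of_nonneg_left (ind_rho h α) t0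
  rw [← mul_sum, ← mul_sum, ← G.V_eq] at h1
  rw [E2, div_le_iff₀ (by positivity)]
  calc _ ≤ _ := h1
    _ = 4 * G.t4 * (G.V / G.Kg g) := by ring
    _ ≤ 4 * G.t4 * (g ^ 63 * G.Z) := by gcongr; exact V_K h
    _ = _ := by rw [h.t4_eq]; ring

theorem loss (h : One g G) :
    E2 (fun α β => ind (¬ (G.rho α ≤ G.Kg g ∧ G.rho β ≤ G.Kg g)) * G.r α β ^ 2) ≤
      8 * g ^ 63 * G.l2 ^ 2 * G.Z := by
  have h1 := half h
  have h2 := half h
  rw [← E2_swap] at h2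
  have h3 := add_le_add h1 h2
  rw [← E2_add] at h3
  refine le_trans (E2_mono fun α β => ?_) (h3.trans (le_of_eq (by ring)))
  rw [Gm.r_symm h.symm β α, ← add_mul]
  exact mul_le_mul_of_nonneg_right ind_not_and (sq_nonneg _)

theorem ind_compl (p : Prop) : ind p = 1 - ind (¬ p) := by
  by_cases k : p
  · rw [ind_of k, ind_of_not (not_not.2 k), sub_zero]
  · rw [ind_of k, ind_of_not k, sub_self]

theorem x1 (h : One g G) :
    E2 (fun α β => G.x1 g α β * (G.sg * G.r α β)) = g ^ 120 * G.t4 / mI ι ^ 2 := by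
  rw [mul_div_assoc, ← Gm.ip_Y_r h.symm, ← E2_ip, ← E2_const_mul]
  refine E2_congr fun α β => ?_
  unfold Gm.x1
  linear_combination g ^ 120 * G.Y α β * G.r α β * h.sg_sq

theorem x3 (h : Two g G G' bad) : g ^ 24 * G.t6 / (mI ι ^ 2 * G.Z) - Bz g G G' ≤
    E2 (fun α β => G.x3 g α β * (G.sg * G.r α β)) := by
  have o := h.one
  have g0 := o.g_pos
  have z0 := o.Z_pos
  have e : E2 (fun α β => G.x3 g α β * (G.sg * G.r α β)) = g ^ 24 / G.Z * (G.t6 / mI ι ^ 2 -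
      E2 (fun α β => ind (¬ (G.rho α ≤ G.Kg g ∧ G.rho β ≤ G.Kg g)) * G.r α β ^ 2)) := by
    rw [Gm.t6, ← E2_sq_eq, ← E2_sub, ← E2_const_mul]
    refine E2_congr fun α β => ?_
    rw [Gm.x3, ind_compl]
    linear_combination (1 - ind (¬ (G.rho α ≤ G.Kg g ∧ G.rho β ≤ G.Kg g))) * (g ^ 24 / G.Z) *
      G.r α β ^ 2 * o.sg_sq
  have h1 : g ^ 24 / G.Z * E2 (fun α β => ind (¬ (G.rho α ≤ G.Kg g ∧ G.rho β ≤ G.Kg g)) *
      G.r α β ^ 2) ≤ Bz g G G' := by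
    calc _ ≤ g ^ 24 / G.Z * (8 * g ^ 63 * G.l2 ^ 2 * G.Z) := by gcongr; exact loss o
      _ = 8 * g ^ 87 * G.l2 ^ 2 := by field_simp
      _ ≤ g ^ 109 * G.l2 ^ 2 := by gcongr; exact o.num.const_pow (by norm_num) (by norm_num)
      _ ≤ _ := ZW.l2 h
  rw [e, mul_sub, div_mul_div_comm, mul_comm G.Z]
  linarith

theorem NN_le (h : Two g G G' bad) : NN G G' ≤ mI ι ^ 2 * zeI g ι ^ 2 * hI g ι / g ^ 300 :=
  (le_div_iff₀' (pow_pos h.one.g_pos _)).2 h.Nb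

theorem r_eq : G.r = G.Y * G.p := Matrix.mul_assoc _ _ _

theorem x1' (h : Two g G G' bad) :
    -E2 (fun α β => G'.x1 g α β * (G.sg * G.r α β)) ≤ Bz g G G' := by
  have o := h.one
  have g0 := o.g_pos
  have m0 := o.m_pos
  have B0 := ZW.Bz_pos h
  have := o.ze_pos
  have := o.h_pos
  have e : -E2 (fun α β => G'.x1 g α β * (G.sg * G.r α β)) =
      g ^ 120 * (ip (P0 G G') G.p / mI ι ^ 2) := by
    have : ip (P0 G G') G.p = ip G'.Y G.r := by rw [r_eq, ip_mul_left, Gm.Y_transpose o.symm, P0]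
    rw [this, ← E2_ip, ← E2_const_mul, ← E2_neg]
    refine E2_congr fun α β => ?_
    rw [Gm.x1, h.sg]
    linear_combination g ^ 120 * G'.Y α β * G.r α β * o.sg_sq
  rw [e]
  refine (abs_le_of_sq_le_sq' ?_ B0.le).2
  have h1 : ip (P0 G G') G.p ^ 2 ≤ NN G G' * G.t4 := ip_sq_le _ _
  calc _ = g ^ 240 * ip (P0 G G') G.p ^ 2 / mI ι ^ 4 := by ring
    _ ≤ g ^ 240 * (mI ι ^ 2 * zeI g ι ^ 2 * hI g ι / g ^ 300 * G.t4) / mI ι ^ 4 := by
        gcongr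
        exact h1.trans (mul_le_mul_of_nonneg_right (NN_le h) G.t4_nonneg)
    _ = zeI g ι ^ 2 * hI g ι * G.l2 ^ 2 / g ^ 60 := by rw [o.t4_eq]; field_simp
    _ ≤ g ^ 11 * Bz g G G' * Bz g G G' / g ^ 11 := by
        gcongr ?_ * ?_ / ?_
        · exact (ZW.ze_sq o).trans (ZW.zh h)
        · simpa using ZW.pow_down o (j := 0) (sq_nonneg _) (by norm_num) (ZW.l2 h)
        · exact o.num.pow_mono (by norm_num)
    _ = _ := by field_simp

theorem x3a (h : Two g G G' bad) : g ^ 24 / G'.Z * (ip G'.r G.r / mI ι ^ 2) ≤ Bz g G G' := by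
  have o := h.one
  have o' := h.two
  have g0 := o.g_pos
  have m0 := o.m_pos
  have B0 := ZW.Bz_pos h
  have := o.ze_pos
  have := o.h_pos
  have z0 := o.Z_pos
  have z0' := o'.Z_pos
  have e : ip G'.r G.r = ip (P0 G G' * G'.p) G.p := by
    rw [r_eq (G := G), ip_mul_left, Gm.Y_transpose o.symm, P0, r_eq, Matrix.mul_assoc]
  have h1 : ip G'.r G.r ^ 2 ≤ mI ι ^ 2 * zeI g ι ^ 2 * hI g ι / g ^ 300 * G'.t4 * G.t4 := by
    rw [e]
    refine (ip_sq_le _ _).trans (mul_le_mul_of_nonneg_right ((fro_mul_le _ _).trans ?_) G.t4_nonneg)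
    exact mul_le_mul_of_nonneg_right (NN_le h) G'.t4_nonneg
  have h2 : (mI ι * zeI g ι) ^ 2 ≤ G.Z * G'.Z := by
    rw [sq]; exact mul_le_mul o.Zlo o'.Zlo (by positivity) z0.le
  have h3 : G'.l2 ^ 2 * G.Z ≤ Bz g G G' * G'.Z := by
    have := ZW.l2' h
    rw [mul_assoc] at this
    simpa using ZW.pow_down o (j := 0) (by positivity) (by norm_num) this
  have h4 : G.l2 ^ 2 ≤ Bz g G G' := by
    simpa using ZW.pow_down o (j := 0) (sq_nonneg _) (by norm_num) (ZW.l2 h)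
  refine (abs_le_of_sq_le_sq' ?_ B0.le).2
  calc _ = g ^ 48 * ip G'.r G.r ^ 2 / (G'.Z ^ 2 * mI ι ^ 4) := by ring
    _ ≤ g ^ 48 * (mI ι ^ 2 * zeI g ι ^ 2 * hI g ι / g ^ 300 * G'.t4 * G.t4) /
        (G'.Z ^ 2 * mI ι ^ 4) := by gcongr
    _ = (mI ι * zeI g ι) ^ 2 * hI g ι * G'.l2 ^ 2 * G.l2 ^ 2 / (G'.Z ^ 2 * g ^ 252) := by
        rw [o.t4_eq, o'.t4_eq]; field_simp
    _ ≤ G.Z * G'.Z * 1 * G'.l2 ^ 2 * Bz g G G' / (G'.Z ^ 2 * 1) := by
        gcongr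
        · exact o.h_le_one
        · exact one_le_pow₀ o.num.one_le_g
    _ = G'.l2 ^ 2 * G.Z * Bz g G G' / G'.Z := by field_simp
    _ ≤ Bz g G G' * G'.Z * Bz g G G' / G'.Z := by gcongr
    _ = _ := by field_simp

theorem x3b (h : Two g G G' bad) : g ^ 24 / G'.Z * E2 (fun α β =>
    ind (¬ (G'.rho α ≤ G'.Kg g ∧ G'.rho β ≤ G'.Kg g)) * G'.r α β * -G.r α β) ≤ Bz g G G' := by
  have o := h.one
  have o' := h.two
  have g0 := o.g_pos
  have B0 := ZW.Bz_pos h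
  have z0 := o.Z_pos
  have z0' := o'.Z_pos
  have G0 := o.GG_nonneg
  rw [div_mul_eq_mul_div, div_le_iff₀ z0', ← le_div_iff₀' (by positivity)]
  refine E2_cs' (a := 8 * g ^ 63 * G'.l2 ^ 2 * G'.Z) (b := G.GG g * G.Z / g ^ 24) (by positivity)
    ?_ ?_ ?_
  · simp only [mul_pow, ind_sq]; exact loss o'
  · simp only [neg_sq]; exact o.E_r_sq
  · calc _ = 8 * g ^ 50 * G'.l2 ^ 2 * G.Z * G'.Z * G.GG g / g ^ 11 := by field_simp
      _ ≤ g ^ 61 * G'.l2 ^ 2 * G.Z * G'.Z * (g ^ 11 * Bz g G G') / g ^ 11 := by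
          gcongr ?_ * _ * _ * _ * ?_ / _
          · exact o.num.const_pow (by norm_num) (by norm_num)
          · exact ZW.GG h
      _ = g ^ 109 * G'.l2 ^ 2 * G.Z * G'.Z * Bz g G G' / g ^ 48 := by field_simp
      _ ≤ Bz g G G' * G'.Z * G'.Z * Bz g G G' / g ^ 48 := by
          gcongr ?_ * _ * _ / _; exact ZW.l2' h
      _ = _ := by field_simp

theorem x3' (h : Two g G G' bad) :
    -E2 (fun α β => G'.x3 g α β * (G.sg * G.r α β)) ≤ 2 * Bz g G G' := by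
  have e : -E2 (fun α β => G'.x3 g α β * (G.sg * G.r α β)) = g ^ 24 / G'.Z *
      (ip G'.r G.r / mI ι ^ 2 + E2 (fun α β =>
        ind (¬ (G'.rho α ≤ G'.Kg g ∧ G'.rho β ≤ G'.Kg g)) * G'.r α β * -G.r α β)) := by
    rw [← E2_ip, ← E2_add, ← E2_const_mul, ← E2_neg]
    refine E2_congr fun α β => ?_
    rw [Gm.x3, ind_compl, h.sg]
    linear_combination (1 - ind (¬ (G'.rho α ≤ G'.Kg g ∧ G'.rho β ≤ G'.Kg g))) * (g ^ 24 / G'.Z) *
      G'.r α β * G.r α β * h.one.sg_sq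
  rw [e, mul_add]
  linarith [x3a h, x3b h]

end ZB

theorem Two.ZB1 (h : Two g G G' bad) :
    -E2 (fun α β => (G.x1 g α β + G'.x1 g α β) * (G.sg * G.r α β)) -
      E2 (fun α β => (G.x3 g α β + G'.x3 g α β) * (G.sg * G.r α β)) ≤
      -G.GG g + 20 * Bz g G G' := by
  simp only [add_mul, E2_add]
  rw [ZB.x1 h.one, Gm.GG]
  linarith [ZB.x3 h, ZB.x1' h, ZB.x3' h, ZW.Bz_pos h]

end Vale.Agent.P049
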